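import Crest.Agent.R10.Grade

/-!
# R10/Base: change of coefficients (`bc`) and coefficientwise functionals (`lamF`)
-/

set_option autoImplicit false
set_option linter.unusedVariables false

namespace Crest.Agent.R10

noncomputable section

open FreeAlgebra

variable {R S : Type} [CommRing R] [CommRing S] [Algebra R S] {X Y : Type}

@[simp] theorem bc_ι (i : X) : bc R S X (ι R i) = ι S i := by simp [bc]

theorem bc_basis (w : FreeMonoid X) :
    bc R S X (basisFreeMonoid R X w) = basisFreeMonoid S X w := by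
  rw [basis_eq_prod, basis_eq_prod, map_list_prod, List.map_map]
  congr 2
  ext i
  simp

theorem base_coef_basis (w w' : FreeMonoid X) [Decidable (w' = w)] :
    coef w (basisFreeMonoid R X w') = if w' = w then (1 : R) else 0 := by
  simp [coef, Finsupp.single_apply]

theorem base_basis_induction {P : FreeAlgebra R X → Prop} (h0 : P 0)
    (hadd : ∀ u v, P u → P v → P (u + v))
    (hb : ∀ (c : R) w, P (c • basisFreeMonoid R X w)) (u : FreeAlgebra R X) : P u := by
  have hu : u ∈ Submodule.span R (Set.range (basisFreeMonoid R X)) := by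
    rw [(basisFreeMonoid R X).span_eq]; trivial
  have : ∀ c : R, P (c • u) := by
    induction hu using Submodule.span_induction with
    | mem x hx => obtain ⟨w, rfl⟩ := hx; exact fun c => hb c w
    | zero => intro c; simpa using h0
    | add x y _ _ hx hy => intro c; rw [smul_add]; exact hadd _ _ (hx c) (hy c)
    | smul a x _ hx => intro c; rw [smul_smul]; exact hx _
  simpa using this 1

theorem base_ext_coef {u v : FreeAlgebra R X} (h : ∀ w, coef w u = coef w v) : u = v := by
  rw [← sub_eq_zero]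
  exact eq_zero_of_coef fun w => by rw [map_sub, h w, sub_self]

theorem base_bc_smul (c : R) (u : FreeAlgebra R X) :
    bc R S X (c • u) = algebraMap R S c • bc R S X u := by
  rw [map_smul, algebraMap_smul]

theorem base_exists_coef (f : FreeMonoid X →₀ R) :
    ∃ u : FreeAlgebra R X, ∀ w, coef w u = f w :=
  ⟨(basisFreeMonoid R X).repr.symm f, fun w => by simp [coef]⟩

theorem coef_bc (w : FreeMonoid X) (u : FreeAlgebra R X) :
    coef w (bc R S X u) = algebraMap R S (coef w u) := by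
  classical
  induction u using base_basis_induction with
  | h0 => simp
  | hadd u v hu hv => simp only [map_add, hu, hv]
  | hb c w' =>
    rw [base_bc_smul, bc_basis, map_smul, map_smul, base_coef_basis, base_coef_basis]
    split_ifs <;> simp

theorem bc_injective (h : Function.Injective (algebraMap R S)) :
    Function.Injective (bc R S X) := by
  intro u v huv
  refine base_ext_coef fun w => h ?_
  rw [← coef_bc, ← coef_bc, huv]

theorem bc_surjective (h : Function.Surjective (algebraMap R S)) :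
    Function.Surjective (bc R S X) := by
  intro u
  induction u using base_basis_induction with
  | h0 => exact ⟨0, map_zero _⟩
  | hadd u v hu hv =>
    obtain ⟨a, rfl⟩ := hu
    obtain ⟨b, rfl⟩ := hv
    exact ⟨a + b, map_add _ _ _⟩
  | hb c w =>
    obtain ⟨r, rfl⟩ := h c
    exact ⟨r • basisFreeMonoid R X w, by rw [base_bc_smul, bc_basis]⟩

/-- The kernel of reduction mod 2. -/
theorem exists_two_smul_of_bc {u : FreeAlgebra ℤ X} (h : bc ℤ F2 X u = 0) :
    ∃ v : FreeAlgebra ℤ X, u = (2 : ℤ) • v := by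
  have hd : ∀ w, (2 : ℤ) ∣ coef w u := by
    intro w
    have h1 := coef_bc (S := F2) w u
    rw [h, map_zero] at h1
    have h2 : ((coef w u : ℤ) : ZMod 2) = 0 := by simpa using h1.symm
    exact_mod_cast (ZMod.intCast_zmod_eq_zero_iff_dvd _ 2).1 h2
  obtain ⟨v, hv⟩ := base_exists_coef (X := X)
    (Finsupp.mapRange (fun z : ℤ => z / 2) (by simp) ((basisFreeMonoid ℤ X).repr u))
  refine ⟨v, base_ext_coef fun w => ?_⟩
  rw [map_smul, hv, Finsupp.mapRange_apply, smul_eq_mul]
  exact (Int.mul_ediv_cancel' (hd w)).symm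

theorem two_smul_inj {u v : FreeAlgebra ℤ X} (h : (2 : ℤ) • u = (2 : ℤ) • v) : u = v := by
  refine base_ext_coef fun w => ?_
  have h1 : coef w ((2 : ℤ) • u) = coef w ((2 : ℤ) • v) := by rw [h]
  rw [map_zsmul, map_zsmul, smul_eq_mul, smul_eq_mul] at h1
  omega

/-- An integral element divisible by all powers of two vanishes. -/
theorem eq_zero_of_two_pow {u : FreeAlgebra ℤ X}
    (h : ∀ k : ℕ, ∃ v : FreeAlgebra ℤ X, u = (2 ^ k : ℤ) • v) : u = 0 := by
  refine eq_zero_of_coef fun w => ?_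
  by_contra hne
  obtain ⟨v, hv⟩ := h (coef w u).natAbs
  have hdvd : (2 ^ (coef w u).natAbs : ℤ) ∣ coef w u := by
    refine ⟨coef w v, ?_⟩
    conv_lhs => rw [hv]
    rw [map_smul, smul_eq_mul]
  have h1 := Int.natAbs_le_of_dvd_ne_zero hdvd hne
  have h2 : (coef w u).natAbs < 2 ^ (coef w u).natAbs := Nat.lt_two_pow_self
  have h3 : (2 ^ (coef w u).natAbs : ℤ).natAbs = 2 ^ (coef w u).natAbs := by
    rw [Int.natAbs_pow]; rfl
  omega

theorem base_int_mul_span {P : Submodule ℤ (FreeAlgebra ℤ X)} {u : FreeAlgebra ℚ X}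
    (hu : u ∈ Submodule.span ℚ {v | ∃ a ∈ P, v = bc ℤ ℚ X a}) :
    ∃ m : ℤ, m ≠ 0 ∧ ∃ v ∈ P, bc ℤ ℚ X v = (m : ℚ) • u := by
  induction hu using Submodule.span_induction with
  | mem x hx =>
    obtain ⟨a, ha, rfl⟩ := hx
    exact ⟨1, one_ne_zero, a, ha, by simp⟩
  | zero => exact ⟨1, one_ne_zero, 0, P.zero_mem, by simp⟩
  | add x y _ _ hx hy =>
    obtain ⟨m, hm, a, ha, e1⟩ := hx
    obtain ⟨n, hn, b, hb, e2⟩ := hy
    refine ⟨m * n, mul_ne_zero hm hn, n • a + m • b,
      P.add_mem (P.smul_mem _ ha) (P.smul_mem _ hb), ?_⟩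
    rw [map_add, map_zsmul, map_zsmul, e1, e2, ← Int.cast_smul_eq_zsmul ℚ,
      ← Int.cast_smul_eq_zsmul ℚ, smul_smul, smul_smul, smul_add]
    simp [mul_comm]
  | smul c x _ hx =>
    obtain ⟨m, hm, a, ha, e1⟩ := hx
    refine ⟨m * c.den, mul_ne_zero hm (by exact_mod_cast c.den_nz), c.num • a,
      P.smul_mem _ ha, ?_⟩
    rw [map_zsmul, e1, ← Int.cast_smul_eq_zsmul ℚ, smul_smul, smul_smul]
    congr 1
    have := Rat.mul_den_eq_num c
    simp only [Int.cast_mul, Int.cast_natCast]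
    rw [← this]; ring

/-- Clearing denominators. -/
theorem exists_int_mul (u : FreeAlgebra ℚ X) :
    ∃ m : ℤ, m ≠ 0 ∧ ∃ v : FreeAlgebra ℤ X, bc ℤ ℚ X v = (m : ℚ) • u := by
  have hu : u ∈ Submodule.span ℚ
      {v | ∃ a ∈ (⊤ : Submodule ℤ (FreeAlgebra ℤ X)), v = bc ℤ ℚ X a} := by
    have h1 : u ∈ Submodule.span ℚ (Set.range (basisFreeMonoid ℚ X)) := by
      rw [(basisFreeMonoid ℚ X).span_eq]; trivial
    refine Submodule.span_mono ?_ h1
    rintro _ ⟨w, rfl⟩
    exact ⟨basisFreeMonoid ℤ X w, trivial, (bc_basis w).symm⟩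
  obtain ⟨m, hm, v, -, e⟩ := base_int_mul_span hu
  exact ⟨m, hm, v, e⟩

theorem bc_mem_Lw {wt : X → ℕ} {n : ℕ} {u : FreeAlgebra R X} (hu : u ∈ Lw R wt n) :
    bc R S X u ∈ Lw S wt n := by
  refine Lw_induction (fun n u => bc R S X u ∈ Lw S wt n) ?_ ?_ ?_ ?_ ?_ hu
  · intro i; rw [bc_ι]; exact ι_mem_Lw wt i
  · intro m n u v _ _ h1 h2
    rw [map_lie']; exact lie_mem_Lw h1 h2
  · intro n; rw [map_zero]; exact Submodule.zero_mem _
  · intro n u v _ _ h1 h2
    rw [map_add]; exact Submodule.add_mem _ h1 h2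
  · intro n c u _ h1
    rw [base_bc_smul]; exact Submodule.smul_mem _ _ h1

theorem base_mon_lift {wt : X → ℕ} {n : ℕ} {a : FreeAlgebra S X} (h : IsMon wt n a) :
    ∃ u : FreeAlgebra R X, IsMon wt n u ∧ a = bc R S X u := by
  induction h with
  | of i => exact ⟨ι R i, IsMon.of i, (bc_ι i).symm⟩
  | lie _ _ ha hb =>
    obtain ⟨u, hu, rfl⟩ := ha
    obtain ⟨v, hv, rfl⟩ := hb
    exact ⟨⁅u, v⁆, hu.lie hv, (map_lie' _ _ _).symm⟩

/-- Every monomial over `S` is the image of a monomial over `R`. -/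
theorem Lw_le_span_bc (wt : X → ℕ) (n : ℕ) :
    Lw S wt n ≤ Submodule.span S {v | ∃ u ∈ Lw R wt n, v = bc R S X u} := by
  refine Submodule.span_mono ?_
  intro a ha
  obtain ⟨u, hu, e⟩ := base_mon_lift (R := R) ha
  exact ⟨u, hu.mem, e⟩

theorem exists_int_mul_Lw {wt : X → ℕ} {n : ℕ} {u : FreeAlgebra ℚ X} (hu : u ∈ Lw ℚ wt n) :
    ∃ m : ℤ, m ≠ 0 ∧ ∃ v ∈ Lw ℤ wt n, bc ℤ ℚ X v = (m : ℚ) • u := by
  exact base_int_mul_span (Lw_le_span_bc (R := ℤ) wt n hu)

theorem exists_lift_Lw_two {wt : X → ℕ} {n : ℕ} {u : FreeAlgebra F2 X} (hu : u ∈ Lw F2 wt n) :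
    ∃ v ∈ Lw ℤ wt n, bc ℤ F2 X v = u := by
  have h := Lw_le_span_bc (R := ℤ) wt n hu
  clear hu
  induction h using Submodule.span_induction with
  | mem x hx =>
    obtain ⟨a, ha, rfl⟩ := hx
    exact ⟨a, ha, rfl⟩
  | zero => exact ⟨0, Submodule.zero_mem _, map_zero _⟩
  | add x y _ _ hx hy =>
    obtain ⟨a, ha, rfl⟩ := hx
    obtain ⟨b, hb, rfl⟩ := hy
    exact ⟨a + b, Submodule.add_mem _ ha hb, map_add _ _ _⟩
  | smul c x _ hx =>
    obtain ⟨a, ha, rfl⟩ := hx
    obtain ⟨r, rfl⟩ := ZMod.intCast_surjective c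
    refine ⟨r • a, Submodule.smul_mem _ _ ha, ?_⟩
    rw [map_zsmul, ← Int.cast_smul_eq_zsmul F2]

theorem bc_lift (g : X → FreeAlgebra R Y) (u : FreeAlgebra R X) :
    bc R S Y (lift R g u) = lift S (fun i => bc R S Y (g i)) (bc R S X u) := by
  induction u using FreeAlgebra.induction with
  | grade0 r =>
    rw [AlgHom.commutes, AlgHom.commutes, AlgHom.commutes,
      IsScalarTower.algebraMap_apply R S (FreeAlgebra S X), AlgHom.commutes,
      ← IsScalarTower.algebraMap_apply]
  | grade1 i => simp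
  | mul a b ha hb => simp only [map_mul, ha, hb]
  | add a b ha hb => simp only [map_add, ha, hb]

theorem base_der_algebraMap {A : Type} [Ring A] [Algebra R A] {D : A →ₗ[R] A} (h : IsDer D)
    (r : R) : D (algebraMap R A r) = 0 := by
  rw [Algebra.algebraMap_eq_smul_one, map_smul, h.map_one, smul_zero]

theorem bc_der (d : X → FreeAlgebra R X) (u : FreeAlgebra R X) :
    bc R S X (der d u) = der (fun i => bc R S X (d i)) (bc R S X u) := by
  induction u using FreeAlgebra.induction with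
  | grade0 r =>
    rw [base_der_algebraMap (isDer_der d), map_zero, AlgHom.commutes,
      IsScalarTower.algebraMap_apply R S (FreeAlgebra S X), base_der_algebraMap (isDer_der _)]
  | grade1 i => rw [der_ι, bc_ι, der_ι]
  | mul a b ha hb =>
    rw [isDer_der d a b, map_mul (bc R S X) a b, isDer_der _ (bc R S X a) (bc R S X b)]
    simp only [map_add, map_mul, ha, hb]
  | add a b ha hb => simp only [map_add, ha, hb]

/-- Intertwining of operators (induction on `u`). -/
theorem bc_intertwine {g : X → Module.End R (FreeAlgebra R Y)}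
    {g' : X → Module.End S (FreeAlgebra S Y)}
    (h : ∀ i v, bc R S Y (g i v) = g' i (bc R S Y v)) (u : FreeAlgebra R X) (v : FreeAlgebra R Y) :
    bc R S Y (lift R g u v) = lift S g' (bc R S X u) (bc R S Y v) := by
  induction u using FreeAlgebra.induction generalizing v with
  | grade0 r =>
    rw [AlgHom.commutes, AlgHom.commutes,
      IsScalarTower.algebraMap_apply R S (FreeAlgebra S X), AlgHom.commutes,
      Module.algebraMap_end_apply, Module.algebraMap_end_apply, base_bc_smul]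
  | grade1 i => simp [h]
  | mul a b ha hb => simp only [map_mul, Module.End.mul_apply, ha, hb]
  | add a b ha hb => simp only [map_add, LinearMap.add_apply, ha, hb]

theorem base_bc_xx : bc R S _ (xx R) = xx S := bc_ι _

theorem base_bc_yy : bc R S _ (yy R) = yy S := bc_ι _

theorem base_bc_va (i : Fin 3) : bc R S _ (va R i) = va S i := bc_ι _

theorem base_bc_ev (a b : FreeAlgebra R Y) (u : T R) :
    bc R S Y (ev a b u) = ev (bc R S Y a) (bc R S Y b) (bc R S _ u) := by
  unfold ev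
  rw [bc_lift]
  congr 2
  ext i
  fin_cases i <;> rfl

theorem base_bc_ev_op {a b : Module.End R (FreeAlgebra R Y)}
    {a' b' : Module.End S (FreeAlgebra S Y)}
    (ha : ∀ v, bc R S Y (a v) = a' (bc R S Y v)) (hb : ∀ v, bc R S Y (b v) = b' (bc R S Y v))
    (u : T R) (v : FreeAlgebra R Y) :
    bc R S Y (ev a b u v) = ev a' b' (bc R S _ u) (bc R S Y v) := by
  unfold ev
  refine bc_intertwine ?_ u v
  intro i v
  fin_cases i
  · exact ha v
  · exact hb v

theorem bc_asym (u : T R) : bc R S _ (asym R u) = asym S (bc R S _ u) := by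
  simp only [asym, LinearMap.add_apply, LinearMap.id_apply, AlgHom.toLinearMap_apply, map_add,
    base_bc_ev, base_bc_xx, base_bc_yy]

theorem bc_hex (u : T R) : bc R S _ (hex R u) = hex S (bc R S _ u) := by
  simp only [hex, LinearMap.add_apply, LinearMap.id_apply, AlgHom.toLinearMap_apply, map_add,
    base_bc_ev, base_bc_xx, base_bc_yy, map_sub, map_neg]

theorem base_bc_vD01 (v : V R) : bc R S _ (vD01 R v) = vD01 S (bc R S _ v) := by
  unfold vD01
  rw [bc_der]
  congr 2
  ext i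
  fin_cases i <;> simp [map_lie', base_bc_va]

theorem base_bc_vD02 (v : V R) : bc R S _ (vD02 R v) = vD02 S (bc R S _ v) := by
  unfold vD02
  rw [bc_der]
  congr 2
  ext i
  fin_cases i <;> simp [map_lie', base_bc_va]

theorem base_bc_vD12 (v : V R) : bc R S _ (vD12 R v) = vD12 S (bc R S _ v) := by
  unfold vD12
  rw [bc_der]
  congr 2
  ext i
  fin_cases i <;> simp [map_lie', base_bc_va]

theorem base_bc_piSys (i j : Fin 4) (v : V R) :
    bc R S _ (piSys R i j v) = piSys S i j (bc R S _ v) := by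
  fin_cases i <;> fin_cases j <;>
    simp [piSys, mkSys, base_bc_vD01, base_bc_vD02, base_bc_vD12, base_bc_va]

theorem base_bc_piSys_add (i j k l : Fin 4) (v : V R) :
    bc R S _ ((piSys R i j + piSys R k l) v) = (piSys S i j + piSys S k l) (bc R S _ v) := by
  rw [LinearMap.add_apply, LinearMap.add_apply, map_add, base_bc_piSys, base_bc_piSys]

/-- Use `bc_intertwine` for each of the five terms (`ev a b = lift R ![a, b]`) and `bc_der`. -/
theorem bc_pentV (u : T R) : bc R S _ (pentV R u) = pentV S (bc R S _ u) := by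
  have h1 : bc R S (Fin 3) 1 = 1 := map_one _
  simp only [pentV, pdef, LinearMap.comp_apply, LinearMap.add_apply, LinearMap.sub_apply,
    AlgHom.toLinearMap_apply, LinearMap.applyₗ_apply_apply, map_add, map_sub]
  rw [base_bc_ev_op (base_bc_piSys 0 1) (base_bc_piSys_add 1 2 1 3),
    base_bc_ev_op (base_bc_piSys_add 0 2 1 2) (base_bc_piSys 2 3),
    base_bc_ev_op (base_bc_piSys 1 2) (base_bc_piSys 2 3),
    base_bc_ev_op (base_bc_piSys_add 0 1 0 2) (base_bc_piSys_add 1 3 2 3),
    base_bc_ev_op (base_bc_piSys 0 1) (base_bc_piSys 1 2), h1]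

theorem bc_ihD (ψ u : T R) : bc R S _ (ihD ψ u) = ihD (bc R S _ ψ) (bc R S _ u) := by
  unfold ihD
  rw [bc_der]
  congr 2
  ext i
  fin_cases i <;> simp [map_lie', base_bc_yy]

theorem bc_act (ψ u : T R) : bc R S _ (act ψ u) = act (bc R S _ ψ) (bc R S _ u) := by
  simp only [act, LinearMap.add_apply, LinearMap.mulLeft_apply, map_add, map_mul, bc_ihD]

theorem bc_ih (ψ φ : T R) : bc R S _ (ih ψ φ) = ih (bc R S _ ψ) (bc R S _ φ) := by
  simp only [ih, map_add, map_sub, map_lie', bc_ihD]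

theorem kap_bc (n : ℕ) (u : T R) : kap n (bc R S _ u) = algebraMap R S (kap n u) :=
  coef_bc _ u

theorem base_mem_Sol {n : ℕ} {u : T R} :
    u ∈ Sol R n ↔ u ∈ L R n ∧ asym R u = 0 ∧ hex R u = 0 ∧ pentV R u = 0 := by
  simp only [Sol, Submodule.mem_inf, LinearMap.mem_ker, and_assoc]

theorem bc_mem_Sol {n : ℕ} {u : T R} (hu : u ∈ Sol R n) : bc R S _ u ∈ Sol S n := by
  obtain ⟨h1, h2, h3, h4⟩ := base_mem_Sol.1 hu
  refine base_mem_Sol.2 ⟨bc_mem_Lw h1, ?_, ?_, ?_⟩
  · rw [← bc_asym, h2, map_zero]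
  · rw [← bc_hex, h3, map_zero]
  · rw [← bc_pentV, h4, map_zero]

theorem mem_Sol_of_bc (h : Function.Injective (algebraMap R S)) {n : ℕ} {u : T R}
    (hu : u ∈ L R n) (hS : bc R S _ u ∈ Sol S n) : u ∈ Sol R n := by
  obtain ⟨-, h2, h3, h4⟩ := base_mem_Sol.1 hS
  refine base_mem_Sol.2 ⟨hu, bc_injective h ?_, bc_injective h ?_, bc_injective h ?_⟩
  · rw [bc_asym, h2, map_zero]
  · rw [bc_hex, h3, map_zero]
  · rw [bc_pentV, h4, map_zero]

/-! ### Coefficientwise functionals -/

theorem coef_lamF (lam : S →ₗ[R] R) (w : FreeMonoid X) (u : FreeAlgebra S X) :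
    coef w (lamF X lam u) = lam (coef w u) := by
  simp [coef, lamF]

theorem lamF_smul_bc (lam : S →ₗ[R] R) (c : S) (u : FreeAlgebra R X) :
    lamF X lam (c • bc R S X u) = lam c • u := by
  refine base_ext_coef fun w => ?_
  rw [coef_lamF, map_smul (coef w) c, map_smul (coef w) (lam c), coef_bc, smul_eq_mul,
    smul_eq_mul, mul_comm c, ← Algebra.smul_def, map_smul, smul_eq_mul, mul_comm]

/-- `lamF` commutes with maps defined over `R` (write `u` as an `S`-combination of words). -/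
theorem lamF_comm (lam : S →ₗ[R] R) (f : FreeAlgebra R X →ₗ[R] FreeAlgebra R Y)
    (f' : FreeAlgebra S X →ₗ[S] FreeAlgebra S Y) (h : ∀ u, bc R S Y (f u) = f' (bc R S X u))
    (u : FreeAlgebra S X) : lamF Y lam (f' u) = f (lamF X lam u) := by
  induction u using base_basis_induction with
  | h0 => simp
  | hadd u v hu hv => simp only [map_add, hu, hv]
  | hb c w =>
    rw [← bc_basis (R := R), map_smul, ← h, lamF_smul_bc, lamF_smul_bc, map_smul]

theorem lamF_mem_Lw (lam : S →ₗ[R] R) {wt : X → ℕ} {n : ℕ} {u : FreeAlgebra S X}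
    (hu : u ∈ Lw S wt n) : lamF X lam u ∈ Lw R wt n := by
  have h := Lw_le_span_bc (R := R) wt n hu
  clear hu
  have : ∀ c : S, lamF X lam (c • u) ∈ Lw R wt n := by
    induction h using Submodule.span_induction with
    | mem x hx =>
      obtain ⟨a, ha, rfl⟩ := hx
      intro c
      rw [lamF_smul_bc]
      exact Submodule.smul_mem _ _ ha
    | zero => intro c; simp
    | add x y _ _ hx hy =>
      intro c
      rw [smul_add, map_add]
      exact Submodule.add_mem _ (hx c) (hy c)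
    | smul a x _ hx => intro c; rw [smul_smul]; exact hx _
  simpa using this 1

theorem lamF_mem_Sol (lam : S →ₗ[R] R) {n : ℕ} {u : T S} (hu : u ∈ Sol S n) :
    lamF _ lam u ∈ Sol R n := by
  obtain ⟨h1, h2, h3, h4⟩ := base_mem_Sol.1 hu
  refine base_mem_Sol.2 ⟨lamF_mem_Lw lam h1, ?_, ?_, ?_⟩
  · rw [← lamF_comm lam (asym R) (asym S) bc_asym, h2, map_zero]
  · rw [← lamF_comm lam (hex R) (hex S) bc_hex, h3, map_zero]
  · rw [← lamF_comm lam (pentV R) (pentV S) bc_pentV, h4, map_zero]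

/-- From a real solution to an integral one: apply a `ℚ`-linear functional `ℝ → ℚ` not vanishing
at `kap n ψ` (`Module.exists_dual_map_eq_bot...` / `Module.forall_dual_apply_eq_zero_iff`),
then clear denominators (`exists_int_mul_Lw`, `mem_Sol_of_bc`). -/
theorem exists_int_sol {n : ℕ} {ψ : T ℝ} (hψ : ψ ∈ Sol ℝ n) (hk : kap n ψ ≠ 0) :
    ∃ σ ∈ Sol ℤ n, kap n σ ≠ 0 := by
  obtain ⟨lam, hlam⟩ : ∃ lam : ℝ →ₗ[ℚ] ℚ, lam (kap n ψ) ≠ 0 := by
    by_contra hcon
    push Not at hcon
    exact hk ((Module.forall_dual_apply_eq_zero_iff ℚ (kap n ψ)).1 hcon)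
  have h1 : lamF _ lam ψ ∈ Sol ℚ n := lamF_mem_Sol lam hψ
  have h2 : kap n (lamF _ lam ψ) = lam (kap n ψ) := coef_lamF lam _ ψ
  obtain ⟨m, hm, v, hv, e⟩ := exists_int_mul_Lw (base_mem_Sol.1 h1).1
  refine ⟨v, mem_Sol_of_bc (S := ℚ) (RingHom.injective_int _) hv ?_, ?_⟩
  · rw [e]; exact Submodule.smul_mem _ _ h1
  · intro h0
    have h3 := kap_bc (S := ℚ) n v
    rw [e, h0, map_zero, map_smul, h2, smul_eq_mul] at h3
    rcases mul_eq_zero.1 h3 with h4 | h4
    · exact hm (by exact_mod_cast h4)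
    · exact hlam h4

end

end Crest.Agent.R10
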