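import Crest.Agent.R10.Defs

/-!
# R10/Basic: Lie polynomials, substitution, derivations
-/

set_option autoImplicit false
set_option linter.unusedVariables false

namespace Crest.Agent.R10

noncomputable section

open FreeAlgebra

variable {R : Type} [CommRing R] {X Y : Type} {A B : Type} [Ring A] [Algebra R A] [Ring B]
  [Algebra R B]

theorem map_lie' (f : A →ₐ[R] B) (a b : A) : f ⁅a, b⁆ = ⁅f a, f b⁆ := by
  simp [Ring.lie_def]

theorem map_lift (f : A →ₐ[R] B) (g : X → A) (u : FreeAlgebra R X) :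
    f (lift R g u) = lift R (fun i => f (g i)) u := by
  have : f.comp (lift R g) = lift R (fun i => f (g i)) := by ext i; simp
  exact DFunLike.congr_fun this u

theorem commute_lift {z : A} {g : X → A} (h : ∀ i, Commute z (g i)) (u : FreeAlgebra R X) :
    Commute z (lift R g u) := by
  induction u using FreeAlgebra.induction with
  | grade0 r => simpa using (Algebra.commute_algebraMap_right r z)
  | grade1 i => simpa using h i
  | mul a b ha hb => simpa using ha.mul_right hb
  | add a b ha hb => simpa using ha.add_right hb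

@[simp] theorem ev_xx (a b : A) : ev a b (xx R) = a := by simp [ev, xx]

@[simp] theorem ev_yy (a b : A) : ev a b (yy R) = b := by simp [ev, yy]

theorem ev_self (u : T R) : ev (xx R) (yy R) u = u := by
  have : ev (xx R) (yy R) = AlgHom.id R (T R) := by
    ext i; fin_cases i <;> simp [ev, xx, yy]
  rw [this]; rfl

theorem map_ev (f : A →ₐ[R] B) (a b : A) (u : T R) : f (ev a b u) = ev (f a) (f b) u := by
  have : f.comp (ev a b) = ev (f a) (f b) := by ext i; fin_cases i <;> simp [ev]
  exact DFunLike.congr_fun this u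

theorem commute_ev {z a b : A} (ha : Commute z a) (hb : Commute z b) (u : T R) :
    Commute z (ev a b u) :=
  commute_lift (fun i => by fin_cases i <;> simpa) u

theorem bs_lie_zero (a : A) : ⁅a, (0 : A)⁆ = 0 := by simp [Ring.lie_def]

theorem bs_zero_lie (a : A) : ⁅(0 : A), a⁆ = 0 := by simp [Ring.lie_def]

theorem bs_lie_add (a b c : A) : ⁅a, b + c⁆ = ⁅a, b⁆ + ⁅a, c⁆ := by
  simp only [Ring.lie_def]; noncomm_ring

theorem bs_add_lie (a b c : A) : ⁅a + b, c⁆ = ⁅a, c⁆ + ⁅b, c⁆ := by
  simp only [Ring.lie_def]; noncomm_ring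

theorem bs_lie_smul (r : R) (a b : A) : ⁅a, r • b⁆ = r • ⁅a, b⁆ := by
  simp only [Ring.lie_def, mul_smul_comm, smul_mul_assoc, smul_sub]

theorem bs_smul_lie (r : R) (a b : A) : ⁅r • a, b⁆ = r • ⁅a, b⁆ := by
  simp only [Ring.lie_def, mul_smul_comm, smul_mul_assoc, smul_sub]

theorem bs_lie_of_commute {a b : A} (h : Commute a b) : ⁅a, b⁆ = 0 := by
  rw [Ring.lie_def, h.eq, sub_self]

/-! ### Lie polynomials -/

theorem IsMon.mem {wt : X → ℕ} {n : ℕ} {a : FreeAlgebra R X} (h : IsMon wt n a) :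
    a ∈ Lw R wt n := Submodule.subset_span h

theorem ι_mem_Lw (wt : X → ℕ) (i : X) : ι R i ∈ Lw R wt (wt i) := (IsMon.of i).mem

theorem xx_mem : xx R ∈ L R 1 := ι_mem_Lw (fun _ => 1) 0

theorem yy_mem : yy R ∈ L R 1 := ι_mem_Lw (fun _ => 1) 1

/-- Bilinearity (`Submodule.span_induction₂` or two nested span inductions). -/
theorem lie_mem_Lw {wt : X → ℕ} {m n : ℕ} {u v : FreeAlgebra R X} (hu : u ∈ Lw R wt m)
    (hv : v ∈ Lw R wt n) : ⁅u, v⁆ ∈ Lw R wt (m + n) := by
  induction hu using Submodule.span_induction with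
  | mem a ha =>
    induction hv using Submodule.span_induction with
    | mem b hb => exact (IsMon.lie ha hb).mem
    | zero => rw [bs_lie_zero]; exact zero_mem _
    | add b c _ _ hb hc => rw [bs_lie_add]; exact add_mem hb hc
    | smul r b _ hb => rw [bs_lie_smul]; exact Submodule.smul_mem _ r hb
  | zero => rw [bs_zero_lie]; exact zero_mem _
  | add a b _ _ ha hb => rw [bs_add_lie]; exact add_mem ha hb
  | smul r a _ ha => rw [bs_smul_lie]; exact Submodule.smul_mem _ r ha

/-- Induction principle for Lie polynomials (first induct on monomials, then on the span). -/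
theorem Lw_induction {wt : X → ℕ} (P : ℕ → FreeAlgebra R X → Prop)
    (hι : ∀ i, P (wt i) (ι R i))
    (hlie : ∀ m n u v, u ∈ Lw R wt m → v ∈ Lw R wt n → P m u → P n v → P (m + n) ⁅u, v⁆)
    (hzero : ∀ n, P n 0)
    (hadd : ∀ n u v, u ∈ Lw R wt n → v ∈ Lw R wt n → P n u → P n v → P n (u + v))
    (hsmul : ∀ n (c : R) u, u ∈ Lw R wt n → P n u → P n (c • u))
    {n : ℕ} {u : FreeAlgebra R X} (hu : u ∈ Lw R wt n) : P n u := by
  have hm : ∀ {n : ℕ} {a : FreeAlgebra R X}, IsMon wt n a → P n a := by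
    intro n a h
    induction h with
    | of i => exact hι i
    | lie ha hb iha ihb => exact hlie _ _ _ _ ha.mem hb.mem iha ihb
  induction hu using Submodule.span_induction with
  | mem a ha => exact hm ha
  | zero => exact hzero n
  | add a b ha hb iha ihb => exact hadd n a b ha hb iha ihb
  | smul r a ha iha => exact hsmul n r a ha iha

/-- A Lie polynomial evaluated in a submodule closed under the bracket. -/
theorem lift_mem_of_lie {wt : X → ℕ} (S : Submodule R A) (hS : ∀ a ∈ S, ∀ b ∈ S, ⁅a, b⁆ ∈ S)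
    {g : X → A} (hg : ∀ i, g i ∈ S) {n : ℕ} {u : FreeAlgebra R X} (hu : u ∈ Lw R wt n) :
    lift R g u ∈ S := by
  refine Lw_induction (fun _ u => lift R g u ∈ S) (fun i => ?_) (fun m n u v _ _ h1 h2 => ?_)
    (fun _ => ?_) (fun _ u v _ _ h1 h2 => ?_) (fun _ c u _ h1 => ?_) hu
  · simpa using hg i
  · rw [map_lie']; exact hS _ h1 _ h2
  · rw [map_zero]; exact zero_mem _
  · rw [map_add]; exact add_mem h1 h2
  · rw [map_smul]; exact S.smul_mem c h1

theorem lift_mem_Lw {wt : X → ℕ} {wt' : Y → ℕ} {g : X → FreeAlgebra R Y}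
    (hg : ∀ i, g i ∈ Lw R wt' (wt i)) {n : ℕ} {u : FreeAlgebra R X} (hu : u ∈ Lw R wt n) :
    lift R g u ∈ Lw R wt' n := by
  refine Lw_induction (fun n u => lift R g u ∈ Lw R wt' n) (fun i => ?_)
    (fun m n u v _ _ h1 h2 => ?_) (fun _ => ?_) (fun _ u v _ _ h1 h2 => ?_)
    (fun _ c u _ h1 => ?_) hu
  · simpa using hg i
  · rw [map_lie']; exact lie_mem_Lw h1 h2
  · rw [map_zero]; exact zero_mem _
  · rw [map_add]; exact add_mem h1 h2
  · rw [map_smul]; exact Submodule.smul_mem _ c h1

theorem Lw_eq_bot {wt : X → ℕ} {n : ℕ} (h : ∀ i, n < wt i) : Lw R wt n = ⊥ := by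
  have hm : ∀ {n : ℕ} {a : FreeAlgebra R X}, IsMon wt n a → ∃ i, wt i ≤ n := by
    intro n a h
    induction h with
    | of i => exact ⟨i, le_rfl⟩
    | lie ha hb iha ihb => exact iha.imp fun i hi => hi.trans (Nat.le_add_right _ _)
  rw [Lw, Submodule.span_eq_bot]
  intro a ha
  obtain ⟨i, hi⟩ := hm ha
  exact absurd (h i) (not_lt.2 hi)

/-- A Lie polynomial of weight `n` is a combination of letters of weight `n` and brackets. -/
theorem Lw_decomp {wt : X → ℕ} {n : ℕ} {u : FreeAlgebra R X} (hu : u ∈ Lw R wt n) :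
    u ∈ Submodule.span R {a | ∃ i, wt i = n ∧ a = ι R i} ⊔
      Submodule.span R {c | ∃ p q a b, p + q = n ∧ a ∈ Lw R wt p ∧ b ∈ Lw R wt q ∧ c = ⁅a, b⁆} := by
  refine (Submodule.span_le.2 ?_ : Lw R wt n ≤ _) hu
  intro a ha
  cases (show IsMon wt n a from ha) with
  | of i => exact Submodule.mem_sup_left (Submodule.subset_span ⟨i, rfl, rfl⟩)
  | lie h1 h2 =>
    exact Submodule.mem_sup_right (Submodule.subset_span ⟨_, _, _, _, rfl, h1.mem, h2.mem, rfl⟩)

theorem mem_L_one {u : T R} (hu : u ∈ L R 1) : ∃ α β : R, u = α • xx R + β • yy R := by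
  have h0 : L R 0 = ⊥ := Lw_eq_bot fun _ => Nat.one_pos
  suffices key : u ∈ Submodule.span R {xx R, yy R} by
    obtain ⟨α, β, e⟩ := Submodule.mem_span_pair.1 key
    exact ⟨α, β, e.symm⟩
  refine (sup_le ?_ ?_ : _ ≤ Submodule.span R {xx R, yy R}) (Lw_decomp hu)
  · refine Submodule.span_mono ?_
    rintro a ⟨i, -, rfl⟩
    fin_cases i
    · exact Or.inl rfl
    · exact Or.inr rfl
  · refine Submodule.span_le.2 ?_
    rintro c ⟨p, q, a, b, hpq, ha, hb, rfl⟩
    have : p = 0 ∨ q = 0 := by omega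
    rcases this with rfl | rfl
    · have : a = 0 := by rwa [show Lw R (fun _ : Fin 2 => 1) 0 = ⊥ from h0, Submodule.mem_bot] at ha
      rw [this, bs_zero_lie]
      exact zero_mem _
    · have : b = 0 := by rwa [show Lw R (fun _ : Fin 2 => 1) 0 = ⊥ from h0, Submodule.mem_bot] at hb
      rw [this, bs_lie_zero]
      exact zero_mem _

theorem mem_L_two {u : T R} (hu : u ∈ L R 2) : ∃ c : R, u = c • ⁅xx R, yy R⁆ := by
  have h0 : L R 0 = ⊥ := Lw_eq_bot fun _ => Nat.one_pos
  have key : u ∈ Submodule.span R {⁅xx R, yy R⁆} := by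
    refine (sup_le ?_ ?_ : _ ≤ Submodule.span R {⁅xx R, yy R⁆}) (Lw_decomp hu)
    · refine Submodule.span_mono ?_
      rintro a ⟨i, hi, -⟩
      omega
    · refine Submodule.span_le.2 ?_
      rintro c ⟨p, q, a, b, hpq, ha, hb, rfl⟩
      have : p = 0 ∨ q = 0 ∨ (p = 1 ∧ q = 1) := by omega
      rcases this with rfl | rfl | ⟨rfl, rfl⟩
      · have : a = 0 := by
          rwa [show Lw R (fun _ : Fin 2 => 1) 0 = ⊥ from h0, Submodule.mem_bot] at ha
        rw [this, bs_zero_lie]
        exact zero_mem _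
      · have : b = 0 := by
          rwa [show Lw R (fun _ : Fin 2 => 1) 0 = ⊥ from h0, Submodule.mem_bot] at hb
        rw [this, bs_lie_zero]
        exact zero_mem _
      · obtain ⟨α, β, rfl⟩ := mem_L_one ha
        obtain ⟨γ, δ, rfl⟩ := mem_L_one hb
        refine Submodule.mem_span_singleton.2 ⟨α * δ - β * γ, ?_⟩
        simp only [Ring.lie_def, add_mul, mul_add, smul_mul_assoc, mul_smul_comm]
        module
  obtain ⟨c, hc⟩ := Submodule.mem_span_singleton.1 key
  exact ⟨c, hc.symm⟩

/-- Shift by central elements.  By `Lw_induction` prove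
`P n u := ∃ ζ, lift (a + z) u = lift a u + ζ ∧ (∀ j, Commute ζ (a j)) ∧ (∀ j, Commute ζ (z j)) ∧
((∀ i, wt i = n → z i = 0) → ζ = 0)`; for a bracket `ζ = 0` works (use `commute_lift`). -/
theorem lift_shift {wt : X → ℕ} {a z : X → A} (hz : ∀ i j, Commute (z i) (a j))
    (hzz : ∀ i j, Commute (z i) (z j)) {n : ℕ} (h : ∀ i, wt i = n → z i = 0)
    {u : FreeAlgebra R X} (hu : u ∈ Lw R wt n) :
    lift R (fun i => a i + z i) u = lift R a u := by
  have key := Lw_induction (R := R) (wt := wt) (fun n u => ∃ ζ,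
      lift R (fun i => a i + z i) u = lift R a u + ζ ∧ (∀ j, Commute ζ (a j)) ∧
      (∀ j, Commute ζ (z j)) ∧ ((∀ i, wt i = n → z i = 0) → ζ = 0))
    (fun i => ⟨z i, by simp, hz i, hzz i, fun h => h i rfl⟩) ?_
    (fun _ => ⟨0, by simp, fun _ => Commute.zero_left _, fun _ => Commute.zero_left _,
      fun _ => rfl⟩) ?_ ?_ hu
  · obtain ⟨ζ, h1, -, -, h2⟩ := key
    rw [h1, h2 h, add_zero]
  · rintro m n u v - - ⟨ζ, h1, h2, h3, -⟩ ⟨ξ, k1, k2, k3, -⟩
    refine ⟨0, ?_, fun _ => Commute.zero_left _, fun _ => Commute.zero_left _, fun _ => rfl⟩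
    have c1 : Commute ζ (lift R (fun i => a i + z i) v) :=
      commute_lift (fun i => (h2 i).add_right (h3 i)) v
    have c2 : Commute ξ (lift R a u) := commute_lift k2 u
    rw [map_lie', map_lie', add_zero, h1, bs_add_lie, bs_lie_of_commute c1, add_zero, k1,
      bs_lie_add, bs_lie_of_commute c2.symm, add_zero]
  · rintro n u v - - ⟨ζ, h1, h2, h3, h4⟩ ⟨ξ, k1, k2, k3, k4⟩
    refine ⟨ζ + ξ, ?_, fun j => (h2 j).add_left (k2 j), fun j => (h3 j).add_left (k3 j),
      fun h => by rw [h4 h, k4 h, add_zero]⟩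
    rw [map_add, map_add, h1, k1]
    abel
  · rintro n c u - ⟨ζ, h1, h2, h3, h4⟩
    refine ⟨c • ζ, ?_, fun j => (h2 j).smul_left c, fun j => (h3 j).smul_left c,
      fun h => by rw [h4 h, smul_zero]⟩
    rw [map_smul, map_smul, h1, smul_add]

/-- `lift_shift` with `a = 0` (a Lie polynomial vanishes at `0`). -/
theorem lift_vanish {wt : X → ℕ} {z : X → A} (hzz : ∀ i j, Commute (z i) (z j)) {n : ℕ}
    (h : ∀ i, wt i = n → z i = 0) {u : FreeAlgebra R X} (hu : u ∈ Lw R wt n) :
    lift R z u = 0 := by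
  have h1 := lift_shift (a := fun _ => (0 : A)) (fun i j => Commute.zero_right _) hzz h hu
  have h2 : lift R (fun _ : X => (0 : A)) u ∈ (⊥ : Submodule R A) := by
    refine lift_mem_of_lie ⊥ (fun a ha b hb => ?_) (fun _ => zero_mem _) hu
    rw [Submodule.mem_bot] at ha ⊢
    rw [ha, bs_zero_lie]
  simp only [zero_add] at h1
  rw [h1]
  exact (Submodule.mem_bot R).1 h2

theorem ev_shift {a b z w : A} (hza : Commute z a) (hzb : Commute z b) (hwa : Commute w a)
    (hwb : Commute w b) (hzw : Commute z w) {n : ℕ} (hn : n ≠ 1) {ψ : T R} (hψ : ψ ∈ L R n) :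
    ev (a + z) (b + w) ψ = ev a b ψ := by
  have h := lift_shift (a := ![a, b]) (z := ![z, w]) (wt := fun _ : Fin 2 => 1) ?_ ?_
    (fun i hi => absurd hi.symm hn) hψ
  · rw [ev, ev, ← h]
    congr 2
    ext i
    fin_cases i <;> rfl
  · intro i j
    fin_cases i <;> fin_cases j <;> assumption
  · intro i j
    fin_cases i <;> fin_cases j
    · exact Commute.refl _
    · exact hzw
    · exact hzw.symm
    · exact Commute.refl _

theorem ev_comm {a b : A} (hab : Commute a b) {n : ℕ} (hn : n ≠ 1) {ψ : T R} (hψ : ψ ∈ L R n) :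
    ev a b ψ = 0 := by
  refine lift_vanish (z := ![a, b]) (wt := fun _ : Fin 2 => 1) ?_
    (fun i hi => absurd hi.symm hn) hψ
  intro i j
  fin_cases i <;> fin_cases j
  · exact Commute.refl _
  · exact hab
  · exact hab.symm
  · exact Commute.refl _

/-- Lie polynomials are primitive. -/
theorem prim_of_mem_L {n : ℕ} {ψ : T R} (hψ : ψ ∈ L R n) : Prim ψ := by
  intro A _ _ a b a' b' h
  refine Lw_induction (fun _ ψ => ev (a + a') (b + b') ψ = ev a b ψ + ev a' b' ψ) (fun i => ?_)
    (fun m n u v _ _ h1 h2 => ?_) (fun _ => by simp) (fun _ u v _ _ h1 h2 => ?_)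
    (fun _ c u _ h1 => ?_) hψ
  · fin_cases i <;> simp [ev]
  · have c : ∀ u v : T R, Commute (ev a b u) (ev a' b' v) := fun u v =>
      commute_ev (commute_ev h.aa.symm h.ba.symm u).symm (commute_ev h.ab.symm h.bb.symm u).symm v
    rw [map_lie', map_lie', map_lie', h1, h2, bs_add_lie, bs_lie_add, bs_lie_add,
      bs_lie_of_commute (c u v), bs_lie_of_commute (c v u).symm, add_zero, zero_add]
  · rw [map_add, map_add, map_add, h1, h2]
    abel
  · rw [map_smul, map_smul, map_smul, h1, smul_add]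

theorem asym_ev {ψ : T R} (h : asym R ψ = 0) (a b : A) : ev b a ψ = -ev a b ψ := by
  have h1 := congrArg (ev a b) h
  simp only [asym, LinearMap.add_apply, LinearMap.id_apply, AlgHom.toLinearMap_apply, map_add,
    map_ev, ev_xx, ev_yy, map_zero] at h1
  exact eq_neg_of_add_eq_zero_right h1

/-- The three-term relation when `a + b + c` commutes with `a`, `b` (apply `ev a b` to
`hex R ψ = 0`, then `ev_shift` by `a + b + c`). -/
theorem hex_ev {n : ℕ} (hn : n ≠ 1) {ψ : T R} (hψ : ψ ∈ L R n) (h : hex R ψ = 0) {a b c : A}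
    (ha : Commute (a + b + c) a) (hb : Commute (a + b + c) b) :
    ev a b ψ + ev b c ψ + ev c a ψ = 0 := by
  have h1 := congrArg (ev a b) h
  simp only [hex, LinearMap.add_apply, LinearMap.id_apply, AlgHom.toLinearMap_apply, map_add,
    map_ev, ev_xx, ev_yy, map_zero, map_sub, map_neg] at h1
  have hc : Commute (a + b + c) (-a - b) := ha.neg_right.sub_right hb
  have e1 := ev_shift (a := b) (b := -a - b) (z := 0) (w := a + b + c) (Commute.zero_left _)
    (Commute.zero_left _) hb hc (Commute.zero_left _) hn hψ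
  have e2 := ev_shift (a := -a - b) (b := a) (z := a + b + c) (w := 0) hc ha (Commute.zero_left _)
    (Commute.zero_left _) (Commute.zero_right _) hn hψ
  rw [add_zero, show -a - b + (a + b + c) = c by abel] at e1 e2
  rw [e1, e2, h1]

/-! ### Derivations -/

theorem der_ι (d : X → FreeAlgebra R X) (i : X) : der d (ι R i) = d i := by
  simp [der]

theorem isDer_der (d : X → FreeAlgebra R X) : IsDer (der d) := by
  intro u v
  have h : ∀ u : FreeAlgebra R X, TrivSqZeroExt.fst (lift R (fun i =>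
      (TrivSqZeroExt.inl (ι R i) + TrivSqZeroExt.inr (d i) :
      TrivSqZeroExt (FreeAlgebra R X) (FreeAlgebra R X))) u) = u := by
    intro u
    induction u using FreeAlgebra.induction with
    | grade0 r => simp [TrivSqZeroExt.algebraMap_eq_inl']
    | grade1 i => simp
    | mul a b ha hb => rw [map_mul, TrivSqZeroExt.fst_mul, ha, hb]
    | add a b ha hb => rw [map_add, TrivSqZeroExt.fst_add, ha, hb]
  simp only [der, LinearMap.comp_apply, AlgHom.toLinearMap_apply, map_mul,
    LinearMap.restrictScalars_apply, TrivSqZeroExt.sndHom_apply, TrivSqZeroExt.snd_mul, h,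
    smul_eq_mul, op_smul_eq_mul]
  exact add_comm _ _

theorem IsDer.map_one {D : A →ₗ[R] A} (h : IsDer D) : D 1 = 0 := by
  have h1 := h 1 1
  rw [mul_one, mul_one, one_mul] at h1
  exact left_eq_add.1 h1

theorem IsDer.map_lie {D : A →ₗ[R] A} (h : IsDer D) (u v : A) :
    D ⁅u, v⁆ = ⁅D u, v⁆ + ⁅u, D v⁆ := by
  simp only [Ring.lie_def, map_sub, h u v, h v u]
  abel

theorem IsDer.add {D D' : A →ₗ[R] A} (h : IsDer D) (h' : IsDer D') : IsDer (D + D') := by
  intro u v
  simp only [LinearMap.add_apply, h u v, h' u v, add_mul, mul_add]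
  abel

theorem IsDer.comm {D D' : A →ₗ[R] A} (h : IsDer D) (h' : IsDer D') :
    IsDer (D * D' - D' * D : Module.End R A) := by
  intro u v
  simp only [LinearMap.sub_apply, Module.End.mul_apply, h u v, h' u v, map_add, h _ _, h' _ _,
    sub_mul, mul_sub]
  abel

/-- `D ∘ (a * ·) = (D a * ·) + (a * ·) ∘ D`. -/
theorem IsDer.mul_mulLeft {D : A →ₗ[R] A} (h : IsDer D) (a : A) :
    (D * LinearMap.mulLeft R a : Module.End R A) =
      LinearMap.mulLeft R (D a) + LinearMap.mulLeft R a * D := by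
  ext u
  simp [h a u]

theorem IsDer.ext {D D' : A →ₗ[R] A} (h : IsDer D) (h' : IsDer D') {G : Set A}
    (hG : Algebra.adjoin R G = ⊤) (e : ∀ g ∈ G, D g = D' g) : D = D' := by
  refine LinearMap.ext fun u => ?_
  have hu : u ∈ Algebra.adjoin R G := by rw [hG]; trivial
  induction hu using Algebra.adjoin_induction with
  | mem g hg => exact e g hg
  | algebraMap r => rw [Algebra.algebraMap_eq_smul_one, map_smul, map_smul, h.map_one, h'.map_one]
  | add a b _ _ ha hb => rw [map_add, map_add, ha, hb]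
  | mul a b _ _ ha hb => rw [h, h', ha, hb]

theorem der_mem_Lw {wt : X → ℕ} {d : X → FreeAlgebra R X} {m : ℕ}
    (hd : ∀ i, d i ∈ Lw R wt (wt i + m)) {n : ℕ} {u : FreeAlgebra R X} (hu : u ∈ Lw R wt n) :
    der d u ∈ Lw R wt (n + m) := by
  refine Lw_induction (fun n u => der d u ∈ Lw R wt (n + m)) (fun i => ?_)
    (fun p q u v hu hv h1 h2 => ?_) (fun _ => ?_) (fun _ u v _ _ h1 h2 => ?_)
    (fun _ c u _ h1 => ?_) hu
  · rw [der_ι]; exact hd i
  · rw [(isDer_der d).map_lie]
    refine add_mem ?_ ?_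
    · rw [add_right_comm]; exact lie_mem_Lw h1 hv
    · rw [add_assoc]; exact lie_mem_Lw hu h2
  · rw [map_zero]; exact zero_mem _
  · rw [map_add]; exact add_mem h1 h2
  · rw [map_smul]; exact Submodule.smul_mem _ c h1

/-- A derivation of `A` evaluated on `lift a u` (induction on `u`). -/
theorem IsDer.map_lift {δ : A →ₗ[R] A} (hδ : IsDer δ) {a : X → A} {d : X → FreeAlgebra R X}
    {h : A} (e : ∀ i, δ (a i) = lift R a (d i) + ⁅a i, h⁆) (u : FreeAlgebra R X) :
    δ (lift R a u) = lift R a (der d u) + ⁅lift R a u, h⁆ := by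
  induction u using FreeAlgebra.induction with
  | grade0 r =>
    rw [AlgHom.commutes, bs_lie_of_commute (Algebra.commute_algebraMap_left r h),
      Algebra.algebraMap_eq_smul_one, Algebra.algebraMap_eq_smul_one, map_smul, map_smul,
      hδ.map_one, (isDer_der d).map_one]
    simp
  | grade1 i => rw [lift_ι_apply, der_ι, e]
  | mul u v hu hv =>
    rw [map_mul, hδ, hu, hv, isDer_der d, map_add, map_mul, map_mul]
    simp only [Ring.lie_def]
    noncomm_ring
  | add u v hu hv =>
    rw [map_add, map_add, hu, hv, map_add, map_add, bs_add_lie]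
    abel

/-- The same with dual numbers (induction on `u`). -/
theorem lift_dual {a : X → A} {d : X → FreeAlgebra R X} {h : A} {a' : X → A}
    (e : ∀ i, a' i = lift R a (d i) + ⁅a i, h⁆) (u : FreeAlgebra R X) :
    lift R (fun i => (TrivSqZeroExt.inl (a i) + TrivSqZeroExt.inr (a' i) : TrivSqZeroExt A A)) u =
      TrivSqZeroExt.inl (lift R a u) +
        TrivSqZeroExt.inr (lift R a (der d u) + ⁅lift R a u, h⁆) := by
  induction u using FreeAlgebra.induction with
  | grade0 r =>
    rw [AlgHom.commutes, AlgHom.commutes, bs_lie_of_commute (Algebra.commute_algebraMap_left r h),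
      Algebra.algebraMap_eq_smul_one (A := FreeAlgebra R X), map_smul, (isDer_der d).map_one]
    simp [TrivSqZeroExt.algebraMap_eq_inl']
  | grade1 i => rw [lift_ι_apply, lift_ι_apply, der_ι, e]
  | mul u v hu hv =>
    rw [map_mul, hu, hv, isDer_der d, map_add, map_mul, map_mul, map_mul]
    ext
    · simp
    · simp only [TrivSqZeroExt.snd_mul, TrivSqZeroExt.fst_add, TrivSqZeroExt.snd_add,
        TrivSqZeroExt.fst_inl, TrivSqZeroExt.fst_inr, TrivSqZeroExt.snd_inl, TrivSqZeroExt.snd_inr,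
        add_zero, zero_add, smul_eq_mul, op_smul_eq_mul, Ring.lie_def]
      noncomm_ring
  | add u v hu hv =>
    rw [map_add, hu, hv, map_add, map_add, map_add, bs_add_lie]
    simp only [TrivSqZeroExt.inl_add, TrivSqZeroExt.inr_add]
    abel

/-- If `lift a` kills the values of a derivation on the letters, it kills the derivation. -/
theorem lift_der_eq_zero {a : X → A} {d : X → FreeAlgebra R X} (e : ∀ i, lift R a (d i) = 0)
    (u : FreeAlgebra R X) : lift R a (der d u) = 0 := by
  have h := IsDer.map_lift (δ := 0) (fun _ _ => by simp) (a := a) (d := d) (h := 0)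
    (fun i => by rw [e, bs_lie_zero]; simp) u
  rw [bs_lie_zero, add_zero] at h
  exact h.symm

/-- "First column" lemma: operators acting on the image of `j` as left multiplications. -/
theorem lift_apply_col {M : Type} [AddCommGroup M] [Module R M] (j : A →ₗ[R] M)
    {g : X → Module.End R M} {γ : X → A} (h : ∀ i f, g i (j f) = j (γ i * f))
    (u : FreeAlgebra R X) (f : A) : lift R g u (j f) = j (lift R γ u * f) := by
  induction u using FreeAlgebra.induction generalizing f with
  | grade0 r =>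
    rw [AlgHom.commutes, AlgHom.commutes, Module.algebraMap_end_apply, ← map_smul,
      Algebra.smul_def]
  | grade1 i => rw [lift_ι_apply, lift_ι_apply, h]
  | mul u v hu hv => rw [map_mul, Module.End.mul_apply, hv, hu, map_mul (lift R γ), mul_assoc]
  | add u v hu hv => rw [map_add, map_add, LinearMap.add_apply, hu, hv, add_mul, map_add]

/-! ### Systems -/

theorem IsSys.map {t : Fin 4 → Fin 4 → A} (h : IsSys t) (f : A →ₐ[R] B) :
    IsSys fun i j => f (t i j) := by
  refine ⟨fun i => by rw [h.diag, map_zero], fun i j => by rw [h.symm],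
    fun i j k l a1 a2 a3 a4 a5 a6 => (h.loc i j k l a1 a2 a3 a4 a5 a6).map f,
    fun i j k a1 a2 a3 => ?_⟩
  rw [← map_add]
  exact (h.four i j k a1 a2 a3).map f

theorem IsSys.perm {t : Fin 4 → Fin 4 → A} (h : IsSys t) (σ : Fin 4 → Fin 4)
    (hσ : Function.Injective σ) : IsSys fun i j => t (σ i) (σ j) := by
  exact ⟨fun i => h.diag _, fun i j => h.symm _ _,
    fun i j k l a1 a2 a3 a4 a5 a6 => h.loc _ _ _ _ (hσ.ne a1) (hσ.ne a2) (hσ.ne a3) (hσ.ne a4)
      (hσ.ne a5) (hσ.ne a6),
    fun i j k a1 a2 a3 => h.four _ _ _ (hσ.ne a1) (hσ.ne a2) (hσ.ne a3)⟩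

/-- Scaling by an element commuting with all chords. -/
theorem IsSys.mul_right {t : Fin 4 → Fin 4 → A} (h : IsSys t) {J : A}
    (hJ : ∀ i j, Commute J (t i j)) : IsSys fun i j => t i j * J := by
  have key : ∀ {x y : A}, Commute x y → Commute J x → Commute J y → Commute (x * J) (y * J) :=
    fun h1 h2 h3 => (h1.mul_right h2.symm).mul_left (h3.mul_right (Commute.refl J))
  refine ⟨fun i => by rw [h.diag, zero_mul], fun i j => by rw [h.symm],
    fun i j k l a1 a2 a3 a4 a5 a6 => key (h.loc i j k l a1 a2 a3 a4 a5 a6) (hJ _ _) (hJ _ _),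
    fun i j k a1 a2 a3 => ?_⟩
  rw [← add_mul]
  exact key (h.four i j k a1 a2 a3) (hJ _ _) ((hJ _ _).add_right (hJ _ _))

/-- The total sum is central. -/
theorem IsSys.central {t : Fin 4 → Fin 4 → A} (h : IsSys t) (i j : Fin 4) :
    Commute (t 0 1 + t 0 2 + t 0 3 + t 1 2 + t 1 3 + t 2 3) (t i j) := by
  have key : ∀ i j k l : Fin 4, i ≠ j → i ≠ k → i ≠ l → j ≠ k → j ≠ l → k ≠ l →
      Commute (t i j + (t i k + t j k) + (t i l + t j l) + t k l) (t i j) :=
    fun i j k l a1 a2 a3 a4 a5 a6 => (((Commute.refl _).add_left (h.four i j k a1 a2 a4).symm).add_left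
      (h.four i j l a1 a3 a5).symm).add_left (h.loc i j k l a1 a2 a3 a4 a5 a6).symm
  have s := h.symm
  have c01 : Commute (t 0 1 + t 0 2 + t 0 3 + t 1 2 + t 1 3 + t 2 3) (t 0 1) := by
    convert key 0 1 2 3 (by decide) (by decide) (by decide) (by decide) (by decide) (by decide)
      using 1
    abel
  have c02 : Commute (t 0 1 + t 0 2 + t 0 3 + t 1 2 + t 1 3 + t 2 3) (t 0 2) := by
    convert key 0 2 1 3 (by decide) (by decide) (by decide) (by decide) (by decide) (by decide)
      using 1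
    rw [s 2 1]
    abel
  have c03 : Commute (t 0 1 + t 0 2 + t 0 3 + t 1 2 + t 1 3 + t 2 3) (t 0 3) := by
    convert key 0 3 1 2 (by decide) (by decide) (by decide) (by decide) (by decide) (by decide)
      using 1
    rw [s 3 1, s 3 2]
    abel
  have c12 : Commute (t 0 1 + t 0 2 + t 0 3 + t 1 2 + t 1 3 + t 2 3) (t 1 2) := by
    convert key 1 2 0 3 (by decide) (by decide) (by decide) (by decide) (by decide) (by decide)
      using 1
    rw [s 1 0, s 2 0]
    abel
  have c13 : Commute (t 0 1 + t 0 2 + t 0 3 + t 1 2 + t 1 3 + t 2 3) (t 1 3) := by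
    convert key 1 3 0 2 (by decide) (by decide) (by decide) (by decide) (by decide) (by decide)
      using 1
    rw [s 1 0, s 3 0, s 3 2]
    abel
  have c23 : Commute (t 0 1 + t 0 2 + t 0 3 + t 1 2 + t 1 3 + t 2 3) (t 2 3) := by
    convert key 2 3 0 1 (by decide) (by decide) (by decide) (by decide) (by decide) (by decide)
      using 1
    rw [s 2 0, s 3 0, s 2 1, s 3 1]
    abel
  have hlt : ∀ i j : Fin 4, i < j →
      Commute (t 0 1 + t 0 2 + t 0 3 + t 1 2 + t 1 3 + t 2 3) (t i j) := by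
    intro i j hij
    fin_cases i <;> fin_cases j <;> first | assumption | exact absurd hij (by decide)
  rcases lt_trichotomy i j with hij | rfl | hij
  · exact hlt i j hij
  · rw [h.diag]
    exact Commute.zero_right _
  · rw [s i j]
    exact hlt j i hij

theorem map_pdef (f : A →ₐ[R] B) (t : Fin 4 → Fin 4 → A) (ψ : T R) :
    f (pdef t ψ) = pdef (fun i j => f (t i j)) ψ := by
  simp [pdef, map_ev]

end

end Crest.Agent.R10
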