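import Crest.Agent.R10.Grade

/-!
# R10/Fiber: the fibre representation of `t₄`; the pentagon is detected by `pentV`
-/

set_option autoImplicit false
set_option linter.unusedVariables false

namespace Crest.Agent.R10

noncomputable section

open FreeAlgebra

variable {R : Type} [CommRing R]

theorem fib_isSys_of {A : Type} [Ring A] {p q r u v w : A}
    (l1 : Commute p w) (l2 : Commute q v) (l3 : Commute u r)
    (f1 : Commute p (q + u)) (f2 : Commute q (p + u)) (f3 : Commute u (p + q))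
    (g1 : Commute p (r + v)) (g2 : Commute r (p + v)) (g3 : Commute v (p + r))
    (h1 : Commute q (r + w)) (h2 : Commute r (q + w)) (h3 : Commute w (q + r))
    (k1 : Commute u (v + w)) (k2 : Commute v (u + w)) (k3 : Commute w (u + v)) :
    IsSys (![![0, p, q, r], ![p, 0, u, v], ![q, u, 0, w], ![r, v, w, 0]] : Fin 4 → Fin 4 → A) := by
  have l1' := l1.symm
  have l2' := l2.symm
  have l3' := l3.symm
  have f1' := add_comm q u ▸ f1
  have f2' := add_comm p u ▸ f2
  have f3' := add_comm p q ▸ f3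
  have g1' := add_comm r v ▸ g1
  have g2' := add_comm p v ▸ g2
  have g3' := add_comm p r ▸ g3
  have h1' := add_comm r w ▸ h1
  have h2' := add_comm q w ▸ h2
  have h3' := add_comm q r ▸ h3
  have k1' := add_comm v w ▸ k1
  have k2' := add_comm u w ▸ k2
  have k3' := add_comm u v ▸ k3
  refine ⟨fun i => ?_, fun i j => ?_, fun i j k l h1 h2 h3 h4 h5 h6 => ?_, fun i j k h1 h2 h3 => ?_⟩
  · fin_cases i <;> rfl
  · fin_cases i <;> fin_cases j <;> rfl
  · fin_cases i <;> fin_cases j <;> first | exact absurd rfl h1 | skip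
    all_goals fin_cases k <;> first | exact absurd rfl h2 | exact absurd rfl h4 | skip
    all_goals fin_cases l <;> first | exact absurd rfl h3 | exact absurd rfl h5 | exact absurd rfl h6 | assumption
  · fin_cases i <;> fin_cases j <;> first | exact absurd rfl h1 | skip
    all_goals fin_cases k <;> first | exact absurd rfl h2 | exact absurd rfl h3 | assumption

theorem fib_isDer_zero {B : Type} [Ring B] [Algebra R B] : IsDer (0 : B →ₗ[R] B) := fun _ _ => by simp

theorem fib_c0 {B : Type} [Ring B] [Algebra R B] {D : B →ₗ[R] B} (h : IsDer D) {p : B} (hp : D p = 0) :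
    Commute (D : Module.End R B) (LinearMap.mulLeft R p) := by
  ext v
  simp [h p v, hp]

theorem fib_c1 {B : Type} [Ring B] [Algebra R B] {D : B →ₗ[R] B} (h : IsDer D) {p q : B} (hp : D p = ⁅p, q⁆)
    (hq : D q = ⁅q, p⁆) :
    Commute (D : Module.End R B) (LinearMap.mulLeft R p + LinearMap.mulLeft R q) := by
  ext v
  simp only [Module.End.mul_apply, LinearMap.add_apply, LinearMap.mulLeft_apply, map_add, h p v, h q v, hp, hq,
    Ring.lie_def]
  noncomm_ring

theorem fib_c2 {B : Type} [Ring B] [Algebra R B] {D : B →ₗ[R] B} (h : IsDer D) {p q : B} (hp : D p = ⁅p, q⁆) :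
    Commute (LinearMap.mulLeft R p : Module.End R B) (D + LinearMap.mulLeft R q) := by
  ext v
  simp only [Module.End.mul_apply, LinearMap.add_apply, LinearMap.mulLeft_apply, h p v, hp, Ring.lie_def]
  noncomm_ring

theorem fib_c3 {B : Type} [Ring B] [Algebra R B] {D D' : B →ₗ[R] B} (h : IsDer D) (h' : IsDer D') {a : Fin 3 → B}
    (hG : Algebra.adjoin R (Set.range a) = ⊤) (e : ∀ i, D (D' (a i)) = D' (D (a i))) :
    Commute (D : Module.End R B) D' := by
  have := (h.comm h').ext fib_isDer_zero hG (by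
    rintro _ ⟨i, rfl⟩
    simp [e i])
  exact sub_eq_zero.1 this

/-- Relations: `[D, L_a] = L_{D a}` (`IsDer.mul_mulLeft`); the three relations among
`D01, D02, D12` are identities of derivations (`IsDer.comm`, `IsDer.ext`), checked on the three
generators by the Jacobi identity, e.g. `[D01, D02 + D12] (a 0) =
[[a0,a1],a2] - [[a0,a2],a1] - [a0,[a1,a2]] = 0`. -/
theorem FiberData.isSys {B : Type} [Ring B] [Algebra R B] {a : Fin 3 → B}
    {D01 D02 D12 : B →ₗ[R] B} (h : FiberData a D01 D02 D12) : IsSys (mkSys a D01 D02 D12) := by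
  have key : ∀ {D D' D'' : B →ₗ[R] B}, IsDer D → IsDer D' → IsDer D'' →
      (∀ i, D (D' (a i) + D'' (a i)) = D' (D (a i)) + D'' (D (a i))) →
      Commute (D : Module.End R B) (D' + D'') := fun h1 h2 h3 e => fib_c3 h1 (h2.add h3) h.gen e
  refine fib_isSys_of (fib_c0 h.der01 h.d01_2) (fib_c0 h.der02 h.d02_1) (fib_c0 h.der12 h.d12_0)
    (key h.der01 h.der02 h.der12 ?_) (key h.der02 h.der01 h.der12 ?_) (key h.der12 h.der01 h.der02 ?_)
    (fib_c1 h.der01 h.d01_0 h.d01_1) (fib_c2 h.der01 h.d01_0) (fib_c2 h.der01 h.d01_1)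
    (fib_c1 h.der02 h.d02_0 h.d02_2) (fib_c2 h.der02 h.d02_0) (fib_c2 h.der02 h.d02_2)
    (fib_c1 h.der12 h.d12_1 h.d12_2) (fib_c2 h.der12 h.d12_1) (fib_c2 h.der12 h.d12_2)
  all_goals
    rw [Fin.forall_fin_succ, Fin.forall_fin_two]
    simp only [Fin.succ_zero_eq_one, Fin.succ_one_eq_two, map_add, map_zero, h.der01.map_lie, h.der02.map_lie,
      h.der12.map_lie, h.d01_0, h.d01_1, h.d01_2, h.d02_0, h.d02_1, h.d02_2, h.d12_0, h.d12_1, h.d12_2]
    simp only [Ring.lie_def]
    refine ⟨?_, ?_, ?_⟩ <;> noncomm_ring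

theorem fiberData_V : FiberData (va R) (vD01 R) (vD02 R) (vD12 R) := by
  refine ⟨adjoin_range_ι R (Fin 3), isDer_der _, isDer_der _, isDer_der _, ?_, ?_, ?_, ?_, ?_, ?_, ?_, ?_, ?_⟩ <;>
    exact der_ι _ _

theorem isSys_pi : IsSys (piSys R) := (fiberData_V (R := R)).isSys

theorem LPent.pentV_eq {ψ : T R} (h : LPent ψ) : pentV R ψ = 0 := by
  simp [pentV, h _ (piSys R) isSys_pi]

/-- The submodule of the fibre lemma. -/
def fib_S {A : Type} [Ring A] [Algebra R A] (j : V R →ₐ[R] A) : Submodule R (A × A × Module.End R (V R)) where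
  carrier := {x | ∃ (β : V R) (D : V R →ₗ[R] V R), IsDer D ∧ x.2.2 = LinearMap.mulLeft R β + D ∧
    x.1 = x.2.1 + j β ∧ ∀ v, j (D v) = ⁅x.2.1, j v⁆}
  zero_mem' := ⟨0, 0, fib_isDer_zero, by ext; simp, by simp, fun v => by simp [Ring.lie_def]⟩
  add_mem' := by
    rintro x y ⟨β, D, h1, h2, h3, h4⟩ ⟨β', D', h1', h2', h3', h4'⟩
    refine ⟨β + β', D + D', h1.add h1', ?_, ?_, fun v => ?_⟩
    · ext v
      simp only [Prod.snd_add, h2, h2', LinearMap.add_apply, LinearMap.mulLeft_apply]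
      noncomm_ring
    · simp only [Prod.fst_add, Prod.snd_add, h3, h3', map_add]
      abel
    · simp only [Prod.fst_add, Prod.snd_add, LinearMap.add_apply, map_add, h4, h4', Ring.lie_def]
      noncomm_ring
  smul_mem' := by
    rintro c x ⟨β, D, h1, h2, h3, h4⟩
    refine ⟨c • β, c • D, fun u v => ?_, ?_, ?_, fun v => ?_⟩
    · simp [h1 u v]
    · ext v
      simp [h2]
    · simp [h3]
    · simp [h4, Ring.lie_def, smul_sub]

theorem fib_S_lie {A : Type} [Ring A] [Algebra R A] (j : V R →ₐ[R] A) {x y : A × A × Module.End R (V R)}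
    (hx : x ∈ fib_S j) (hy : y ∈ fib_S j) : x * y - y * x ∈ fib_S j := by
  obtain ⟨β, D, h1, h2, h3, h4⟩ := hx
  obtain ⟨β', D', h1', h2', h3', h4'⟩ := hy
  refine ⟨β * β' - β' * β + D β' - D' β, (D * D' - D' * D : Module.End R (V R)), h1.comm h1', ?_, ?_, fun v => ?_⟩
  · ext v
    simp only [Prod.snd_sub, Prod.snd_mul, h2, h2', LinearMap.add_apply, LinearMap.sub_apply, Module.End.mul_apply,
      LinearMap.mulLeft_apply, map_add, h1 β' v, h1' β v]
    noncomm_ring
  · simp only [Prod.fst_sub, Prod.snd_sub, Prod.fst_mul, Prod.snd_mul, h3, h3', map_add, map_sub, map_mul, h4, h4',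
      Ring.lie_def]
    noncomm_ring
  · simp only [Prod.fst_sub, Prod.snd_sub, Prod.fst_mul, Prod.snd_mul, LinearMap.sub_apply, Module.End.mul_apply,
      map_sub, h4, h4', Ring.lie_def]
    noncomm_ring

theorem fib_S_der {A : Type} [Ring A] [Algebra R A] (g : Fin 3 → A) (u : A) (d : Fin 3 → V R)
    (e : ∀ i, lift R g (d i) + ⁅g i, u⁆ = 0) :
    ((u, u, der d) : A × A × Module.End R (V R)) ∈ fib_S (lift R g) := by
  refine ⟨0, der d, isDer_der d, by ext; simp, by simp, fun v => ?_⟩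
  have := (fib_isDer_zero (R := R) (B := A)).map_lift (a := g) (d := d) (h := u) (fun i => (e i).symm) v
  rw [LinearMap.zero_apply, Ring.lie_def] at this
  rw [Ring.lie_def, eq_neg_of_add_eq_zero_left this.symm, neg_sub]

theorem fib_S_mul {A : Type} [Ring A] [Algebra R A] (g : Fin 3 → A) (i : Fin 3) :
    ((g i, 0, LinearMap.mulLeft R (va R i)) : A × A × Module.End R (V R)) ∈ fib_S (lift R g) :=
  ⟨va R i, 0, fib_isDer_zero, by simp, by simp [va], fun v => by simp [Ring.lie_def]⟩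

theorem fib_lie_add {A : Type} [Ring A] {a b c : A} (h : Commute a (c + b)) : ⁅a, b⁆ + ⁅a, c⁆ = 0 := by
  have := h.eq
  rw [Ring.lie_def, Ring.lie_def, ← sub_eq_zero.2 this]
  noncomm_ring

/-- FIBRE LEMMA.  Let `t` be a system in `A`, `j : V → A`, `va i ↦ t i 3`, and `t°` the family
`t° i j = t i j` for `i, j < 3`, `0` otherwise.  The set `S` of triples
`(u, u°, U) ∈ A × A × End V` such that there are `β : V` and a derivation `D` of `V` with
`U = mulLeft β + D`, `u = u° + j β`, `∀ v, j (D v) = ⁅u°, j v⁆` is a submodule closed under the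
bracket (`⁅L_β + D, L_β' + D'⁆ = L_{⁅β,β'⁆ + D β' - D' β} + ⁅D, D'⁆`) and contains the triples
`(t i j, t° i j, piSys i j)` (for `D01` etc. both sides of `j (D v) = ⁅t 0 1, j v⁆` are
`j`-derivations, induct on `v`).  By `lift_mem_of_lie` in the product algebra (`map_ev` for the three
projections) the triple `(pdef t ψ, pdef t° ψ, pdef piSys ψ)` lies in `S`; `pdef t° ψ = 0` by
`ev_comm` (`n ≠ 1`), and `β = U 1 = pentV ψ = 0` as `D 1 = 0`. -/
theorem lPent_of_pentV {n : ℕ} (hn : n ≠ 1) {ψ : T R} (hψ : ψ ∈ L R n) (h : pentV R ψ = 0) :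
    LPent ψ := by
  intro A _ _ t ht
  let g : Fin 3 → A := ![t 0 3, t 1 3, t 2 3]
  let t' : Fin 4 → Fin 4 → A := fun i j => if j = 3 then 0 else t i j
  let τ : Fin 4 → Fin 4 → A × A × Module.End R (V R) := fun i j => (t i j, t' i j, piSys R i j)
  have four : ∀ i j k, i ≠ j → i ≠ k → j ≠ k → ⁅t i j, t k j⁆ + ⁅t i j, t i k⁆ = 0 := fun i j k h1 h2 h3 =>
    fib_lie_add (ht.symm j k ▸ ht.four i j k h1 h2 h3)
  have four' : ∀ i j k, i ≠ j → i ≠ k → j ≠ k → ⁅t i j, t k j⁆ + ⁅t i j, t k i⁆ = 0 := fun i j k h1 h2 h3 =>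
    ht.symm i k ▸ four i j k h1 h2 h3
  have loc : ∀ i j k l, i ≠ j → i ≠ k → i ≠ l → j ≠ k → j ≠ l → k ≠ l → 0 + ⁅t i j, t k l⁆ = 0 :=
    fun i j k l h1 h2 h3 h4 h5 h6 => by
      rw [zero_add, Ring.lie_def, (ht.loc i j k l h1 h2 h3 h4 h5 h6).eq, sub_self]
  have hv : ∀ i, lift R g (va R i) = g i := fun i => by simp [va]
  have m01 : τ 0 1 ∈ fib_S (lift R g) := by
    refine fib_S_der g (t 0 1) _ ?_
    rw [Fin.forall_fin_succ, Fin.forall_fin_two]
    refine ⟨?_, ?_, ?_⟩
    · exact (congrArg (· + _) ((map_lie' _ _ _).trans (by rw [hv, hv]; rfl))).trans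
        (four 0 3 1 (by decide) (by decide) (by decide))
    · exact (congrArg (· + _) ((map_lie' _ _ _).trans (by rw [hv, hv]; rfl))).trans
        (four' 1 3 0 (by decide) (by decide) (by decide))
    · exact (congrArg (· + _) (map_zero _)).trans
        (loc 2 3 0 1 (by decide) (by decide) (by decide) (by decide) (by decide) (by decide))
  have m02 : τ 0 2 ∈ fib_S (lift R g) := by
    refine fib_S_der g (t 0 2) _ ?_
    rw [Fin.forall_fin_succ, Fin.forall_fin_two]
    refine ⟨?_, ?_, ?_⟩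
    · exact (congrArg (· + _) ((map_lie' _ _ _).trans (by rw [hv, hv]; rfl))).trans
        (four 0 3 2 (by decide) (by decide) (by decide))
    · exact (congrArg (· + _) (map_zero _)).trans
        (loc 1 3 0 2 (by decide) (by decide) (by decide) (by decide) (by decide) (by decide))
    · exact (congrArg (· + _) ((map_lie' _ _ _).trans (by rw [hv, hv]; rfl))).trans
        (four' 2 3 0 (by decide) (by decide) (by decide))
  have m12 : τ 1 2 ∈ fib_S (lift R g) := by
    refine fib_S_der g (t 1 2) _ ?_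
    rw [Fin.forall_fin_succ, Fin.forall_fin_two]
    refine ⟨?_, ?_, ?_⟩
    · exact (congrArg (· + _) (map_zero _)).trans
        (loc 0 3 1 2 (by decide) (by decide) (by decide) (by decide) (by decide) (by decide))
    · exact (congrArg (· + _) ((map_lie' _ _ _).trans (by rw [hv, hv]; rfl))).trans
        (four 1 3 2 (by decide) (by decide) (by decide))
    · exact (congrArg (· + _) ((map_lie' _ _ _).trans (by rw [hv, hv]; rfl))).trans
        (four' 2 3 1 (by decide) (by decide) (by decide))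
  have m13 : τ 1 3 ∈ fib_S (lift R g) := fib_S_mul g 1
  have m23 : τ 2 3 ∈ fib_S (lift R g) := fib_S_mul g 2
  have hev : ∀ a b, a ∈ fib_S (lift R g) → b ∈ fib_S (lift R g) → ev a b ψ ∈ fib_S (lift R g) := by
    intro a b ha hb
    refine lift_mem_of_lie _ (fun x hx y hy => fib_S_lie _ hx hy) ?_ hψ
    rw [Fin.forall_fin_two]
    exact ⟨ha, hb⟩
  have hm : pdef τ ψ ∈ fib_S (lift R g) := by
    simp only [pdef, LinearMap.add_apply, LinearMap.sub_apply, AlgHom.toLinearMap_apply]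
    exact sub_mem (sub_mem (sub_mem (add_mem (hev _ _ m01 (add_mem m12 m13)) (hev _ _ (add_mem m02 m12) m23))
      (hev _ _ m12 m23)) (hev _ _ (add_mem m01 m02) (add_mem m13 m23))) (hev _ _ m01 m12)
  have e1 : (pdef τ ψ).1 = pdef t ψ := map_pdef (AlgHom.fst R A (A × Module.End R (V R))) τ ψ
  have e2 : (pdef τ ψ).2.1 = pdef t' ψ :=
    map_pdef ((AlgHom.fst R A (Module.End R (V R))).comp (AlgHom.snd R A (A × Module.End R (V R)))) τ ψ
  have e3 : (pdef τ ψ).2.2 = pdef (piSys R) ψ :=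
    map_pdef ((AlgHom.snd R A (Module.End R (V R))).comp (AlgHom.snd R A (A × Module.End R (V R)))) τ ψ
  have e4 : pdef t' ψ = 0 := by
    have z : ∀ a : A, ev a 0 ψ = 0 := fun a => ev_comm (Commute.zero_right a) hn hψ
    simp [pdef, t', z]
  obtain ⟨β, D, h1, h2, h3, -⟩ := hm
  rw [e1, e2, e4] at h3
  rw [e3] at h2
  have hβ : β = 0 := by
    have : pdef (piSys R) ψ 1 = 0 := h
    rw [h2] at this
    simpa [h1.map_one] using this
  rw [h3, hβ]
  simp

theorem Sol.lPent {n : ℕ} (hn : n ≠ 1) {ψ : T R} (h : ψ ∈ Sol R n) : LPent ψ :=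
  lPent_of_pentV hn h.1.1.1 h.2

theorem fib_ev_mem {A : Type} [Ring A] [Algebra R A] {G : Set A} {a b : A} (ha : a ∈ Hom R G 1)
    (hb : b ∈ Hom R G 1) {n : ℕ} {u : T R} (hu : u ∈ HomF R (Fin 2) n) : ev a b u ∈ Hom R G n :=
  lift_mem_Hom (by rw [Fin.forall_fin_two]; exact ⟨ha, hb⟩) hu

theorem fib_xx : xx R ∈ HomF R (Fin 2) 1 := mem_Hom_one ⟨0, rfl⟩

theorem fib_yy : yy R ∈ HomF R (Fin 2) 1 := mem_Hom_one ⟨1, rfl⟩

theorem fib_va (i : Fin 3) : va R i ∈ HomF R (Fin 3) 1 := mem_Hom_one ⟨i, rfl⟩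

/-- Operators of degree `n`. -/
def fib_W (R : Type) [CommRing R] (n : ℕ) : Submodule R (Module.End R (V R)) where
  carrier := {E | ∀ m, ∀ v ∈ HomF R (Fin 3) m, E v ∈ HomF R (Fin 3) (m + n)}
  zero_mem' := fun _ _ _ => zero_mem _
  add_mem' := fun ha hb m v hv => add_mem (ha m v hv) (hb m v hv)
  smul_mem' := fun c _ ha m v hv => Submodule.smul_mem _ c (ha m v hv)

theorem fib_W_pow (n : ℕ) : Hom R (fib_W R 1 : Set (Module.End R (V R))) n ≤ fib_W R n := by
  unfold Hom
  rw [Submodule.span_eq]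
  induction n with
  | zero =>
    rw [pow_zero, Submodule.one_le]
    exact fun m v hv => hv
  | succ n ih =>
    rw [pow_succ', Submodule.mul_le]
    intro a ha b hb m v hv
    exact ha _ _ (ih hb m v hv)

theorem fib_W_der {d : Fin 3 → V R} (hd : ∀ i, d i ∈ HomF R (Fin 3) 2) : der d ∈ fib_W R 1 :=
  fun _ _ hv => (isDer_der d).mem_Hom (m := 1) (by rintro _ ⟨i, rfl⟩; rw [der_ι]; exact hd i) hv

theorem fib_W_mul (i : Fin 3) : LinearMap.mulLeft R (va R i) ∈ fib_W R 1 :=
  fun m _ hv => add_comm 1 m ▸ mul_mem_Hom (fib_va i) hv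

theorem fib_lie_va (i j : Fin 3) : ⁅va R i, va R j⁆ ∈ HomF R (Fin 3) 2 :=
  sub_mem (mul_mem_Hom (fib_va i) (fib_va j)) (mul_mem_Hom (fib_va j) (fib_va i))

/-- `asym`, `hex`, `pentV` preserve degrees (`lift_mem_Hom`; for `pentV`: every chord of `piSys`
maps `HomF m` to `HomF (m+1)`, so `ev A B u` maps `1` into `HomF n`). -/
theorem asym_mem_HomF {n : ℕ} {u : T R} (hu : u ∈ HomF R (Fin 2) n) :
    asym R u ∈ HomF R (Fin 2) n :=
  add_mem hu (fib_ev_mem fib_yy fib_xx hu)

theorem hex_mem_HomF {n : ℕ} {u : T R} (hu : u ∈ HomF R (Fin 2) n) :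
    hex R u ∈ HomF R (Fin 2) n :=
  add_mem (add_mem hu (fib_ev_mem fib_yy (sub_mem (neg_mem fib_xx) fib_yy) hu))
    (fib_ev_mem (sub_mem (neg_mem fib_xx) fib_yy) fib_xx hu)

theorem pentV_mem_HomF {n : ℕ} {u : T R} (hu : u ∈ HomF R (Fin 2) n) :
    pentV R u ∈ HomF R (Fin 3) n := by
  have m01 : piSys R 0 1 ∈ fib_W R 1 := fib_W_der (by
    rw [Fin.forall_fin_succ, Fin.forall_fin_two]; exact ⟨fib_lie_va _ _, fib_lie_va _ _, zero_mem _⟩)
  have m02 : piSys R 0 2 ∈ fib_W R 1 := fib_W_der (by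
    rw [Fin.forall_fin_succ, Fin.forall_fin_two]; exact ⟨fib_lie_va _ _, zero_mem _, fib_lie_va _ _⟩)
  have m12 : piSys R 1 2 ∈ fib_W R 1 := fib_W_der (by
    rw [Fin.forall_fin_succ, Fin.forall_fin_two]; exact ⟨zero_mem _, fib_lie_va _ _, fib_lie_va _ _⟩)
  have m13 : piSys R 1 3 ∈ fib_W R 1 := fib_W_mul 1
  have m23 : piSys R 2 3 ∈ fib_W R 1 := fib_W_mul 2
  have hev : ∀ a b, a ∈ fib_W R 1 → b ∈ fib_W R 1 → ev a b u ∈ fib_W R n := fun a b ha hb =>
    fib_W_pow n (fib_ev_mem (mem_Hom_one ha) (mem_Hom_one hb) hu)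
  have hm : pdef (piSys R) u ∈ fib_W R n := by
    simp only [pdef, LinearMap.add_apply, LinearMap.sub_apply, AlgHom.toLinearMap_apply]
    exact sub_mem (sub_mem (sub_mem (add_mem (hev _ _ m01 (add_mem m12 m13)) (hev _ _ (add_mem m02 m12) m23))
      (hev _ _ m12 m23)) (hev _ _ (add_mem m01 m02) (add_mem m13 m23))) (hev _ _ m01 m12)
  have := hm 0 1 (one_mem_Hom _)
  rw [zero_add] at this
  exact this

theorem fib_pdef_one {A : Type} [Ring A] [Algebra R A] (t : Fin 4 → Fin 4 → A) (α β : R) :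
    pdef t (α • xx R + β • yy R) = -(α • t 0 1 + β • t 2 3) := by
  simp only [pdef, LinearMap.add_apply, LinearMap.sub_apply, AlgHom.toLinearMap_apply, map_add, map_smul, ev_xx,
    ev_yy, smul_add, smul_sub]
  abel

theorem fib_smul_ι {X : Type} {c : R} {i : X} (h : c • ι R i = 0) : c = 0 := by
  simpa using congrArg (lift R fun _ : X => (1 : R)) h

theorem fib_smul_lie {X : Type} [DecidableEq X] {c : R} {i j : X} (hij : j ≠ i) (h : c • ⁅ι R i, ι R j⁆ = 0) :
    c = 0 := by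
  have := congrArg (fun u => lift R (fun k : X => if k = i then (!![0, 1; 0, 0] : Matrix (Fin 2) (Fin 2) R)
    else !![0, 0; 1, 0]) u 0 0) h
  simpa [Ring.lie_def, hij] using this

theorem fib_pentV_one {α β : R} (h : pentV R (α • xx R + β • yy R) = 0) : β = 0 := by
  have h1 : pdef (piSys R) (α • xx R + β • yy R) 1 = 0 := h
  rw [fib_pdef_one] at h1
  have h2 : piSys R 0 1 1 = 0 := (isDer_der _).map_one
  have h3 : piSys R 2 3 1 = va R 2 := mul_one _
  simp only [LinearMap.neg_apply, LinearMap.add_apply, LinearMap.smul_apply, h2, h3, smul_zero, zero_add,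
    neg_eq_zero] at h1
  exact fib_smul_ι h1

/-- Degree one: `pdef t (α x + β y) = -(α t₀₁ + β t₂₃)`; in the system
`t₀₁ = t₂₃ = 0`-free examples: apply `piSys` to `1` (gives `β = 0`) and to `va 0`
(gives `α ⁅a0,a1⁆ = 0`, coefficient of the word `01`). -/
theorem eq_zero_of_lPent_one {ψ : T R} (hψ : ψ ∈ L R 1) (h : LPent ψ) : ψ = 0 := by
  obtain ⟨α, β, rfl⟩ := mem_L_one hψ
  have hβ := fib_pentV_one h.pentV_eq
  subst hβ
  have h1 := h _ (piSys R) isSys_pi
  rw [fib_pdef_one, zero_smul, add_zero, neg_eq_zero] at h1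
  have h2 : piSys R 0 1 (va R 0) = ⁅va R 0, va R 1⁆ := (fiberData_V (R := R)).d01_0
  have h3 := congrArg (fun E : Module.End R (V R) => E (va R 0)) h1
  simp only [LinearMap.smul_apply, h2, LinearMap.zero_apply] at h3
  rw [fib_smul_lie (by decide) h3]
  simp

/-- There are no solutions in degrees `0, 1, 2` over a field of characteristic zero
(`Lw_eq_bot`; `mem_L_one`: `pentV` gives `β = 0`, `asym` gives `α = -β`; `mem_L_two`:
`hex ⁅x,y⁆ = 3 ⁅x,y⁆`). -/
theorem Sol_eq_bot {K : Type} [Field K] [CharZero K] {n : ℕ} (hn : n < 3) : Sol K n = ⊥ := by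
  rw [eq_bot_iff]
  rintro ψ ⟨⟨⟨hL, ha⟩, hh⟩, hp⟩
  rw [Submodule.mem_bot]
  interval_cases n
  · have : L K 0 = ⊥ := Lw_eq_bot fun _ => one_pos
    rw [this] at hL
    exact hL
  · obtain ⟨α, β, rfl⟩ := mem_L_one hL
    have hβ := fib_pentV_one hp
    subst hβ
    have h1 : asym K (α • xx K + (0 : K) • yy K) = 0 := ha
    have h2 := congrArg (ev (1 : K) (0 : K)) h1
    simp [asym] at h2
    simp [h2]
  · obtain ⟨c, rfl⟩ := mem_L_two hL
    have h1 : hex K (c • ⁅xx K, yy K⁆) = 0 := hh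
    have h2 : hex K ⁅xx K, yy K⁆ = (3 : K) • ⁅xx K, yy K⁆ := by
      simp only [hex, LinearMap.add_apply, LinearMap.id_apply, AlgHom.toLinearMap_apply, map_lie', ev_xx, ev_yy]
      rw [show (3 : K) = 1 + 1 + 1 by norm_num, add_smul, add_smul, one_smul]
      simp only [Ring.lie_def]
      noncomm_ring
    rw [map_smul, h2, smul_smul] at h1
    have h3 : c * 3 = 0 := fib_smul_lie (by decide) h1
    rw [(mul_eq_zero.1 h3).resolve_right (by norm_num), zero_smul]

end

end Crest.Agent.R10
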