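import Crest.Agent.R10.Dynkin
import Crest.Agent.R10.Fiber

/-!
# R10/Bridge: `grtSpace` and the Ihara bracket of the statement versus `Sol ℚ` and `ih`
-/

set_option autoImplicit false
set_option linter.unusedVariables false

namespace Crest.Agent.R10

noncomputable section

open FreeAlgebra Crest.NumberTheoryR.GT

theorem toFA_gx : toFA (Fin 2) gx = xx ℚ := toFA_of 0

theorem toFA_gy : toFA (Fin 2) gy = yy ℚ := toFA_of 1

theorem br_subst {M A : Type} [LieRing M] [LieAlgebra ℚ M] [Ring A] [Algebra ℚ A] (Φ : M →ₗ[ℚ] A)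
    (hΦ : ∀ u v, Φ ⁅u, v⁆ = ⁅Φ u, Φ v⁆) (a b : M) (u : GTLie) :
    Φ (gtSubst a b u) = ev (Φ a) (Φ b) (toFA (Fin 2) u) := by
  refine (lift_toFA ![Φ a, Φ b] (Φ ∘ₗ (gtSubst a b : GTLie →ₗ⁅ℚ⁆ M).toLinearMap) (fun u v => ?_)
    (fun i => ?_) u).symm
  · change Φ (gtSubst a b _) = ⁅Φ (gtSubst a b _), Φ (gtSubst a b _)⁆
    rw [LieHom.map_lie, hΦ]
  · fin_cases i <;> simp [gtSubst]

theorem toFA_gtSubst (a b u : GTLie) :
    toFA (Fin 2) (gtSubst a b u) = ev (toFA (Fin 2) a) (toFA (Fin 2) b) (toFA (Fin 2) u) := by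
  exact br_subst _ toFA_lie a b u

/-- first projection -/
def brFst : DualGT →ₗ[ℚ] GTLie where
  toFun v := ((LieAlgebra.ofProd 0).symm v).1
  map_add' v w := by simp
  map_smul' r v := by simp

theorem br_fst_lie (v w : DualGT) : brFst ⁅v, w⁆ = ⁅brFst v, brFst w⁆ := rfl

theorem br_snd_lie (v w : DualGT) :
    dualSnd ⁅v, w⁆ = ⁅brFst v, dualSnd w⁆ - ⁅brFst w, dualSnd v⁆ := by
  change (0 : GTLie) + _ - _ = _
  rw [zero_add]
  rfl

/-- The first component of `gtSubst (dualMk gx 0) (dualMk gy ⁅gy, ψ⁆) u` is `u`, so `iharaDer ψ` is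
a Lie derivation (`LieAlgebra.bracket_ofTwoCocycle`); then induct on monomials
(`mem_iSup_weight`). -/
theorem toFA_iharaDer (ψ u : GTLie) :
    toFA (Fin 2) (iharaDer ψ u) = ihD (toFA (Fin 2) ψ) (toFA (Fin 2) u) := by
  let f : GTLie →ₗ⁅ℚ⁆ DualGT := gtSubst (dualMk gx 0) (dualMk gy ⁅gy, ψ⁆)
  have h1 : ∀ u, brFst (f u) = u := fun u => by
    refine dy_top (LinearMap.eqLocus (brFst ∘ₗ f.toLinearMap) LinearMap.id) (fun i => ?_)
      (fun a ha b hb => ?_) u
    · change brFst (FreeLieAlgebra.lift ℚ _ _) = _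
      rw [FreeLieAlgebra.lift_of_apply]
      fin_cases i <;> rfl
    · change brFst (f _) = _ at ha hb ⊢
      rw [LieHom.map_lie, br_fst_lie, ha, hb]
      rfl
  refine dy_top (LinearMap.eqLocus (toFA (Fin 2) ∘ₗ iharaDer ψ)
    (ihD (toFA (Fin 2) ψ) ∘ₗ toFA (Fin 2))) (fun i => ?_) (fun a ha b hb => ?_) u
  · change toFA (Fin 2) (dualSnd (FreeLieAlgebra.lift ℚ _ _)) = der _ (toFA (Fin 2) _)
    rw [FreeLieAlgebra.lift_of_apply, toFA_of, der_ι]
    fin_cases i
    · exact map_zero _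
    · exact (toFA_lie gy ψ).trans (by rw [toFA_gy]; rfl)
  · change toFA (Fin 2) (dualSnd (f _)) = der _ (toFA (Fin 2) _) at ha hb ⊢
    rw [LieHom.map_lie, br_snd_lie, h1, h1, map_sub, toFA_lie, toFA_lie, toFA_lie, ha, hb,
      (isDer_der _).map_lie]
    simp only [Ring.lie_def]
    abel

theorem toFA_ihara (ψ φ : GTLie) :
    toFA (Fin 2) (iharaBracket ψ φ) = ih (toFA (Fin 2) ψ) (toFA (Fin 2) φ) := by
  rw [iharaBracket, map_add, map_sub, toFA_iharaDer, toFA_iharaDer, toFA_lie, ih]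

theorem br_tFree_symm (i j : Fin 4) : tFree i j = tFree j i := by
  unfold tFree
  split_ifs with h1 h2
  · exact absurd h1 (not_lt.2 h2.le)
  all_goals rfl

/-- Any system in an associative `ℚ`-algebra defines a Lie map from `braidLie4`
(`FreeLieAlgebra.lift`, kill `braidIdeal4` with `LieSubmodule.lieSpan_le`, descend to the
quotient), which maps `pentagonDefect u` to `pdef t (toFA u)` (`lift_toFA`). -/
theorem lPent_of_pentagonDefect {u : GTLie} (hu : pentagonDefect u = 0) :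
    LPent (toFA (Fin 2) u) := by
  intro A _ _ t ht
  let : LieRing A := LieRing.ofAssociativeRing
  let G : FreeBraid4 →ₗ⁅ℚ⁆ A := FreeLieAlgebra.lift ℚ fun p : BraidGen4 => t p.1.1 p.1.2
  have hG : ∀ i j, G (tFree i j) = t i j := fun i j => by
    unfold tFree
    split_ifs with h1 h2
    · exact FreeLieAlgebra.lift_of_apply _ _
    · exact (FreeLieAlgebra.lift_of_apply _ _).trans (ht.symm _ _)
    · rw [map_zero, le_antisymm (not_lt.1 h2) (not_lt.1 h1), ht.diag]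
  have hI : braidIdeal4 ≤ G.ker := by
    refine LieSubmodule.lieSpan_le.2 ?_
    rintro _ (⟨i, j, k, l, a1, a2, a3, a4, a5, a6, rfl⟩ | ⟨i, j, k, a1, a2, a3, rfl⟩)
    · change G _ = 0
      rw [LieHom.map_lie, hG, hG]
      exact bs_lie_of_commute (ht.loc i j k l a1 a2 a3 a4 a5 a6)
    · change G _ = 0
      rw [LieHom.map_lie, map_add, hG, hG, hG]
      exact bs_lie_of_commute (ht.four i j k a1 a2 a3)
  let Φ : braidLie4 →ₗ[ℚ] A := (braidIdeal4 : Submodule ℚ FreeBraid4).liftQ G.toLinearMap hI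
  have hΦ : ∀ u v, Φ ⁅u, v⁆ = ⁅Φ u, Φ v⁆ := by
    rintro ⟨u⟩ ⟨v⟩
    exact G.map_lie u v
  have hB : ∀ i j, Φ (tB i j) = t i j := hG
  have h := congrArg Φ hu
  simpa [pentagonDefect, pdef, br_subst Φ hΦ, hB] using h

theorem br_rho {g : Type} [LieRing g] [LieAlgebra ℚ g] (a b : g) {n : ℕ} {u : GTLie}
    (hu : u ∈ weightSubspace (fun _ : Fin 2 => 1) n) :
    ev (rho a) (rho b) (toFA (Fin 2) u) (0, 1) = (-((n : ℚ) • gtSubst a b u), 0) := by
  have h := lift_rho (fun i : Fin 2 => if i = 0 then a else b) hu 0 1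
  rw [← dy_ev, lie_zero, zero_sub, one_mul] at h
  exact h

/-- `rho (tB i j)` is a system in `End (braidLie4 × ℚ)` (`rho_commute`); evaluate the pentagon at
`(0, 1)` with `lift_rho`. -/
theorem pentagonDefect_of_lPent {n : ℕ} (hn : 1 ≤ n) {u : GTLie}
    (hu : u ∈ weightSubspace (fun _ : Fin 2 => 1) n) (h : LPent (toFA (Fin 2) u)) :
    pentagonDefect u = 0 := by
  have h0 : ∀ r ∈ braidRelations4, (LieSubmodule.Quotient.mk r : braidLie4) = 0 := fun r hr =>
    LieSubmodule.Quotient.mk_eq_zero'.2 (LieSubmodule.subset_lieSpan hr)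
  have hs : IsSys fun i j => rho (tB i j) := by
    refine ⟨fun i => ?_, fun i j => by rw [tB, br_tFree_symm, tB],
      fun i j k l a1 a2 a3 a4 a5 a6 => rho_commute
        (h0 _ (Or.inl ⟨i, j, k, l, a1, a2, a3, a4, a5, a6, rfl⟩)), fun i j k a1 a2 a3 => ?_⟩
    · have : tB i i = 0 := by simp [tB, tFree]
      rw [this, map_zero]
    · rw [← map_add]
      exact rho_commute (h0 _ (Or.inr ⟨i, j, k, a1, a2, a3, rfl⟩))
  have h1 := congrArg (fun E : Module.End ℚ (braidLie4 × ℚ) => (E (0, 1)).1) (h _ _ hs)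
  simp only [pdef, LinearMap.add_apply, LinearMap.sub_apply, AlgHom.toLinearMap_apply, ← map_add,
    br_rho _ _ hu, Prod.fst_add, Prod.fst_sub, LinearMap.zero_apply, Prod.fst_zero] at h1
  have h2 : (n : ℚ) • pentagonDefect u = 0 := by
    rw [← neg_eq_zero, ← h1]
    simp only [pentagonDefect, LinearMap.add_apply, LinearMap.sub_apply, LieHom.coe_toLinearMap]
    module
  exact (smul_eq_zero.1 h2).resolve_left (Nat.cast_ne_zero.2 (by omega))

theorem br_asym (u : GTLie) : toFA (Fin 2) (antisymDefect u) = asym ℚ (toFA (Fin 2) u) := by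
  simp [antisymDefect, asym, toFA_gtSubst, toFA_gx, toFA_gy]

theorem br_hex (u : GTLie) : toFA (Fin 2) (threeTermDefect u) = hex ℚ (toFA (Fin 2) u) := by
  simp [threeTermDefect, hex, toFA_gtSubst, toFA_gx, toFA_gy]

theorem mem_grtSpace_of_Sol {n : ℕ} (hn : 2 ≤ n) {u : GTLie}
    (hu : u ∈ weightSubspace (fun _ : Fin 2 => 1) n) (h : toFA (Fin 2) u ∈ Sol ℚ n) :
    u ∈ grtSpace := by
  refine ⟨⟨toFA_injective _ ?_, toFA_injective _ ?_⟩,
    pentagonDefect_of_lPent (by omega) hu (Sol.lPent (by omega) h)⟩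
  · rw [br_asym, map_zero]
    exact h.1.1.2
  · rw [br_hex, map_zero]
    exact h.1.2

/-- `map_proj` with `asym_mem_HomF`, `hex_mem_HomF`, `pentV_mem_HomF`; `proj_toFA`. -/
theorem proj_mem_Sol {u : GTLie} (hu : u ∈ grtSpace) (n : ℕ) :
    proj n (toFA (Fin 2) u) ∈ Sol ℚ n := by
  obtain ⟨v, hv, e⟩ := proj_toFA n u
  have h1 : antisymDefect u = 0 := hu.1.1
  have h2 : threeTermDefect u = 0 := hu.1.2
  refine ⟨⟨⟨e ▸ toFA_mem hv, ?_⟩, ?_⟩, ?_⟩
  · change asym ℚ _ = 0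
    rw [map_proj _ fun _ _ => asym_mem_HomF, ← br_asym, h1, map_zero, map_zero]
  · change hex ℚ _ = 0
    rw [map_proj _ fun _ _ => hex_mem_HomF, ← br_hex, h2, map_zero, map_zero]
  · change pentV ℚ _ = 0
    rw [map_proj _ fun _ _ => pentV_mem_HomF, (lPent_of_pentagonDefect hu.2).pentV_eq, map_zero]

end

end Crest.Agent.R10
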