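import Crest.Agent.R10.Grade

/-!
# R10/Ihara: the Ihara action on the free algebra; edge lemmas; exponentials
-/

set_option autoImplicit false
set_option linter.unusedVariables false

namespace Crest.Agent.R10

noncomputable section

open FreeAlgebra

variable {R : Type} [CommRing R] {A : Type} [Ring A] [Algebra R A]

theorem isDer_ihD (ψ : T R) : IsDer (ihD ψ) := isDer_der _

@[simp] theorem ihD_xx (ψ : T R) : ihD ψ (xx R) = 0 := by simp [ihD, xx, der_ι]

@[simp] theorem ihD_yy (ψ : T R) : ihD ψ (yy R) = ⁅yy R, ψ⁆ := by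
  simp [ihD, yy, der_ι]

theorem act_apply (ψ u : T R) : act ψ u = ihD ψ u + ψ * u := by simp [act]

theorem act_one (ψ : T R) : act ψ 1 = ψ := by simp [act_apply, (isDer_ihD ψ).map_one]

theorem ih_der_ext {D D' : T R →ₗ[R] T R} (h : IsDer D) (h' : IsDer D')
    (hx : D (xx R) = D' (xx R)) (hy : D (yy R) = D' (yy R)) : D = D' := by
  refine h.ext h' (adjoin_range_ι R (Fin 2)) ?_
  rintro _ ⟨i, rfl⟩
  fin_cases i
  · exact hx
  · exact hy

theorem ihD_add (ψ φ : T R) : ihD (ψ + φ) = ihD ψ + ihD φ :=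
  ih_der_ext (isDer_ihD _) ((isDer_ihD _).add (isDer_ihD _)) (by simp) (by simp [bs_lie_add])

theorem ihD_smul (c : R) (ψ : T R) : ihD (c • ψ) = c • ihD ψ := by
  refine ih_der_ext (isDer_ihD _) (fun u v => ?_) (by simp) (by simp [bs_lie_smul])
  simp only [LinearMap.smul_apply, isDer_ihD ψ u v, smul_add, smul_mul_assoc, mul_smul_comm]

theorem ihD_zero : ihD (0 : T R) = 0 := by
  have := ihD_smul (0 : R) (0 : T R)
  rwa [zero_smul, zero_smul] at this

theorem ihD_lie (ψ φ : T R) :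
    (ihD ψ * ihD φ - ihD φ * ihD ψ : Module.End R (T R)) = ihD (ih ψ φ) := by
  refine ih_der_ext ((isDer_ihD ψ).comm (isDer_ihD φ)) (isDer_ihD _) (by simp) ?_
  simp only [LinearMap.sub_apply, Module.End.mul_apply, ihD_yy, (isDer_ihD _).map_lie, ih]
  simp only [Ring.lie_def]
  noncomm_ring

theorem act_zero : act (0 : T R) = 0 := by
  refine LinearMap.ext fun u => ?_
  simp [act_apply, ihD_zero]

theorem act_add (ψ φ : T R) : act (ψ + φ) = act ψ + act φ := by
  refine LinearMap.ext fun u => ?_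
  simp only [act_apply, ihD_add, LinearMap.add_apply, add_mul]
  abel

theorem act_smul (c : R) (ψ : T R) : act (c • ψ) = c • act ψ := by
  refine LinearMap.ext fun u => ?_
  simp only [act_apply, ihD_smul, LinearMap.smul_apply, smul_add, smul_mul_assoc]

/-- `⁅D_ψ, D_φ⁆ = D_{ih ψ φ}` (derivations, check on `x`, `y`), `⁅D, L_φ⁆ = L_{D φ}`. -/
theorem act_lie (ψ φ : T R) : act ψ * act φ - act φ * act ψ = act (ih ψ φ) := by
  refine LinearMap.ext fun u => ?_
  have h := DFunLike.congr_fun (ihD_lie ψ φ) u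
  simp only [LinearMap.sub_apply, Module.End.mul_apply] at h
  simp only [LinearMap.sub_apply, Module.End.mul_apply, act_apply, map_add, isDer_ihD ψ φ u,
    isDer_ihD φ ψ u]
  rw [← h, ih, Ring.lie_def]
  noncomm_ring

theorem ih_add_left (ψ ψ' φ : T R) : ih (ψ + ψ') φ = ih ψ φ + ih ψ' φ := by
  simp only [ih, ihD_add, LinearMap.add_apply, map_add, bs_add_lie]
  abel

theorem ih_add_right (ψ φ φ' : T R) : ih ψ (φ + φ') = ih ψ φ + ih ψ φ' := by
  simp only [ih, ihD_add, LinearMap.add_apply, map_add, bs_lie_add]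
  abel

theorem ih_smul_left (c : R) (ψ φ : T R) : ih (c • ψ) φ = c • ih ψ φ := by
  simp only [ih, ihD_smul, LinearMap.smul_apply, map_smul, bs_smul_lie, smul_add, smul_sub]

theorem ih_smul_right (c : R) (ψ φ : T R) : ih ψ (c • φ) = c • ih ψ φ := by
  simp only [ih, ihD_smul, LinearMap.smul_apply, map_smul, bs_lie_smul, smul_add, smul_sub]

theorem ihD_mem_L {m n : ℕ} {ψ φ : T R} (hψ : ψ ∈ L R m) (hφ : φ ∈ L R n) :
    ihD ψ φ ∈ L R (n + m) := by
  refine der_mem_Lw (fun i => ?_) hφ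
  fin_cases i
  · exact zero_mem _
  · exact lie_mem_Lw yy_mem hψ

theorem ih_mem_L {m n : ℕ} {ψ φ : T R} (hψ : ψ ∈ L R m) (hφ : φ ∈ L R n) :
    ih ψ φ ∈ L R (m + n) := by
  refine add_mem (sub_mem ?_ (ihD_mem_L hφ hψ)) (lie_mem_Lw hψ hφ)
  rw [add_comm]; exact ihD_mem_L hψ hφ

theorem act_mem_FilF {m n : ℕ} {ψ u : T R} (hψ : ψ ∈ L R m) (hu : u ∈ FilF R (Fin 2) n) :
    act ψ u ∈ FilF R (Fin 2) (n + m) := by
  rw [act_apply]
  refine add_mem ((isDer_ihD ψ).mem_Fil ?_ hu) ?_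
  · rintro _ ⟨i, rfl⟩
    fin_cases i
    · have : ihD ψ (xx R) ∈ FilF R (Fin 2) (1 + m) := by rw [ihD_xx]; exact zero_mem _
      exact this
    · have : ihD ψ (yy R) ∈ FilF R (Fin 2) (1 + m) := by
        rw [ihD_yy]; exact Hom_le_Fil _ le_rfl (Lw_le_HomF _ (lie_mem_Lw yy_mem hψ))
      exact this
  · rw [add_comm]
    exact mul_mem_Fil (Hom_le_Fil _ le_rfl (Lw_le_HomF _ hψ)) hu

/-- On `Fil 1` the action gains one more degree than on `1`:
`act ψ u - c • ψ ∈ Fil (m+1)` if `u - c ∈ Fil 1`; here `c = 1`. -/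
theorem act_sub_mem_FilF {m : ℕ} {ψ u : T R} (hψ : ψ ∈ L R m) (hu : u - 1 ∈ FilF R (Fin 2) 1) :
    act ψ u - ψ ∈ FilF R (Fin 2) (m + 1) := by
  have h := act_mem_FilF hψ hu
  rwa [map_sub, act_one, add_comm] at h

theorem ih_edge_aux {ψ : T R} {a b hp hq : A} (h : hq - hp = ev a b ψ) (i : Fin 2) :
    (![⁅a, hp⁆, ⁅b, hq⁆] : Fin 2 → A) i =
      lift R ![a, b] ((![0, ⁅yy R, ψ⁆] : Fin 2 → T R) i) + ⁅(![a, b] : Fin 2 → A) i, hp⁆ := by
  fin_cases i
  · simp
  · have e : lift R ![a, b] ⁅yy R, ψ⁆ = ⁅b, hq - hp⁆ := by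
      rw [h]
      exact (map_lie' (ev a b) _ _).trans (by rw [ev_yy])
    simp only [Fin.mk_one, Matrix.cons_val_one, Matrix.cons_val_fin_one]
    rw [e]
    simp only [Ring.lie_def]
    noncomm_ring

/-- Edge lemma for a derivation (`IsDer.map_lift`). -/
theorem edge_der {δ : A →ₗ[R] A} (hδ : IsDer δ) {ψ : T R} {a b hp hq : A} (ha : δ a = ⁅a, hp⁆)
    (hb : δ b = ⁅b, hq⁆) (h : hq - hp = ev a b ψ) (u : T R) :
    ev a b (act ψ u) = δ (ev a b u) + hq * ev a b u - ev a b u * hp := by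
  have h1 : δ (ev a b u) = ev a b (ihD ψ u) + ⁅ev a b u, hp⁆ := by
    refine hδ.map_lift (a := ![a, b]) (d := ![0, ⁅yy R, ψ⁆]) (h := hp) (fun i => ?_) u
    rw [← ih_edge_aux h i]
    fin_cases i
    · exact ha
    · exact hb
  rw [act_apply, map_add, map_mul, h1, ← h, Ring.lie_def]
  noncomm_ring

/-- Edge lemma for dual numbers (`lift_dual`). -/
theorem edge_dual {ψ : T R} {a b a' b' hp hq : A} (ha : a' = ⁅a, hp⁆) (hb : b' = ⁅b, hq⁆)
    (h : hq - hp = ev a b ψ) (u : T R) :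
    (ev (TrivSqZeroExt.inl a + TrivSqZeroExt.inr a' : TrivSqZeroExt A A)
      (TrivSqZeroExt.inl b + TrivSqZeroExt.inr b') u).snd =
      ev a b (ihD ψ u) + ⁅ev a b u, hp⁆ := by
  have h1 := lift_dual (R := R) (a := ![a, b]) (d := ![0, ⁅yy R, ψ⁆]) (h := hp)
    (a' := ![⁅a, hp⁆, ⁅b, hq⁆]) (ih_edge_aux h) u
  have e : (![TrivSqZeroExt.inl a + TrivSqZeroExt.inr a',
      TrivSqZeroExt.inl b + TrivSqZeroExt.inr b'] : Fin 2 → TrivSqZeroExt A A) =
      fun i => TrivSqZeroExt.inl ((![a, b] : Fin 2 → A) i) +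
        TrivSqZeroExt.inr ((![⁅a, hp⁆, ⁅b, hq⁆] : Fin 2 → A) i) := by
    funext i
    fin_cases i
    · simp [ha]
    · simp [hb]
  unfold ev ihD
  rw [e, h1]
  simp

/-- If `b` commutes with `ψ(a, b)`, the action becomes left multiplication (`lift_der_eq_zero`). -/
theorem ev_act_of_commute {ψ : T R} {a b : A} (h : Commute b (ev a b ψ)) (u : T R) :
    ev a b (act ψ u) = ev a b ψ * ev a b u := by
  have h1 : ev a b (ihD ψ u) = 0 := by
    refine lift_der_eq_zero (a := ![a, b]) (d := ![0, ⁅yy R, ψ⁆]) (fun i => ?_) u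
    fin_cases i
    · simp
    · have e : ev a b ⁅yy R, ψ⁆ = 0 := by rw [map_lie', ev_yy, bs_lie_of_commute h]
      exact e
  rw [act_apply, map_add, map_mul, h1, zero_add]

section exp

variable {K : Type} [Field K] [CharZero K] {U : Type} [Ring U] [Algebra K U]

/-- The operator `u ↦ δ u + hq u - u hp`. -/
def edgeOp (δ : U →ₗ[K] U) (hp hq : U) : Module.End K U :=
  δ + LinearMap.mulLeft K hq - LinearMap.mulRight K hp

/-- Truncated exponential of an operator. -/
def texp {M : Type} [AddCommGroup M] [Module K M] (N : ℕ) (S : Module.End K M) :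
    Module.End K M := ∑ k ∈ Finset.range (N + 1), ((k.factorial : K)⁻¹) • S ^ k

theorem edgeOp_apply (δ : U →ₗ[K] U) (hp hq u : U) :
    edgeOp δ hp hq u = δ u + hq * u - u * hp := by simp [edgeOp]

theorem texp_apply {M : Type} [AddCommGroup M] [Module K M] (N : ℕ) (S : Module.End K M) (u : M) :
    texp N S u = ∑ k ∈ Finset.range (N + 1), ((k.factorial : K)⁻¹) • (S ^ k) u := by
  simp [texp, LinearMap.sum_apply]

theorem map_texp {M M' : Type} [AddCommGroup M] [Module K M] [AddCommGroup M'] [Module K M']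
    (f : M →ₗ[K] M') {S : Module.End K M} {S' : Module.End K M'} (h : ∀ u, f (S u) = S' (f u))
    (N : ℕ) (u : M) : f (texp N S u) = texp N S' (f u) := by
  have hk : ∀ (k : ℕ) (u : M), f ((S ^ k) u) = (S' ^ k) (f u) := by
    intro k
    induction k with
    | zero => intro u; simp
    | succ k ih => intro u; rw [pow_succ, pow_succ, Module.End.mul_apply, Module.End.mul_apply, ih, h]
  simp only [texp_apply, map_sum, map_smul, hk]

/-- `edgeOp` raises `Fil` by one. -/
theorem edgeOp_pow {G : Set U} (hG : Algebra.adjoin K G = ⊤) {N : ℕ} (hN : Nil K G N)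
    {δ : U →ₗ[K] U} (hδ : IsDer δ) (hd : ∀ g ∈ G, δ g ∈ Fil K G 2) {hp hq : U}
    (h1 : hp ∈ Fil K G 1) (h2 : hq ∈ Fil K G 1) : edgeOp δ hp hq ^ (N + 1) = 0 := by
  have hk : ∀ (k : ℕ) (u : U), (edgeOp δ hp hq ^ k) u ∈ Fil K G k := by
    intro k u
    induction k with
    | zero => rw [Fil_zero_eq_top hG]; trivial
    | succ k ih =>
      rw [pow_succ', Module.End.mul_apply, edgeOp_apply]
      refine sub_mem (add_mem (hδ.mem_Fil (m := 1) hd ih) ?_) (mul_mem_Fil ih h1)
      rw [add_comm]; exact mul_mem_Fil h2 ih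
  refine LinearMap.ext fun u => ?_
  have := hk (N + 1) u
  rwa [hN.Fil_eq_bot, Submodule.mem_bot] at this

theorem edgeOp_mul {δ : U →ₗ[K] U} (hδ : IsDer δ) (hp hq hr u v : U) :
    edgeOp δ hp hr (u * v) = edgeOp δ hq hr u * v + u * edgeOp δ hp hq v := by
  simp only [edgeOp_apply, hδ u v]
  noncomm_ring

theorem ih_term_succ (S : Module.End K U) (u : U) (k : ℕ) :
    S (((k.factorial : K)⁻¹) • (S ^ k) u) =
      ((k : K) + 1) • ((((k + 1).factorial : K)⁻¹) • (S ^ (k + 1)) u) := by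
  rw [map_smul, smul_smul, pow_succ', Module.End.mul_apply]
  congr 1
  have h1 : (k.factorial : K) ≠ 0 := by exact_mod_cast k.factorial_ne_zero
  have h2 : (k : K) + 1 ≠ 0 := by exact_mod_cast k.succ_ne_zero
  rw [Nat.factorial_succ]
  push_cast
  field_simp

theorem ih_term_zero {S : Module.End K U} {N : ℕ} (h : S ^ (N + 1) = 0) (u : U) {k : ℕ}
    (hk : N + 1 ≤ k) : ((k.factorial : K)⁻¹) • (S ^ k) u = 0 := by
  rw [pow_eq_zero_of_le hk h]; simp

theorem ih_binom {S S1 S2 : Module.End K U} (h : ∀ u v, S (u * v) = S1 u * v + u * S2 v)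
    (u v : U) (n : ℕ) : ((n.factorial : K)⁻¹) • (S ^ n) (u * v) =
      ∑ p ∈ Finset.HasAntidiagonal.antidiagonal n, (((p.1.factorial : K)⁻¹) • (S1 ^ p.1) u) *
        (((p.2.factorial : K)⁻¹) • (S2 ^ p.2) v) := by
  set a : ℕ → U := fun k => ((k.factorial : K)⁻¹) • (S1 ^ k) u with ha
  set b : ℕ → U := fun k => ((k.factorial : K)⁻¹) • (S2 ^ k) v with hb
  change _ = ∑ p ∈ Finset.HasAntidiagonal.antidiagonal n, a p.1 * b p.2
  induction n with
  | zero => simp [ha, hb]
  | succ n ih =>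
    have h2 : (n : K) + 1 ≠ 0 := by exact_mod_cast n.succ_ne_zero
    refine smul_right_injective U h2 ?_
    simp only
    rw [← ih_term_succ, ih, map_sum]
    have e1 : ∀ p : ℕ × ℕ, S (a p.1 * b p.2) =
        ((p.1 : K) + 1) • (a (p.1 + 1) * b p.2) + ((p.2 : K) + 1) • (a p.1 * b (p.2 + 1)) := by
      intro p
      rw [h, ← smul_mul_assoc, ← mul_smul_comm]
      simp only [ha, hb]
      rw [ih_term_succ, ih_term_succ]
    simp only [e1, Finset.sum_add_distrib]
    have e2 : ∑ p ∈ Finset.HasAntidiagonal.antidiagonal n, ((p.1 : K) + 1) • (a (p.1 + 1) * b p.2) =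
        ∑ p ∈ Finset.HasAntidiagonal.antidiagonal (n + 1), (p.1 : K) • (a p.1 * b p.2) := by
      rw [Finset.Nat.sum_antidiagonal_succ]; simp
    have e3 : ∑ p ∈ Finset.HasAntidiagonal.antidiagonal n, ((p.2 : K) + 1) • (a p.1 * b (p.2 + 1)) =
        ∑ p ∈ Finset.HasAntidiagonal.antidiagonal (n + 1), (p.2 : K) • (a p.1 * b p.2) := by
      rw [Finset.Nat.sum_antidiagonal_succ']; simp
    rw [e2, e3, ← Finset.sum_add_distrib, Finset.smul_sum]
    refine Finset.sum_congr rfl fun p hp => ?_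
    rw [← add_smul]
    congr 1
    exact_mod_cast Finset.HasAntidiagonal.mem_antidiagonal.1 hp

/-- Multiplicativity: `edgeOp δ hp hr (u v) = edgeOp δ hq hr u * v + u * edgeOp δ hp hq v`, so
either the binomial formula with all operators `(N+1)`-nilpotent, or (as in
`Module.End.exp_mul_of_derivation`) `IsNilpotent.exp_add_of_commute` on `U ⊗ U` together with
`IsNilpotent.exp_eq_sum`. -/
theorem texp_mul {N : ℕ} {δ : U →ₗ[K] U} (hδ : IsDer δ) {hp hq hr : U}
    (h1 : edgeOp δ hp hq ^ (N + 1) = 0) (h2 : edgeOp δ hq hr ^ (N + 1) = 0)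
    (h3 : edgeOp δ hp hr ^ (N + 1) = 0) (u v : U) :
    texp N (edgeOp δ hp hr) (u * v) = texp N (edgeOp δ hq hr) u * texp N (edgeOp δ hp hq) v := by
  simp only [texp_apply]
  have e1 : ∑ k ∈ Finset.range (N + 1), ((k.factorial : K)⁻¹) • (edgeOp δ hp hr ^ k) (u * v) =
      ∑ k ∈ Finset.range (2 * N + 1), ((k.factorial : K)⁻¹) • (edgeOp δ hp hr ^ k) (u * v) := by
    refine Finset.sum_subset (Finset.range_mono (by omega)) fun k _ hk => ?_
    exact ih_term_zero h3 _ (by simpa using hk)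
  rw [e1, Finset.sum_mul_sum, ← Finset.sum_product']
  simp only [ih_binom (edgeOp_mul hδ hp hq hr)]
  rw [← Finset.sum_biUnion]
  · symm
    refine Finset.sum_subset (fun p hp => ?_) fun p _ hp => ?_
    · simp only [Finset.mem_product, Finset.mem_range] at hp
      exact Finset.mem_biUnion.2 ⟨p.1 + p.2, Finset.mem_range.2 (by omega),
        Finset.HasAntidiagonal.mem_antidiagonal.2 rfl⟩
    · simp only [Finset.mem_product, Finset.mem_range, not_and_or, not_lt] at hp
      rcases hp with hp | hp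
      · rw [ih_term_zero h2 _ hp, zero_mul]
      · rw [ih_term_zero h1 _ hp, mul_zero]
  · intro i _ j _ hij
    refine Finset.disjoint_left.2 fun p hi hj => hij ?_
    exact (Finset.HasAntidiagonal.mem_antidiagonal.1 hi).symm.trans (Finset.HasAntidiagonal.mem_antidiagonal.1 hj)

end exp

end

end Crest.Agent.R10
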