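import Crest.Agent.R10.Special
import Crest.Agent.R10.Ihara

/-!
# R10/Deform: a solution deforms every system; closure under the Ihara bracket
-/

set_option autoImplicit false
set_option linter.unusedVariables false

namespace Crest.Agent.R10

noncomputable section

open FreeAlgebra

variable {K : Type} [Field K] [CharZero K] {A : Type} [Ring A] [Algebra K A]

/-- First order deformation `t + ε d` of a system along `ψ`, with the potentials of the five
vertices `((01)2)3, (0(12))3, 0((12)3), 0(1(23)), (01)(23)`. -/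
structure IsDef (ψ : T K) (t d : Fin 4 → Fin 4 → A) (h1 h2 h3 h4 h5 : A) : Prop where
  sys : IsSys fun i j =>
    (TrivSqZeroExt.inl (t i j) + TrivSqZeroExt.inr (d i j) : TrivSqZeroExt A A)
  a1 : d 0 1 = ⁅t 0 1, h1⁆
  b1 : d 1 2 = ⁅t 1 2, h2⁆
  e1 : h2 - h1 = ev (t 0 1) (t 1 2) ψ
  a2 : d 0 1 + d 0 2 = ⁅t 0 1 + t 0 2, h2⁆
  b2 : d 1 3 + d 2 3 = ⁅t 1 3 + t 2 3, h3⁆
  e2 : h3 - h2 = ev (t 0 1 + t 0 2) (t 1 3 + t 2 3) ψ
  a3 : d 1 2 = ⁅t 1 2, h3⁆
  b3 : d 2 3 = ⁅t 2 3, h4⁆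
  e3 : h4 - h3 = ev (t 1 2) (t 2 3) ψ
  a4 : d 0 2 + d 1 2 = ⁅t 0 2 + t 1 2, h1⁆
  b4 : d 2 3 = ⁅t 2 3, h5⁆
  e4 : h5 - h1 = ev (t 0 2 + t 1 2) (t 2 3) ψ
  a5 : d 0 1 = ⁅t 0 1, h5⁆
  b5 : d 1 2 + d 1 3 = ⁅t 1 2 + t 1 3, h4⁆
  e5 : h4 - h5 = ev (t 0 1) (t 1 2 + t 1 3) ψ

theorem dfm_add (a a' b b' : A) :
    (TrivSqZeroExt.inl a + TrivSqZeroExt.inr a' + (TrivSqZeroExt.inl b + TrivSqZeroExt.inr b') :
      TrivSqZeroExt A A) = TrivSqZeroExt.inl (a + b) + TrivSqZeroExt.inr (a' + b') := by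
  ext <;> simp

theorem dfm_comm {a a' b b' u : A} (h : Commute a b) (ha : a' = ⁅a, u⁆) (hb : b' = ⁅b, u⁆) :
    Commute (TrivSqZeroExt.inl a + TrivSqZeroExt.inr a' : TrivSqZeroExt A A)
      (TrivSqZeroExt.inl b + TrivSqZeroExt.inr b') := by
  subst ha hb
  refine TrivSqZeroExt.ext (by simpa using h.eq) ?_
  simp only [TrivSqZeroExt.snd_mul, TrivSqZeroExt.fst_add, TrivSqZeroExt.snd_add,
    TrivSqZeroExt.fst_inl, TrivSqZeroExt.fst_inr, TrivSqZeroExt.snd_inl, TrivSqZeroExt.snd_inr,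
    add_zero, zero_add, smul_eq_mul, MulOpposite.smul_eq_mul_unop, MulOpposite.unop_op,
    Ring.lie_def]
  have e : a * (b * u - u * b) + (a * u - u * a) * b - (b * (a * u - u * a) + (b * u - u * b) * a) =
      (a * b - b * a) * u - u * (a * b - b * a) := by noncomm_ring
  rw [← sub_eq_zero, e, h.eq, sub_self, zero_mul, mul_zero, sub_self]

theorem dfm_sys5 {t : Fin 4 → Fin 4 → A} (ht : IsSys t) (i j : Fin 4) :
    sys5 t i.castSucc j.castSucc = t i j ∨ sys5 t i.castSucc j.castSucc = t i j - csum t := by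
  have a := ht.diag
  have b := ht.symm
  fin_cases i <;> fin_cases j <;>
    first
    | exact Or.inl rfl
    | exact Or.inr rfl
    | exact Or.inl (a _).symm
    | exact Or.inl (b _ _)
    | exact Or.inr (congrArg (· - csum t) (b _ _))

theorem dfm_third : ∀ i j : Fin 5, ∃ k, i ≠ j → D3 i j k := by decide

theorem dfm_five : ∀ i j k : Fin 5, D3 i j k → ∃ l m, D5 i j k l m := by decide

theorem dfm_ne : ∀ i j k l m : Fin 5, D5 i j k l m →
    l ≠ m ∧ l ≠ i ∧ l ≠ j ∧ l ≠ k ∧ m ≠ i ∧ m ≠ j ∧ m ≠ k := by decide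

theorem dfm_loc : ∀ i j k l : Fin 4, i ≠ j → i ≠ k → i ≠ l → j ≠ k → j ≠ l → k ≠ l →
    D5 i.castSucc j.castSucc 4 k.castSucc l.castSucc ∧ D3 i.castSucc j.castSucc 4 ∧
      D3 k.castSucc l.castSucc 4 := by decide

theorem dfm_lie_add (a b c : A) : ⁅a, b + c⁆ = ⁅a, b⁆ + ⁅a, c⁆ := bs_lie_add a b c

/-- Take `x = sys5 t`, `h` from `exists_pot_sol`, `D i j = ⁅x i j, h i j k⁆` (any admissible `k`;
`D i i = 0`), `d i j = D i j` for `i, j < 4`, and `h1 = h 0 1 2`, `h2 = h 1 2 0`, `h3 = h 1 2 3`,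
`h4 = h 2 3 1`, `h5 = h 0 1 4`.  All `h i j k` commute with `csum t` (last clause with the
centraliser), so `⁅x i j, h⁆ = ⁅t i j, h⁆`.  By `special`, for `D5 i j k l m`:
`D i j + D j k + D i k = D l m = ⁅x l m, h i j k⁆ = ⁅x i j + x j k + x i k, h i j k⁆`.
Relations: for disjoint chords `ij, kl` both `D`'s are brackets with `h i j m = h k l m`; for a
triple, `D i j` and `D i j + D i k + D j k` are brackets with `h i j k`; `ad h` is a derivation.
The edge values are those of `cyc_pent` (`ev_shift`). -/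
theorem exists_def {n : ℕ} (hn : n ≠ 1) {ψ : T K} (hψ : ψ ∈ Sol K n) {t : Fin 4 → Fin 4 → A}
    (ht : IsSys t) : ∃ (d : Fin 4 → Fin 4 → A) (h1 h2 h3 h4 h5 : A), IsDef ψ t d h1 h2 h3 h4 h5 ∧
      (∀ i j, d i j ∈ Hom K (chords t) (n + 1)) ∧ h1 ∈ Hom K (chords t) n ∧
      h2 ∈ Hom K (chords t) n ∧ h3 ∈ Hom K (chords t) n ∧ h4 ∈ Hom K (chords t) n ∧
      h5 ∈ Hom K (chords t) n := by
  have hx := ht.isSys5
  have hL : ψ ∈ L K n := hψ.1.1.1
  obtain ⟨h, hs, hc, he, hb, hS⟩ := exists_pot_sol hn hψ hx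
  choose κ hκ using dfm_third
  obtain ⟨D, hD0⟩ : ∃ D : Fin 5 → Fin 5 → A, ∀ i j, D i j = ⁅sys5 t i j, h i j (κ i j)⁆ :=
    ⟨_, fun _ _ => rfl⟩
  have hD : ∀ i j k, D3 i j k → D i j = ⁅sys5 t i j, h i j k⁆ := fun i j k hd => by
    rw [hD0, hb i j _ k (hκ i j hd.1) hd]
  have hT : ∀ i j k, D3 i j k → D i k + D j k = ⁅sys5 t i k + sys5 t j k, h i j k⁆ := by
    intro i j k hd
    obtain ⟨l, m, h5⟩ := dfm_five i j k hd
    obtain ⟨n1, n2, n3, n4, n5, n6, n7⟩ := dfm_ne i j k l m h5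
    have e1 := he i j k hd
    have e2 := he j i k ⟨hd.1.symm, hd.2.2, hd.2.1⟩
    rw [← hs i j k hd, hx.symm j i] at e2
    have e3 := special (a := sys5 t i j) (b := sys5 t j k) (c := sys5 t i k) hn hψ
      (by rw [hx.tri K h5]; exact hx.loc l m j k n1 n3 n4 n6 n7 hd.2.2)
      (by rw [hx.tri K h5]; exact hx.loc l m i k n1 n2 n4 n5 n7 hd.2.1)
    rw [hD i k j ⟨hd.2.1, hd.1, hd.2.2.symm⟩, hD j k i ⟨hd.2.2, hd.1.symm, hd.2.1.symm⟩,
      eq_add_of_sub_eq' e1, eq_add_of_sub_eq' e2, dfm_lie_add, dfm_lie_add, bs_add_lie,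
      ← add_zero (_ + ⁅sys5 t j k, h i j k⁆), ← e3]
    abel
  have hct : ∀ i j, Commute (csum t) (t i j) := ht.central
  have hcx : ∀ i j, Commute (csum t) (sys5 t i j) := fun i j => by
    have h1 := sys5_mem K t i j
    rw [Hom, pow_one] at h1
    generalize sys5 t i j = u at h1 ⊢
    induction h1 using Submodule.span_induction with
    | mem u hu =>
      obtain ⟨p, q, rfl⟩ := hu
      exact hct p q
    | zero => exact Commute.zero_right _
    | add u v _ _ hu hv => exact hu.add_right hv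
    | smul c u _ hu => exact hu.smul_right c
  have hch : ∀ i j k, Commute (csum t) (h i j k) := fun i j k => by
    have := hS (Subalgebra.centralizer K {csum t}).toSubmodule.toAddSubgroup (fun i j k _ =>
      (Subalgebra.mem_centralizer_iff K).2 fun g hg => by
        rw [Set.mem_singleton_iff.1 hg]
        exact (commute_ev (hcx i j) (hcx j k) ψ).eq) i j k
    exact (Subalgebra.mem_centralizer_iff K).1 this _ rfl
  have hxt : ∀ (i j : Fin 4) p q r, ⁅sys5 t i.castSucc j.castSucc, h p q r⁆ = ⁅t i j, h p q r⁆ := by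
    intro i j p q r
    rcases dfm_sys5 ht i j with e | e
    · rw [e]
    · rw [e, Ring.lie_def, Ring.lie_def, sub_mul, mul_sub, (hch p q r).eq]
      abel
  have hd : ∀ (i j : Fin 4) k, D3 i.castSucc j.castSucc k →
      D i.castSucc j.castSucc = ⁅t i j, h i.castSucc j.castSucc k⁆ := fun i j k hk => by
    rw [hD _ _ k hk, hxt]
  have ht3 : ∀ i j k : Fin 4, D3 i.castSucc j.castSucc k.castSucc →
      D i.castSucc k.castSucc + D j.castSucc k.castSucc =
        ⁅t i k + t j k, h i.castSucc j.castSucc k.castSucc⁆ := fun i j k hk => by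
    rw [hT _ _ _ hk, bs_add_lie, hxt, hxt, bs_add_lie]
  have hsy : ∀ i j, D i j = D j i := fun i j => by
    by_cases e : i = j
    · rw [e]
    · have a := hκ i j e
      rw [hD i j _ a, hD j i _ ⟨a.1.symm, a.2.2, a.2.1⟩, hx.symm, hs i j _ a]
  have hm : ∀ i j k, h i j k ∈ Hom K (chords t) n :=
    hS (Hom K (chords t) n).toAddSubgroup fun i j k _ =>
      fib_ev_mem (sys5_mem K t i j) (sys5_mem K t j k) (Lw_le_HomF n hL)
  have f120 := ht.four 1 2 0 (by decide) (by decide) (by decide)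
  have f123 := ht.four 1 2 3 (by decide) (by decide) (by decide)
  have f012 := ht.four 0 1 2 (by decide) (by decide) (by decide)
  have f231 := ht.four 2 3 1 (by decide) (by decide) (by decide)
  have l01 := ht.loc 0 1 2 3 (by decide) (by decide) (by decide) (by decide) (by decide) (by decide)
  rw [ht.symm 1 0, ht.symm 2 0] at f120
  rw [ht.symm 2 1, ht.symm 3 1] at f231
  refine ⟨fun i j => D i.castSucc j.castSucc, h 0 1 2, h 1 2 0, h 1 2 3, h 2 3 1, h 0 1 4,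
    ⟨⟨fun i => ?_, fun i j => ?_, fun i j k l a1 a2 a3 a4 a5 a6 => ?_, fun i j k a1 a2 a3 => ?_⟩,
      hd 0 1 2 (by decide), hd 1 2 0 (by decide), ?_, ?_, ht3 1 2 3 (by decide), ?_,
      hd 1 2 3 (by decide), hd 2 3 1 (by decide), he 1 2 3 (by decide), ht3 0 1 2 (by decide), ?_, ?_,
      hd 0 1 4 (by decide), ?_, ?_⟩, fun i j => ?_, hm _ _ _, hm _ _ _, hm _ _ _, hm _ _ _, hm _ _ _⟩
  · rw [hD0, hx.diag, bs_zero_lie, ht.diag]
    simp
  · rw [hsy, ht.symm]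
  · obtain ⟨b1, b2, b3⟩ := dfm_loc i j k l a1 a2 a3 a4 a5 a6
    exact dfm_comm (ht.loc i j k l a1 a2 a3 a4 a5 a6) (hd i j 4 b2)
      (by rw [hc _ _ _ _ _ b1]; exact hd k l 4 b3)
  · have b : D3 i.castSucc j.castSucc k.castSucc := ⟨(Fin.castSucc_injective _).ne a1,
      (Fin.castSucc_injective _).ne a2, (Fin.castSucc_injective _).ne a3⟩
    rw [dfm_add]
    exact dfm_comm (ht.four i j k a1 a2 a3) (hd i j _ b) (ht3 i j k b)
  · rw [he 0 1 2 (by decide), ← ev_shift (z := -csum t) (w := 0) (hct 0 1).neg_left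
      (hct 1 2).neg_left (Commute.zero_left _) (Commute.zero_left _) (Commute.zero_right _) hn hL,
      add_zero, ← sub_eq_add_neg]
    rfl
  · have := ht3 1 2 0 (by decide)
    rwa [ht.symm 1 0, ht.symm 2 0, hsy (Fin.castSucc 1), hsy (Fin.castSucc 2)] at this
  · rw [hc 1 2 3 0 4 (by decide), hs 0 4 3 (by decide), hc 1 2 0 3 4 (by decide),
      he 3 4 0 (by decide), ← ev_shift (z := t 1 2 - csum t) (w := t 1 2)
      (f120.sub_left ((hct 0 1).add_right (hct 0 2))) (f123.sub_left ((hct 1 3).add_right (hct 2 3)))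
      f120 f123 ((Commute.refl _).sub_left (hct 1 2)) hn hL]
    have a : sys5 t 3 4 = t 0 1 + t 0 2 + (t 1 2 - csum t) := by
      change -(t 0 3 + t 1 3 + t 2 3) = _
      rw [csum]
      abel
    have b : sys5 t 4 0 = t 1 3 + t 2 3 + t 1 2 := by
      change t 1 2 + t 1 3 + t 2 3 = _
      abel
    rw [a, b]
  · rw [hc 0 1 4 2 3 (by decide)]
    exact hd 2 3 4 (by decide)
  · rw [hc 0 1 4 2 3 (by decide), hs 2 3 4 (by decide), hc 0 1 2 4 3 (by decide),
      he 4 3 2 (by decide), ← ev_shift (z := t 0 1 - csum t) (w := 0)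
      (f012.sub_left ((hct 0 2).add_right (hct 1 2))) (l01.sub_left (hct 2 3))
      (Commute.zero_left _) (Commute.zero_left _) (Commute.zero_right _) hn hL, add_zero]
    have a : sys5 t 4 3 = t 0 2 + t 1 2 + (t 0 1 - csum t) := by
      change -(t 0 3 + t 1 3 + t 2 3) = _
      rw [csum]
      abel
    rw [a]
    rfl
  · have := ht3 2 3 1 (by decide)
    rwa [ht.symm 2 1, ht.symm 3 1, hsy (Fin.castSucc 2), hsy (Fin.castSucc 3)] at this
  · rw [hc 2 3 1 0 4 (by decide), hs 0 1 4 (by decide), he 1 0 4 (by decide),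
      ← ev_shift (z := -csum t) (w := t 2 3) (hct 0 1).neg_left
      ((hct 1 2).add_right (hct 1 3)).neg_left l01.symm f231 (hct 2 3).neg_left hn hL,
      ← sub_eq_add_neg]
    rfl
  · beta_reduce
    rw [hD0, Ring.lie_def]
    exact sub_mem (add_comm 1 n ▸ mul_mem_Hom (sys5_mem K t _ _) (hm _ _ _))
      (mul_mem_Hom (hm _ _ _) (sys5_mem K t _ _))

omit [CharZero K] in
theorem dfm_edge {ψ φ : T K} {a b a' b' p q a'' b'' p' q' : A} (ha : a' = ⁅a, p⁆)
    (hb : b' = ⁅b, q⁆) (e : q - p = ev a b ψ) (ha' : a'' = ⁅a, p'⁆) (hb' : b'' = ⁅b, q'⁆)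
    (e' : q' - p' = ev a b φ) :
    ev a b (ih ψ φ) =
      (ev (TrivSqZeroExt.inl a + TrivSqZeroExt.inr a' : TrivSqZeroExt A A)
        (TrivSqZeroExt.inl b + TrivSqZeroExt.inr b') φ).snd -
      (ev (TrivSqZeroExt.inl a + TrivSqZeroExt.inr a'' : TrivSqZeroExt A A)
        (TrivSqZeroExt.inl b + TrivSqZeroExt.inr b'') ψ).snd + (⁅q, q'⁆ - ⁅p, p'⁆) := by
  rw [edge_dual ha hb e, edge_dual ha' hb' e', ih, map_add, map_sub, map_lie', ← e, ← e']
  simp only [Ring.lie_def]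
  noncomm_ring

/-- CLOSURE.  By `mem_Sol_of_lPent` it suffices to prove `LPent (ih ψ φ)`.  Given `t`, take
`(d, h)` for `ψ` and `(d', h')` for `φ`.  On an edge `p → q` with pair `(a, b)`, `edge_dual` gives
`ev a b (ih ψ φ) = δ_e φ - δ'_e ψ + ⁅h_q, h'_q⁆ - ⁅h_p, h'_p⁆`, where `δ_e φ` is the `snd` of the
corresponding term of `pdef (t + ε d) φ = 0`.  The signed sum over the five edges vanishes. -/
theorem ih_mem_Sol {m n : ℕ} {ψ φ : T K} (hψ : ψ ∈ Sol K m) (hφ : φ ∈ Sol K n) :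
    ih ψ φ ∈ Sol K (m + n) := by
  by_cases hm : m < 3
  · rw [Sol_eq_bot hm, Submodule.mem_bot] at hψ
    rw [hψ, ← zero_smul K (0 : T K), ih_smul_left, zero_smul]
    exact zero_mem _
  by_cases hn : n < 3
  · rw [Sol_eq_bot hn, Submodule.mem_bot] at hφ
    rw [hφ, ← zero_smul K (0 : T K), ih_smul_right, zero_smul]
    exact zero_mem _
  refine mem_Sol_of_lPent (by omega) (ih_mem_L hψ.1.1.1 hφ.1.1.1) fun A _ _ t ht => ?_
  obtain ⟨d, h1, h2, h3, h4, h5, P, -⟩ := exists_def (by omega) hψ ht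
  obtain ⟨d', k1, k2, k3, k4, k5, Q, -⟩ := exists_def (by omega) hφ ht
  have e := congrArg TrivSqZeroExt.snd (Sol.lPent (by omega) hφ _ _ P.sys)
  have e' := congrArg TrivSqZeroExt.snd (Sol.lPent (by omega) hψ _ _ Q.sys)
  simp only [pdef, LinearMap.add_apply, LinearMap.sub_apply, AlgHom.toLinearMap_apply, dfm_add,
    TrivSqZeroExt.snd_add, TrivSqZeroExt.snd_sub, TrivSqZeroExt.snd_zero] at e e' ⊢
  rw [dfm_edge P.a5 P.b5 P.e5 Q.a5 Q.b5 Q.e5, dfm_edge P.a4 P.b4 P.e4 Q.a4 Q.b4 Q.e4,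
    dfm_edge P.a3 P.b3 P.e3 Q.a3 Q.b3 Q.e3, dfm_edge P.a2 P.b2 P.e2 Q.a2 Q.b2 Q.e2,
    dfm_edge P.a1 P.b1 P.e1 Q.a1 Q.b1 Q.e1, ← sub_eq_zero.2 (e.trans e'.symm)]
  abel

end

end Crest.Agent.R10
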