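import Mathlib
import Crest.Prelude.Def_GTLie

/-!
# R10/Defs: definitions for the Deligne–Drinfeld theorem (S0011)

Everything is done inside free *associative* algebras `FreeAlgebra R X` over a commutative ring `R`
(`R = ℤ, ℚ, ℝ, ZMod 2`).  `⁅a, b⁆ = a * b - b * a` (`Ring.lie_def`).
-/

set_option autoImplicit false

namespace Crest.Agent.R10

noncomputable section

open FreeAlgebra

section general

variable {R : Type} [CommRing R]

/-- Bracket monomials of weight `n` in the free associative algebra. -/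
inductive IsMon {X : Type} (wt : X → ℕ) : ℕ → FreeAlgebra R X → Prop
  | of (i : X) : IsMon wt (wt i) (ι R i)
  | lie {m n : ℕ} {a b : FreeAlgebra R X} : IsMon wt m a → IsMon wt n b → IsMon wt (m + n) ⁅a, b⁆

/-- Lie polynomials of weight `n`: the span of the bracket monomials of weight `n`. -/
def Lw (R : Type) [CommRing R] {X : Type} (wt : X → ℕ) (n : ℕ) : Submodule R (FreeAlgebra R X) :=
  Submodule.span R {a | IsMon wt n a}

/-- Span of the products of exactly `n` elements of `G`. -/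
def Hom (R : Type) [CommRing R] {A : Type} [Ring A] [Algebra R A] (G : Set A) (n : ℕ) :
    Submodule R A := (Submodule.span R G) ^ n

/-- Span of the products of at least `n` elements of `G`. -/
def Fil (R : Type) [CommRing R] {A : Type} [Ring A] [Algebra R A] (G : Set A) (n : ℕ) :
    Submodule R A := ⨆ k : ℕ, Hom R G (n + k)

/-- All products of `N + 1` elements of `G` vanish. -/
def Nil (R : Type) [CommRing R] {A : Type} [Ring A] [Algebra R A] (G : Set A) (N : ℕ) : Prop :=
  Hom R G (N + 1) = ⊥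

/-- Homogeneous elements of degree `n` (word length) of the free algebra. -/
abbrev HomF (R : Type) [CommRing R] (X : Type) (n : ℕ) : Submodule R (FreeAlgebra R X) :=
  Hom R (Set.range (ι R : X → FreeAlgebra R X)) n

/-- Elements of the free algebra all of whose words have length `≥ n`. -/
abbrev FilF (R : Type) [CommRing R] (X : Type) (n : ℕ) : Submodule R (FreeAlgebra R X) :=
  Fil R (Set.range (ι R : X → FreeAlgebra R X)) n

/-- The coefficient of a word. -/
def coef {X : Type} (w : FreeMonoid X) : FreeAlgebra R X →ₗ[R] R :=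
  (basisFreeMonoid R X).coord w

/-- The degree `n` component. -/
def proj {X : Type} (n : ℕ) : FreeAlgebra R X →ₗ[R] FreeAlgebra R X :=
  (basisFreeMonoid R X).constr R fun w =>
    if w.length = n then basisFreeMonoid R X w else 0

/-- The Leibniz rule. -/
def IsDer {A : Type} [Ring A] [Algebra R A] (D : A →ₗ[R] A) : Prop :=
  ∀ u v : A, D (u * v) = D u * v + u * D v

/-- The derivation of the free algebra with prescribed values on the letters. -/
def der {X : Type} (d : X → FreeAlgebra R X) : FreeAlgebra R X →ₗ[R] FreeAlgebra R X :=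
  ((TrivSqZeroExt.sndHom (FreeAlgebra R X) (FreeAlgebra R X)).restrictScalars R) ∘ₗ
    (lift R fun i => (TrivSqZeroExt.inl (ι R i) + TrivSqZeroExt.inr (d i) :
      TrivSqZeroExt (FreeAlgebra R X) (FreeAlgebra R X))).toLinearMap

/-- Base change of coefficients. -/
def bc (R S : Type) [CommRing R] [CommRing S] [Algebra R S] (X : Type) :
    FreeAlgebra R X →ₐ[R] FreeAlgebra S X := lift R (ι S)

/-- Apply an `R`-linear functional `S → R` to all coefficients. -/
def lamF {S : Type} [CommRing S] [Algebra R S] (X : Type) (lam : S →ₗ[R] R) :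
    FreeAlgebra S X →ₗ[R] FreeAlgebra R X :=
  (basisFreeMonoid R X).repr.symm.toLinearMap ∘ₗ Finsupp.mapRange.linearMap lam ∘ₗ
    ((basisFreeMonoid S X).repr.toLinearMap.restrictScalars R)

end general

/-- The free algebra on `x, y`. -/
abbrev T (R : Type) [CommRing R] : Type := FreeAlgebra R (Fin 2)

/-- The free algebra on three letters (the fibre `t₀₃, t₁₃, t₂₃`). -/
abbrev V (R : Type) [CommRing R] : Type := FreeAlgebra R (Fin 3)

/-- The letter `x`. -/
def xx (R : Type) [CommRing R] : T R := ι R 0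

/-- The letter `y`. -/
def yy (R : Type) [CommRing R] : T R := ι R 1

/-- The letters of the fibre. -/
def va (R : Type) [CommRing R] (i : Fin 3) : V R := ι R i

/-- Lie polynomials of degree `n` in `x, y`. -/
abbrev L (R : Type) [CommRing R] (n : ℕ) : Submodule R (T R) := Lw R (fun _ : Fin 2 => 1) n

section two

variable {R : Type} [CommRing R]

/-- Substitution `u ↦ u(a, b)`. -/
def ev {A : Type} [Ring A] [Algebra R A] (a b : A) : T R →ₐ[R] A := lift R ![a, b]

/-- The coefficient of `x^(n-1) y`. -/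
def kap (n : ℕ) : T R →ₗ[R] R := coef (FreeMonoid.ofList (List.replicate (n - 1) 0 ++ [1]))

/-- Infinitesimal braid relations on four strands. -/
structure IsSys {A : Type} [Ring A] (t : Fin 4 → Fin 4 → A) : Prop where
  diag : ∀ i, t i i = 0
  symm : ∀ i j, t i j = t j i
  loc : ∀ i j k l, i ≠ j → i ≠ k → i ≠ l → j ≠ k → j ≠ l → k ≠ l → Commute (t i j) (t k l)
  four : ∀ i j k, i ≠ j → i ≠ k → j ≠ k → Commute (t i j) (t i k + t j k)

/-- Infinitesimal sphere braid relations on five strands. -/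
structure IsSys5 {A : Type} [Ring A] (x : Fin 5 → Fin 5 → A) : Prop where
  diag : ∀ i, x i i = 0
  symm : ∀ i j, x i j = x j i
  sum : ∀ i, ∑ j, x i j = 0
  loc : ∀ i j k l, i ≠ j → i ≠ k → i ≠ l → j ≠ k → j ≠ l → k ≠ l → Commute (x i j) (x k l)

/-- The set of chords of a system. -/
def chords {A : Type} {m : ℕ} (t : Fin m → Fin m → A) : Set A := {u | ∃ i j, u = t i j}

/-- The linear pentagon defect in a system. -/
def pdef {A : Type} [Ring A] [Algebra R A] (t : Fin 4 → Fin 4 → A) : T R →ₗ[R] A :=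
  (ev (t 0 1) (t 1 2 + t 1 3)).toLinearMap + (ev (t 0 2 + t 1 2) (t 2 3)).toLinearMap -
    (ev (t 1 2) (t 2 3)).toLinearMap - (ev (t 0 1 + t 0 2) (t 1 3 + t 2 3)).toLinearMap -
    (ev (t 0 1) (t 1 2)).toLinearMap

/-- The linear pentagon equation in every system. -/
def LPent (ψ : T R) : Prop :=
  ∀ (A : Type) [Ring A] [Algebra R A] (t : Fin 4 → Fin 4 → A), IsSys t → pdef t ψ = 0

/-- The multiplicative pentagon equation in one system. -/
def GPentAt {A : Type} [Ring A] [Algebra R A] (t : Fin 4 → Fin 4 → A) (Φ : T R) : Prop :=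
  ev (t 0 1) (t 1 2 + t 1 3) Φ * ev (t 0 2 + t 1 2) (t 2 3) Φ =
    ev (t 1 2) (t 2 3) Φ * ev (t 0 1 + t 0 2) (t 1 3 + t 2 3) Φ * ev (t 0 1) (t 1 2) Φ

/-- The multiplicative pentagon equation modulo degree `> N`. -/
def GPent (N : ℕ) (Φ : T R) : Prop :=
  ∀ (A : Type) [Ring A] [Algebra R A] (t : Fin 4 → Fin 4 → A), IsSys t → Nil R (chords t) N →
    GPentAt t Φ

/-- Two commuting pairs. -/
structure CPair {A : Type} [Ring A] (a b a' b' : A) : Prop where
  aa : Commute a a'
  ab : Commute a b'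
  ba : Commute b a'
  bb : Commute b b'

/-- Group-like modulo degree `> N`. -/
def GLike (N : ℕ) (Φ : T R) : Prop :=
  ∀ (A : Type) [Ring A] [Algebra R A] (a b a' b' : A), CPair a b a' b' →
    Nil R {a, b, a', b'} N → ev (a + a') (b + b') Φ = ev a b Φ * ev a' b' Φ

/-- Primitive. -/
def Prim (ψ : T R) : Prop :=
  ∀ (A : Type) [Ring A] [Algebra R A] (a b a' b' : A), CPair a b a' b' →
    ev (a + a') (b + b') ψ = ev a b ψ + ev a' b' ψ

/-- Antisymmetry defect. -/
def asym (R : Type) [CommRing R] : T R →ₗ[R] T R :=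
  LinearMap.id + (ev (yy R) (xx R)).toLinearMap

/-- Three-term defect. -/
def hex (R : Type) [CommRing R] : T R →ₗ[R] T R :=
  LinearMap.id + (ev (yy R) (-xx R - yy R)).toLinearMap + (ev (-xx R - yy R) (xx R)).toLinearMap

/-- Data of a fibre representation: `B` is generated by `a 0, a 1, a 2` (images of
`t₀₃, t₁₃, t₂₃`) and `D01, D02, D12` are the derivations `ad t₀₁, ad t₀₂, ad t₁₂`. -/
structure FiberData {B : Type} [Ring B] [Algebra R B] (a : Fin 3 → B)
    (D01 D02 D12 : B →ₗ[R] B) : Prop where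
  gen : Algebra.adjoin R (Set.range a) = ⊤
  der01 : IsDer D01
  der02 : IsDer D02
  der12 : IsDer D12
  d01_0 : D01 (a 0) = ⁅a 0, a 1⁆
  d01_1 : D01 (a 1) = ⁅a 1, a 0⁆
  d01_2 : D01 (a 2) = 0
  d02_0 : D02 (a 0) = ⁅a 0, a 2⁆
  d02_1 : D02 (a 1) = 0
  d02_2 : D02 (a 2) = ⁅a 2, a 0⁆
  d12_0 : D12 (a 0) = 0
  d12_1 : D12 (a 1) = ⁅a 1, a 2⁆
  d12_2 : D12 (a 2) = ⁅a 2, a 1⁆

/-- The system of operators on `B` attached to fibre data. -/
def mkSys {B : Type} [Ring B] [Algebra R B] (a : Fin 3 → B) (D01 D02 D12 : B →ₗ[R] B) :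
    Fin 4 → Fin 4 → Module.End R B :=
  ![![0, D01, D02, LinearMap.mulLeft R (a 0)],
    ![D01, 0, D12, LinearMap.mulLeft R (a 1)],
    ![D02, D12, 0, LinearMap.mulLeft R (a 2)],
    ![LinearMap.mulLeft R (a 0), LinearMap.mulLeft R (a 1), LinearMap.mulLeft R (a 2), 0]]

/-- `ad t₀₁` on the free fibre. -/
def vD01 (R : Type) [CommRing R] : V R →ₗ[R] V R :=
  der ![⁅va R 0, va R 1⁆, ⁅va R 1, va R 0⁆, 0]

/-- `ad t₀₂` on the free fibre. -/
def vD02 (R : Type) [CommRing R] : V R →ₗ[R] V R :=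
  der ![⁅va R 0, va R 2⁆, 0, ⁅va R 2, va R 0⁆]

/-- `ad t₁₂` on the free fibre. -/
def vD12 (R : Type) [CommRing R] : V R →ₗ[R] V R :=
  der ![0, ⁅va R 1, va R 2⁆, ⁅va R 2, va R 1⁆]

/-- The standard system on the free fibre. -/
def piSys (R : Type) [CommRing R] : Fin 4 → Fin 4 → Module.End R (V R) :=
  mkSys (va R) (vD01 R) (vD02 R) (vD12 R)

/-- The pentagon defect as an element of the free fibre. -/
def pentV (R : Type) [CommRing R] : T R →ₗ[R] V R :=
  LinearMap.applyₗ (1 : V R) ∘ₗ pdef (piSys R)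

/-- Degree `n` solutions of the `grt` equations over `R`. -/
def Sol (R : Type) [CommRing R] (n : ℕ) : Submodule R (T R) :=
  L R n ⊓ LinearMap.ker (asym R) ⊓ LinearMap.ker (hex R) ⊓ LinearMap.ker (pentV R)

/-- The Ihara derivation `x ↦ 0`, `y ↦ ⁅y, ψ⁆`. -/
def ihD (ψ : T R) : T R →ₗ[R] T R := der ![0, ⁅yy R, ψ⁆]

/-- The Ihara bracket. -/
def ih (ψ φ : T R) : T R := ihD ψ φ - ihD φ ψ + ⁅ψ, φ⁆

/-- The Ihara action `u ↦ D_ψ u + ψ u`. -/
def act (ψ : T R) : Module.End R (T R) := ihD ψ + LinearMap.mulLeft R ψ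

end two

/-- The field with two elements. -/
abbrev F2 : Type := ZMod 2

/-- Weights of `A = ⁅x,y⁆`, `B = ⁅x,⁅x,y⁆⁆`. -/
def wt23 : Fin 2 → ℕ := ![2, 3]

/-- Weights of `X = x²`, `C₁ = ⁅x,y⁆`, `C₂ = ⁅x,⁅x,y⁆⁆`. -/
def wt223 : Fin 3 → ℕ := ![2, 2, 3]

/-- Weights of the free generators `e_k`. -/
def wtN : ℕ → ℕ := fun k => 2 * k + 3

/-- `ad_A^k B` in the free algebra on `A = xx`, `B = yy`. -/
def adAB (R : Type) [CommRing R] (k : ℕ) : T R := (fun u => ⁅xx R, u⁆)^[k] (yy R)

/-- The canonical map from the free Lie algebra to the free associative algebra. -/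
def toFA (X : Type) : FreeLieAlgebra ℚ X →ₗ[ℚ] FreeAlgebra ℚ X :=
  letI : LieRing (FreeAlgebra ℚ X) := LieRing.ofAssociativeRing
  (FreeLieAlgebra.lift ℚ (ι ℚ : X → FreeAlgebra ℚ X)).toLinearMap

end

end Crest.Agent.R10
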