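import Crest.Agent.R10.Grade

/-!
# R10/Dynkin: free Lie algebra versus Lie polynomials; primitive elements are Lie
-/

set_option autoImplicit false
set_option linter.unusedVariables false

namespace Crest.Agent.R10

noncomputable section

open FreeAlgebra Crest.NumberTheoryR.GT

variable {X : Type}

theorem toFA_of (i : X) : toFA X (FreeLieAlgebra.of ℚ i) = ι ℚ i := by
  let : LieRing (FreeAlgebra ℚ X) := LieRing.ofAssociativeRing
  exact FreeLieAlgebra.lift_of_apply _ _

theorem toFA_lie (u v : FreeLieAlgebra ℚ X) : toFA X ⁅u, v⁆ = ⁅toFA X u, toFA X v⁆ := by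
  let : LieRing (FreeAlgebra ℚ X) := LieRing.ofAssociativeRing
  exact (FreeLieAlgebra.lift ℚ (ι ℚ : X → FreeAlgebra ℚ X)).map_lie u v

theorem dy_top (S : Submodule ℚ (FreeLieAlgebra ℚ X)) (hof : ∀ i, FreeLieAlgebra.of ℚ i ∈ S)
    (hlie : ∀ a ∈ S, ∀ b ∈ S, ⁅a, b⁆ ∈ S) (u : FreeLieAlgebra ℚ X) : u ∈ S := by
  let K : LieSubalgebra ℚ (FreeLieAlgebra ℚ X) := { S with lie_mem' := fun ha hb => hlie _ ha _ hb }
  let f := FreeLieAlgebra.lift ℚ fun i => (⟨FreeLieAlgebra.of ℚ i, hof i⟩ : K)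
  have h : K.incl.comp f = LieHom.id := FreeLieAlgebra.hom_ext fun i => by simp [f]
  have h2 : (f u).1 = u := DFunLike.congr_fun h u
  rw [← h2]
  exact (f u).2

theorem dy_lie_mem {wt : X → ℕ} {m n : ℕ} {u v : FreeLieAlgebra ℚ X} (hu : u ∈ weightSubspace wt m)
    (hv : v ∈ weightSubspace wt n) : ⁅u, v⁆ ∈ weightSubspace wt (m + n) := by
  induction hu using Submodule.span_induction with
  | mem a ha =>
    induction hv using Submodule.span_induction with
    | mem b hb => exact Submodule.subset_span (IsBracketMonomial.lie ha hb)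
    | zero => rw [lie_zero]; exact zero_mem _
    | add b c _ _ hb hc => rw [lie_add]; exact add_mem hb hc
    | smul r b _ hb => rw [lie_smul]; exact Submodule.smul_mem _ r hb
  | zero => rw [zero_lie]; exact zero_mem _
  | add a b _ _ ha hb => rw [add_lie]; exact add_mem ha hb
  | smul r a _ ha => rw [smul_lie]; exact Submodule.smul_mem _ r ha

/-- A Lie map out of the free Lie algebra into an associative algebra factors through `toFA`
(`FreeLieAlgebra.hom_ext`). -/
theorem lift_toFA {A : Type} [Ring A] [Algebra ℚ A] (g : X → A)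
    (F : FreeLieAlgebra ℚ X →ₗ[ℚ] A) (hF : ∀ u v, F ⁅u, v⁆ = ⁅F u, F v⁆)
    (hg : ∀ i, F (FreeLieAlgebra.of ℚ i) = g i) (u : FreeLieAlgebra ℚ X) :
    lift ℚ g (toFA X u) = F u := by
  refine dy_top (LinearMap.eqLocus ((lift ℚ g).toLinearMap ∘ₗ toFA X) F) (fun i => ?_)
    (fun a ha b hb => ?_) u
  · change lift ℚ g (toFA X _) = _
    rw [toFA_of, lift_ι_apply, hg]
  · change lift ℚ g (toFA X _) = _ at ha hb ⊢
    rw [toFA_lie, map_lie', ha, hb, hF]

theorem toFA_mem {wt : X → ℕ} {n : ℕ} {u : FreeLieAlgebra ℚ X} (hu : u ∈ weightSubspace wt n) :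
    toFA X u ∈ Lw ℚ wt n := by
  refine (Submodule.span_le.2 fun a ha => ?_ : weightSubspace wt n ≤ (Lw ℚ wt n).comap (toFA X)) hu
  change IsBracketMonomial wt n a at ha
  change toFA X a ∈ Lw ℚ wt n
  clear hu
  induction ha with
  | of i => rw [toFA_of]; exact ι_mem_Lw wt i
  | lie _ _ iha ihb => rw [toFA_lie]; exact lie_mem_Lw iha ihb

theorem exists_toFA {wt : X → ℕ} {n : ℕ} {v : FreeAlgebra ℚ X} (hv : v ∈ Lw ℚ wt n) :
    ∃ u ∈ weightSubspace wt n, toFA X u = v := by
  refine Lw_induction (fun n v => ∃ u ∈ weightSubspace wt n, toFA X u = v)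
    (fun i => ⟨_, Submodule.subset_span (IsBracketMonomial.of i), toFA_of i⟩) ?_
    (fun n => ⟨0, zero_mem _, map_zero _⟩) ?_ ?_ hv
  · rintro m n _ _ - - ⟨a, ha, rfl⟩ ⟨b, hb, rfl⟩
    exact ⟨_, dy_lie_mem ha hb, toFA_lie a b⟩
  · rintro n _ _ - - ⟨a, ha, rfl⟩ ⟨b, hb, rfl⟩
    exact ⟨_, add_mem ha hb, map_add _ a b⟩
  · rintro n c _ - ⟨a, ha, rfl⟩
    exact ⟨_, Submodule.smul_mem _ c ha, map_smul _ c a⟩

/-- The span of all monomials is a Lie subalgebra containing the generators, hence everything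
(lift the generators into the subalgebra and use `FreeLieAlgebra.hom_ext`). -/
theorem mem_iSup_weight (wt : X → ℕ) (u : FreeLieAlgebra ℚ X) :
    u ∈ ⨆ n, weightSubspace wt n := by
  refine dy_top _ (fun i => Submodule.mem_iSup_of_mem (wt i)
    (Submodule.subset_span (IsBracketMonomial.of i))) (fun a ha b hb => ?_) u
  induction ha using Submodule.iSup_induction' with
  | mem m a ha =>
    induction hb using Submodule.iSup_induction' with
    | mem n b hb => exact Submodule.mem_iSup_of_mem _ (dy_lie_mem ha hb)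
    | zero => rw [lie_zero]; exact zero_mem _
    | add b c _ _ hb hc => rw [lie_add]; exact add_mem hb hc
  | zero => rw [zero_lie]; exact zero_mem _
  | add a c _ _ ha hc => rw [add_lie]; exact add_mem ha hc

theorem exists_sum_weight (wt : X → ℕ) (u : FreeLieAlgebra ℚ X) :
    ∃ (N : ℕ) (c : ℕ → FreeLieAlgebra ℚ X), (∀ n, c n ∈ weightSubspace wt n) ∧
      u = ∑ n ∈ Finset.range N, c n := by
  obtain ⟨f, hf, rfl⟩ := (Submodule.mem_iSup_iff_exists_finsupp _ u).1 (mem_iSup_weight wt u)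
  obtain ⟨N, hN⟩ := f.support.exists_nat_subset_range
  exact ⟨N, f, hf, Finsupp.sum_of_support_subset f hN _ fun _ _ => rfl⟩

section rho

variable {g : Type} [LieRing g] [LieAlgebra ℚ g]

/-- Dynkin's trick: `a` acts on `g × ℚ` by `(m, c) ↦ (⁅a, m⁆ - c • a, 0)`. -/
def rho : g →ₗ[ℚ] Module.End ℚ (g × ℚ) where
  toFun a := LinearMap.prod
    (LieAlgebra.ad ℚ g a ∘ₗ LinearMap.fst ℚ g ℚ -
      (LinearMap.toSpanSingleton ℚ g a) ∘ₗ LinearMap.snd ℚ g ℚ) 0
  map_add' a b := by ext <;> simp <;> abel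
  map_smul' c a := by ext <;> simp

theorem rho_apply (a m : g) (c : ℚ) : rho a (m, c) = (⁅a, m⁆ - c • a, 0) := by
  simp [rho]

theorem rho_commute {a b : g} (h : ⁅a, b⁆ = 0) : Commute (rho a) (rho b) := by
  refine LinearMap.ext fun ⟨m, c⟩ => ?_
  have h' : ⁅b, a⁆ = 0 := by rw [← lie_skew, h, neg_zero]
  simp only [Module.End.mul_apply, rho_apply, lie_sub, lie_smul, h, h', zero_smul, smul_zero,
    sub_zero]
  rw [leibniz_lie a b m, h, zero_lie, zero_add]

/-- Induction on monomials. -/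
theorem lift_rho (a : X → g) {n : ℕ} {u : FreeLieAlgebra ℚ X}
    (hu : u ∈ weightSubspace (fun _ : X => 1) n) (m : g) (c : ℚ) :
    lift ℚ (fun i => rho (a i)) (toFA X u) (m, c) =
      (⁅FreeLieAlgebra.lift ℚ a u, m⁆ - (c * n) • FreeLieAlgebra.lift ℚ a u, 0) := by
  induction hu using Submodule.span_induction with
  | mem u hu =>
    change IsBracketMonomial _ n u at hu
    induction hu generalizing m c with
    | of i => rw [toFA_of, lift_ι_apply, rho_apply, FreeLieAlgebra.lift_of_apply, Nat.cast_one, mul_one]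
    | @lie p q u v _ _ ihu ihv =>
      rw [toFA_lie, map_lie', Ring.lie_def, LinearMap.sub_apply, Module.End.mul_apply,
        Module.End.mul_apply, ihu, ihu, ihv, ihv, LieHom.map_lie, lie_lie, Prod.mk_sub_mk, lie_sub,
        lie_sub, lie_smul, lie_smul, ← lie_skew (FreeLieAlgebra.lift ℚ a v) (FreeLieAlgebra.lift ℚ a u), sub_zero, Nat.cast_add]
      congr 1
      module
  | zero => simp [Prod.ext_iff]
  | add u v _ _ hu hv =>
    rw [map_add, map_add, LinearMap.add_apply, hu, hv, map_add, add_lie, Prod.mk_add_mk, add_zero]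
    congr 1
    module
  | smul r u _ hu =>
    rw [map_smul, map_smul, LinearMap.smul_apply, hu, map_smul, smul_lie, Prod.smul_mk, smul_zero]
    congr 1
    module

end rho

theorem dy_proj {N : ℕ} {c : ℕ → FreeLieAlgebra ℚ X}
    (hc : ∀ n, c n ∈ weightSubspace (fun _ : X => 1) n) (n : ℕ) :
    proj n (toFA X (∑ k ∈ Finset.range N, c k)) = toFA X (if n ∈ Finset.range N then c n else 0) := by
  rw [← Finset.sum_ite_eq', map_sum, map_sum, map_sum]
  refine Finset.sum_congr rfl fun k _ => ?_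
  have h := Lw_le_HomF k (toFA_mem (hc k))
  split_ifs with e
  · rw [← e, proj_of_mem h]
  · rw [proj_of_ne h e, map_zero]

/-- Decompose into weight components (`exists_sum_weight`, `Lw_le_HomF`, `proj`), then `lift_rho`
with `g = FreeLieAlgebra ℚ X`; weight `0` is `⊥`. -/
theorem toFA_injective (X : Type) : Function.Injective (toFA X) := by
  refine (injective_iff_map_eq_zero _).2 fun u hu => ?_
  obtain ⟨N, c, hc, rfl⟩ := exists_sum_weight (fun _ : X => 1) u
  refine Finset.sum_eq_zero fun n hn => ?_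
  have h1 := dy_proj (N := N) hc n
  rw [hu, map_zero, if_pos hn] at h1
  rcases Nat.eq_zero_or_pos n with rfl | h0
  · refine (Submodule.mem_bot ℚ).1 ((Submodule.span_le.2 fun a ha => ?_ :
      weightSubspace (fun _ : X => 1) 0 ≤ ⊥) (hc 0))
    have hm : ∀ {n : ℕ} {a : FreeLieAlgebra ℚ X}, IsBracketMonomial (fun _ => 1) n a → 1 ≤ n := by
      intro n a h
      induction h with
      | of i => exact le_rfl
      | lie _ _ iha _ => exact iha.trans (Nat.le_add_right _ _)
    exact absurd (hm ha) (by omega)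
  · have h2 := congrArg Prod.fst (lift_rho (FreeLieAlgebra.of ℚ) (hc n) 0 1)
    have h3 : FreeLieAlgebra.lift ℚ (FreeLieAlgebra.of ℚ : X → FreeLieAlgebra ℚ X) = LieHom.id :=
      FreeLieAlgebra.hom_ext fun i => by simp
    rw [← h1, h3] at h2
    simpa [h0.ne'] using h2

theorem proj_toFA (n : ℕ) (u : FreeLieAlgebra ℚ X) :
    ∃ v ∈ weightSubspace (fun _ : X => 1) n, toFA X v = proj n (toFA X u) := by
  obtain ⟨N, c, hc, rfl⟩ := exists_sum_weight (fun _ : X => 1) u
  refine ⟨_, ?_, (dy_proj hc n).symm⟩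
  split_ifs
  exacts [hc n, zero_mem _]

theorem dy_hom_ind {R : Type} [CommRing R] (P : ℕ → FreeAlgebra R X → Prop) (h1 : P 0 1)
    (hmul : ∀ n u i, u ∈ HomF R X n → P n u → P (n + 1) (u * ι R i)) (hzero : ∀ n, P n 0)
    (hadd : ∀ n u v, P n u → P n v → P n (u + v)) (hsmul : ∀ n (c : R) u, P n u → P n (c • u))
    {n : ℕ} {u : FreeAlgebra R X} (hu : u ∈ HomF R X n) : P n u :=
  gr_Hom_le (fun n => ⟨⟨⟨{u | P n u}, hadd n _ _⟩, hzero n⟩, hsmul n⟩) h1
    (by rintro n u _ hu h ⟨i, rfl⟩; exact hmul n u i hu h) n hu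

/-- `(u, v) ↦ (x u, x v + x u)` -/
def dyL {R A : Type} [CommRing R] [Ring A] [Algebra R A] (x : A) : Module.End R (A × A) :=
  LinearMap.prod (LinearMap.mulLeft R x ∘ₗ LinearMap.fst R A A)
    (LinearMap.mulLeft R x ∘ₗ (LinearMap.snd R A A + LinearMap.fst R A A))

/-- `(u, v) ↦ (-u x, -v x)` -/
def dyR {R A : Type} [CommRing R] [Ring A] [Algebra R A] (x : A) : Module.End R (A × A) :=
  LinearMap.prodMap (LinearMap.mulRight R (-x)) (LinearMap.mulRight R (-x))

/-- the sum -/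
def dyB {R A : Type} [CommRing R] [Ring A] [Algebra R A] (x : A) : Module.End R (A × A) :=
  dyL x + dyR x

theorem dyL_apply {R A : Type} [CommRing R] [Ring A] [Algebra R A] (x u v : A) :
    dyL (R := R) x (u, v) = (x * u, x * (v + u)) := rfl

theorem dyR_apply {R A : Type} [CommRing R] [Ring A] [Algebra R A] (x u v : A) :
    dyR (R := R) x (u, v) = (u * -x, v * -x) := rfl

theorem dy_commute {R A : Type} [CommRing R] [Ring A] [Algebra R A] (x y : A) :
    Commute (dyL (R := R) x) (dyR y) :=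
  LinearMap.ext fun ⟨u, v⟩ => by
    simp only [Module.End.mul_apply, dyL_apply, dyR_apply, mul_assoc, add_mul]

theorem dy_ev {R A : Type} [CommRing R] [Ring A] [Algebra R A] (g : Fin 2 → A) :
    (ev (g 0) (g 1) : T R →ₐ[R] A) = lift R g := by
  ext i
  fin_cases i <;> simp [ev]

theorem dy_left {R : Type} [CommRing R] {n : ℕ} {ψ : FreeAlgebra R X} (hψ : ψ ∈ HomF R X n) :
    ∀ u v, lift R (fun i => dyL (R := R) (ι R i)) ψ (u, v) = (ψ * u, ψ * v + (n : R) • (ψ * u)) := by
  refine dy_hom_ind (fun n ψ => ∀ u v, lift R (fun i => dyL (R := R) (ι R i)) ψ (u, v) =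
    (ψ * u, ψ * v + (n : R) • (ψ * u))) (by simp) (fun n ψ i _ h u v => ?_) (by simp [Prod.ext_iff])
    (fun n ψ φ h h' u v => ?_) (fun n c ψ h u v => ?_) hψ
  · rw [map_mul, Module.End.mul_apply, lift_ι_apply, dyL_apply, h]
    simp only [mul_assoc, mul_add, Nat.cast_add, Nat.cast_one, add_smul, one_smul]
    congr 1
    abel
  · rw [map_add, LinearMap.add_apply, h, h', Prod.mk_add_mk]
    simp only [add_mul, smul_add]
    congr 1
    abel
  · rw [map_smul, LinearMap.smul_apply, h, Prod.smul_mk]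
    simp only [smul_mul_assoc, smul_add]
    rw [smul_comm c]

theorem dy_right {R A : Type} [CommRing R] [Ring A] [Algebra R A] (g : X → A) (ψ : FreeAlgebra R X) :
    ∀ u, ∃ w, lift R (fun i => dyR (R := R) (g i)) ψ (u, 0) = (w, 0) := by
  induction ψ using FreeAlgebra.induction with
  | grade0 r => exact fun u => ⟨r • u, by simp⟩
  | grade1 i => exact fun u => ⟨_, by rw [lift_ι_apply, dyR_apply, zero_mul]⟩
  | mul a b ha hb =>
    intro u
    obtain ⟨w, hw⟩ := hb u
    obtain ⟨w', hw'⟩ := ha w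
    exact ⟨w', by rw [map_mul, Module.End.mul_apply, hw, hw']⟩
  | add a b ha hb =>
    intro u
    obtain ⟨w, hw⟩ := ha u
    obtain ⟨w', hw'⟩ := hb u
    exact ⟨w + w', by rw [map_add, LinearMap.add_apply, hw, hw', Prod.mk_add_mk, add_zero]⟩

theorem dy_both {R : Type} [CommRing R] {n : ℕ} {ψ : FreeAlgebra R X} (hψ : ψ ∈ HomF R X n) :
    (∀ m, ∀ v ∈ Lw R (fun _ : X => 1) m, (lift R (fun i => dyB (R := R) (ι R i)) ψ
      (0, v)).2 ∈ Lw R (fun _ : X => 1) (n + m)) ∧
    (lift R (fun i => dyB (R := R) (ι R i)) ψ (1, 0)).2 ∈ Lw R (fun _ : X => 1) n := by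
  refine dy_hom_ind (fun n ψ => (∀ m, ∀ v ∈ Lw R (fun _ : X => 1) m,
      (lift R (fun i => dyB (R := R) (ι R i)) ψ (0, v)).2 ∈
        Lw R (fun _ : X => 1) (n + m)) ∧
    (lift R (fun i => dyB (R := R) (ι R i)) ψ (1, 0)).2 ∈ Lw R (fun _ : X => 1) n)
    ⟨fun m v hv => by simpa using hv, by simp⟩ (fun n ψ i _ h => ⟨fun m v hv => ?_, ?_⟩) (by simp)
    (fun n ψ φ h h' => ⟨fun m v hv => ?_, ?_⟩) (fun n c ψ h => ⟨fun m v hv => ?_, ?_⟩) hψ
  · have := h.1 _ _ (lie_mem_Lw (ι_mem_Lw _ i) hv)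
    rw [← add_assoc, Ring.lie_def] at this
    simpa [dyB, dyL_apply, dyR_apply, sub_eq_add_neg] using this
  · simpa [dyB, dyL_apply, dyR_apply] using h.1 _ _ (ι_mem_Lw _ i)
  · simpa using add_mem (h.1 m v hv) (h'.1 m v hv)
  · simpa using add_mem h.2 h'.2
  · simpa using Submodule.smul_mem _ c (h.1 m v hv)
  · simpa using Submodule.smul_mem _ c h.2

/-- FRIEDRICHS.  Let `N = TrivSqZeroExt (T K) (T K)`, `A = End K N`, `a, b` = left multiplication by
`inl x + inr x`, `inl y + inr y`, `a', b'` = right multiplication by `-inl x`, `-inl y` (a `CPair`).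
Apply `Prim` to `1 ∈ N` and take `snd`: `(ev a b ψ 1).snd = n • ψ` (`lift_apply_col`, `lift_dual`;
`der ι` is multiplication by `n` on `HomF n`), `(ev a' b' ψ 1).snd = 0` (the operators preserve
`snd = 0`), and `ev (a+a') (b+b') u 1 ∈ inr (L K k)` for `u ∈ HomF k`, `k ≥ 1`
(`(a+a') 1 = inr x`, `(a+a') (inr v) = inr ⁅x, v⁆`). -/
theorem mem_L_of_prim {K : Type} [Field K] [CharZero K] {n : ℕ} (hn : 1 ≤ n) {ψ : T K}
    (hψ : ψ ∈ HomF K (Fin 2) n) (h : Prim ψ) : ψ ∈ L K n := by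
  have h1 := h (Module.End K (T K × T K)) (dyL (ι K 0)) (dyL (ι K 1)) (dyR (ι K 0)) (dyR (ι K 1))
    ⟨dy_commute _ _, dy_commute _ _, dy_commute _ _, dy_commute _ _⟩
  change ev (dyB (ι K 0)) (dyB (ι K 1)) ψ = _ at h1
  rw [dy_ev fun i => dyB (R := K) (ι K i), dy_ev fun i => dyL (R := K) (ι K i),
    dy_ev fun i => dyR (R := K) (ι K i)] at h1
  have h2 := (dy_both hψ).2
  obtain ⟨w, hw⟩ := dy_right (R := K) (ι K) ψ 1
  rw [h1, LinearMap.add_apply, dy_left hψ, hw] at h2
  have h3 : (n : K) ≠ 0 := Nat.cast_ne_zero.2 (by omega)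
  simpa [smul_smul, h3] using Submodule.smul_mem _ (n : K)⁻¹ h2

end

end Crest.Agent.R10
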