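import Crest.Agent.R10.Grade

/-!
# R10/Kappa: the coefficient `kap n` of `x^(n-1) y`

Hint: let `e : T R →ₐ TrivSqZeroExt (T R) (T R)` be `ev (inl x) (inr y)`.  On words one checks
`kap n u = kap n (e u).snd` (`n ≥ 1`) and `(e u).fst = ev x 0 u`.  For `ψ ∈ L R m`, `m ≥ 2`,
`(e ψ).fst = 0` (`ev_comm`), so `e ⁅y, ψ⁆ = 0`, `e (ihD ψ u) = 0` (`lift_der_eq_zero`) and
`e (ψ * φ) = 0`.
-/

set_option autoImplicit false
set_option linter.unusedVariables false

namespace Crest.Agent.R10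

noncomputable section

open FreeAlgebra

variable {R : Type} [CommRing R]

theorem kp_coef_basis (w w' : FreeMonoid (Fin 2)) :
    coef (R := R) w (basisFreeMonoid R (Fin 2) w') =
      if FreeMonoid.toList w' = FreeMonoid.toList w then 1 else 0 := by
  classical
  simp [coef, Finsupp.single_apply]

theorem kp_of_rep {A : Type} [Ring A] [Algebra R A] (a b : A) (φ : ℕ → A →ₗ[R] R) (N : ℕ)
    (h0a : ∀ u : T R, φ 0 (a * ev a b u) = 0) (h1a : ∀ u : T R, φ 1 (a * ev a b u) = 0)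
    (ha : ∀ i (u : T R), 1 ≤ i → i < N → φ (i + 1) (a * ev a b u) = φ i (ev a b u))
    (h1b : ∀ u : T R, φ 1 (b * ev a b u) = φ 0 (ev a b u))
    (hb : ∀ i (u : T R), i ≠ 1 → φ i (b * ev a b u) = 0) (h01 : φ 0 1 = 1)
    (hi1 : ∀ i, i ≠ 0 → φ i 1 = 0) {n : ℕ} (hn : 1 ≤ n) (hnN : n ≤ N) (u : T R) :
    φ n (ev a b u) = kap n u := by
  have key : ∀ l : List (Fin 2), φ 0 (ev a b (l.map (ι R)).prod) = (if l = [] then 1 else 0) ∧
      ∀ k, k + 1 ≤ N → φ (k + 1) (ev a b (l.map (ι R)).prod) =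
        if l = List.replicate k 0 ++ [1] then 1 else 0 := by
    intro l
    induction l with
    | nil =>
      refine ⟨by simpa using h01, fun k _ => ?_⟩
      simpa using hi1 (k + 1) (by omega)
    | cons i l ih =>
      rw [List.map_cons, List.prod_cons, map_mul]
      fin_cases i
      · have e : ev a b (ι R ((fun i => i) (⟨0, by omega⟩ : Fin 2))) = a := ev_xx a b
        rw [e]
        refine ⟨by simpa using h0a _, fun k hk => ?_⟩
        cases k with
        | zero => simpa using h1a _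
        | succ k =>
          rw [ha (k + 1) _ (by omega) (by omega), ih.2 k (by omega)]
          simp [List.replicate_succ]
      · have e : ev a b (ι R ((fun i => i) (⟨1, by omega⟩ : Fin 2))) = b := ev_yy a b
        rw [e]
        refine ⟨by simpa using hb 0 _ (by omega), fun k hk => ?_⟩
        cases k with
        | zero =>
          rw [zero_add, h1b, ih.1]
          simp
        | succ k =>
          rw [hb _ _ (by omega)]
          simp [List.replicate_succ]
  obtain ⟨k, rfl⟩ : ∃ k, n = k + 1 := ⟨n - 1, by omega⟩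
  have : φ (k + 1) ∘ₗ (ev a b).toLinearMap = kap (k + 1) := by
    refine (basisFreeMonoid R (Fin 2)).ext fun w => ?_
    rw [kap, kp_coef_basis, LinearMap.comp_apply, AlgHom.toLinearMap_apply, basis_eq_prod,
      (key _).2 k hnN, Nat.add_sub_cancel, FreeMonoid.toList_ofList]
  exact LinearMap.congr_fun this u

/-- the image of `x` in the `2 × 2` model -/
def kpA (R : Type) [CommRing R] : Matrix (Fin 2) (Fin 2) (Polynomial R) := !![0, 0; 0, Polynomial.X]

/-- the image of `y` in the `2 × 2` model -/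
def kpB (R : Type) [CommRing R] : Matrix (Fin 2) (Fin 2) (Polynomial R) := !![0, 0; 1, 0]

theorem kp_tri (u : T R) : ev (kpA R) (kpB R) u 0 1 = 0 ∧
    ev (kpA R) (kpB R) u 0 0 = Polynomial.C (ev (0 : R) 0 u) ∧
    ev (kpA R) (kpB R) u 1 1 = ev (Polynomial.X : Polynomial R) 0 u := by
  induction u using FreeAlgebra.induction with
  | grade0 r => simp [Matrix.algebraMap_matrix_apply]
  | grade1 i => fin_cases i <;> simp [ev, kpA, kpB]
  | mul u v hu hv => simp [Matrix.mul_apply, Fin.sum_univ_two, hu, hv]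
  | add u v hu hv => simp [hu, hv]

/-- the functionals of the `2 × 2` model -/
def kpF (R : Type) [CommRing R] : ℕ → Matrix (Fin 2) (Fin 2) (Polynomial R) →ₗ[R] R
  | 0 => Polynomial.lcoeff R 0 ∘ₗ Matrix.entryLinearMap R (Polynomial R) 0 0
  | k + 1 => Polynomial.lcoeff R k ∘ₗ Matrix.entryLinearMap R (Polynomial R) 1 0

theorem kp_kap (n : ℕ) (u : T R) : kap n u = (ev (kpA R) (kpB R) u 1 0).coeff (n - 1) := by
  have h := kp_of_rep (kpA R) (kpB R) (kpF R) (n - 1 + 1) ?_ ?_ ?_ ?_ ?_ ?_ ?_ (n := n - 1 + 1)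
    (by omega) le_rfl u
  · simpa [kpF, kap] using h.symm
  · intro u
    simp [kpF, kpA, Matrix.vecMul, dotProduct, Fin.sum_univ_two]
  · intro u
    simp [kpF, kpA, Matrix.vecMul, dotProduct, Fin.sum_univ_two]
  · intro i u h1 _
    obtain ⟨k, rfl⟩ : ∃ k, i = k + 1 := ⟨i - 1, by omega⟩
    simp [kpF, kpA, Matrix.vecMul, dotProduct, Fin.sum_univ_two]
  · intro u
    simp [kpF, kpB, Matrix.vecMul, dotProduct, Fin.sum_univ_two]
  · intro i u hi
    have h := (kp_tri u).2.1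
    generalize ev (kpA R) (kpB R) u = M at h
    match i, hi with
    | 0, _ => simp [kpF, kpB, Matrix.vecMul, dotProduct, Fin.sum_univ_two]
    | k + 2, _ => simp [kpF, kpB, Matrix.vecMul, dotProduct, Fin.sum_univ_two, h]
  · simp [kpF]
  · intro i hi
    obtain ⟨k, rfl⟩ : ∃ k, i = k + 1 := ⟨i - 1, by omega⟩
    simp [kpF]

theorem kp_lie {m : ℕ} (hm : 2 ≤ m) {ψ : T R} (hψ : ψ ∈ L R m) :
    ∃ p, ev (kpA R) (kpB R) ψ = !![0, 0; p, 0] := by
  obtain ⟨h1, h2, h3⟩ := kp_tri ψ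
  have e1 : ev (0 : R) 0 ψ = 0 := ev_comm (Commute.refl (0 : R)) (by omega) hψ
  have e2 : ev (Polynomial.X : Polynomial R) 0 ψ = 0 :=
    ev_comm (Commute.zero_right (Polynomial.X : Polynomial R)) (by omega) hψ
  rw [e1, map_zero] at h2
  rw [e2] at h3
  refine ⟨ev (kpA R) (kpB R) ψ 1 0, ?_⟩
  ext i j : 1
  fin_cases i <;> fin_cases j <;> simp [h1, h2, h3]

theorem kp_sq (p q : Polynomial R) :
    (!![0, 0; p, 0] : Matrix (Fin 2) (Fin 2) (Polynomial R)) * !![0, 0; q, 0] = 0 := by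
  ext i j : 1
  fin_cases i <;> fin_cases j <;> simp

theorem kap_ihD {n m : ℕ} (hm : 2 ≤ m) {ψ : T R} (hψ : ψ ∈ L R m) (u : T R) :
    kap n (ihD ψ u) = 0 := by
  obtain ⟨p, hp⟩ := kp_lie hm hψ
  have h : ev (kpA R) (kpB R) (ihD ψ u) = 0 := by
    refine lift_der_eq_zero (fun i => ?_) u
    fin_cases i
    · simp
    · change ev (kpA R) (kpB R) ⁅yy R, ψ⁆ = 0
      rw [map_lie', ev_yy, hp, Ring.lie_def, kpB, kp_sq, kp_sq, sub_zero]
  rw [kp_kap, h]
  simp

/-- The prefix of length `m < n` of `x^(n-1) y` is `x^m`, whose coefficient in `ψ` vanishes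
(`ev x 0 ψ = 0`).  Use `HomF_eq_span`, `basis_mul`. -/
theorem kap_mul {n m : ℕ} (hm : 2 ≤ m) (hmn : m < n) {ψ : T R} (hψ : ψ ∈ L R m) (u : T R) :
    kap n (ψ * u) = 0 := by
  obtain ⟨p, hp⟩ := kp_lie hm hψ
  have h1 : kap n ψ = 0 := by
    rw [← proj_of_mem (Lw_le_HomF m hψ), kap, coef_proj, if_neg]
    simp only [FreeMonoid.length, FreeMonoid.toList_ofList, List.length_append, List.length_replicate,
      List.length_singleton]
    omega
  rw [kp_kap, hp] at h1
  rw [kp_kap, map_mul, hp, Matrix.mul_apply, Fin.sum_univ_two, (kp_tri u).2.1]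
  simp only [Matrix.of_apply, Matrix.cons_val', Matrix.cons_val_zero, Matrix.cons_val_one,
    Matrix.cons_val_fin_one, zero_mul, add_zero, Polynomial.coeff_mul_C] at h1 ⊢
  rw [h1, zero_mul]

theorem kap_act {n m : ℕ} (hm : 2 ≤ m) (hmn : m < n) {ψ : T R} (hψ : ψ ∈ L R m) (u : T R) :
    kap n (act ψ u) = 0 := by
  simp [act, kap_ihD hm hψ, kap_mul hm hmn hψ]

theorem kap_ih {n m m' : ℕ} (hm : 2 ≤ m) (hm' : 2 ≤ m') {ψ φ : T R} (hψ : ψ ∈ L R m)
    (hφ : φ ∈ L R m') : kap n (ih ψ φ) = 0 := by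
  obtain ⟨p, hp⟩ := kp_lie hm hψ
  obtain ⟨q, hq⟩ := kp_lie hm' hφ
  have h : kap n ⁅ψ, φ⁆ = 0 := by
    rw [kp_kap, map_lie', hp, hq, Ring.lie_def, kp_sq, kp_sq, sub_zero]
    simp
  rw [ih, map_add, map_sub, kap_ihD hm hψ, kap_ihD hm' hφ, h, sub_zero, add_zero]

theorem kap_proj {n : ℕ} (hn : 1 ≤ n) (u : T R) : kap n (proj n u) = kap n u := by
  rw [kap, coef_proj, if_pos]
  simp only [FreeMonoid.length, FreeMonoid.toList_ofList, List.length_append, List.length_replicate,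
    List.length_singleton]
  omega

theorem kap_neg {n : ℕ} (hn : 1 ≤ n) (u : T R) :
    kap n (ev (-xx R) (-yy R) u) = (-1) ^ n * kap n u := by
  have h : ∀ k, ∀ v ∈ HomF R (Fin 2) k, ev (-xx R) (-yy R) v = (-1 : R) ^ k • v := by
    intro k v hv
    have h1 := lift_smul (g := ![xx R, yy R]) (-1 : R) hv
    have h2 : (fun i => (-1 : R) • ![xx R, yy R] i) = ![-xx R, -yy R] := by
      funext i
      fin_cases i <;> simp
    rw [h2] at h1
    exact h1.trans (congrArg _ (ev_self v))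
  have h3 := map_proj (ev (-xx R) (-yy R)).toLinearMap
    (fun k v hv => by
      rw [AlgHom.toLinearMap_apply, h k v hv]
      exact Submodule.smul_mem _ _ hv) n u
  rw [AlgHom.toLinearMap_apply, AlgHom.toLinearMap_apply] at h3
  rw [← kap_proj hn, ← h3, h n _ (proj_mem n u), map_smul, kap_proj hn, smul_eq_mul]

/-- the image of `x` in the finite model -/
def kpa (R : Type) [CommRing R] (n : ℕ) : Matrix (Fin (n + 1)) (Fin (n + 1)) R :=
  Matrix.of fun i j => if (i : ℕ) = j + 1 ∧ 1 ≤ (j : ℕ) then 1 else 0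

/-- the image of `y` in the finite model -/
def kpb (R : Type) [CommRing R] (n : ℕ) : Matrix (Fin (n + 1)) (Fin (n + 1)) R :=
  Matrix.of fun i j => if (i : ℕ) = 1 ∧ (j : ℕ) = 0 then 1 else 0

/-- the functionals of the finite model -/
def kpf (R : Type) [CommRing R] (n i : ℕ) : Matrix (Fin (n + 1)) (Fin (n + 1)) R →ₗ[R] R :=
  if h : i < n + 1 then Matrix.entryLinearMap R R ⟨i, h⟩ 0 else 0

theorem kpf_apply {n i : ℕ} (h : i < n + 1) (M : Matrix (Fin (n + 1)) (Fin (n + 1)) R) :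
    kpf R n i M = M ⟨i, h⟩ 0 := by
  simp [kpf, h]

theorem kpf_eq_zero {n i : ℕ} (M : Matrix (Fin (n + 1)) (Fin (n + 1)) R)
    (h : ∀ h : i < n + 1, M ⟨i, h⟩ 0 = 0) : kpf R n i M = 0 := by
  by_cases hi : i < n + 1
  · rw [kpf_apply hi, h hi]
  · simp [kpf, hi]

/-- matrices vanishing above the `k`-th subdiagonal -/
def kpS (R : Type) [CommRing R] (n k : ℕ) : Submodule R (Matrix (Fin (n + 1)) (Fin (n + 1)) R) where
  carrier := {M | ∀ i j : Fin (n + 1), (i : ℕ) < j + k → M i j = 0}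
  add_mem' := fun {M N} hM hN i j h => by simp [hM i j h, hN i j h]
  zero_mem' := fun _ _ _ => rfl
  smul_mem' := fun c M hM i j h => by simp [hM i j h]

theorem kp_nil (n : ℕ) : Nil R {kpa R n, kpb R n} n := by
  have h := gr_Hom_le (G := {kpa R n, kpb R n}) (kpS R n) ?_ ?_ (n + 1)
  · rw [Nil, eq_bot_iff]
    intro M hM
    rw [Submodule.mem_bot]
    ext i j
    exact h hM i j (by omega)
  · intro i j hij
    exact Matrix.one_apply_ne fun e => by simp [e] at hij
  · intro k u g _ hu hg i j hij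
    rw [Matrix.mul_apply]
    refine Finset.sum_eq_zero fun l _ => ?_
    by_cases hl : (l : ℕ) = j + 1
    · rw [hu i l (by omega), zero_mul]
    · rcases hg with rfl | rfl
      · rw [kpa, Matrix.of_apply, if_neg (by omega), mul_zero]
      · rw [kpb, Matrix.of_apply, if_neg (by omega), mul_zero]

/-- A small representation computing `kap n`: `A = Matrix (Fin (n+1)) (Fin (n+1)) R`,
`b e₀ = e₁`, `a e_i = e_{i+1}` for `1 ≤ i < n`, all other basis vectors go to `0`, and
`φ i M = M i 0` (`0` for `i > n`). -/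
theorem exists_kap_rep (R : Type) [CommRing R] {n : ℕ} (hn : 1 ≤ n) :
    ∃ (A : Type) (_ : Ring A) (_ : Algebra R A) (a b : A) (φ : ℕ → A →ₗ[R] R),
      Module.Finite R A ∧ Nil R {a, b} n ∧ b * b = 0 ∧ (∀ i u, φ i (u * a) = 0) ∧
      (∀ u, φ 0 (a * u) = 0) ∧ (∀ u, φ 1 (a * u) = 0) ∧
      (∀ i u, 1 ≤ i → i < n → φ (i + 1) (a * u) = φ i u) ∧ (∀ u, φ 1 (b * u) = φ 0 u) ∧
      (∀ i u, i ≠ 1 → φ i (b * u) = 0) ∧ φ 0 1 = 1 ∧ (∀ i, i ≠ 0 → φ i 1 = 0) ∧
      ∀ u : T R, φ n (ev a b u) = kap n u := by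
  have h0a : ∀ u, kpf R n 0 (kpa R n * u) = 0 := fun u => kpf_eq_zero _ fun h => by
    rw [Matrix.mul_apply]
    refine Finset.sum_eq_zero fun l _ => ?_
    rw [kpa, Matrix.of_apply, if_neg (by simp), zero_mul]
  have h1a : ∀ u, kpf R n 1 (kpa R n * u) = 0 := fun u => kpf_eq_zero _ fun h => by
    rw [Matrix.mul_apply]
    refine Finset.sum_eq_zero fun l _ => ?_
    rw [kpa, Matrix.of_apply, if_neg (by simp only; omega), zero_mul]
  have ha : ∀ i u, 1 ≤ i → i < n → kpf R n (i + 1) (kpa R n * u) = kpf R n i u := by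
    intro i u h1 h2
    rw [kpf_apply (by omega), kpf_apply (by omega : i < n + 1), Matrix.mul_apply,
      Finset.sum_eq_single ⟨i, by omega⟩]
    · rw [kpa, Matrix.of_apply, if_pos ⟨rfl, h1⟩, one_mul]
    · intro l _ hl
      have : (l : ℕ) ≠ i := fun e => hl (Fin.ext e)
      rw [kpa, Matrix.of_apply, if_neg (by simp only; omega), zero_mul]
    · simp
  have h1b : ∀ u, kpf R n 1 (kpb R n * u) = kpf R n 0 u := by
    intro u
    rw [kpf_apply (by omega), kpf_apply (by omega : 0 < n + 1), Matrix.mul_apply,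
      Finset.sum_eq_single ⟨0, by omega⟩]
    · rw [kpb, Matrix.of_apply, if_pos ⟨rfl, rfl⟩, one_mul]
    · intro l _ hl
      have : (l : ℕ) ≠ 0 := fun e => hl (Fin.ext e)
      rw [kpb, Matrix.of_apply, if_neg (by simp only; omega), zero_mul]
    · simp
  have hb : ∀ i u, i ≠ 1 → kpf R n i (kpb R n * u) = 0 := fun i u hi => kpf_eq_zero _ fun h => by
    rw [Matrix.mul_apply]
    refine Finset.sum_eq_zero fun l _ => ?_
    rw [kpb, Matrix.of_apply, if_neg (by simp only; omega), zero_mul]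
  have h01 : kpf R n 0 1 = 1 := by
    rw [kpf_apply (by omega)]
    exact Matrix.one_apply_eq _
  have hi1 : ∀ i, i ≠ 0 → kpf R n i 1 = 0 := fun i hi => kpf_eq_zero _ fun h =>
    Matrix.one_apply_ne fun e => hi (by simpa using congrArg Fin.val e)
  refine ⟨Matrix (Fin (n + 1)) (Fin (n + 1)) R, inferInstance, inferInstance, kpa R n, kpb R n, kpf R n,
    inferInstance, kp_nil n, ?_, ?_, h0a, h1a, ha, h1b, hb, h01, hi1, fun u => ?_⟩
  · ext i j
    rw [Matrix.mul_apply, Matrix.zero_apply]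
    refine Finset.sum_eq_zero fun l _ => ?_
    by_cases hl : (l : ℕ) = 0
    · rw [kpb, Matrix.of_apply, Matrix.of_apply, if_neg (by omega : ¬ ((l : ℕ) = 1 ∧ (j : ℕ) = 0)),
        mul_zero]
    · rw [kpb, Matrix.of_apply, if_neg (by omega), zero_mul]
  · intro i u
    refine kpf_eq_zero _ fun h => ?_
    rw [Matrix.mul_apply]
    refine Finset.sum_eq_zero fun l _ => ?_
    rw [kpa, Matrix.of_apply, if_neg (by simp), mul_zero]
  · exact kp_of_rep _ _ _ n (fun _ => h0a _) (fun _ => h1a _) (fun i _ => ha i _) (fun _ => h1b _)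
      (fun i _ => hb i _) h01 hi1 hn le_rfl u

end

end Crest.Agent.R10
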