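import Crest.Agent.R10.Grade

/-!
# R10/Trunc: universal truncated algebras, and the homogenisation trick
-/

set_option autoImplicit false
set_option linter.unusedVariables false

namespace Crest.Agent.R10

noncomputable section

open FreeAlgebra

variable {K : Type} [CommRing K] {X : Type}

/-- The free algebra modulo the relations `Rl` and all words of length `N + 1`. -/
abbrev TQ (K : Type) [CommRing K] {X : Type} (Rl : Set (FreeAlgebra K X)) (N : ℕ) : Type :=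
  RingQuot (fun a b : FreeAlgebra K X => (a ∈ Rl ∨ a ∈ HomF K X (N + 1)) ∧ b = 0)

/-- The generators of `TQ`. -/
def tqg (Rl : Set (FreeAlgebra K X)) (N : ℕ) (i : X) : TQ K Rl N :=
  RingQuot.mkAlgHom K _ (ι K i)

theorem tq_lift_eq (Rl : Set (FreeAlgebra K X)) (N : ℕ) (u : FreeAlgebra K X) :
    lift K (tqg Rl N) u = RingQuot.mkAlgHom K _ u := by
  have : lift K (tqg Rl N) = RingQuot.mkAlgHom K _ := by ext i; simp [tqg]
  rw [this]

theorem tq_rel {Rl : Set (FreeAlgebra K X)} {N : ℕ} {r : FreeAlgebra K X} (hr : r ∈ Rl) :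
    lift K (tqg Rl N) r = 0 := by
  rw [tq_lift_eq, RingQuot.mkAlgHom_rel K (y := 0) ⟨Or.inl hr, rfl⟩, map_zero]

theorem tq_surj (Rl : Set (FreeAlgebra K X)) (N : ℕ) :
    Function.Surjective (lift K (tqg Rl N)) := fun u => by
  simpa only [tq_lift_eq] using RingQuot.mkAlgHom_surjective K _ u

theorem tq_adjoin (Rl : Set (FreeAlgebra K X)) (N : ℕ) :
    Algebra.adjoin K (Set.range (tqg Rl N)) = ⊤ := by
  rw [Algebra.adjoin_range_eq_range_freeAlgebra_lift, AlgHom.range_eq_top]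
  exact tq_surj Rl N

theorem tr_Hom {A : Type} [Ring A] [Algebra K A] (g : X → A) (n : ℕ) :
    Hom K (Set.range g) n = (HomF K X n).map (lift K g).toLinearMap := by
  rw [HomF, Hom, Hom, Submodule.map_pow, Submodule.map_span, ← Set.range_comp]
  simp [Function.comp_def]

theorem tq_nil (Rl : Set (FreeAlgebra K X)) (N : ℕ) : Nil K (Set.range (tqg Rl N)) N := by
  rw [Nil, tr_Hom, eq_bot_iff]
  rintro _ ⟨u, hu, rfl⟩
  rw [AlgHom.toLinearMap_apply, tq_lift_eq, RingQuot.mkAlgHom_rel K (y := 0) ⟨Or.inr hu, rfl⟩, map_zero]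
  exact Submodule.zero_mem _

/-- Spanned by the images of `HomF n`, `n ≤ N` (`HomF_fg`, `exists_sum_proj`). -/
theorem tq_finite [Finite X] (Rl : Set (FreeAlgebra K X)) (N : ℕ) :
    Module.Finite K (TQ K Rl N) := by
  have h : (⨆ n : Fin (N + 1), Hom K (Set.range (tqg Rl N)) n) = ⊤ := by
    refine eq_top_iff.2 fun u _ => ?_
    obtain ⟨v, rfl⟩ := tq_surj Rl N u
    obtain ⟨M, hM⟩ := exists_sum_proj v
    rw [hM, map_sum]
    refine Submodule.sum_mem _ fun n _ => ?_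
    have h1 : lift K (tqg Rl N) (proj n v) ∈ Hom K (Set.range (tqg Rl N)) n :=
      tr_Hom (K := K) (tqg Rl N) n ▸ ⟨_, proj_mem n v, rfl⟩
    rcases lt_or_ge n (N + 1) with h | h
    · exact Submodule.mem_iSup_of_mem ⟨n, h⟩ h1
    · exact bot_le (α := Submodule K _) ((tq_nil Rl N).Fil_eq_bot ▸ Hom_le_Fil _ h h1)
  exact ⟨h ▸ Submodule.fg_iSup _ fun n => tr_Hom (K := K) (tqg Rl N) n ▸ (HomF_fg _).map _⟩

/-- Universal property. -/
theorem tq_lift {Rl : Set (FreeAlgebra K X)} {N : ℕ} {A : Type} [Ring A] [Algebra K A]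
    (a : X → A) (hr : ∀ r ∈ Rl, lift K a r = 0) (hN : Nil K (Set.range a) N) :
    ∃ f : TQ K Rl N →ₐ[K] A, ∀ i, f (tqg Rl N i) = a i := by
  refine ⟨RingQuot.liftAlgHom K ⟨lift K a, ?_⟩, fun i =>
    (RingQuot.liftAlgHom_mkAlgHom_apply K _ _ _).trans (lift_ι_apply _ _)⟩
  rintro x _ ⟨hx | hx, rfl⟩
  · rw [hr x hx, map_zero]
  · have : lift K a x ∈ Hom K (Set.range a) (N + 1) := tr_Hom (K := K) a _ ▸ ⟨_, hx, rfl⟩
    rw [hN] at this
    rw [map_zero]
    exact this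

/-- Derivations of `TQ`: apply `tq_lift` to `inl g + inr d` in the dual numbers.  The family is
nilpotent: a product of `k` such elements has components in `Fil k` (both of them). -/
theorem tq_der {Rl : Set (FreeAlgebra K X)} {N : ℕ} (d : X → TQ K Rl N)
    (hd : ∀ i, d i ∈ Fil K (Set.range (tqg Rl N)) 1)
    (hr : ∀ r ∈ Rl, lift K (fun i => (TrivSqZeroExt.inl (tqg Rl N i) + TrivSqZeroExt.inr (d i) :
      TrivSqZeroExt (TQ K Rl N) (TQ K Rl N))) r = 0) :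
    ∃ δ : TQ K Rl N →ₗ[K] TQ K Rl N, IsDer δ ∧ ∀ i, δ (tqg Rl N i) = d i := by
  let U := TQ K Rl N
  let sn : TrivSqZeroExt U U →ₗ[K] U := (TrivSqZeroExt.sndHom U U).restrictScalars K
  let fs : TrivSqZeroExt U U →ₐ[K] U := TrivSqZeroExt.fstHom K U U
  have hmul : ∀ a b, sn (a * b) = sn a * fs b + fs a * sn b := fun a b => by
    simp [sn, fs, add_comm]
  let S : ℕ → Submodule K (TrivSqZeroExt U U) := fun k =>
    (Fil K (Set.range (tqg Rl N)) k).comap fs.toLinearMap ⊓ (Fil K (Set.range (tqg Rl N)) k).comap sn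
  have hS : ∀ k, Hom K (Set.range fun i => (TrivSqZeroExt.inl (tqg Rl N i) + TrivSqZeroExt.inr (d i) :
      TrivSqZeroExt U U)) k ≤ S k := fun k => by
    induction k with
    | zero => simp [S, Fil_zero_eq_top (tq_adjoin Rl N)]
    | succ k ih =>
      rw [Hom, pow_succ]
      refine (mul_le_mul' ih (Submodule.span_le.2 ?_ : _ ≤ S 1)).trans (Submodule.mul_le.2 fun a ha b hb =>
        ⟨?_, ?_⟩)
      · rintro _ ⟨i, rfl⟩
        exact ⟨by simpa [fs] using Hom_le_Fil _ le_rfl (mem_Hom_one (Set.mem_range_self i)),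
          by simpa [sn] using hd i⟩
      · change fs (a * b) ∈ Fil _ _ _
        exact map_mul fs a b ▸ mul_mem_Fil ha.1 hb.1
      · change sn (a * b) ∈ Fil _ _ _
        exact hmul a b ▸ add_mem (mul_mem_Fil ha.2 hb.1) (mul_mem_Fil ha.1 hb.2)
  obtain ⟨f, hf⟩ := tq_lift _ hr (eq_bot_iff.2 ((hS (N + 1)).trans fun a ha => by
    have h1 := ha.1
    have h2 := ha.2
    rw [(tq_nil Rl N).Fil_eq_bot] at h1 h2
    exact TrivSqZeroExt.ext h1 h2))
  have h1 : fs.comp f = AlgHom.id K U := AlgHom.ext_of_adjoin_eq_top (tq_adjoin Rl N) (by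
    rintro _ ⟨i, rfl⟩
    simp [hf, fs, U])
  refine ⟨sn ∘ₗ f.toLinearMap, fun u v => ?_, fun i => by simp [hf, sn]⟩
  have h2 : ∀ u, fs (f u) = u := DFunLike.congr_fun h1
  simp only [LinearMap.comp_apply, AlgHom.toLinearMap_apply, map_mul, hmul, h2]

theorem tr_chords {A : Type} (g : Fin 4 × Fin 4 → A) : chords (fun i j => g (i, j)) = Set.range g :=
  Set.ext fun _ => ⟨fun ⟨i, j, h⟩ => ⟨(i, j), h.symm⟩, fun ⟨p, h⟩ => ⟨p.1, p.2, h.symm⟩⟩

theorem tr_comm {A : Type} [Ring A] [Algebra K A] (a : X → A) (u v : FreeAlgebra K X) :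
    lift K a (u * v - v * u) = 0 ↔ Commute (lift K a u) (lift K a v) := by
  rw [map_sub, map_mul, map_mul, sub_eq_zero, commute_iff_eq]

theorem tr_sys (K : Type) [CommRing K] : ∃ Rl : Set (FreeAlgebra K (Fin 4 × Fin 4)),
    ∀ (A : Type) [Ring A] [Algebra K A] (a : Fin 4 × Fin 4 → A),
      (∀ r ∈ Rl, lift K a r = 0) ↔ IsSys fun i j => a (i, j) := by
  refine ⟨{r | (∃ i, r = ι K (i, i)) ∨ (∃ i j, r = ι K (i, j) - ι K (j, i)) ∨
    (∃ i j k l, (i ≠ j ∧ i ≠ k ∧ i ≠ l ∧ j ≠ k ∧ j ≠ l ∧ k ≠ l) ∧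
      r = ι K (i, j) * ι K (k, l) - ι K (k, l) * ι K (i, j)) ∨
    ∃ i j k, (i ≠ j ∧ i ≠ k ∧ j ≠ k) ∧ r = ι K (i, j) * (ι K (i, k) + ι K (j, k)) -
      (ι K (i, k) + ι K (j, k)) * ι K (i, j)}, fun A _ _ a => ⟨fun h => ⟨fun i => ?_, fun i j => ?_,
        fun i j k l h1 h2 h3 h4 h5 h6 => ?_, fun i j k h1 h2 h3 => ?_⟩, fun h => ?_⟩⟩
  · simpa using h _ (.inl ⟨i, rfl⟩)
  · simpa [sub_eq_zero] using h _ (.inr (.inl ⟨i, j, rfl⟩))
  · simpa using (tr_comm a _ _).1 (h _ (.inr (.inr (.inl ⟨i, j, k, l, ⟨h1, h2, h3, h4, h5, h6⟩, rfl⟩))))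
  · simpa using (tr_comm a _ _).1 (h _ (.inr (.inr (.inr ⟨i, j, k, ⟨h1, h2, h3⟩, rfl⟩))))
  · rintro _ (⟨i, rfl⟩ | ⟨i, j, rfl⟩ | ⟨i, j, k, l, ⟨h1, h2, h3, h4, h5, h6⟩, rfl⟩ | ⟨i, j, k, ⟨h1, h2, h3⟩, rfl⟩)
    · simpa using h.diag i
    · simpa [sub_eq_zero] using h.symm i j
    · exact (tr_comm a _ _).2 (by simpa using h.loc i j k l h1 h2 h3 h4 h5 h6)
    · exact (tr_comm a _ _).2 (by simpa using h.four i j k h1 h2 h3)

theorem tr_range4 {A : Type} (g : Fin 4 → A) : ({g 0, g 1, g 2, g 3} : Set A) = Set.range g := by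
  ext x
  simp [Fin.exists_fin_succ, eq_comm]

theorem tr_pair (K : Type) [CommRing K] : ∃ Rl : Set (FreeAlgebra K (Fin 4)),
    ∀ (A : Type) [Ring A] [Algebra K A] (a : Fin 4 → A),
      (∀ r ∈ Rl, lift K a r = 0) ↔ CPair (a 0) (a 1) (a 2) (a 3) := by
  refine ⟨{ι K 0 * ι K 2 - ι K 2 * ι K 0, ι K 0 * ι K 3 - ι K 3 * ι K 0, ι K 1 * ι K 2 - ι K 2 * ι K 1,
    ι K 1 * ι K 3 - ι K 3 * ι K 1}, fun A _ _ a => ?_⟩
  simp only [Set.forall_mem_insert, Set.mem_singleton_iff, forall_eq, tr_comm, lift_ι_apply]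
  exact ⟨fun h => ⟨h.1, h.2.1, h.2.2.1, h.2.2.2⟩, fun h => ⟨h.1, h.2, h.3, h.4⟩⟩

/-- The universal `N`-nilpotent system on four strands.  Take `X = Fin 4 × Fin 4` and for `Rl` the
differences expressing the four fields of `IsSys`. -/
theorem exists_univSys (K : Type) [CommRing K] (N : ℕ) :
    ∃ (U : Type) (_ : Ring U) (_ : Algebra K U) (t : Fin 4 → Fin 4 → U),
      IsSys t ∧ Nil K (chords t) N ∧ Module.Finite K U ∧ Algebra.adjoin K (chords t) = ⊤ ∧
      (∀ (A : Type) [Ring A] [Algebra K A] (s : Fin 4 → Fin 4 → A), IsSys s →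
        Nil K (chords s) N → ∃ f : U →ₐ[K] A, ∀ i j, f (t i j) = s i j) ∧
      (∀ d : Fin 4 → Fin 4 → U, (∀ i j, d i j ∈ Fil K (chords t) 1) →
        IsSys (fun i j => (TrivSqZeroExt.inl (t i j) + TrivSqZeroExt.inr (d i j) :
          TrivSqZeroExt U U)) →
        ∃ δ : U →ₗ[K] U, IsDer δ ∧ ∀ i j, δ (t i j) = d i j) := by
  obtain ⟨Rl, h⟩ := tr_sys K
  refine ⟨TQ K Rl N, inferInstance, inferInstance, fun i j => tqg Rl N (i, j), (h _ _).1 fun r => tq_rel,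
    tr_chords (tqg Rl N) ▸ tq_nil Rl N, tq_finite Rl N, tr_chords (tqg Rl N) ▸ tq_adjoin Rl N,
    fun A _ _ s hs hN => ?_, fun d hd hs => ?_⟩
  · obtain ⟨f, hf⟩ := tq_lift (fun p => s p.1 p.2) ((h _ _).2 hs) (tr_chords (fun p => s p.1 p.2) ▸ hN)
    exact ⟨f, fun i j => hf (i, j)⟩
  · obtain ⟨δ, h1, h2⟩ := tq_der (Rl := Rl) (N := N) (fun p => d p.1 p.2)
      (fun p => tr_chords (tqg Rl N) ▸ hd p.1 p.2) ((h _ _).2 hs)
    exact ⟨δ, h1, fun i j => h2 (i, j)⟩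

/-- The universal `N`-nilpotent pair of commuting pairs (`X = Fin 4`). -/
theorem exists_univPair (K : Type) [CommRing K] (N : ℕ) :
    ∃ (U : Type) (_ : Ring U) (_ : Algebra K U) (a b a' b' : U),
      CPair a b a' b' ∧ Nil K {a, b, a', b'} N ∧ Module.Finite K U ∧
      Algebra.adjoin K {a, b, a', b'} = ⊤ ∧
      (∀ (A : Type) [Ring A] [Algebra K A] (c d c' d' : A), CPair c d c' d' →
        Nil K {c, d, c', d'} N → ∃ f : U →ₐ[K] A, f a = c ∧ f b = d ∧ f a' = c' ∧ f b' = d') ∧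
      (∀ e e' : U, e ∈ Fil K {a, b, a', b'} 1 → e' ∈ Fil K {a, b, a', b'} 1 →
        Commute e a' → Commute e b' → Commute a e' → Commute b e' →
        ∃ δ : U →ₗ[K] U, IsDer δ ∧ δ a = 0 ∧ δ b = e ∧ δ a' = 0 ∧ δ b' = e') := by
  obtain ⟨Rl, h⟩ := tr_pair K
  have hp := (h _ (tqg Rl N)).1 fun r => tq_rel
  refine ⟨TQ K Rl N, inferInstance, inferInstance, tqg Rl N 0, tqg Rl N 1, tqg Rl N 2, tqg Rl N 3, hp,
    tr_range4 (tqg Rl N) ▸ tq_nil Rl N, tq_finite Rl N, tr_range4 (tqg Rl N) ▸ tq_adjoin Rl N,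
    fun A _ _ c d c' d' hs hN => ?_, fun e e' he he' h1 h2 h3 h4 => ?_⟩
  · obtain ⟨f, hf⟩ := tq_lift ![c, d, c', d'] ((h _ _).2 hs) (tr_range4 ![c, d, c', d'] ▸ hN)
    exact ⟨f, hf 0, hf 1, hf 2, hf 3⟩
  · rw [tr_range4] at he he'
    obtain ⟨δ, h5, h6⟩ := tq_der (Rl := Rl) (N := N) ![0, e, 0, e']
      (fun i => by fin_cases i <;> simp [he, he']) ((h _ _).2 (by
        constructor <;> refine TrivSqZeroExt.ext ?_ ?_ <;>
          simp [hp.aa.eq, hp.ab.eq, hp.ba.eq, hp.bb.eq, h1.eq, h2.eq, h3.eq, h4.eq, add_comm]))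
    exact ⟨δ, h5, h6 0, h6 1, h6 2, h6 3⟩

/-- The universal `N`-nilpotent pair (`X = Fin 2`, no relations). -/
theorem exists_univFree (K : Type) [CommRing K] (N : ℕ) :
    ∃ (U : Type) (_ : Ring U) (_ : Algebra K U) (a b : U),
      Nil K {a, b} N ∧ Module.Finite K U ∧ Function.Surjective (ev a b : T K →ₐ[K] U) ∧
      (∀ (A : Type) [Ring A] [Algebra K A] (c d : A), Nil K {c, d} N →
        ∃ f : U →ₐ[K] A, f a = c ∧ f b = d) := by
  have h : ∀ {A : Type} (g : Fin 2 → A), ({g 0, g 1} : Set A) = Set.range g := fun g => by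
    ext x
    simp [Fin.exists_fin_succ, eq_comm]
  refine ⟨TQ K (∅ : Set (T K)) N, inferInstance, inferInstance, tqg ∅ N 0, tqg ∅ N 1,
    h (tqg (∅ : Set (T K)) N) ▸ tq_nil ∅ N, tq_finite ∅ N, ?_, fun A _ _ c d hN => ?_⟩
  · have : ![tqg (∅ : Set (T K)) N 0, tqg ∅ N 1] = tqg ∅ N := by ext i; fin_cases i <;> rfl
    rw [ev, this]
    exact tq_surj ∅ N
  · obtain ⟨f, hf⟩ := tq_lift (Rl := ∅) ![c, d] (by simp) (h ![c, d] ▸ hN)
    exact ⟨f, hf 0, hf 1⟩

/-- Homogenisation: `A' = Matrix (Fin (n+1)) (Fin (n+1)) A`, `d` = scalar matrices, `J` the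
nilpotent shift matrix (or any other model of `A[J]/(J^(n+1))`). -/
theorem exists_jordan (A : Type) [Ring A] [Algebra K A] (n : ℕ) :
    ∃ (A' : Type) (_ : Ring A') (_ : Algebra K A') (d : A →ₐ[K] A') (J : A'),
      (∀ u, Commute J (d u)) ∧ J ^ (n + 1) = 0 ∧ ∀ u, d u * J ^ n = 0 → u = 0 := by
  obtain ⟨J, hJ⟩ : ∃ J : Module.End K (ℕ → A), ∀ f i, J f i = if i < n then f (i + 1) else 0 :=
    ⟨⟨⟨fun f i => if i < n then f (i + 1) else 0, fun f g => by ext i; simp only [Pi.add_apply]; split_ifs <;> simp⟩,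
      fun c f => by ext i; simp⟩, fun _ _ => rfl⟩
  have h1 : ∀ k f i, i + k ≤ n → (J ^ k) f i = f (i + k) := fun k => by
    induction k with
    | zero => simp
    | succ k ih =>
      intro f i h
      rw [pow_succ', Module.End.mul_apply, hJ, if_pos (by omega), ih _ _ (by omega), add_right_comm, add_assoc]
  have h2 : ∀ k f i, n ≤ i + k → (J ^ (k + 1)) f i = 0 := fun k => by
    induction k with
    | zero => exact fun f i h => by rw [zero_add, pow_one, hJ, if_neg (by omega)]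
    | succ k ih =>
      intro f i h
      rw [pow_succ', Module.End.mul_apply, hJ, ih _ _ (by omega), ite_self]
  refine ⟨Module.End K (ℕ → A), inferInstance, inferInstance, Algebra.lsmul K K (ℕ → A), J, fun u => ?_,
    LinearMap.ext fun f => funext fun i => h2 n f i (by omega), fun u hu => ?_⟩
  · exact LinearMap.ext fun f => funext fun i => by simp [hJ]
  · simpa [h1 n _ 0] using congrFun (DFunLike.congr_fun hu fun _ => 1) 0

theorem tr_ev {A : Type} [Ring A] [Algebra K A] {n : ℕ} {ψ : T K} (hψ : ψ ∈ HomF K (Fin 2) n) {J a b : A}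
    (ha : Commute J a) (hb : Commute J b) : ev (a * J) (b * J) ψ = ev a b ψ * J ^ n := by
  rw [ev, ev, ← lift_mul_right (fun i => by fin_cases i <;> simpa) hψ]
  congr 2
  ext i
  fin_cases i <;> rfl

/-- A homogeneous linear pentagon identity holding in `n`-nilpotent systems holds in all systems:
use `exists_jordan`, `IsSys.mul_right`, `nil_of_mul`, `lift_mul_right`. -/
theorem lPent_of_nil {n : ℕ} {ψ : T K} (hψ : ψ ∈ HomF K (Fin 2) n)
    (h : ∀ (A : Type) [Ring A] [Algebra K A] (t : Fin 4 → Fin 4 → A), IsSys t →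
      Nil K (chords t) n → pdef t ψ = 0) : LPent ψ := by
  intro A _ _ t ht
  obtain ⟨A', _, _, d, J, h1, h2, h3⟩ := exists_jordan (K := K) A n
  have := h A' _ ((ht.map d).mul_right fun i j => h1 _) (nil_of_mul h2 (by
    rintro _ ⟨i, j, rfl⟩
    exact ⟨_, h1 _, rfl⟩))
  refine h3 _ ?_
  simpa only [pdef, LinearMap.sub_apply, LinearMap.add_apply, AlgHom.toLinearMap_apply, ← add_mul, ← sub_mul,
    ← map_add, ← map_sub, tr_ev hψ (h1 _) (h1 _), ← map_ev] using this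

theorem prim_of_nil {n : ℕ} {ψ : T K} (hψ : ψ ∈ HomF K (Fin 2) n)
    (h : ∀ (A : Type) [Ring A] [Algebra K A] (a b a' b' : A), CPair a b a' b' →
      Nil K {a, b, a', b'} n → ev (a + a') (b + b') ψ = ev a b ψ + ev a' b' ψ) : Prim ψ := by
  intro A _ _ a b a' b' hp
  obtain ⟨A', _, _, d, J, h1, h2, h3⟩ := exists_jordan (K := K) A n
  have hc : ∀ {u v : A}, Commute u v → Commute (d u * J) (d v * J) := fun {u v} huv =>
    ((huv.map d).mul_right (h1 u).symm).mul_left ((h1 v).mul_right (Commute.refl J))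
  have := h A' _ _ _ _ ⟨hc hp.aa, hc hp.ab, hc hp.ba, hc hp.bb⟩ (nil_of_mul h2 (by
    rintro _ (rfl | rfl | rfl | rfl) <;> exact ⟨_, h1 _, rfl⟩))
  refine sub_eq_zero.1 (h3 _ ?_)
  simp only [← add_mul, ← map_add, tr_ev hψ (h1 _) (h1 _), ← map_ev] at this
  rw [map_sub, sub_mul, this, sub_self]

end

end Crest.Agent.R10
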