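import Crest.Agent.R10.KZ4
import Crest.Agent.R10.Kappa
import Crest.Agent.R10.Trunc

/-!
# R10/KZ5: the truncated Drinfeld associator
-/

set_option autoImplicit false
set_option linter.unusedVariables false

namespace Crest.Agent.R10

noncomputable section

open Filter Topology

section normed

variable {A : Type} [NormedRing A] [NormedAlgebra ℝ A] [FiniteDimensional ℝ A]

theorem kz5_fil {G : Set A} {g : A} (hg : g ∈ G) : g ∈ Fil ℝ G 1 :=
  Hom_le_Fil G le_rfl (mem_Hom_one hg)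

theorem kz5_swap {a c : A} {N : ℕ} (hN : Nil ℝ {a, c} N) : Nil ℝ {c, a} N := by
  rwa [Set.pair_comm]

theorem kz5_nilp {a c : A} {N : ℕ} (hN : Nil ℝ {a, c} N) : a ^ (N + 1) = 0 :=
  hN.pow_eq_zero (kz5_fil (by simp))

theorem kz5_conn {a c : A} {N : ℕ} (hN : Nil ℝ {a, c} N) {w : ℝ} (h0 : 0 < w) (h1 : w < 1) :
    gfun a c (1 - w) * nexp a (Real.log (1 - w)) =
      gfun c a w * nexp c (Real.log w) * Phi a c := by
  haveI : CompleteSpace A := FiniteDimensional.complete ℝ A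
  have h := PhiAt_eq hN (u := 1 - w) (by linarith) (by linarith)
  rw [← h, PhiAt, sub_sub_cancel]
  have hu : IsUnit (gfun c a w) := gfun_isUnit (kz5_swap hN) (by rw [abs_of_pos h0]; exact h1)
  have e1 := nexp_mul_neg c (Real.log w)
  have e2 := Ring.mul_inverse_cancel _ hu
  calc gfun a c (1 - w) * nexp a (Real.log (1 - w))
      = (gfun c a w * (nexp c (Real.log w) * nexp c (-Real.log w)) *
          Ring.inverse (gfun c a w)) * (gfun a c (1 - w) * nexp a (Real.log (1 - w))) := by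
        rw [e1, mul_one, e2, one_mul]
    _ = _ := by simp only [mul_assoc]

theorem kz5_tend {a c : A} {N : ℕ} (hN : Nil ℝ {a, c} N) :
    Tendsto (fun w : ℝ => gfun a c w) (𝓝[>] 0) (𝓝 1) ∧
      Tendsto (fun w : ℝ => Real.log w • (gfun a c w - 1)) (𝓝[>] 0) (𝓝 0) := by
  obtain ⟨C, hC⟩ := gfun_sub_one hN
  have hev : ∀ᶠ w : ℝ in 𝓝[>] 0, |w| ≤ 1 / 2 := by
    filter_upwards [Ioo_mem_nhdsGT (show (0 : ℝ) < 1 / 2 by norm_num)] with w hw
    rw [abs_of_pos hw.1]
    exact hw.2.le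
  constructor
  · rw [tendsto_iff_norm_sub_tendsto_zero]
    have h1 : Tendsto (fun w : ℝ => C * |w|) (𝓝[>] 0) (𝓝 0) := by
      have : Continuous fun w : ℝ => C * |w| := by fun_prop
      simpa using (this.tendsto 0).mono_left nhdsWithin_le_nhds
    exact squeeze_zero' (Eventually.of_forall fun w => norm_nonneg _)
      (hev.mono fun w hw => hC w hw) h1
  · rw [tendsto_zero_iff_norm_tendsto_zero]
    have h1 : Tendsto (fun w : ℝ => C * |w * Real.log w|) (𝓝[>] 0) (𝓝 0) := by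
      have : Continuous fun w : ℝ => C * |w * Real.log w| :=
        continuous_const.mul Real.continuous_mul_log.abs
      simpa using (this.tendsto 0).mono_left nhdsWithin_le_nhds
    refine squeeze_zero' (Eventually.of_forall fun w => norm_nonneg _)
      (hev.mono fun w hw => ?_) h1
    rw [norm_smul, abs_mul, Real.norm_eq_abs]
    calc |Real.log w| * ‖gfun a c w - 1‖ ≤ |Real.log w| * (C * |w|) :=
          mul_le_mul_of_nonneg_left (hC w hw) (abs_nonneg _)
      _ = C * (|w| * |Real.log w|) := by ring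

theorem kz5_gfun_zero {a : A} {N : ℕ} (hN : Nil ℝ {a, 0} N) (u : ℝ) : gfun a 0 u = 1 := by
  have hg : gam a 0 = fun m => if m = 0 then 1 else 0 := by
    refine IsG.unique ⟨_, kz5_nilp hN⟩ (gam_spec hN).1 ⟨by simp, fun m => ?_⟩
    by_cases hm : m = 0 <;> simp [hm]
  rw [gfun, hg, tsum_eq_single 0]
  · simp
  · intro m hm
    simp [hm]

theorem kz5_nexp_zero (a : A) : nexp a 0 = 1 := by
  simp [nexp]

theorem kz5_zero_nexp (t : ℝ) : nexp (0 : A) t = 1 := by
  simp [nexp]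

/-- `gam a 0 = (1, 0, 0, …)` by `IsG.unique`, similarly `gam 0 c` is not needed:
`Phi a 0 = (gfun 0 a)⁻¹ * 2^(-a)`; the quickest route is `PhiAt_eq` with `u → 1`
(`gfun_sub_one`), or: `Phi a 0 = Phi a 0 * Phi 0 0`... any proof is fine. -/
theorem Phi_zero_right {a : A} {N : ℕ} (hN : Nil ℝ {a} N) : Phi a 0 = 1 := by
  haveI : CompleteSpace A := FiniteDimensional.complete ℝ A
  have hN' : Nil ℝ {a, 0} N := hN.of_Fil (by
    rintro g (rfl | rfl)
    · exact kz5_fil (by simp)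
    · exact zero_mem _)
  have h1 : Tendsto (fun w : ℝ => gfun 0 a w * Phi a 0) (𝓝[>] 0) (𝓝 (1 * Phi a 0)) :=
    (kz5_tend (kz5_swap hN')).1.mul_const _
  have hc : Continuous (nexp a) :=
    continuous_iff_continuousAt.2 fun t => (nexp_hasDerivAt a t).continuousAt
  have h2 : Tendsto (fun w : ℝ => nexp a (Real.log (1 - w))) (𝓝[>] 0) (𝓝 1) := by
    have h3 : ContinuousAt (fun w : ℝ => Real.log (1 - w)) 0 :=
      ContinuousAt.log (by fun_prop) (by norm_num)
    have h4 := (hc.continuousAt.comp h3).tendsto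
    simp only [Function.comp_def, sub_zero, Real.log_one, kz5_nexp_zero] at h4
    exact h4.mono_left nhdsWithin_le_nhds
  have h5 : (fun w : ℝ => nexp a (Real.log (1 - w))) =ᶠ[𝓝[>] 0]
      fun w : ℝ => gfun 0 a w * Phi a 0 := by
    filter_upwards [Ioo_mem_nhdsGT (show (0 : ℝ) < 1 by norm_num)] with w hw
    have := kz5_conn hN' hw.1 hw.2
    rwa [kz5_gfun_zero hN', kz5_zero_nexp, one_mul, mul_one] at this
  have := tendsto_nhds_unique (h2.congr' h5) h1
  rw [one_mul] at this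
  exact this.symm

/-- `Phi z w = Phi z 0 * Phi 0 w` (`Phi_add`), `Phi_mul_swap`. -/
theorem Phi_of_commute {z w : A} (h : Commute z w) {N : ℕ} (hN : Nil ℝ {z, w} N) :
    Phi z w = 1 := by
  have hz : z ∈ Fil ℝ {z, w} 1 := kz5_fil (by simp)
  have hw : w ∈ Fil ℝ {z, w} 1 := kz5_fil (by simp)
  have h1 : Phi z 0 = 1 := Phi_zero_right (hN.of_Fil (by rintro g rfl; exact hz))
  have h2 : Phi w 0 = 1 := Phi_zero_right (hN.of_Fil (by rintro g rfl; exact hw))
  have h3 : Phi w 0 * Phi 0 w = 1 := Phi_mul_swap (hN.of_Fil (by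
    rintro g (rfl | rfl)
    · exact hw
    · exact zero_mem _))
  have h4 := Phi_add (a := z) (c := 0) (a' := 0) (c' := w)
    ⟨Commute.zero_right _, h, Commute.zero_right _, Commute.zero_left _⟩ (hN.of_Fil (by
      rintro g (rfl | rfl | rfl | rfl)
      · exact hz
      · exact zero_mem _
      · exact zero_mem _
      · exact hw))
  rw [h2, one_mul] at h3
  rwa [add_zero, zero_add, h1, h3, one_mul] at h4

theorem kz5_shift {G : Set A} {N : ℕ} (hN : Nil ℝ G N) {a c a' c' : A} (h : CPair a c a' c')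
    (h' : Commute a' c') (ha : a ∈ Fil ℝ G 1) (hc : c ∈ Fil ℝ G 1) (ha' : a' ∈ Fil ℝ G 1)
    (hc' : c' ∈ Fil ℝ G 1) : Phi (a + a') (c + c') = Phi a c := by
  rw [Phi_add h (hN.of_Fil (by rintro g (rfl | rfl | rfl | rfl) <;> assumption)),
    Phi_of_commute h' (hN.of_Fil (by rintro g (rfl | rfl) <;> assumption)), mul_one]

/-- `d0 = t01, d1 = t01+t02+t12, d2 = t12, d3 = t12+t13+t23, d4 = t23` form a `Del5`;
`Phi_pentagon`, `Phi_mul_swap`, and shifts by commuting elements via `Phi_add`, `Phi_of_commute`: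
`Phi d1 d4 = Phi (t02+t12) t23`, `Phi d0 d3 = Phi t01 (t12+t13)`,
`Phi d1 d3 = Phi (t01+t02) (t13+t23)`. -/
theorem Phi_sys {t : Fin 4 → Fin 4 → A} (ht : IsSys t) {N : ℕ} (hN : Nil ℝ (chords t) N) :
    Phi (t 0 1) (t 1 2 + t 1 3) * Phi (t 0 2 + t 1 2) (t 2 3) =
      Phi (t 1 2) (t 2 3) * Phi (t 0 1 + t 0 2) (t 1 3 + t 2 3) * Phi (t 0 1) (t 1 2) := by
  have hf : ∀ i j, t i j ∈ Fil ℝ (chords t) 1 := fun i j => kz5_fil ⟨i, j, rfl⟩
  have c1 : Commute (t 0 1) (t 0 2 + t 1 2) := ht.four 0 1 2 (by decide) (by decide) (by decide)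
  have c2 : Commute (t 1 2) (t 0 1 + t 0 2) := by
    have := ht.four 1 2 0 (by decide) (by decide) (by decide)
    rwa [ht.symm 1 0, ht.symm 2 0] at this
  have c3 : Commute (t 1 2) (t 1 3 + t 2 3) := ht.four 1 2 3 (by decide) (by decide) (by decide)
  have c4 : Commute (t 2 3) (t 1 2 + t 1 3) := by
    have := ht.four 2 3 1 (by decide) (by decide) (by decide)
    rwa [ht.symm 2 1, ht.symm 3 1] at this
  have c5 : Commute (t 0 1) (t 2 3) :=
    ht.loc 0 1 2 3 (by decide) (by decide) (by decide) (by decide) (by decide) (by decide)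
  have c6 : Commute (t 0 2) (t 1 3) :=
    ht.loc 0 2 1 3 (by decide) (by decide) (by decide) (by decide) (by decide) (by decide)
  have hD : Del5 (t 0 1) (t 0 1 + t 0 2 + t 1 2) (t 1 2) (t 1 2 + t 1 3 + t 2 3) (t 2 3) := by
    refine ⟨?_, c2.symm.add_left (Commute.refl _), ?_, c4.symm.add_left (Commute.refl _),
      c5.symm, ?_⟩
    · rw [add_assoc]; exact (Commute.refl _).add_right c1
    · rw [add_assoc]; exact (Commute.refl _).add_right c3
    · have e2 := c2.eq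
      have e3 := c3.eq
      have e5 := c5.eq
      have e6 := c6.eq
      simp only [Ring.lie_def]
      linear_combination (norm := noncomm_ring) e3 - e2 - e5 + e6
  have f1 : t 0 1 + t 0 2 + t 1 2 ∈ Fil ℝ (chords t) 1 :=
    add_mem (add_mem (hf _ _) (hf _ _)) (hf _ _)
  have f3 : t 1 2 + t 1 3 + t 2 3 ∈ Fil ℝ (chords t) 1 :=
    add_mem (add_mem (hf _ _) (hf _ _)) (hf _ _)
  have hP := Phi_pentagon hD (hN.of_Fil (by
    rintro g (rfl | rfl | rfl | rfl | rfl)
    exacts [hf _ _, f1, hf _ _, f3, hf _ _]))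
  have s1 := Phi_mul_swap (a := t 0 1 + t 0 2 + t 1 2) (c := t 2 3) (hN.of_Fil (by
    rintro g (rfl | rfl)
    exacts [f1, hf _ _]))
  have s2 := Phi_mul_swap (a := t 0 1) (c := t 1 2 + t 1 3 + t 2 3) (hN.of_Fil (by
    rintro g (rfl | rfl)
    exacts [hf _ _, f3]))
  have e1 : Phi (t 0 1) (t 1 2 + t 1 3 + t 2 3) = Phi (t 0 1) (t 1 2 + t 1 3) := by
    have := kz5_shift hN (a := t 0 1) (c := t 1 2 + t 1 3) (a' := 0) (c' := t 2 3)
      ⟨Commute.zero_right _, c5, Commute.zero_right _, c4.symm⟩ (Commute.zero_left _) (hf _ _)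
      (add_mem (hf _ _) (hf _ _)) (zero_mem _) (hf _ _)
    rwa [add_zero] at this
  have e2 : Phi (t 0 1 + t 0 2 + t 1 2) (t 2 3) = Phi (t 0 2 + t 1 2) (t 2 3) := by
    have := kz5_shift hN (a := t 0 2 + t 1 2) (c := t 2 3) (a' := t 0 1) (c' := 0)
      ⟨c1.symm, Commute.zero_right _, c5.symm, Commute.zero_right _⟩ (Commute.zero_right _)
      (add_mem (hf _ _) (hf _ _)) (hf _ _) (hf _ _) (zero_mem _)
    rwa [add_zero, add_comm (t 0 2 + t 1 2), ← add_assoc] at this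
  have e3 : Phi (t 0 1 + t 0 2 + t 1 2) (t 1 2 + t 1 3 + t 2 3) =
      Phi (t 0 1 + t 0 2) (t 1 3 + t 2 3) := by
    have := kz5_shift hN (a := t 0 1 + t 0 2) (c := t 1 3 + t 2 3) (a' := t 1 2) (c' := t 1 2)
      ⟨c2.symm, c2.symm, c3.symm, c3.symm⟩ (Commute.refl _)
      (add_mem (hf _ _) (hf _ _)) (add_mem (hf _ _) (hf _ _)) (hf _ _) (hf _ _)
    rwa [add_comm (t 1 3 + t 2 3), ← add_assoc (t 1 2)] at this
  rw [← e1, ← e2, ← e3]
  generalize Phi (t 0 1) (t 1 2 + t 1 3 + t 2 3) = x03 at *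
  generalize Phi (t 0 1 + t 0 2 + t 1 2) (t 2 3) = x14 at *
  generalize Phi (t 2 3) (t 0 1 + t 0 2 + t 1 2) = x41 at *
  generalize Phi (t 1 2 + t 1 3 + t 2 3) (t 0 1) = x30 at *
  calc x03 * x14 = x03 * x14 * (x41 * x30 * Phi (t 1 2) (t 2 3) *
        Phi (t 0 1 + t 0 2 + t 1 2) (t 1 2 + t 1 3 + t 2 3) * Phi (t 0 1) (t 1 2)) := by
        rw [hP, mul_one]
    _ = x03 * (x14 * x41) * x30 * (Phi (t 1 2) (t 2 3) *
        Phi (t 0 1 + t 0 2 + t 1 2) (t 1 2 + t 1 3 + t 2 3) * Phi (t 0 1) (t 1 2)) := by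
        simp only [mul_assoc]
    _ = _ := by rw [s1, mul_one, s2, one_mul]

/-- The depth one coefficient.  From the recursion: `φ 0 (gam a b m) = 0` and
`φ i (gam a b m) = -1/m^i` for `m ≥ 1`, `1 ≤ i ≤ n`; hence `φ n (gfun a b u) ≤ -u`.  With
`w = 1 - u`, `PhiAt_eq` reads `gfun a b u * u^a = gfun b a w * (1 + log w • b) * Phi a b`
(`nexp_eq_sum`, `b * b = 0`); `φ n` of the left side is `φ n (gfun a b u)`, `φ n` of the right side
tends to `φ n (Phi a b)` as `w → 0⁺` (`gfun_sub_one`, `w log w → 0`, `φ n (b * _) = 0`).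
So `φ n (Phi a b) ≤ -1`. -/
theorem phi_Phi_ne {a b : A} {n : ℕ} (hn : 2 ≤ n) (φ : ℕ → A →ₗ[ℝ] ℝ) (hN : Nil ℝ {a, b} n)
    (hb : b * b = 0) (h1 : ∀ i u, φ i (u * a) = 0) (h2 : ∀ u, φ 0 (a * u) = 0)
    (h3 : ∀ u, φ 1 (a * u) = 0) (h4 : ∀ i u, 1 ≤ i → i < n → φ (i + 1) (a * u) = φ i u)
    (h5 : ∀ u, φ 1 (b * u) = φ 0 u) (h6 : ∀ i u, i ≠ 1 → φ i (b * u) = 0) (h7 : φ 0 1 = 1)
    (h8 : ∀ i, i ≠ 0 → φ i 1 = 0) : φ n (Phi a b) ≠ 0 := by
  haveI : CompleteSpace A := FiniteDimensional.complete ℝ A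
  obtain ⟨⟨g0, grec⟩, gpb, -⟩ := gam_spec hN
  have r0 : ∀ m : ℕ, m ≠ 0 → φ 0 (gam a b m) = 0 := fun m hm => by
    have := congrArg (φ 0) (grec m)
    rw [map_smul, map_sub, map_sub, h2, h1, h6 0 _ (by norm_num), smul_eq_mul, sub_zero,
      sub_zero] at this
    exact (mul_eq_zero.1 this).resolve_left (Nat.cast_ne_zero.2 hm)
  have r1 : ∀ m : ℕ, m ≠ 0 → ∀ i, 1 ≤ i → i ≤ n → φ i (gam a b m) = -1 / (m : ℝ) ^ i := by
    intro m hm i hi
    have hm' : (m : ℝ) ≠ 0 := Nat.cast_ne_zero.2 hm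
    induction i, hi using Nat.le_induction with
    | base =>
      intro _
      have := congrArg (φ 1) (grec m)
      rw [map_smul, map_sub, map_sub, h3, h1, h5, map_sum, smul_eq_mul,
        Finset.sum_eq_single 0 (fun j _ hj => r0 j hj)
          (fun h => absurd (Finset.mem_range.2 (Nat.pos_of_ne_zero hm)) h), g0, h7] at this
      field_simp
      linarith
    | succ i hi ih =>
      intro hin
      have := congrArg (φ (i + 1)) (grec m)
      rw [map_smul, map_sub, map_sub, h4 i _ hi hin, h1, h6 (i + 1) _ (by omega), smul_eq_mul,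
        ih (by omega), sub_zero, sub_zero] at this
      rw [pow_succ, ← div_div, ← this]
      field_simp
  have hcont : Continuous (φ n) := (φ n).continuous_of_finiteDimensional
  have b1 : ∀ u : ℝ, 0 < u → u < 1 → φ n (gfun a b u) ≤ -u := fun u u0 u1 => by
    have hs := ((gpb.summable_norm (u := u) (by rwa [abs_of_pos u0])).of_norm.hasSum.map
      (φ n).toAddMonoidHom hcont).neg
    have := le_hasSum hs 1 fun j _ => by
      simp only [Function.comp_apply, LinearMap.toAddMonoidHom_coe, map_smul, smul_eq_mul]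
      rcases eq_or_ne j 0 with rfl | hj
      · rw [g0, h8 n (by omega)]; simp
      · rw [r1 j hj n (by omega) le_rfl, neg_div, mul_neg, neg_neg]
        positivity
    simp only [Function.comp_apply, LinearMap.toAddMonoidHom_coe, map_smul, smul_eq_mul,
      r1 1 one_ne_zero n (by omega) le_rfl] at this
    rw [gfun]
    norm_num at this
    linarith
  have b2 : ∀ (g : A) (s : ℝ), φ n (g * nexp a s) = φ n g := fun g s => by
    rw [nexp_eq_sum (kz5_nilp hN), Finset.sum_range_succ', mul_add, map_add, Finset.mul_sum,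
      map_sum, Finset.sum_eq_zero fun i _ => by
        rw [mul_smul_comm, map_smul, pow_succ a, ← mul_assoc, h1, smul_zero]]
    simp
  have b3 : ∀ s : ℝ, nexp b s = 1 + s • b := fun s => by
    rw [nexp_eq_sum (k := 2) (by rw [pow_two, hb])]
    simp [Finset.sum_range_succ]
  obtain ⟨t1, t2⟩ := kz5_tend (kz5_swap hN)
  have t3 : Tendsto (fun w : ℝ => φ n (gfun b a w * Phi a b +
      (Real.log w • (gfun b a w - 1)) * (b * Phi a b))) (𝓝[>] 0)
      (𝓝 (φ n (1 * Phi a b + 0 * (b * Phi a b)))) :=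
    (hcont.tendsto _).comp ((t1.mul_const _).add (t2.mul_const _))
  have t4 : Tendsto (fun w : ℝ => -(1 - w)) (𝓝[>] 0) (𝓝 (-(1 - 0))) := by
    have : Continuous fun w : ℝ => -(1 - w) := by fun_prop
    exact (this.tendsto 0).mono_left nhdsWithin_le_nhds
  have hle := le_of_tendsto_of_tendsto t3 t4 (by
    filter_upwards [Ioo_mem_nhdsGT (show (0 : ℝ) < 1 by norm_num)] with w hw
    have e := congrArg (φ n) (kz5_conn hN hw.1 hw.2)
    rw [b2, b3] at e
    have e2 : gfun b a w * (1 + Real.log w • b) * Phi a b = gfun b a w * Phi a b +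
        (Real.log w • (gfun b a w - 1)) * (b * Phi a b) + Real.log w • (b * Phi a b) := by
      simp only [mul_add, add_mul, mul_one, smul_sub, sub_mul, smul_mul_assoc, mul_smul_comm,
        one_mul, mul_assoc]
      abel
    rw [e2, map_add, map_smul, h6 n _ (by omega), smul_zero, add_zero] at e
    rw [← e]
    exact b1 _ (by linarith [hw.2]) (by linarith [hw.1]))
  rw [one_mul, zero_mul, add_zero] at hle
  intro h0
  rw [h0] at hle
  norm_num at hle

end normed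

theorem kz5_norm (U : Type) [Ring U] [Algebra ℝ U] [Module.Finite ℝ U] :
    ∃ (A : Type) (_ : NormedRing A) (_ : NormedAlgebra ℝ A),
      FiniteDimensional ℝ A ∧ Nonempty (U ≃ₐ[ℝ] A) := by
  let b := Module.finBasis ℝ U
  letI := Matrix.linftyOpNormedRing (n := Fin (Module.finrank ℝ U)) (α := ℝ)
  letI := Matrix.linftyOpNormedAlgebra (n := Fin (Module.finrank ℝ U)) (R := ℝ) (α := ℝ)
  let e := AlgEquiv.ofInjective _ (Algebra.leftMulMatrix_injective b)
  exact ⟨(Algebra.leftMulMatrix b).range, inferInstance, inferInstance,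
    Module.Finite.equiv e.toLinearEquiv, ⟨e⟩⟩

theorem kz5_main (N : ℕ) : ∃ Φ : T ℝ, ∀ (A : Type) [NormedRing A] [NormedAlgebra ℝ A]
    [FiniteDimensional ℝ A] (c d : A), Nil ℝ {c, d} N → ev c d Φ = Phi c d := by
  obtain ⟨U, _, _, a, b, hN, hfin, hsurj, huniv⟩ := exists_univFree ℝ N
  obtain ⟨A0, _, _, hA0, ⟨e⟩⟩ := kz5_norm U
  obtain ⟨Φ, hΦ⟩ := hsurj (e.symm (Phi (e a) (e b)))
  refine ⟨Φ, fun A _ _ _ c d hcd => ?_⟩
  obtain ⟨f, rfl, rfl⟩ := huniv A c d hcd
  have hN0 : Nil ℝ {e a, e b} N := hN.map (e : U →ₐ[ℝ] A0) (by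
    rintro g (rfl | rfl)
    exacts [⟨a, by simp, rfl⟩, ⟨b, by simp, rfl⟩])
  have := map_Phi (f.comp (e.symm : A0 →ₐ[ℝ] U)) hN0
  rw [← map_ev, hΦ]
  simpa using this

/-- THE KZ ASSOCIATOR modulo degree `> N`.  Every finite dimensional real algebra `U` carries a
normed algebra structure with the given ring structure (`NormedRing.induced`,
`NormedAlgebra.induced` along the injective `Algebra.leftMulMatrix b`, with
`Matrix.linftyOpNormedRing`, or along `Algebra.lmul`).  Take `U, a, b` from `exists_univFree ℝ N` and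
`Φ` with `ev a b Φ = Phi a b`; by `map_Phi`, `ev c d Φ = Phi c d` for every `N`-nilpotent pair in a
finite dimensional normed algebra.  `GPent`/`GLike`: prove them in the universal algebras of
`exists_univSys`/`exists_univPair` (`Phi_sys`, `Phi_add`) and push forward (`map_ev`).
`kap`: `exists_kap_rep`, `phi_Phi_ne`, `Nil.mono`. -/
theorem kz (N : ℕ) : ∃ Φ : T ℝ, ev (0 : ℝ) 0 Φ = 1 ∧ GLike N Φ ∧ GPent N Φ ∧
    ∀ n, 2 ≤ n → n ≤ N → kap n Φ ≠ 0 := by
  obtain ⟨Φ, hΦ⟩ := kz5_main N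
  refine ⟨Φ, ?_, ?_, ?_, ?_⟩
  · have hN : Nil ℝ {(0 : ℝ), 0} N := by
      refine Nil.mono (N := 0) ?_ (Nat.zero_le N)
      simp [Nil, Hom]
    exact (hΦ ℝ 0 0 hN).trans (Phi_of_commute (Commute.refl _) hN)
  · intro A _ _ c d c' d' hp hcd
    obtain ⟨U, _, _, a, b, a', b', hU, hN, hfin, -, huniv, -⟩ := exists_univPair ℝ N
    obtain ⟨A0, _, _, hA0, ⟨e⟩⟩ := kz5_norm U
    obtain ⟨f, rfl, rfl, rfl, rfl⟩ := huniv A c d c' d' hp hcd
    have hN0 : Nil ℝ {e a, e b, e a', e b'} N := hN.map (e : U →ₐ[ℝ] A0) (by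
      rintro g (rfl | rfl | rfl | rfl)
      exacts [⟨a, by simp, rfl⟩, ⟨b, by simp, rfl⟩, ⟨a', by simp, rfl⟩, ⟨b', by simp, rfl⟩])
    have fa : e a ∈ Fil ℝ {e a, e b, e a', e b'} 1 := kz5_fil (by simp)
    have fb : e b ∈ Fil ℝ {e a, e b, e a', e b'} 1 := kz5_fil (by simp)
    have fa' : e a' ∈ Fil ℝ {e a, e b, e a', e b'} 1 := kz5_fil (by simp)
    have fb' : e b' ∈ Fil ℝ {e a, e b, e a', e b'} 1 := kz5_fil (by simp)
    have h := Phi_add ⟨hU.aa.map e, hU.ab.map e, hU.ba.map e, hU.bb.map e⟩ hN0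
    rw [← hΦ A0 _ _ (hN0.of_Fil (by
        rintro g (rfl | rfl)
        exacts [add_mem fa fa', add_mem fb fb'])),
      ← hΦ A0 _ _ (hN0.of_Fil (by
        rintro g (rfl | rfl)
        exacts [fa, fb])),
      ← hΦ A0 _ _ (hN0.of_Fil (by
        rintro g (rfl | rfl)
        exacts [fa', fb']))] at h
    have h' := congrArg (f.comp (e.symm : A0 →ₐ[ℝ] U)) h
    rw [map_mul, map_ev, map_ev, map_ev] at h'
    simpa using h'
  · intro A _ _ s hs hsN
    obtain ⟨U, _, _, t, ht, hN, hfin, -, huniv, -⟩ := exists_univSys ℝ N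
    obtain ⟨A0, _, _, hA0, ⟨e⟩⟩ := kz5_norm U
    obtain ⟨f, hf⟩ := huniv A s hs hsN
    have hN0 : Nil ℝ (chords fun i j => (e : U →ₐ[ℝ] A0) (t i j)) N :=
      hN.map (e : U →ₐ[ℝ] A0) (by
        rintro g ⟨i, j, rfl⟩
        exact ⟨t i j, ⟨i, j, rfl⟩, rfl⟩)
    have h := Phi_sys (ht.map (e : U →ₐ[ℝ] A0)) hN0
    set t' : Fin 4 → Fin 4 → A0 := fun i j => (e : U →ₐ[ℝ] A0) (t i j) with ht'
    have ff : ∀ i j, t' i j ∈ Fil ℝ (chords t') 1 := fun i j => kz5_fil ⟨i, j, rfl⟩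
    have key : ∀ x y : A0, x ∈ Fil ℝ (chords t') 1 → y ∈ Fil ℝ (chords t') 1 →
        Phi x y = ev x y Φ := fun x y hx hy => (hΦ A0 x y (hN0.of_Fil (by
          rintro g (rfl | rfl)
          exacts [hx, hy]))).symm
    change Phi (t' 0 1) (t' 1 2 + t' 1 3) * Phi (t' 0 2 + t' 1 2) (t' 2 3) =
      Phi (t' 1 2) (t' 2 3) * Phi (t' 0 1 + t' 0 2) (t' 1 3 + t' 2 3) * Phi (t' 0 1) (t' 1 2) at h
    rw [key _ _ (ff _ _) (add_mem (ff _ _) (ff _ _)), key _ _ (add_mem (ff _ _) (ff _ _)) (ff _ _),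
      key _ _ (ff _ _) (ff _ _), key _ _ (add_mem (ff _ _) (ff _ _)) (add_mem (ff _ _) (ff _ _)),
      key _ _ (ff _ _) (ff _ _)] at h
    have hg : ∀ i j, (f.comp (e.symm : A0 →ₐ[ℝ] U)) (t' i j) = s i j := fun i j => by
      simp [ht', hf]
    have h' := congrArg (f.comp (e.symm : A0 →ₐ[ℝ] U)) h
    simp only [map_mul, map_ev, map_add, hg] at h'
    exact h'
  · intro n hn hnN
    obtain ⟨U, _, _, a, b, φ, hfin, hN, hb, h1, h2, h3, h4, h5, h6, h7, h8, h9⟩ :=
      exists_kap_rep ℝ (n := n) (by omega)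
    obtain ⟨A0, _, _, hA0, ⟨e⟩⟩ := kz5_norm U
    have hN0 : Nil ℝ {e a, e b} n := hN.map (e : U →ₐ[ℝ] A0) (by
      rintro g (rfl | rfl)
      exacts [⟨a, by simp, rfl⟩, ⟨b, by simp, rfl⟩])
    have h := phi_Phi_ne (a := e a) (b := e b) hn
      (fun i => φ i ∘ₗ e.symm.toLinearMap) hN0 (by rw [← map_mul, hb, map_zero])
      (fun i u => by simp [h1]) (fun u => by simp [h2]) (fun u => by simp [h3])
      (fun i u hi hin => by simp [h4 i _ hi hin]) (fun u => by simp [h5])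
      (fun i u hi => by simp [h6 i _ hi]) (by simp [h7]) (fun i hi => by simp [h8 i hi])
    rw [← hΦ A0 _ _ (hN0.mono hnN)] at h
    have e2 : e (ev a b Φ) = ev (e a) (e b) Φ := map_ev (e : U →ₐ[ℝ] A0) a b Φ
    rw [← h9]
    simpa [← e2] using h

end

end Crest.Agent.R10
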