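import Crest.Agent.R10.Deform
import Crest.Agent.R10.Trunc
import Crest.Agent.R10.Dynkin
import Crest.Agent.R10.Kappa

/-!
# R10/Torsor: solutions act on associators; existence of the generators
-/

set_option autoImplicit false
set_option linter.unusedVariables false
set_option linter.unusedSectionVars false

namespace Crest.Agent.R10

noncomputable section

open FreeAlgebra

variable {K : Type} [Field K] [CharZero K]

theorem tor_mem {A : Type} [Ring A] [Algebra K A] {G : Set A} {g : A} (hg : g ∈ G) :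
    g ∈ Fil K G 1 := Hom_le_Fil G le_rfl (mem_Hom_one hg)

theorem tor_chord {A : Type} [Ring A] [Algebra K A] (t : Fin 4 → Fin 4 → A) (i j : Fin 4) :
    t i j ∈ Fil K (chords t) 1 := tor_mem ⟨i, j, rfl⟩

theorem tor_ev_mem {A : Type} [Ring A] [Algebra K A] {G : Set A} {a b : A} (ha : a ∈ Fil K G 1)
    (hb : b ∈ Fil K G 1) {n : ℕ} {u : T K} (hu : u ∈ FilF K (Fin 2) n) : ev a b u ∈ Fil K G n :=
  lift_mem_Fil (fun i => by fin_cases i <;> assumption) hu

theorem tor_mul2 {A : Type} [Ring A] [Algebra K A] {G : Set A} {x y : A} (hx : x ∈ Fil K G 1)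
    (hy : y ∈ Fil K G 1) : x * y ∈ Fil K G 2 := by
  have := mul_mem_Fil hx hy
  exact this

theorem tor_L_mem {n : ℕ} {ψ : T K} (hψ : ψ ∈ L K n) : ψ ∈ FilF K (Fin 2) n :=
  Hom_le_Fil _ le_rfl (Lw_le_HomF n hψ)

theorem tor_edge {A : Type} [Ring A] [Algebra K A] {δ : A →ₗ[K] A} (hδ : IsDer δ) {ψ : T K}
    {a b hp hq : A} (ha : δ a = ⁅a, hp⁆) (hb : δ b = ⁅b, hq⁆) (h : hq - hp = ev a b ψ) (N : ℕ)
    (Φ : T K) : ev a b (texp N (act ψ) Φ) = texp N (edgeOp δ hp hq) (ev a b Φ) :=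
  map_texp (ev a b : T K →ₐ[K] A).toLinearMap (fun u => edge_der hδ ha hb h u) N Φ

theorem tor_ev_zero (u : T K) : ev (0 : K) 0 u = lift K (fun _ : Fin 2 => (0 : K)) u := by
  have : (![0, 0] : Fin 2 → K) = fun _ => 0 := by
    funext i
    fin_cases i <;> rfl
  rw [ev, this]

/-- In the universal system (`exists_univSys K N`) take `exists_def`, the derivation `δ` with
`δ (t i j) = d i j`; by `edge_der` and `map_texp`,
`ev a b (texp N (act ψ) Φ) = texp N (edgeOp δ hp hq) (ev a b Φ)` on each edge; `texp_mul`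
(`edgeOp_pow`) turns both sides of `GPentAt` into `texp N (edgeOp δ h1 h4)` of the two sides for
`Φ`.  Push forward with `map_ev`. -/
theorem GPent.act {N n : ℕ} (hn : 2 ≤ n) {ψ Φ : T K} (hψ : ψ ∈ Sol K n) (h : GPent N Φ) :
    GPent N (texp N (act ψ) Φ) := by
  intro A _ _ s hs hNs
  obtain ⟨U, _, _, t, ht, hN, -, hadj, huniv, hder⟩ := exists_univSys K N
  obtain ⟨d, h1, h2, h3, h4, h5, hd, hdm, m1, m2, m3, m4, m5⟩ := exists_def (by omega) hψ ht
  obtain ⟨δ, hδ, hδt⟩ := hder d (fun i j => Hom_le_Fil _ (by omega) (hdm i j)) hd.sys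
  have nil : ∀ {p q : U}, p ∈ Hom K (chords t) n → q ∈ Hom K (chords t) n →
      edgeOp δ p q ^ (N + 1) = 0 := fun hp hq =>
    edgeOp_pow hadj hN hδ (by
      rintro _ ⟨i, j, rfl⟩
      rw [hδt]
      exact Hom_le_Fil _ (by omega) (hdm i j)) (Hom_le_Fil _ (by omega) hp)
      (Hom_le_Fil _ (by omega) hq)
  have e1 := tor_edge hδ ((hδt _ _).trans hd.a1) ((hδt _ _).trans hd.b1) hd.e1 N Φ
  have e2 := tor_edge hδ (by rw [map_add, hδt, hδt, hd.a2]) (by rw [map_add, hδt, hδt, hd.b2])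
    hd.e2 N Φ
  have e3 := tor_edge hδ ((hδt _ _).trans hd.a3) ((hδt _ _).trans hd.b3) hd.e3 N Φ
  have e4 := tor_edge hδ (by rw [map_add, hδt, hδt, hd.a4]) ((hδt _ _).trans hd.b4) hd.e4 N Φ
  have e5 := tor_edge hδ ((hδt _ _).trans hd.a5) (by rw [map_add, hδt, hδt, hd.b5]) hd.e5 N Φ
  have key : GPentAt t (texp N (R10.act ψ) Φ) := by
    unfold GPentAt
    rw [e1, e2, e3, e4, e5, ← texp_mul hδ (nil m1 m5) (nil m5 m4) (nil m1 m4),
      ← texp_mul hδ (nil m2 m3) (nil m3 m4) (nil m2 m4),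
      ← texp_mul hδ (nil m1 m2) (nil m2 m4) (nil m1 m4), h U t ht hN]
  obtain ⟨f, hf⟩ := huniv A s hs hNs
  have := congrArg f key
  simpa only [GPentAt, map_mul, map_ev, map_add, hf] using this

/-- The same in `exists_univPair K N` with `p = ψ(a,b)`, `p' = ψ(a',b')`, `δ b = ⁅b, p⁆`,
`δ b' = ⁅b', p'⁆`; potentials `0, p', p + p'`; edges `(a',b') : 0 → p'`, `(a,b) : p' → p + p'`,
`(a+a', b+b') : 0 → p + p'` (`prim_of_mem_L`, `commute_ev`). -/
theorem GLike.act {N n : ℕ} (hn : 2 ≤ n) {ψ Φ : T K} (hψ : ψ ∈ L K n) (h : GLike N Φ) :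
    GLike N (texp N (act ψ) Φ) := by
  intro A _ _ c d c' d' hc hNc
  obtain ⟨U, _, _, a, b, a', b', hP, hN, -, hadj, huniv, hder⟩ := exists_univPair K N
  have ma : a ∈ Fil K {a, b, a', b'} 1 := tor_mem (by simp)
  have mb : b ∈ Fil K {a, b, a', b'} 1 := tor_mem (by simp)
  have ma' : a' ∈ Fil K {a, b, a', b'} 1 := tor_mem (by simp)
  have mb' : b' ∈ Fil K {a, b, a', b'} 1 := tor_mem (by simp)
  have mp : ev a b ψ ∈ Fil K {a, b, a', b'} 1 :=
    Fil_anti _ (by omega) (tor_ev_mem ma mb (tor_L_mem hψ))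
  have mp' : ev a' b' ψ ∈ Fil K {a, b, a', b'} 1 :=
    Fil_anti _ (by omega) (tor_ev_mem ma' mb' (tor_L_mem hψ))
  have ca : Commute a (ev a' b' ψ) := commute_ev hP.aa hP.ab ψ
  have cb : Commute b (ev a' b' ψ) := commute_ev hP.ba hP.bb ψ
  have ca' : Commute a' (ev a b ψ) := commute_ev hP.aa.symm hP.ba.symm ψ
  have cb' : Commute b' (ev a b ψ) := commute_ev hP.ab.symm hP.bb.symm ψ
  have hpr := prim_of_mem_L hψ U a b a' b' hP
  have ed := fun {δ : U →ₗ[K] U} (hδ : IsDer δ) {x y p q : U} (hx : δ x = ⁅x, p⁆)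
    (hy : δ y = ⁅y, q⁆) (h : q - p = ev x y ψ) => tor_edge hδ hx hy h N Φ
  obtain ⟨p, hp⟩ : ∃ p, p = ev a b ψ := ⟨_, rfl⟩
  obtain ⟨p', hp'⟩ : ∃ p', p' = ev a' b' ψ := ⟨_, rfl⟩
  rw [← hp] at mp ca' cb' hpr
  rw [← hp'] at mp' ca cb hpr
  have lie2 : ∀ {x y : U}, x ∈ Fil K {a, b, a', b'} 1 → y ∈ Fil K {a, b, a', b'} 1 →
      ⁅x, y⁆ ∈ Fil K {a, b, a', b'} 2 := fun hx hy => by
    rw [Ring.lie_def]
    exact sub_mem (tor_mul2 hx hy) (tor_mul2 hy hx)
  have clie : ∀ {z x y : U}, Commute z x → Commute z y → Commute z ⁅x, y⁆ := fun hx hy => by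
    rw [Ring.lie_def]
    exact (hx.mul_right hy).sub_right (hy.mul_right hx)
  obtain ⟨δ, hδ, d1, d2, d3, d4⟩ := hder ⁅b, p⁆ ⁅b', p'⁆ (Fil_anti _ one_le_two (lie2 mb mp))
    (Fil_anti _ one_le_two (lie2 mb' mp')) (clie hP.ba.symm ca').symm (clie hP.bb.symm cb').symm
    (clie hP.ab ca) (clie hP.bb cb)
  have nil : ∀ {x y : U}, x ∈ Fil K {a, b, a', b'} 1 → y ∈ Fil K {a, b, a', b'} 1 →
      edgeOp δ x y ^ (N + 1) = 0 := fun hx hy =>
    edgeOp_pow hadj hN hδ (by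
      rintro _ (rfl | rfl | rfl | rfl)
      · rw [d1]; exact zero_mem _
      · rw [d2]; exact lie2 mb mp
      · rw [d3]; exact zero_mem _
      · rw [d4]; exact lie2 mb' mp') hx hy
  have e1 := ed hδ (x := a') (y := b') (p := 0) (q := p') (by rw [d3, bs_lie_zero]) d4
    (by rw [sub_zero, hp'])
  have e2 := ed hδ (x := a) (y := b) (p := p') (q := p + p') (by rw [d1, bs_lie_of_commute ca])
    (by rw [d2, bs_lie_add, bs_lie_of_commute cb, add_zero]) (by rw [add_sub_cancel_right, hp])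
  have e3 := ed hδ (x := a + a') (y := b + b') (p := 0) (q := p + p')
    (by rw [map_add, d1, d3, bs_lie_zero, add_zero])
    (by rw [map_add, d2, d4, bs_add_lie, bs_lie_add, bs_lie_add, bs_lie_of_commute cb,
      bs_lie_of_commute cb', add_zero, zero_add]) (by rw [sub_zero, hpr])
  have key : ev (a + a') (b + b') (texp N (R10.act ψ) Φ) =
      ev a b (texp N (R10.act ψ) Φ) * ev a' b' (texp N (R10.act ψ) Φ) := by
    rw [e1, e2, e3, h U a b a' b' hP hN, texp_mul hδ (nil (zero_mem _) mp')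
      (nil mp' (add_mem mp mp')) (nil (zero_mem _) (add_mem mp mp'))]
  obtain ⟨f, f1, f2, f3, f4⟩ := huniv A c d c' d' hc hNc
  have := congrArg f key
  simpa only [map_mul, map_ev, map_add, f1, f2, f3, f4] using this

/-- `texp N (act ψ) Φ = Φ + ψ` modulo degree `> n` (`act_mem_FilF`, `act_sub_mem_FilF`). -/
theorem texp_act_sub {N n : ℕ} (hn : 1 ≤ n) (hN : 1 ≤ N) {ψ Φ : T K} (hψ : ψ ∈ L K n)
    (h1 : ev (0 : K) 0 Φ = 1) : texp N (act ψ) Φ - Φ - ψ ∈ FilF K (Fin 2) (n + 1) := by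
  obtain ⟨M, rfl⟩ := Nat.exists_eq_add_of_le' hN
  have e : texp (M + 1) (act ψ) Φ - Φ - ψ = ∑ k ∈ Finset.range M,
      (((k + 1 + 1).factorial : K)⁻¹) • act ψ (act ψ ((act ψ ^ k) Φ)) + (act ψ Φ - ψ) := by
    rw [texp, Finset.sum_range_succ', Finset.sum_range_succ']
    simp only [pow_succ', LinearMap.add_apply, LinearMap.sum_apply, LinearMap.smul_apply,
      Module.End.mul_apply, pow_zero, Module.End.one_apply, zero_add, Nat.factorial_one,
      Nat.factorial_zero, Nat.cast_one, inv_one, one_smul]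
    abel
  rw [e]
  refine add_mem (Submodule.sum_mem _ fun k _ => Submodule.smul_mem _ _ ?_)
    (act_sub_mem_FilF hψ (sub_one_mem_FilF (tor_ev_zero Φ ▸ h1)))
  have h0 : (act ψ ^ k) Φ ∈ FilF K (Fin 2) 0 := FilF_zero (R := K) (X := Fin 2) ▸ trivial
  exact Fil_anti _ (by omega) (act_mem_FilF hψ (act_mem_FilF hψ h0))

theorem kap_texp {N n : ℕ} (hn : 2 ≤ n) (hN : n < N) {ψ : T K} (hψ : ψ ∈ L K n) (Φ : T K) :
    kap N (texp N (act ψ) Φ) = kap N Φ := by
  rw [texp, Finset.sum_range_succ']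
  simp only [pow_succ', LinearMap.add_apply, LinearMap.sum_apply, LinearMap.smul_apply,
    Module.End.mul_apply, pow_zero, Module.End.one_apply, Nat.factorial_zero, Nat.cast_one, inv_one,
    one_smul, map_add, map_sum, map_smul, kap_act hn hN hψ, smul_zero, Finset.sum_const_zero,
    zero_add]

theorem tor_mul {A : Type} [Ring A] [Algebra K A] {G : Set A} {n : ℕ} (hn : 1 ≤ n)
    (hG : Nil K G n) {X Y x y : A} (hX : X - 1 ∈ Fil K G 1) (hY : Y - 1 ∈ Fil K G 1)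
    (hx : x ∈ Fil K G n) (hy : y ∈ Fil K G n) :
    (X + x) * (Y + y) = X * Y + (x + y) ∧ X * Y - 1 ∈ Fil K G 1 := by
  have z : ∀ {u : A}, u ∈ Fil K G (n + 1) → u = 0 := fun hu => by
    rwa [hG.Fil_eq_bot, Submodule.mem_bot] at hu
  have e1 := z (mul_mem_Fil hx hY)
  have e2 := mul_mem_Fil hX hy
  rw [add_comm 1 n] at e2
  replace e2 := z e2
  have e3 := z (mul_mem_Fil hx (Fil_anti _ hn hy))
  refine ⟨by linear_combination (norm := noncomm_ring) e1 + e2 + e3, ?_⟩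
  rw [show X * Y - 1 = (X - 1) * (Y - 1) + (X - 1) + (Y - 1) by noncomm_ring]
  exact add_mem (add_mem (Fil_anti _ one_le_two (tor_mul2 hX hY)) hX) hY

theorem tor_ev_diff {A : Type} [Ring A] [Algebra K A] {G : Set A} {n : ℕ} (hG : Nil K G n)
    {Φ Φ' : T K} (h1 : ev (0 : K) 0 Φ = 1) (hd : Φ' - Φ ∈ FilF K (Fin 2) n) {a b : A}
    (ha : a ∈ Fil K G 1) (hb : b ∈ Fil K G 1) :
    ev a b Φ' = ev a b Φ + ev a b (proj n (Φ' - Φ)) ∧ ev a b Φ - 1 ∈ Fil K G 1 ∧
      ev a b (proj n (Φ' - Φ)) ∈ Fil K G n := by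
  refine ⟨?_, ?_, tor_ev_mem ha hb (Hom_le_Fil _ le_rfl (proj_mem n _))⟩
  · have h := tor_ev_mem ha hb (sub_proj_mem hd)
    rw [hG.Fil_eq_bot, Submodule.mem_bot, map_sub, map_sub, sub_sub, sub_eq_zero] at h
    exact h
  · have h := tor_ev_mem ha hb (sub_one_mem_FilF (tor_ev_zero Φ ▸ h1))
    rwa [map_sub, map_one] at h

/-- The lowest degree difference of two associators.  In an `n`-nilpotent family (which is
`N`-nilpotent, `Nil.mono`) `ev Φ' = ev Φ + ev ψ` with `ev ψ ∈ Fil n`, `ev Φ - 1 ∈ Fil 1`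
(`sub_one_mem_FilF`, `lift_mem_Fil`, `sub_proj_mem`), `Fil (n+1) = ⊥`; expand the products.
Then `lPent_of_nil`, `prim_of_nil`, `mem_L_of_prim`. -/
theorem diff_lPent {N n : ℕ} (hn : 1 ≤ n) (hN : n ≤ N) {Φ Φ' : T K} (h1 : ev (0 : K) 0 Φ = 1)
    (hg : GLike N Φ) (hg' : GLike N Φ') (hp : GPent N Φ) (hp' : GPent N Φ')
    (hd : Φ' - Φ ∈ FilF K (Fin 2) n) :
    proj n (Φ' - Φ) ∈ L K n ∧ LPent (proj n (Φ' - Φ)) := by
  refine ⟨mem_L_of_prim hn (proj_mem n _) (prim_of_nil (proj_mem n _) ?_),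
    lPent_of_nil (proj_mem n _) ?_⟩
  · intro A _ _ a b a' b' hP hG
    have ma : a ∈ Fil K {a, b, a', b'} 1 := tor_mem (by simp)
    have mb : b ∈ Fil K {a, b, a', b'} 1 := tor_mem (by simp)
    have ma' : a' ∈ Fil K {a, b, a', b'} 1 := tor_mem (by simp)
    have mb' : b' ∈ Fil K {a, b, a', b'} 1 := tor_mem (by simp)
    obtain ⟨x1, y1, z1⟩ := tor_ev_diff hG h1 hd ma mb
    obtain ⟨x2, y2, z2⟩ := tor_ev_diff hG h1 hd ma' mb'
    obtain ⟨x3, -, -⟩ := tor_ev_diff hG h1 hd (add_mem ma ma') (add_mem mb mb')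
    have e := hg' A a b a' b' hP (hG.mono hN)
    rw [x1, x2, x3, (tor_mul hn hG y1 y2 z1 z2).1, hg A a b a' b' hP (hG.mono hN)] at e
    exact add_left_cancel e
  · intro A _ _ t ht hG
    have m := tor_chord (K := K) t
    obtain ⟨x1, y1, z1⟩ := tor_ev_diff hG h1 hd (m 0 1) (add_mem (m 1 2) (m 1 3))
    obtain ⟨x2, y2, z2⟩ := tor_ev_diff hG h1 hd (add_mem (m 0 2) (m 1 2)) (m 2 3)
    obtain ⟨x3, y3, z3⟩ := tor_ev_diff hG h1 hd (m 1 2) (m 2 3)
    obtain ⟨x4, y4, z4⟩ := tor_ev_diff hG h1 hd (add_mem (m 0 1) (m 0 2)) (add_mem (m 1 3) (m 2 3))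
    obtain ⟨x5, y5, z5⟩ := tor_ev_diff hG h1 hd (m 0 1) (m 1 2)
    have e := hp' A t ht (hG.mono hN)
    have e0 := hp A t ht (hG.mono hN)
    unfold GPentAt at e e0
    obtain ⟨w1, w2⟩ := tor_mul hn hG y3 y4 z3 z4
    rw [x1, x2, x3, x4, x5, (tor_mul hn hG y1 y2 z1 z2).1, w1,
      (tor_mul hn hG w2 y5 (add_mem z3 z4) z5).1, e0] at e
    have e' := add_left_cancel e
    simp only [pdef, LinearMap.sub_apply, LinearMap.add_apply, AlgHom.toLinearMap_apply]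
    rw [e']
    abel

theorem GPent.neg {N : ℕ} {Φ : T K} (h : GPent N Φ) : GPent N (ev (-xx K) (-yy K) Φ) := by
  intro A _ _ t ht hN
  have h1 : IsSys fun i j => -t i j :=
    ⟨fun i => by rw [ht.diag, neg_zero], fun i j => by rw [ht.symm],
      fun i j k l a b c d e f => (ht.loc i j k l a b c d e f).neg_left.neg_right,
      fun i j k a b c => by rw [← neg_add]; exact (ht.four i j k a b c).neg_left.neg_right⟩
  have h2 : Nil K (chords fun i j => -t i j) N := hN.of_Fil (by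
    rintro _ ⟨i, j, rfl⟩
    exact neg_mem (tor_chord t i j))
  have h3 := h A _ h1 h2
  unfold GPentAt at h3 ⊢
  simpa only [map_ev, map_neg, ev_xx, ev_yy, neg_add] using h3

theorem GLike.neg {N : ℕ} {Φ : T K} (h : GLike N Φ) : GLike N (ev (-xx K) (-yy K) Φ) := by
  intro A _ _ a b a' b' hP hN
  have h2 : Nil K {-a, -b, -a', -b'} N := hN.of_Fil (by
    rintro _ (rfl | rfl | rfl | rfl) <;> exact neg_mem (tor_mem (by simp)))
  have h3 := h A _ _ _ _ ⟨hP.aa.neg_left.neg_right, hP.ab.neg_left.neg_right,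
    hP.ba.neg_left.neg_right, hP.bb.neg_left.neg_right⟩ h2
  simpa only [map_ev, map_neg, ev_xx, ev_yy, neg_add] using h3

theorem tor_neg {n : ℕ} {u : T K} (hu : u ∈ HomF K (Fin 2) n) :
    ev (-xx K) (-yy K) u = (-1 : K) ^ n • u := by
  have h := lift_smul (g := ![xx K, yy K]) (-1 : K) hu
  have e : (fun i => (-1 : K) • ![xx K, yy K] i) = ![-xx K, -yy K] := by
    funext i
    fin_cases i <;> simp
  rw [e] at h
  exact h.trans (congrArg _ (ev_self u))

theorem tor_proj_neg (n : ℕ) (u : T K) :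
    proj n (ev (-xx K) (-yy K) u) = (-1 : K) ^ n • proj n u := by
  rw [← tor_neg (proj_mem n u)]
  exact (map_proj (ev (-xx K) (-yy K) : T K →ₐ[K] T K).toLinearMap (fun m v hv => by
    rw [AlgHom.toLinearMap_apply, tor_neg hv]
    exact Submodule.smul_mem _ _ hv) n u).symm

/-- EXISTENCE.  Let `Φ' = ev (-x) (-y) Φ`.  `Φ' - Φ ∈ FilF 3`: degree `0` and `2` by parity
(`map_proj`, `lift_smul`), degree `1` by `diff_lPent` and `eq_zero_of_lPent_one`.  By induction on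
`3 ≤ n ≤ N` there is `Ψ` with constant term `1`, `GLike N`, `GPent N`, `kap N Ψ = kap N Φ` and
`Φ' - Ψ ∈ FilF n`: replace `Ψ` by `texp N (act ψ) Ψ`, `ψ = proj n (Φ' - Ψ) ∈ Sol K n`
(`diff_lPent`, `mem_Sol_of_lPent`).  At `n = N`, `kap N ψ = kap N Φ' - kap N Φ = -2 kap N Φ`. -/
theorem exists_sol_of_assoc {N : ℕ} (h3 : 3 ≤ N) (hodd : Odd N) {Φ : T K}
    (h1 : ev (0 : K) 0 Φ = 1) (hg : GLike N Φ) (hp : GPent N Φ) (hk : kap N Φ ≠ 0) :
    ∃ ψ ∈ Sol K N, kap N ψ ≠ 0 := by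
  have hg' := hg.neg
  have hp' := hp.neg
  have hk' := kap_neg (n := N) (by omega) Φ
  have hpr := fun n => tor_proj_neg n Φ
  generalize ev (-xx K) (-yy K) Φ = Φ' at hg' hp' hk' hpr
  have p0 : proj 0 (Φ' - Φ) = 0 := by rw [map_sub, hpr, pow_zero, one_smul, sub_self]
  have p2 : proj 2 (Φ' - Φ) = 0 := by rw [map_sub, hpr, neg_one_sq, one_smul, sub_self]
  have p1 : proj 1 (Φ' - Φ) = 0 := by
    obtain ⟨a, b⟩ := diff_lPent le_rfl (by omega) h1 hg hg' hp hp'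
      (mem_FilF_of_proj fun m hm => by rw [Nat.lt_one_iff.1 hm, p0])
    exact eq_zero_of_lPent_one a b
  have base : Φ' - Φ ∈ FilF K (Fin 2) 3 := mem_FilF_of_proj fun m hm => by
    interval_cases m
    exacts [p0, p1, p2]
  have ind : ∀ n, 3 ≤ n → n ≤ N → ∃ Ψ : T K, ev (0 : K) 0 Ψ = 1 ∧ GLike N Ψ ∧ GPent N Ψ ∧
      kap N Ψ = kap N Φ ∧ Φ' - Ψ ∈ FilF K (Fin 2) n := by
    intro n hn
    induction n, hn using Nat.le_induction with
    | base => exact fun _ => ⟨Φ, h1, hg, hp, rfl, base⟩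
    | succ n hn ih =>
      intro hnN
      obtain ⟨Ψ, q1, q2, q3, q4, q5⟩ := ih (by omega)
      obtain ⟨a, b⟩ := diff_lPent (by omega) (by omega) q1 q2 hg' q3 hp' q5
      have c := texp_act_sub (N := N) (by omega) (by omega) a q1
      refine ⟨texp N (act (proj n (Φ' - Ψ))) Ψ, ?_, q2.act (by omega) a,
        q3.act (by omega) (mem_Sol_of_lPent hn a b), (kap_texp (by omega) hnN a Ψ).trans q4, ?_⟩
      · have z1 := lift_zero_of_FilF (Fil_anti _ (by omega) c)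
        have z2 := lift_zero_of_FilF (Fil_anti _ (by omega : 1 ≤ n) (tor_L_mem a))
        rw [map_sub, map_sub, z2, sub_zero, sub_eq_zero] at z1
        rw [tor_ev_zero, z1, ← tor_ev_zero, q1]
      · have := sub_mem (sub_proj_mem q5) c
        rwa [sub_sub_sub_cancel_right, sub_sub_sub_cancel_right] at this
  obtain ⟨Ψ, q1, q2, q3, q4, q5⟩ := ind N h3 le_rfl
  obtain ⟨a, b⟩ := diff_lPent (by omega) le_rfl q1 q2 hg' q3 hp' q5
  refine ⟨_, mem_Sol_of_lPent h3 a b, ?_⟩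
  rw [kap_proj (by omega), map_sub, hk', q4, hodd.neg_one_pow]
  intro h0
  exact hk (by linear_combination (-1 / 2 : K) * h0)

end

end Crest.Agent.R10
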