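import Crest.Agent.R10.Halve
import Crest.Agent.R10.Bridge
import Crest.Agent.R10.Torsor
import Crest.Agent.R10.KZ5

/-!
# R10/Final: assembly
-/

set_option autoImplicit false
set_option linter.unusedVariables false

namespace Crest.Agent.R10

noncomputable section

open FreeAlgebra Crest.NumberTheoryR.GT

theorem exists_gen (n : ℕ) (h3 : 3 ≤ n) (hodd : Odd n) : ∃ σ ∈ Sol ℤ n, kap n σ ≠ 0 := by
  obtain ⟨Φ, h1, hg, hp, hk⟩ := kz n
  obtain ⟨ψ, hψ, hk'⟩ := exists_sol_of_assoc h3 hodd h1 hg hp (hk n (by omega) le_rfl)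
  exact exists_int_sol hψ hk'

theorem ihQ (m n : ℕ) (ψ φ : T ℚ) (hψ : ψ ∈ Sol ℚ m) (hφ : φ ∈ Sol ℚ n) :
    ih ψ φ ∈ Sol ℚ (m + n) := ih_mem_Sol hψ hφ

theorem final :
    ∃ Φ : FreeLieAlgebra ℚ ℕ →ₗ[ℚ] GTLie,
      Function.Injective Φ ∧ LinearMap.range Φ = grtSpace ∧
      (∀ a b : FreeLieAlgebra ℚ ℕ, Φ ⁅a, b⁆ = iharaBracket (Φ a) (Φ b)) ∧
      (∀ k : ℕ, Φ (FreeLieAlgebra.of ℚ k) ∈ weightSubspace (fun _ : Fin 2 => 1) (2 * k + 3)) := by
  obtain ⟨σ, hσ, hinj, hsurj⟩ := main_alg exists_gen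
  let Ψ : FreeLieAlgebra ℚ ℕ →ₗ[ℚ] T ℚ :=
    LinearMap.applyₗ (1 : T ℚ) ∘ₗ (Eop σ).toLinearMap ∘ₗ toFA ℕ
  have hΨ : ∀ u, Ψ u = Eop σ (toFA ℕ u) 1 := fun u => rfl
  have hw : ∀ n, ∀ u ∈ weightSubspace wtN n, Ψ u ∈ Sol ℚ n ∧ Eop σ (toFA ℕ u) = act (Ψ u) :=
    fun n u hu => ⟨(Eop_lie ihQ hσ (toFA_mem hu)).2, (Eop_lie ihQ hσ (toFA_mem hu)).1⟩
  have hact : ∀ u, Eop σ (toFA ℕ u) = act (Ψ u) := by
    intro u
    refine Submodule.iSup_induction (motive := fun u => Eop σ (toFA ℕ u) = act (Ψ u))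
      (fun n => weightSubspace wtN n) (mem_iSup_weight wtN u) (fun n u hu => (hw n u hu).2) ?_ ?_
    · simp [act_zero]
    · intro a b ha hb
      simp only [map_add, ha, hb, act_add]
  -- every value lifts to `grtSpace`
  have hlift : ∀ n, ∀ ψ ∈ Sol ℚ n, ∃ g ∈ weightSubspace (fun _ : Fin 2 => 1) n,
      g ∈ grtSpace ∧ toFA (Fin 2) g = ψ := by
    intro n ψ hψ
    obtain ⟨g, hg, rfl⟩ := exists_toFA (wt := fun _ : Fin 2 => 1) hψ.1.1.1
    by_cases hn : n < 3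
    · have : toFA (Fin 2) g = 0 := by
        have := Sol_eq_bot (K := ℚ) hn ▸ hψ
        simpa using this
      exact ⟨0, Submodule.zero_mem _, Submodule.zero_mem _, by simp [this]⟩
    · exact ⟨g, hg, mem_grtSpace_of_Sol (by omega) hg hψ, rfl⟩
  have hrange : ∀ u, ∃ g ∈ grtSpace, toFA (Fin 2) g = Ψ u := by
    intro u
    refine Submodule.iSup_induction (motive := fun u => ∃ g ∈ grtSpace, toFA (Fin 2) g = Ψ u)
      (fun n => weightSubspace wtN n) (mem_iSup_weight wtN u) (fun n u hu => ?_) ?_ ?_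
    · obtain ⟨g, -, hg, e⟩ := hlift n _ (hw n u hu).1
      exact ⟨g, hg, e⟩
    · exact ⟨0, Submodule.zero_mem _, by simp⟩
    · rintro a b ⟨g, hg, e⟩ ⟨g', hg', e'⟩
      exact ⟨g + g', Submodule.add_mem _ hg hg', by simp [e, e']⟩
  have hmem : ∀ u, Ψ u ∈ LinearMap.range (toFA (Fin 2)) := fun u => by
    obtain ⟨g, -, e⟩ := hrange u
    exact ⟨g, e⟩
  let Φ : FreeLieAlgebra ℚ ℕ →ₗ[ℚ] GTLie :=
    (LinearEquiv.ofInjective (toFA (Fin 2)) (toFA_injective _)).symm.toLinearMap ∘ₗ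
      Ψ.codRestrict _ hmem
  have hΦ : ∀ u, toFA (Fin 2) (Φ u) = Ψ u := by
    intro u
    have := (LinearEquiv.ofInjective (toFA (Fin 2)) (toFA_injective _)).apply_symm_apply
      (Ψ.codRestrict _ hmem u)
    exact congrArg Subtype.val this
  refine ⟨Φ, ?_, ?_, ?_, ?_⟩
  · rw [← LinearMap.ker_eq_bot, LinearMap.ker_eq_bot']
    intro u hu
    have h0 : Ψ u = 0 := by rw [← hΦ, hu, map_zero]
    exact toFA_injective ℕ (by rw [hinj _ h0, map_zero])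
  · apply le_antisymm
    · rintro _ ⟨u, rfl⟩
      obtain ⟨g, hg, e⟩ := hrange u
      rwa [toFA_injective _ ((hΦ u).trans e.symm)]
    · intro g hg
      obtain ⟨N, hN⟩ := exists_sum_proj (toFA (Fin 2) g)
      have : ∀ n, ∃ u, Ψ u = proj n (toFA (Fin 2) g) := by
        intro n
        obtain ⟨v, hv, e⟩ := hsurj n _ (proj_mem_Sol hg n)
        obtain ⟨u, -, rfl⟩ := exists_toFA hv
        exact ⟨u, e⟩
      choose c hc using this
      refine ⟨∑ n ∈ Finset.range N, c n, toFA_injective _ ?_⟩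
      rw [hΦ, map_sum, hN]
      exact Finset.sum_congr rfl fun n _ => hc n
  · intro a b
    apply toFA_injective
    rw [toFA_ihara, hΦ, hΦ, hΦ, hΨ, toFA_lie, map_lie', hact, hact, Ring.lie_def, act_lie, act_one]
  · intro k
    obtain ⟨g, hg, -, e⟩ := hlift _ _ (hσ k)
    have : Φ (FreeLieAlgebra.of ℚ k) = g := by
      apply toFA_injective
      rw [hΦ, e, hΨ, toFA_of]
      simp [Eop, act_one]
    rwa [this]

end

end Crest.Agent.R10
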