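import Crest.Agent.R10.Basic

/-!
# R10/Grade: filtrations, homogeneous components, coefficients
-/

set_option autoImplicit false
set_option linter.unusedVariables false

namespace Crest.Agent.R10

noncomputable section

open FreeAlgebra

variable {R : Type} [CommRing R] {X Y : Type} {A B : Type} [Ring A] [Algebra R A] [Ring B]
  [Algebra R B]

theorem mem_Hom_one {G : Set A} {g : A} (hg : g ∈ G) : g ∈ Hom R G 1 := by
  rw [Hom, pow_one]; exact Submodule.subset_span hg

theorem one_mem_Hom (G : Set A) : (1 : A) ∈ Hom R G 0 := by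
  rw [Hom, pow_zero]; exact Submodule.one_le.1 le_rfl

theorem mul_mem_Hom {G : Set A} {m n : ℕ} {u v : A} (hu : u ∈ Hom R G m) (hv : v ∈ Hom R G n) :
    u * v ∈ Hom R G (m + n) := by
  rw [Hom, pow_add]; exact Submodule.mul_mem_mul hu hv

theorem gr_Hom_le {G : Set A} (S : ℕ → Submodule R A) (h1 : (1 : A) ∈ S 0)
    (hmul : ∀ n u g, u ∈ Hom R G n → u ∈ S n → g ∈ G → u * g ∈ S (n + 1)) (n : ℕ) :
    Hom R G n ≤ S n := by
  induction n with
  | zero => rw [Hom, pow_zero]; exact Submodule.one_le.2 h1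
  | succ n ih =>
    rw [Hom, pow_succ]
    refine Submodule.mul_le.2 fun u hu g hg => ?_
    induction hg using Submodule.span_induction with
    | mem g hg => exact hmul n u g hu (ih hu) hg
    | zero => simp
    | add a b _ _ ha hb => rw [mul_add]; exact add_mem ha hb
    | smul c a _ ha => rw [mul_smul_comm]; exact Submodule.smul_mem _ _ ha

theorem Hom_le_Fil (G : Set A) {m n : ℕ} (h : m ≤ n) : Hom R G n ≤ Fil R G m := by
  obtain ⟨k, rfl⟩ := Nat.exists_eq_add_of_le h
  exact le_iSup (fun k => Hom R G (m + k)) k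

theorem Fil_anti (G : Set A) {m n : ℕ} (h : m ≤ n) : Fil R G n ≤ Fil R G m := by
  exact iSup_le fun k => Hom_le_Fil G (h.trans (Nat.le_add_right _ _))

theorem mul_mem_Fil {G : Set A} {m n : ℕ} {u v : A} (hu : u ∈ Fil R G m) (hv : v ∈ Fil R G n) :
    u * v ∈ Fil R G (m + n) := by
  have : Fil R G m * Fil R G n ≤ Fil R G (m + n) := by
    conv_lhs => rw [Fil, Fil, Submodule.iSup_mul]
    refine iSup_le fun k => ?_
    rw [Submodule.mul_iSup]
    refine iSup_le fun l => Submodule.mul_le.2 fun a ha b hb => ?_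
    exact Hom_le_Fil G (by omega) (mul_mem_Hom ha hb)
  exact this (Submodule.mul_mem_mul hu hv)

theorem Fil_zero_eq_top {G : Set A} (hG : Algebra.adjoin R G = ⊤) : Fil R G 0 = ⊤ := by
  refine eq_top_iff.2 fun u _ => ?_
  have hu : u ∈ Algebra.adjoin R G := hG ▸ Algebra.mem_top
  induction hu using Algebra.adjoin_induction with
  | mem g hg => exact Hom_le_Fil G (Nat.zero_le 1) (mem_Hom_one hg)
  | algebraMap r =>
    rw [Algebra.algebraMap_eq_smul_one]
    exact Submodule.smul_mem _ _ (Hom_le_Fil G le_rfl (one_mem_Hom G))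
  | add a b _ _ ha hb => exact add_mem (ha trivial) (hb trivial)
  | mul a b _ _ ha hb => exact mul_mem_Fil (m := 0) (n := 0) (ha trivial) (hb trivial)

theorem Nil.Fil_eq_bot {G : Set A} {N : ℕ} (h : Nil R G N) : Fil R G (N + 1) = ⊥ := by
  refine eq_bot_iff.2 (iSup_le fun k => ?_)
  unfold Nil Hom at h
  rw [Hom, pow_add, h, Submodule.bot_mul]

theorem Nil.mono {G : Set A} {N M : ℕ} (h : Nil R G N) (hNM : N ≤ M) : Nil R G M := by
  exact eq_bot_iff.2 (h.Fil_eq_bot ▸ Hom_le_Fil G (Nat.succ_le_succ hNM))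

/-- Elements of `Fil G 1` form again a nilpotent family. -/
theorem Nil.of_Fil {G G' : Set A} {N : ℕ} (h : Nil R G N) (hG : ∀ g ∈ G', g ∈ Fil R G 1) :
    Nil R G' N := by
  refine eq_bot_iff.2 (h.Fil_eq_bot ▸ ?_)
  exact gr_Hom_le (Fil R G) (Hom_le_Fil G le_rfl (one_mem_Hom G))
    (fun n u g _ hu hg => mul_mem_Fil hu (hG g hg)) _

theorem Nil.map {G : Set A} {N : ℕ} (h : Nil R G N) (f : A →ₐ[R] B) {G' : Set B}
    (hG : ∀ g ∈ G', ∃ a ∈ G, f a = g) : Nil R G' N := by
  have := gr_Hom_le (G := G') (fun n => (Hom R G n).map f.toLinearMap)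
    ⟨1, one_mem_Hom G, map_one f⟩ (fun n u g _ hu hg => by
      obtain ⟨a, ha, rfl⟩ := hu
      obtain ⟨b, hb, rfl⟩ := hG g hg
      exact ⟨a * b, mul_mem_Hom ha (mem_Hom_one hb), map_mul f a b⟩) (N + 1)
  unfold Nil at h ⊢
  rw [h, Submodule.map_bot] at this
  exact eq_bot_iff.2 this

theorem Nil.pow_eq_zero {G : Set A} {N : ℕ} (h : Nil R G N) {u : A} (hu : u ∈ Fil R G 1) :
    u ^ (N + 1) = 0 := by
  have : ∀ n, u ^ n ∈ Fil R G n := fun n => by
    induction n with
    | zero => rw [pow_zero]; exact Hom_le_Fil G le_rfl (one_mem_Hom G)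
    | succ n ih => rw [pow_succ]; exact mul_mem_Fil ih hu
  have h2 := this (N + 1)
  rwa [h.Fil_eq_bot, Submodule.mem_bot] at h2

/-- A family `g * J` with `J` nilpotent and commuting with the `g` is nilpotent. -/
theorem nil_of_mul {G : Set A} {J : A} {N : ℕ} (hJ : J ^ (N + 1) = 0)
    (hG : ∀ g ∈ G, ∃ a, Commute J a ∧ g = a * J) : Nil R G N := by
  have := gr_Hom_le (G := G) (fun n => LinearMap.range (LinearMap.mulRight R (J ^ n)))
    ⟨1, by simp⟩ (fun n u g _ hu hg => by
      obtain ⟨b, rfl⟩ := hu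
      obtain ⟨a, ha, rfl⟩ := hG g hg
      refine ⟨b * a, ?_⟩
      simp only [LinearMap.mulRight_apply, pow_succ, mul_assoc]
      rw [← mul_assoc (J ^ n), (ha.pow_left n).eq, mul_assoc]) (N + 1)
  refine eq_bot_iff.2 fun u hu => ?_
  obtain ⟨b, rfl⟩ := this hu
  simp [hJ]

theorem lift_mem_Hom {G : Set A} {g : X → A} (hg : ∀ i, g i ∈ Hom R G 1) {n : ℕ}
    {u : FreeAlgebra R X} (hu : u ∈ HomF R X n) : lift R g u ∈ Hom R G n := by
  refine gr_Hom_le (fun n => (Hom R G n).comap (lift R g).toLinearMap) ?_ ?_ n hu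
  · simpa using one_mem_Hom G
  · rintro n u _ - hu ⟨i, rfl⟩
    simpa using mul_mem_Hom hu (hg i)

theorem lift_mem_Fil {G : Set A} {g : X → A} (hg : ∀ i, g i ∈ Fil R G 1) {n : ℕ}
    {u : FreeAlgebra R X} (hu : u ∈ FilF R X n) : lift R g u ∈ Fil R G n := by
  have h1 : ∀ n, HomF R X n ≤ (Fil R G n).comap (lift R g).toLinearMap := by
    refine gr_Hom_le (fun n => (Fil R G n).comap (lift R g).toLinearMap) ?_ ?_
    · simpa using Hom_le_Fil G le_rfl (one_mem_Hom G)
    · rintro n u _ - hu ⟨i, rfl⟩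
      simpa using mul_mem_Fil hu (hg i)
  have h2 : FilF R X n ≤ (Fil R G n).comap (lift R g).toLinearMap :=
    iSup_le fun k => (h1 _).trans (Submodule.comap_mono (Fil_anti G (Nat.le_add_right _ _)))
  exact h2 hu

/-- Scaling of homogeneous elements. -/
theorem lift_mul_right {g : X → A} {J : A} (hJ : ∀ i, Commute J (g i)) {n : ℕ}
    {u : FreeAlgebra R X} (hu : u ∈ HomF R X n) :
    lift R (fun i => g i * J) u = lift R g u * J ^ n := by
  refine gr_Hom_le (fun n => LinearMap.eqLocus (lift R fun i => g i * J).toLinearMap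
    (LinearMap.mulRight R (J ^ n) ∘ₗ (lift R g).toLinearMap)) ?_ ?_ n hu
  · simp [LinearMap.mem_eqLocus]
  · rintro n u _ - hu ⟨i, rfl⟩
    simp only [LinearMap.mem_eqLocus, AlgHom.toLinearMap_apply, LinearMap.comp_apply,
      LinearMap.mulRight_apply, map_mul, lift_ι_apply] at hu ⊢
    rw [hu, pow_succ]
    simp only [mul_assoc]
    rw [← mul_assoc (J ^ n), ((hJ i).pow_left n).eq, mul_assoc]

theorem lift_smul {g : X → A} (c : R) {n : ℕ} {u : FreeAlgebra R X} (hu : u ∈ HomF R X n) :
    lift R (fun i => c • g i) u = c ^ n • lift R g u := by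
  have := lift_mul_right (g := g) (J := algebraMap R A c)
    (fun i => Algebra.commute_algebraMap_left c _) hu
  simp only [← map_pow, ← Algebra.commutes, ← Algebra.smul_def] at this
  exact this

theorem Lw_le_HomF (n : ℕ) : Lw R (fun _ : X => 1) n ≤ HomF R X n := by
  refine Submodule.span_le.2 fun a ha => ?_
  change IsMon _ n a at ha
  induction ha with
  | of i => exact mem_Hom_one ⟨i, rfl⟩
  | @lie p q a b _ _ iha ihb =>
    rw [Ring.lie_def]
    exact sub_mem (mul_mem_Hom iha ihb) (add_comm q p ▸ mul_mem_Hom ihb iha)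

theorem FilF_zero : FilF R X 0 = ⊤ := Fil_zero_eq_top (adjoin_range_ι R X)

/-- An operator that raises the degree of the generators' action: a derivation sending the
generators to `Fil (m+1)` sends `Fil n` to `Fil (n+m)`. -/
theorem IsDer.mem_Fil {G : Set A} {D : A →ₗ[R] A} (hD : IsDer D) {m : ℕ}
    (h : ∀ g ∈ G, D g ∈ Fil R G (1 + m)) {n : ℕ} {u : A} (hu : u ∈ Fil R G n) :
    D u ∈ Fil R G (n + m) := by
  have h1 : ∀ n, Hom R G n ≤ (Fil R G (n + m)).comap D := by
    refine gr_Hom_le (fun n => (Fil R G (n + m)).comap D) ?_ ?_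
    · simp [hD.map_one]
    · intro n u g hu hu' hg
      rw [Submodule.mem_comap, hD]
      refine add_mem ?_ ?_
      · exact Fil_anti G (by omega) (mul_mem_Fil hu' (Hom_le_Fil G le_rfl (mem_Hom_one hg)))
      · exact Fil_anti G (by omega) (mul_mem_Fil (Hom_le_Fil G le_rfl hu) (h g hg))
  have h2 : Fil R G n ≤ (Fil R G (n + m)).comap D :=
    iSup_le fun k => (h1 _).trans (Submodule.comap_mono (Fil_anti G (by omega)))
  exact h2 hu

theorem IsDer.mem_Hom {G : Set A} {D : A →ₗ[R] A} (hD : IsDer D) {m : ℕ}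
    (h : ∀ g ∈ G, D g ∈ Hom R G (1 + m)) {n : ℕ} {u : A} (hu : u ∈ Hom R G n) :
    D u ∈ Hom R G (n + m) := by
  refine gr_Hom_le (fun n => (Hom R G (n + m)).comap D) ?_ ?_ n hu
  · simp [hD.map_one]
  · intro n u g hu hu' hg
    rw [Submodule.mem_comap, hD]
    refine add_mem ?_ ?_
    · have := mul_mem_Hom hu' (mem_Hom_one hg)
      rwa [show n + m + 1 = n + 1 + m by omega] at this
    · have := mul_mem_Hom hu (h g hg)
      rwa [← add_assoc] at this

/-! ### Words and components -/

theorem basis_eq_prod (w : FreeMonoid X) :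
    basisFreeMonoid R X w = ((FreeMonoid.toList w).map (ι R)).prod := by
  have : basisFreeMonoid R X w = FreeMonoid.lift (ι R) w := by
    simp [basisFreeMonoid, equivMonoidAlgebraFreeMonoid]
  rw [this, FreeMonoid.lift_apply]

theorem basis_mul (w w' : FreeMonoid X) :
    basisFreeMonoid R X (w * w') = basisFreeMonoid R X w * basisFreeMonoid R X w' := by
  simp [basis_eq_prod]

/-- `HomF n` is the span of the words of length `n`. -/
theorem HomF_eq_span (n : ℕ) :
    HomF R X n = Submodule.span R ((basisFreeMonoid R X) '' {w | w.length = n}) := by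
  refine le_antisymm ?_ (Submodule.span_le.2 ?_)
  · refine gr_Hom_le (fun n => Submodule.span R ((basisFreeMonoid R X) '' {w | w.length = n}))
      (Submodule.subset_span ⟨1, rfl, by simp [basis_eq_prod]⟩) ?_ n
    rintro n u _ hu' hu ⟨i, rfl⟩
    clear hu'
    induction hu using Submodule.span_induction with
    | mem a ha =>
      obtain ⟨w, hw, rfl⟩ := ha
      refine Submodule.subset_span ⟨w * FreeMonoid.of i, ?_, by simp [basis_eq_prod]⟩
      simpa using hw
    | zero => simp
    | add a b _ _ ha hb => rw [add_mul]; exact add_mem ha hb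
    | smul c a _ ha => rw [smul_mul_assoc]; exact Submodule.smul_mem _ _ ha
  · rintro _ ⟨w, rfl, rfl⟩
    induction w using FreeMonoid.inductionOn' with
    | one => simpa [basis_eq_prod] using one_mem_Hom _
    | of_mul i w ih =>
      rw [basis_mul, FreeMonoid.length_mul, FreeMonoid.length_of]
      refine mul_mem_Hom ?_ ih
      simpa [basis_eq_prod] using mem_Hom_one (R := R) (G := Set.range (ι R : X → FreeAlgebra R X))
        (g := ι R i) ⟨i, rfl⟩

theorem HomF_fg [Finite X] (n : ℕ) : (HomF R X n).FG := by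
  rw [HomF_eq_span]
  exact Submodule.fg_span ((List.finite_length_eq X n).image _)

theorem eq_zero_of_coef {u : FreeAlgebra R X} (h : ∀ w, coef w u = 0) : u = 0 := by
  exact (basisFreeMonoid R X).forall_coord_eq_zero_iff.1 h

theorem coef_proj (w : FreeMonoid X) (n : ℕ) (u : FreeAlgebra R X) :
    coef w (proj n u) = if w.length = n then coef w u else 0 := by
  classical
  have : coef w ∘ₗ proj n = if w.length = n then (coef w : FreeAlgebra R X →ₗ[R] R) else 0 := by
    refine (basisFreeMonoid R X).ext fun v => ?_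
    simp only [LinearMap.comp_apply, proj, Module.Basis.constr_basis, coef]
    by_cases hvw : v = w
    · subst hvw
      split_ifs <;> simp
    · split_ifs <;> simp [hvw]
  have h2 := DFunLike.congr_fun this u
  rw [LinearMap.comp_apply] at h2
  rw [h2]
  split_ifs <;> simp

theorem proj_mem (n : ℕ) (u : FreeAlgebra R X) : proj n u ∈ HomF R X n := by
  have : (⊤ : Submodule R (FreeAlgebra R X)) ≤ (HomF R X n).comap (proj n) := by
    rw [← (basisFreeMonoid R X).span_eq, Submodule.span_le]
    rintro _ ⟨w, rfl⟩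
    simp only [SetLike.mem_coe, Submodule.mem_comap, proj, Module.Basis.constr_basis]
    split_ifs with hw
    · rw [HomF_eq_span]; exact Submodule.subset_span ⟨w, hw, rfl⟩
    · exact zero_mem _
  exact this trivial

theorem proj_of_mem {n : ℕ} {u : FreeAlgebra R X} (hu : u ∈ HomF R X n) : proj n u = u := by
  have : HomF R X n ≤ LinearMap.eqLocus (proj n) LinearMap.id := by
    rw [HomF_eq_span, Submodule.span_le]
    rintro _ ⟨w, hw, rfl⟩
    simp only [SetLike.mem_coe, LinearMap.mem_eqLocus, proj, Module.Basis.constr_basis,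
      LinearMap.id_apply]
    exact if_pos hw
  exact this hu

theorem proj_of_ne {m n : ℕ} {u : FreeAlgebra R X} (hu : u ∈ HomF R X m) (h : m ≠ n) :
    proj n u = 0 := by
  have : HomF R X m ≤ LinearMap.ker (proj n) := by
    rw [HomF_eq_span, Submodule.span_le]
    rintro _ ⟨w, hw, rfl⟩
    simp only [SetLike.mem_coe, LinearMap.mem_ker, proj, Module.Basis.constr_basis]
    exact if_neg fun h' => h (hw.symm.trans h')
  exact this hu

theorem proj_of_Fil {m n : ℕ} {u : FreeAlgebra R X} (hu : u ∈ FilF R X m) (h : n < m) :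
    proj n u = 0 := by
  have : FilF R X m ≤ LinearMap.ker (proj n) :=
    iSup_le fun k v hv => proj_of_ne hv (by omega)
  exact this hu

theorem exists_sum_proj (u : FreeAlgebra R X) :
    ∃ N : ℕ, u = ∑ n ∈ Finset.range N, proj n u := by
  refine ⟨((basisFreeMonoid R X).repr u).support.sup FreeMonoid.length + 1, ?_⟩
  refine sub_eq_zero.1 (eq_zero_of_coef fun w => ?_)
  rw [map_sub, map_sum]
  simp only [coef_proj, Finset.sum_ite_eq, Finset.mem_range]
  split_ifs with h
  · exact sub_self _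
  · rw [sub_zero]
    by_contra h0
    exact h (Nat.lt_succ_of_le (Finset.le_sup (f := FreeMonoid.length)
      (Finsupp.mem_support_iff.2 h0)))

theorem mem_FilF_of_proj {n : ℕ} {u : FreeAlgebra R X} (h : ∀ m < n, proj m u = 0) :
    u ∈ FilF R X n := by
  obtain ⟨N, hN⟩ := exists_sum_proj u
  rw [hN]
  refine Submodule.sum_mem _ fun m _ => ?_
  rcases lt_or_ge m n with hm | hm
  · rw [h m hm]; exact zero_mem _
  · exact Hom_le_Fil _ hm (proj_mem m u)

theorem sub_proj_mem {n : ℕ} {u : FreeAlgebra R X} (hu : u ∈ FilF R X n) :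
    u - proj n u ∈ FilF R X (n + 1) := by
  refine mem_FilF_of_proj fun m hm => ?_
  rw [map_sub]
  rcases (Nat.lt_succ_iff.1 hm).eq_or_lt with rfl | hlt
  · rw [proj_of_mem (proj_mem m u), sub_self]
  · rw [proj_of_Fil hu hlt, proj_of_ne (proj_mem n u) hlt.ne', sub_self]

/-- Degree preserving linear maps commute with the components. -/
theorem map_proj (f : FreeAlgebra R X →ₗ[R] FreeAlgebra R Y)
    (hf : ∀ n, ∀ u ∈ HomF R X n, f u ∈ HomF R Y n) (n : ℕ) (u : FreeAlgebra R X) :
    f (proj n u) = proj n (f u) := by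
  have : f ∘ₗ proj n = proj n ∘ₗ f := by
    refine (basisFreeMonoid R X).ext fun w => ?_
    have hw : basisFreeMonoid R X w ∈ HomF R X w.length := by
      rw [HomF_eq_span]; exact Submodule.subset_span ⟨w, rfl, rfl⟩
    simp only [LinearMap.comp_apply]
    by_cases h : w.length = n
    · subst h
      rw [proj_of_mem hw, proj_of_mem (hf _ _ hw)]
    · rw [proj_of_ne hw h, proj_of_ne (hf _ _ hw) h, map_zero]
  exact DFunLike.congr_fun this u

theorem gr_lift_zero {u : FreeAlgebra R X} (h : u ∈ FilF R X 1) :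
    lift R (fun _ : X => (0 : R)) u = 0 := by
  have h1 := lift_mem_Fil (G := (∅ : Set R)) (g := fun _ : X => (0 : R)) (fun _ => zero_mem _) h
  have h2 : Nil R (∅ : Set R) 0 := by simp [Nil, Hom]
  rwa [h2.Fil_eq_bot, Submodule.mem_bot] at h1

/-- The constant term. -/
theorem sub_one_mem_FilF {u : FreeAlgebra R X} (h : lift R (fun _ : X => (0 : R)) u = 1) :
    u - 1 ∈ FilF R X 1 := by
  have h1 := sub_proj_mem (n := 0) (u := u) (FilF_zero (R := R) (X := X) ▸ trivial)
  have h2 := proj_mem 0 u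
  rw [HomF, Hom, pow_zero, Submodule.mem_one] at h2
  obtain ⟨c, hc⟩ := h2
  rw [← hc] at h1
  have h3 := gr_lift_zero h1
  rw [map_sub, h, AlgHom.commutes, sub_eq_zero] at h3
  have h4 : c = 1 := h3.symm
  rwa [h4, map_one] at h1

theorem lift_zero_of_FilF {u : FreeAlgebra R X} (h : u ∈ FilF R X 1) :
    lift R (fun _ : X => (0 : R)) u = 0 := by
  exact gr_lift_zero h

end

end Crest.Agent.R10
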