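import Crest.Agent.R10.Rho
import Crest.Agent.R10.Deform
import Crest.Agent.R10.Kappa

/-!
# R10/Halve: good generators by halving; Nakayama
-/

set_option autoImplicit false
set_option linter.unusedVariables false

namespace Crest.Agent.R10

noncomputable section

open FreeAlgebra

/-- Through `ℚ`: `bc_mem_Sol`, `ih_mem_Sol`, `bc_ih`, `mem_Sol_of_bc`, `ih_mem_L`. -/
theorem ih_mem_SolZ (m n : ℕ) (ψ φ : T ℤ) (hψ : ψ ∈ Sol ℤ m) (hφ : φ ∈ Sol ℤ n) :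
    ih ψ φ ∈ Sol ℤ (m + n) := by
  refine mem_Sol_of_bc (S := ℚ) (RingHom.injective_int _) (ih_mem_L hψ.1.1.1 hφ.1.1.1) ?_
  rw [bc_ih]
  exact ih_mem_Sol (bc_mem_Sol hψ) (bc_mem_Sol hφ)

variable {ρ : T F2 →ₗ[F2] T F2} {Good : Submodule F2 (T F2)}

/-- `IsRho.inj`, `exists_two_smul_of_bc`, `sat_Lw`, `two_smul_inj`. -/
theorem IsRho.half (h : IsRho ρ Good) {n : ℕ} (hn : 3 ≤ n) {ψ : T ℤ} (hψ : ψ ∈ Sol ℤ n)
    (h0 : ρ (bc ℤ F2 _ ψ) = 0) : ∃ ψ' ∈ Sol ℤ n, ψ = (2 : ℤ) • ψ' := by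
  have h1 : bc ℤ F2 _ ψ = 0 := h.inj n _ hn (bc_mem_Sol hψ) h0
  obtain ⟨v, rfl⟩ := exists_two_smul_of_bc h1
  refine ⟨v, ⟨⟨⟨?_, ?_⟩, ?_⟩, ?_⟩, rfl⟩
  · exact sat_Lw _ (fun _ => le_rfl) (fun _ => Set.toFinite _) hψ.1.1.1
  · have : asym ℤ ((2 : ℤ) • v) = 0 := hψ.1.1.2
    rw [map_smul] at this
    exact two_smul_inj (this.trans (smul_zero _).symm)
  · have : hex ℤ ((2 : ℤ) • v) = 0 := hψ.1.2
    rw [map_smul] at this
    exact two_smul_inj (this.trans (smul_zero _).symm)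
  · have : pentV ℤ ((2 : ℤ) • v) = 0 := hψ.2
    rw [map_smul] at this
    exact two_smul_inj (this.trans (smul_zero _).symm)

/-- Brackets of elements of weight `≥ 3`. -/
def Br (n : ℕ) : Submodule F2 (T F2) :=
  Submodule.span F2 {c | ∃ p q a b, 3 ≤ p ∧ 3 ≤ q ∧ p + q = n ∧ a ∈ Lw F2 wt23 p ∧
    b ∈ Lw F2 wt23 q ∧ c = ⁅a, b⁆}

/-- `thetaN_surj`, `Lw_decomp` and `Lw_eq_bot` for `wtN`, `lift_mem_Lw` with `adAB_mem`. -/
theorem mem_Br_sup {n : ℕ} (hn : n ≠ 2) {l : T F2} (hl : l ∈ Lw F2 wt23 n) :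
    l ∈ Br n ⊔ Submodule.span F2 {a | ∃ k, 2 * k + 3 = n ∧ a = adAB F2 k} := by
  obtain ⟨v, hv, rfl⟩ := thetaN_surj hn hl
  have hθ : ∀ p, ∀ a ∈ Lw F2 wtN p, thetaN F2 a ∈ Lw F2 wt23 p := fun p a ha =>
    lift_mem_Lw (wt := wtN) (fun k => adAB_mem k) ha
  have hbot : ∀ p, p < 3 → ∀ a ∈ Lw F2 wtN p, a = 0 := fun p hp a ha => by
    have : Lw F2 wtN p = ⊥ := Lw_eq_bot fun i => by simp only [wtN]; omega
    rw [this] at ha
    exact ha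
  obtain ⟨a, ha, b, hb, rfl⟩ := Submodule.mem_sup.1 (Lw_decomp hv)
  rw [map_add, add_comm]
  refine Submodule.add_mem_sup ?_ ?_
  · refine Submodule.span_induction (p := fun b _ => thetaN F2 b ∈ Br n) ?_ (by simp)
      (fun x y _ _ hx hy => by rw [map_add]; exact add_mem hx hy)
      (fun c x _ hx => by rw [map_smul]; exact Submodule.smul_mem _ c hx) hb
    rintro _ ⟨p, q, a, b, hpq, ha, hb, rfl⟩
    by_cases hp : p < 3
    · simp [hbot p hp a ha, Ring.lie_def]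
    by_cases hq : q < 3
    · simp [hbot q hq b hb, Ring.lie_def]
    rw [map_lie']
    exact Submodule.subset_span ⟨p, q, _, _, by omega, by omega, hpq, hθ p a ha, hθ q b hb, rfl⟩
  · refine Submodule.span_induction (p := fun b _ => thetaN F2 b ∈
      Submodule.span F2 {a | ∃ k, 2 * k + 3 = n ∧ a = adAB F2 k}) ?_ (by simp)
      (fun x y _ _ hx hy => by rw [map_add]; exact add_mem hx hy)
      (fun c x _ hx => by rw [map_smul]; exact Submodule.smul_mem _ c hx) ha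
    rintro _ ⟨k, hk, rfl⟩
    exact Submodule.subset_span ⟨k, hk, by simp [thetaN]⟩

/-- Strong induction on `n`.  By the induction hypothesis, `IsRho.ih_eq`, `ih_mem_SolZ`, `kap_ih`,
every element of `Br n` is `ρ (bc f)` with `f ∈ Sol ℤ n`, `kap n f = 0` (scalars of `F2` are `0, 1`).
For `n = 2k+3` show that `adAB k` is hit, by induction on `|kap n σ|`: `ρ (bc σ) = b + c • adAB k`
(`IsRho.mem`, `mem_Br_sup`); if `c = 1` take `σ - f`; if `c = 0`, `σ - f = 2 σ'` (`half`) with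
`kap n σ = 2 kap n σ'`. -/
theorem IsRho.surj (h : IsRho ρ Good)
    (hex : ∀ n, 3 ≤ n → Odd n → ∃ σ ∈ Sol ℤ n, kap n σ ≠ 0) {n : ℕ} (hn : 3 ≤ n) {l : T F2}
    (hl : l ∈ Lw F2 wt23 n) : ∃ ψ ∈ Sol ℤ n, ρ (bc ℤ F2 _ ψ) = l := by
  induction n using Nat.strong_induction_on generalizing l with
  | _ n ih' =>
  have hF2 : ∀ c : F2, c = 0 ∨ c = 1 := by decide
  have hBr : ∀ b ∈ Br n, ∃ f ∈ Sol ℤ n, kap n f = 0 ∧ ρ (bc ℤ F2 _ f) = b := by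
    intro b hb
    refine Submodule.span_induction
      (p := fun b _ => ∃ f ∈ Sol ℤ n, kap n f = 0 ∧ ρ (bc ℤ F2 _ f) = b) ?_
      ⟨0, zero_mem _, by simp, by simp⟩ ?_ ?_ hb
    · rintro _ ⟨p, q, a, b, hp, hq, hpq, ha, hb, rfl⟩
      obtain ⟨ψ, hψ, rfl⟩ := ih' p (by omega) hp ha
      obtain ⟨φ, hφ, rfl⟩ := ih' q (by omega) hq hb
      refine ⟨ih ψ φ, hpq ▸ ih_mem_SolZ p q ψ φ hψ hφ,
        kap_ih (by omega) (by omega) hψ.1.1.1 hφ.1.1.1, ?_⟩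
      rw [bc_ih, h.ih_eq hp hq (bc_mem_Sol hψ) (bc_mem_Sol hφ)]
    · rintro x y _ _ ⟨f, hf, hk, rfl⟩ ⟨g, hg, hk', rfl⟩
      exact ⟨f + g, add_mem hf hg, by simp [hk, hk'], by simp⟩
    · rintro c x _ ⟨f, hf, hk, rfl⟩
      rcases hF2 c with rfl | rfl
      · exact ⟨0, zero_mem _, by simp, by simp⟩
      · exact ⟨f, hf, hk, by simp⟩
  have hgen : ∀ k, 2 * k + 3 = n → ∃ ψ ∈ Sol ℤ n, ρ (bc ℤ F2 _ ψ) = adAB F2 k := by
    intro k hk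
    have hspan : ∀ a ∈ Submodule.span F2 {a | ∃ k, 2 * k + 3 = n ∧ a = adAB F2 k},
        a = 0 ∨ a = adAB F2 k := by
      intro a ha
      have : a ∈ Submodule.span F2 {adAB F2 k} := by
        refine Submodule.span_mono ?_ ha
        rintro _ ⟨k', hk', rfl⟩
        have : k' = k := by omega
        simp [this]
      obtain ⟨c, rfl⟩ := Submodule.mem_span_singleton.1 this
      rcases hF2 c with rfl | rfl <;> simp
    have key : ∀ m : ℕ, ∀ σ ∈ Sol ℤ n, kap n σ ≠ 0 → (kap n σ).natAbs = m →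
        ∃ ψ ∈ Sol ℤ n, ρ (bc ℤ F2 _ ψ) = adAB F2 k := by
      intro m
      induction m using Nat.strong_induction_on with
      | _ m ihm =>
      intro σ hσ hk0 hm
      obtain ⟨b, hb, a, ha, e⟩ := Submodule.mem_sup.1
        (mem_Br_sup (by omega) (h.mem n _ hn (bc_mem_Sol hσ)))
      obtain ⟨f, hf, hkf, rfl⟩ := hBr b hb
      have e' : ρ (bc ℤ F2 _ (σ - f)) = a := by
        rw [map_sub, map_sub, ← e]; abel
      rcases hspan a ha with rfl | rfl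
      · obtain ⟨σ', hσ', e2⟩ := h.half hn (sub_mem hσ hf) e'
        have e3 : kap n σ = 2 * kap n σ' := by
          have := congrArg (kap n) e2
          rwa [map_sub, map_smul, hkf, sub_zero, smul_eq_mul] at this
        refine ihm (kap n σ').natAbs ?_ σ' hσ' (fun h0 => hk0 (by rw [e3, h0, mul_zero])) rfl
        have : kap n σ' ≠ 0 := fun h0 => hk0 (by rw [e3, h0, mul_zero])
        omega
      · exact ⟨σ - f, sub_mem hσ hf, e'⟩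
    obtain ⟨σ, hσ, hk0⟩ := hex n hn ⟨k + 1, by omega⟩
    exact key _ σ hσ hk0 rfl
  obtain ⟨b, hb, a, ha, rfl⟩ := Submodule.mem_sup.1 (mem_Br_sup (by omega) hl)
  obtain ⟨f, hf, -, rfl⟩ := hBr b hb
  have : ∃ g ∈ Sol ℤ n, ρ (bc ℤ F2 _ g) = a := by
    refine Submodule.span_induction (p := fun a _ => ∃ g ∈ Sol ℤ n, ρ (bc ℤ F2 _ g) = a) ?_
      ⟨0, zero_mem _, by simp⟩ ?_ ?_ ha
    · rintro _ ⟨k, hk, rfl⟩
      exact hgen k hk
    · rintro x y _ _ ⟨f, hf, rfl⟩ ⟨g, hg, rfl⟩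
      exact ⟨f + g, add_mem hf hg, by simp⟩
    · rintro c x _ ⟨f, hf, rfl⟩
      rcases hF2 c with rfl | rfl
      · exact ⟨0, zero_mem _, by simp⟩
      · exact ⟨f, hf, by simp⟩
  obtain ⟨g, hg, rfl⟩ := this
  exact ⟨f + g, add_mem hf hg, by simp⟩

/-- `bc_Eop`, `Eop_eq`, `thetaN_injective`, `exists_two_smul_of_bc`, `eq_zero_of_two_pow`. -/
theorem IsRho.Eop_inj (h : IsRho ρ Good) {σ : ℕ → T ℤ} (hσ : ∀ k, σ k ∈ Sol ℤ (2 * k + 3))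
    (hρ : ∀ k, ρ (bc ℤ F2 _ (σ k)) = adAB F2 k) {v : FreeAlgebra ℤ ℕ} (hv : Eop σ v 1 = 0) :
    v = 0 := by
  have step : ∀ v : FreeAlgebra ℤ ℕ, Eop σ v 1 = 0 →
      ∃ w : FreeAlgebra ℤ ℕ, Eop σ w 1 = 0 ∧ v = (2 : ℤ) • w := by
    intro v hv
    have h1 := h.Eop_eq (σ := fun k => bc ℤ F2 _ (σ k)) (fun k => bc_mem_Sol (hσ k)) hρ
      (bc ℤ F2 _ v)
    rw [← bc_Eop, hv, map_zero, map_zero] at h1
    have h2 : bc ℤ F2 _ v = 0 := thetaN_injective (by rw [← h1, map_zero])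
    obtain ⟨w, rfl⟩ := exists_two_smul_of_bc h2
    refine ⟨w, two_smul_inj ?_, rfl⟩
    rw [smul_zero, ← hv, map_smul]
    rfl
  refine eq_zero_of_two_pow fun k => ?_
  have : ∃ w : FreeAlgebra ℤ ℕ, Eop σ w 1 = 0 ∧ v = (2 ^ k : ℤ) • w := by
    induction k with
    | zero => exact ⟨v, hv, by simp⟩
    | succ k ihk =>
      obtain ⟨w, hw, e⟩ := ihk
      obtain ⟨w', hw', e'⟩ := step w hw
      exact ⟨w', hw', by rw [e, e', smul_smul, pow_succ]⟩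
  obtain ⟨w, -, e⟩ := this
  exact ⟨w, e⟩

/-- NAKAYAMA.  Let `F = (Lw ℤ wtN n).map (v ↦ Eop σ v 1) ≤ Sol ℤ n` (`Eop_lie`).  For
`ψ ∈ Sol ℤ n`: `ρ (bc ψ) = thetaN v̄` (`thetaN_surj`), lift `v̄` (`exists_lift_Lw_two`), so
`ψ - Eop σ v 1 = 2 ψ'` (`half`).  `Sol ℤ n` is finitely generated (`Lw_le_HomF`, `HomF_fg`,
noetherian), so `Submodule.exists_sub_one_mem_and_smul_le_of_fg_of_le_sup` (or
`exists_sub_one_mem_and_smul_eq_zero_of_fg_of_le_smul` in the quotient) gives an odd `r`. -/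
theorem IsRho.Eop_surj (h : IsRho ρ Good) {σ : ℕ → T ℤ} (hσ : ∀ k, σ k ∈ Sol ℤ (2 * k + 3))
    (hρ : ∀ k, ρ (bc ℤ F2 _ (σ k)) = adAB F2 k) {n : ℕ} (hn : 3 ≤ n) {ψ : T ℤ}
    (hψ : ψ ∈ Sol ℤ n) : ∃ r : ℤ, r ≠ 0 ∧ ∃ v ∈ Lw ℤ wtN n, Eop σ v 1 = r • ψ := by
  let E : FreeAlgebra ℤ ℕ →ₗ[ℤ] T ℤ := LinearMap.applyₗ (1 : T ℤ) ∘ₗ (Eop σ).toLinearMap
  have hE : ∀ v, E v = Eop σ v 1 := fun v => rfl
  let F : Submodule ℤ (T ℤ) := (Lw ℤ wtN n).map E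
  have hfg : (Sol ℤ n).FG := by
    have h1 : Sol ℤ n ≤ HomF ℤ (Fin 2) n := fun u hu => Lw_le_HomF n hu.1.1.1
    exact Submodule.FG.of_le (HomF_fg n) h1
  have hle : Sol ℤ n ≤ F ⊔ (Ideal.span {(2 : ℤ)}) • Sol ℤ n := by
    intro φ hφ
    obtain ⟨vb, hvb, e⟩ := thetaN_surj (by omega) (h.mem n _ hn (bc_mem_Sol hφ))
    obtain ⟨v, hv, rfl⟩ := exists_lift_Lw_two hvb
    have hv' : Eop σ v 1 ∈ Sol ℤ n := (Eop_lie ih_mem_SolZ hσ hv).2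
    have h0 : ρ (bc ℤ F2 _ (φ - Eop σ v 1)) = 0 := by
      rw [map_sub, map_sub, bc_Eop, h.Eop_eq (fun k => bc_mem_Sol (hσ k)) hρ, e, sub_self]
    obtain ⟨φ', hφ', e'⟩ := h.half hn (sub_mem hφ hv') h0
    have : φ = Eop σ v 1 + (2 : ℤ) • φ' := by rw [← e']; abel
    rw [this]
    exact Submodule.add_mem_sup ⟨v, hv, rfl⟩
      (Submodule.smul_mem_smul (Ideal.mem_span_singleton_self _) hφ')
  obtain ⟨r, hr, hr'⟩ := Submodule.exists_sub_one_mem_and_smul_le_of_fg_of_le_sup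
    (I := Ideal.span {(2 : ℤ)}) (N := F) (N' := Sol ℤ n) (P := Sol ℤ n) hfg le_rfl hle
  refine ⟨r, ?_, ?_⟩
  · rintro rfl
    rw [Ideal.mem_span_singleton] at hr
    omega
  · obtain ⟨v, hv, e⟩ := hr' (Submodule.mem_map_of_mem (f := DistribSMul.toLinearMap ℤ (T ℤ) r) hψ)
    exact ⟨v, hv, e⟩

/-- The algebraic form of the theorem: `exists_rho`, `IsRho.surj` with `adAB_mem`, then base change
to `ℚ` (`exists_int_mul`, `exists_int_mul_Lw`, `mem_Sol_of_bc`, `bc_injective`, `Sol_eq_bot`). -/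
theorem main_alg (hex : ∀ n, 3 ≤ n → Odd n → ∃ σ ∈ Sol ℤ n, kap n σ ≠ 0) :
    ∃ σ : ℕ → T ℚ, (∀ k, σ k ∈ Sol ℚ (2 * k + 3)) ∧ (∀ v, Eop σ v 1 = 0 → v = 0) ∧
      ∀ n, ∀ ψ ∈ Sol ℚ n, ∃ v ∈ Lw ℚ wtN n, Eop σ v 1 = ψ := by
  obtain ⟨ρ, Good, h⟩ := exists_rho
  have : ∀ k, ∃ ψ ∈ Sol ℤ (2 * k + 3), ρ (bc ℤ F2 _ ψ) = adAB F2 k := fun k =>
    h.surj hex (by omega) (adAB_mem k)
  choose σ hσ hρ using this
  have hinjQ : ∀ X : Type, Function.Injective (bc ℤ ℚ X) := fun X =>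
    bc_injective (RingHom.injective_int _)
  refine ⟨fun k => bc ℤ ℚ _ (σ k), fun k => bc_mem_Sol (hσ k), ?_, ?_⟩
  · intro v hv
    obtain ⟨m, hm, w, e⟩ := exists_int_mul v
    have h1 : Eop σ w 1 = 0 := by
      apply hinjQ
      rw [bc_Eop, e, map_smul, LinearMap.smul_apply, hv, smul_zero, map_zero]
    rw [h.Eop_inj hσ hρ h1, map_zero] at e
    exact (smul_eq_zero.1 e.symm).resolve_left (by exact_mod_cast hm)
  · intro n ψ hψ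
    by_cases hn : n < 3
    · have : ψ = 0 := by
        have := Sol_eq_bot (K := ℚ) hn ▸ hψ
        simpa using this
      exact ⟨0, zero_mem _, by simp [this]⟩
    obtain ⟨m, hm, w, hw, e⟩ := exists_int_mul_Lw hψ.1.1.1
    have hw' : w ∈ Sol ℤ n :=
      mem_Sol_of_bc (S := ℚ) (RingHom.injective_int _) hw (e ▸ Submodule.smul_mem _ _ hψ)
    obtain ⟨r, hr, v, hv, e'⟩ := h.Eop_surj hσ hρ (by omega) hw'
    have hrm : ((r : ℚ) * m) ≠ 0 := mul_ne_zero (by exact_mod_cast hr) (by exact_mod_cast hm)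
    refine ⟨((r : ℚ) * m)⁻¹ • bc ℤ ℚ _ v, Submodule.smul_mem _ _ (bc_mem_Lw hv), ?_⟩
    rw [map_smul, LinearMap.smul_apply, ← bc_Eop, e', map_smul, e, ← Int.cast_smul_eq_zsmul ℚ,
      smul_smul, smul_smul, mul_assoc, inv_mul_cancel₀ hrm, one_smul]

end

end Crest.Agent.R10
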