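import Crest.Agent.R10.KZDefs

/-!
# R10/KZ1: existence of the formal solution `H`
-/

set_option autoImplicit false
set_option linter.unusedVariables false
set_option linter.unusedSectionVars false

namespace Crest.Agent.R10

noncomputable section

open MvPowerSeries

variable {A : Type} [NormedRing A] [NormedAlgebra ℝ A]

theorem kz1_one_le (d : Fin 2 →₀ ℕ) : (1 : ℝ) ≤ 1 + (d 0 : ℝ) + (d 1 : ℝ) := by
  have h0 : (0 : ℝ) ≤ d 0 := Nat.cast_nonneg _
  have h1 : (0 : ℝ) ≤ d 1 := Nat.cast_nonneg _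
  linarith

/-- Normal form: nonnegative constant, any larger exponent. -/
theorem PB2.nf {f : S2 A} (hf : PB2 f) : ∃ (C : ℝ) (k : ℕ), 0 ≤ C ∧ ∀ l, k ≤ l →
    ∀ d : Fin 2 →₀ ℕ, ‖coeff d f‖ ≤ C * (1 + (d 0 : ℝ) + (d 1 : ℝ)) ^ l := by
  obtain ⟨C, k, h⟩ := hf
  have hC : 0 ≤ C := by
    have := (norm_nonneg _).trans (h 0)
    simpa using this
  refine ⟨C, k, hC, fun l hl d => (h d).trans ?_⟩
  exact mul_le_mul_of_nonneg_left (pow_le_pow_right₀ (kz1_one_le d) hl) hC

theorem kz1_pb_of_bdd {f : S2 A} {C : ℝ} (h : ∀ d, ‖coeff d f‖ ≤ C) : PB2 f :=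
  ⟨C, 0, fun d => by simpa using h d⟩

theorem kz1_card (d : Fin 2 →₀ ℕ) :
    ((Finset.HasAntidiagonal.antidiagonal d).card : ℝ) ≤ (1 + (d 0 : ℝ) + (d 1 : ℝ)) ^ 2 := by
  have h1 : (Finset.HasAntidiagonal.antidiagonal d).card ≤
      (Finset.range (d 0 + 1) ×ˢ Finset.range (d 1 + 1)).card := by
    refine Finset.card_le_card_of_injOn (fun p => (p.1 0, p.1 1)) ?_ ?_
    · intro p hp
      have hp' : p.1 + p.2 = d := by simpa using hp
      have h0 : p.1 0 + p.2 0 = d 0 := by rw [← hp']; rfl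
      have h1 : p.1 1 + p.2 1 = d 1 := by rw [← hp']; rfl
      simp only [Finset.coe_product, Finset.coe_range, Set.mem_prod, Set.mem_Iio]
      omega
    · intro p hp q hq hpq
      have hp' : p.1 + p.2 = d := by simpa using hp
      have hq' : q.1 + q.2 = d := by simpa using hq
      simp only [Prod.mk.injEq] at hpq
      have h1 : p.1 = q.1 := by
        ext i
        fin_cases i
        · exact hpq.1
        · exact hpq.2
      refine Prod.ext h1 ?_
      rw [← hq', h1] at hp'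
      exact add_left_cancel hp'
  rw [Finset.card_product, Finset.card_range, Finset.card_range] at h1
  have h2 : ((Finset.HasAntidiagonal.antidiagonal d).card : ℝ) ≤ ((d 0 : ℝ) + 1) * ((d 1 : ℝ) + 1) := by
    exact_mod_cast h1
  have h0 : (0 : ℝ) ≤ d 0 := Nat.cast_nonneg _
  have h3 : (0 : ℝ) ≤ d 1 := Nat.cast_nonneg _
  nlinarith [mul_nonneg h0 h3, mul_nonneg h0 h0, mul_nonneg h3 h3]

theorem coeff_th (i : Fin 2) (f : S2 A) (d : Fin 2 →₀ ℕ) :
    coeff d (th i f) = (d i : ℝ) • coeff d f := rfl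

theorem coeff_sU {B : Type} [Ring B] (d : Fin 2 →₀ ℕ) :
    coeff d (sU B) = if d 1 = 0 ∧ d 0 ≠ 0 then 1 else 0 := rfl

theorem coeff_sV {B : Type} [Ring B] (d : Fin 2 →₀ ℕ) :
    coeff d (sV B) = if d 0 = 0 ∧ d 1 ≠ 0 then 1 else 0 := rfl

theorem coeff_sZ {B : Type} [Ring B] (d : Fin 2 →₀ ℕ) :
    coeff d (sZ B) = if d 0 = d 1 ∧ d 0 ≠ 0 then 1 else 0 := rfl

theorem PB2.add {f g : S2 A} (hf : PB2 f) (hg : PB2 g) : PB2 (f + g) := by
  obtain ⟨C, k, hC, h⟩ := hf.nf
  obtain ⟨D, l, hD, h'⟩ := hg.nf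
  refine ⟨C + D, max k l, fun d => ?_⟩
  rw [map_add, add_mul]
  exact (norm_add_le _ _).trans
    (add_le_add (h _ (le_max_left _ _) d) (h' _ (le_max_right _ _) d))

theorem PB2.neg {f : S2 A} (hf : PB2 f) : PB2 (-f) := by
  obtain ⟨C, k, h⟩ := hf
  exact ⟨C, k, fun d => by rw [map_neg, norm_neg]; exact h d⟩

theorem PB2.sub {f g : S2 A} (hf : PB2 f) (hg : PB2 g) : PB2 (f - g) := by
  rw [sub_eq_add_neg]; exact hf.add hg.neg

/-- The antidiagonal of `d` has `(d 0 + 1) (d 1 + 1) ≤ (1 + d 0 + d 1)²` elements. -/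
theorem PB2.mul {f g : S2 A} (hf : PB2 f) (hg : PB2 g) : PB2 (f * g) := by
  obtain ⟨C, k, hC, h⟩ := hf.nf
  obtain ⟨D, l, hD, h'⟩ := hg.nf
  refine ⟨C * D, k + l + 2, fun d => ?_⟩
  rw [coeff_mul]
  set t : ℝ := 1 + (d 0 : ℝ) + (d 1 : ℝ) with ht
  have ht1 : 1 ≤ t := kz1_one_le d
  have key : ∀ p ∈ Finset.HasAntidiagonal.antidiagonal d,
      ‖coeff p.1 f * coeff p.2 g‖ ≤ C * t ^ k * (D * t ^ l) := by
    intro p hp
    have hp' : p.1 + p.2 = d := by simpa using hp
    have h0 : (p.1 0 : ℝ) + p.2 0 = d 0 := by rw [← hp']; simp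
    have h1 : (p.1 1 : ℝ) + p.2 1 = d 1 := by rw [← hp']; simp
    have a0 : (0 : ℝ) ≤ p.1 0 := Nat.cast_nonneg _
    have a1 : (0 : ℝ) ≤ p.1 1 := Nat.cast_nonneg _
    have b0 : (0 : ℝ) ≤ p.2 0 := Nat.cast_nonneg _
    have b1 : (0 : ℝ) ≤ p.2 1 := Nat.cast_nonneg _
    refine (norm_mul_le _ _).trans (mul_le_mul ((h k le_rfl _).trans ?_) ((h' l le_rfl _).trans ?_)
      (norm_nonneg _) (by positivity))
    · exact mul_le_mul_of_nonneg_left (pow_le_pow_left₀ (by linarith) (by linarith) _) hC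
    · exact mul_le_mul_of_nonneg_left (pow_le_pow_left₀ (by linarith) (by linarith) _) hD
  refine (norm_sum_le _ _).trans ((Finset.sum_le_card_nsmul _ _ _ key).trans ?_)
  rw [nsmul_eq_mul]
  calc ((Finset.HasAntidiagonal.antidiagonal d).card : ℝ) * (C * t ^ k * (D * t ^ l))
      ≤ t ^ 2 * (C * t ^ k * (D * t ^ l)) :=
        mul_le_mul_of_nonneg_right (kz1_card d) (by positivity)
    _ = C * D * t ^ (k + l + 2) := by ring

theorem PB2.th {f : S2 A} (hf : PB2 f) (i : Fin 2) : PB2 (th i f) := by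
  obtain ⟨C, k, hC, h⟩ := hf.nf
  refine ⟨C, k + 1, fun d => ?_⟩
  rw [coeff_th, norm_smul, Real.norm_natCast]
  have h0 : (0 : ℝ) ≤ d 0 := Nat.cast_nonneg _
  have h1 : (0 : ℝ) ≤ d 1 := Nat.cast_nonneg _
  have hi : (d i : ℝ) ≤ 1 + (d 0 : ℝ) + (d 1 : ℝ) := by
    fin_cases i
    · simp only [Fin.zero_eta]; linarith
    · simp only [Fin.mk_one]; linarith
  calc (d i : ℝ) * ‖coeff d f‖
      ≤ (1 + (d 0 : ℝ) + (d 1 : ℝ)) * (C * (1 + (d 0 : ℝ) + (d 1 : ℝ)) ^ k) :=
        mul_le_mul hi (h k le_rfl d) (norm_nonneg _) (by linarith)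
    _ = _ := by ring

theorem pb2_C (a : A) : PB2 (C a : S2 A) := by
  refine kz1_pb_of_bdd (C := ‖a‖) fun d => ?_
  rw [coeff_C]
  split_ifs <;> simp

theorem pb2_X (i : Fin 2) : PB2 (X i : S2 A) := by
  refine kz1_pb_of_bdd (C := ‖(1 : A)‖) fun d => ?_
  rw [coeff_X]
  split_ifs <;> simp

theorem pb2_sU : PB2 (sU A) := by
  refine kz1_pb_of_bdd (C := ‖(1 : A)‖) fun d => ?_
  rw [coeff_sU]
  split_ifs <;> simp

theorem pb2_sV : PB2 (sV A) := by
  refine kz1_pb_of_bdd (C := ‖(1 : A)‖) fun d => ?_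
  rw [coeff_sV]
  split_ifs <;> simp

theorem pb2_sZ : PB2 (sZ A) := by
  refine kz1_pb_of_bdd (C := ‖(1 : A)‖) fun d => ?_
  rw [coeff_sZ]
  split_ifs <;> simp

theorem kz1_eq_iff (p q : Fin 2 →₀ ℕ) : p = q ↔ p 0 = q 0 ∧ p 1 = q 1 := by
  rw [Finsupp.ext_iff, Fin.forall_fin_two]

theorem kz1_le_iff (p q : Fin 2 →₀ ℕ) : p ≤ q ↔ p 0 ≤ q 0 ∧ p 1 ≤ q 1 := by
  rw [Finsupp.le_def, Fin.forall_fin_two]

theorem kz1_XX {B : Type} [Ring B] : (X 0 * X 1 : S2 B) =
    monomial (Finsupp.single 0 1 + Finsupp.single 1 1) 1 := by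
  rw [X_def, X_def, monomial_mul_monomial, one_mul]

theorem kz1_sU {B : Type} [Ring B] : (1 - X 0) * sU B = X 0 := by
  ext d
  rw [sub_mul, one_mul, map_sub, X_def, coeff_monomial_mul, coeff_monomial, coeff_sU, coeff_sU]
  simp only [kz1_eq_iff, kz1_le_iff, Finsupp.coe_tsub, Pi.sub_apply, Finsupp.single_eq_same,
    Finsupp.single_eq_of_ne (show (1 : Fin 2) ≠ 0 by decide), one_mul]
  split_ifs <;> first | (exfalso; omega) | simp

theorem kz1_sV {B : Type} [Ring B] : (1 - X 1) * sV B = X 1 := by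
  ext d
  rw [sub_mul, one_mul, map_sub, X_def, coeff_monomial_mul, coeff_monomial, coeff_sV, coeff_sV]
  simp only [kz1_eq_iff, kz1_le_iff, Finsupp.coe_tsub, Pi.sub_apply, Finsupp.single_eq_same,
    Finsupp.single_eq_of_ne (show (0 : Fin 2) ≠ 1 by decide), one_mul]
  split_ifs <;> first | (exfalso; omega) | simp

theorem kz1_sZ {B : Type} [Ring B] : (1 - X 0 * X 1) * sZ B = X 0 * X 1 := by
  ext d
  rw [sub_mul, one_mul, map_sub, kz1_XX, coeff_monomial_mul, coeff_monomial, coeff_sZ, coeff_sZ]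
  simp only [kz1_eq_iff, kz1_le_iff, Finsupp.coe_tsub, Pi.sub_apply, Finsupp.single_eq_same,
    Finsupp.coe_add, Pi.add_apply,
    Finsupp.single_eq_of_ne (show (1 : Fin 2) ≠ 0 by decide),
    Finsupp.single_eq_of_ne (show (0 : Fin 2) ≠ 1 by decide), one_mul]
  split_ifs <;> first | (exfalso; omega) | simp

theorem sU_eq : (1 - X 0) * sU A = X 0 := by
  exact kz1_sU

theorem sV_eq : (1 - X 1) * sV A = X 1 := by
  exact kz1_sV

theorem sZ_eq : (1 - X 0 * X 1) * sZ A = X 0 * X 1 := by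
  exact kz1_sZ

/-- Leibniz rule (`coeff_mul`, and `(p + q) i = p i + q i` on the antidiagonal). -/
theorem th_mul (i : Fin 2) (f g : S2 A) : th i (f * g) = th i f * g + f * th i g := by
  ext d
  rw [map_add, coeff_th, coeff_mul, coeff_mul, coeff_mul, Finset.smul_sum,
    ← Finset.sum_add_distrib]
  refine Finset.sum_congr rfl fun p hp => ?_
  have hp' : p.1 + p.2 = d := by simpa using hp
  have h0 : (d i : ℝ) = p.1 i + p.2 i := by rw [← hp']; simp
  rw [coeff_th, coeff_th, h0, add_smul, smul_mul_assoc, mul_smul_comm]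

theorem th_add (i : Fin 2) (f g : S2 A) : th i (f + g) = th i f + th i g := by
  ext d; rw [map_add, coeff_th, coeff_th, coeff_th, map_add, smul_add]

theorem th_sub (i : Fin 2) (f g : S2 A) : th i (f - g) = th i f - th i g := by
  ext d; rw [map_sub, coeff_th, coeff_th, coeff_th, map_sub, smul_sub]

theorem th_C (i : Fin 2) (a : A) : th i (C a : S2 A) = 0 := by
  ext d
  rw [coeff_th, coeff_C]
  split_ifs with h
  · simp [h]
  · simp

theorem th_zero (i : Fin 2) : th i (0 : S2 A) = 0 := by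
  ext d; rw [coeff_th]; simp

theorem th_comm (f : S2 A) : th 0 (th 1 f) = th 1 (th 0 f) := by
  ext d; rw [coeff_th, coeff_th, coeff_th, coeff_th, smul_comm]

theorem th0_sV : th 0 (sV A) = 0 := by
  ext d
  rw [coeff_th, coeff_sV]
  split_ifs with h
  · simp [h.1]
  · simp

theorem th1_sU : th 1 (sU A) = 0 := by
  ext d
  rw [coeff_th, coeff_sU]
  split_ifs with h
  · simp [h.1]
  · simp

theorem th_sZ : th 0 (sZ A) = th 1 (sZ A) := by
  ext d
  rw [coeff_th, coeff_th, coeff_sZ]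
  split_ifs with h
  · rw [h.1]
  · simp

theorem kz1_central {B : Type} [Ring B] {s : S2 B} (hs : ∀ d, coeff d s = 0 ∨ coeff d s = 1)
    (f : S2 B) : Commute s f := by
  rw [commute_iff_eq]
  ext d
  rw [coeff_mul, coeff_mul,
    Finsupp.sum_antidiagonal_swap d (fun p q => coeff p s * coeff q f)]
  refine Finset.sum_congr rfl fun p _ => ?_
  rcases hs p.2 with h | h <;> simp [h]

theorem sU_comm {B : Type} [Ring B] (f : S2 B) : Commute (sU B) f :=
  kz1_central (fun d => by rw [coeff_sU]; split_ifs <;> simp) f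

theorem sV_comm {B : Type} [Ring B] (f : S2 B) : Commute (sV B) f :=
  kz1_central (fun d => by rw [coeff_sV]; split_ifs <;> simp) f

theorem sZ_comm {B : Type} [Ring B] (f : S2 B) : Commute (sZ B) f :=
  kz1_central (fun d => by rw [coeff_sZ]; split_ifs <;> simp) f

theorem kz1_rel_int : sU ℤ * sV ℤ = sZ ℤ * (sU ℤ + sV ℤ + 1) := by
  have hU := kz1_sU (B := ℤ)
  have hV := kz1_sV (B := ℤ)
  have hZ := kz1_sZ (B := ℤ)
  linear_combination (X 0 * (1 + sU ℤ) * (1 + sZ ℤ)) * hV + (sV ℤ * (1 + sZ ℤ)) * hU -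
    ((1 + sU ℤ) * (1 + sV ℤ)) * hZ

theorem kz1_rel {B : Type} [Ring B] : sU B * sV B = sZ B * (sU B + sV B + 1) := by
  have hU : map (Int.castRingHom B) (sU ℤ) = sU B := by
    ext d; rw [coeff_map, coeff_sU, coeff_sU]; split_ifs <;> simp
  have hV : map (Int.castRingHom B) (sV ℤ) = sV B := by
    ext d; rw [coeff_map, coeff_sV, coeff_sV]; split_ifs <;> simp
  have hZ : map (Int.castRingHom B) (sZ ℤ) = sZ B := by
    ext d; rw [coeff_map, coeff_sZ, coeff_sZ]; split_ifs <;> simp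
  have := congrArg (map (σ := Fin 2) (Int.castRingHom B)) kz1_rel_int
  simpa only [map_mul, map_add, map_one, hU, hV, hZ] using this

/-- Commutator of the two components of the connection, abstractly. -/
theorem kz1_flat_alg {B : Type} [Ring B] {a b c d e u v z : B} (h : Flat5 a b c d e)
    (hu : ∀ f, Commute u f) (hv : ∀ f, Commute v f) (hz : ∀ f, Commute z f)
    (hr : u * v = z * (u + v + 1)) :
    (a - u * c - z * e) * (b - v * d - z * e) = (b - v * d - z * e) * (a - u * c - z * e) := by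
  have m : ∀ {s t : B}, (∀ f, Commute t f) → ∀ x y : B, s * x * (t * y) = s * t * (x * y) := by
    intro s t ht x y
    rw [mul_assoc s x, ← mul_assoc x t, ← (ht x).eq]
    simp only [mul_assoc]
  have m1 : ∀ {t : B}, (∀ f, Commute t f) → ∀ x y : B, x * (t * y) = t * (x * y) := by
    intro t ht x y
    rw [← mul_assoc, ← (ht x).eq, mul_assoc]
  have hab := h.ab.eq
  have had := h.ad.eq
  have hcb := h.cb.eq
  have h1 : c * d + c * e = d * c + e * c := by
    have := h.cde.eq; rwa [mul_add, add_mul] at this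
  have h2 : c * d + e * d = d * c + d * e := by
    have := h.ced.eq; rwa [mul_add, add_mul] at this
  have h3 : c * d - d * c = a * e - b * e - (e * a - e * b) := by
    have := h.rel; rwa [Ring.lie_def, Ring.lie_def, sub_mul, mul_sub] at this
  have hvu : v * u = u * v := (hv u).eq
  have huz : u * z = z * u := (hu z).eq
  have hvz : v * z = z * v := (hv z).eq
  simp only [sub_mul, mul_sub, m hu, m hv, m hz, m1 hv a, m1 hz a, m1 hu b,
    m1 hz b, hvu, huz, hvz, hr]
  have e1 : c * e = d * c + e * c - c * d := by rw [← h1]; abel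
  have e2 : e * d = d * c + d * e - c * d := by rw [← h2]; abel
  have e3 : a * e = c * d - d * c + b * e + (e * a - e * b) := by rw [h3]; abel
  simp only [mul_assoc u, mul_assoc v, mul_assoc z, e1, e2, e3, hab, had, hcb]
  noncomm_ring

theorem Flat5.mapC {a b c d e : A} (h : Flat5 a b c d e) :
    Flat5 (C a : S2 A) (C b) (C c) (C d) (C e) := by
  refine ⟨h.ab.map C, h.ad.map C, h.cb.map C, ?_, ?_, ?_⟩
  · simpa only [map_add] using h.cde.map (C : A →+* S2 A)
  · simpa only [map_add] using h.ced.map (C : A →+* S2 A)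
  · have := congrArg (C : A →+* S2 A) h.rel
    simpa only [Ring.lie_def, map_sub, map_mul] using this

theorem om_comm {a b c d e : A} (h : Flat5 a b c d e) :
    omU a c e * omV b d e = omV b d e * omU a c e :=
  kz1_flat_alg h.mapC sU_comm sV_comm sZ_comm kz1_rel

theorem th_om (a b c d e : A) : th 0 (omV b d e) = th 1 (omU a c e) := by
  simp only [omU, omV, th_sub, th_mul, th_C, th0_sV, th1_sU, th_sZ, zero_mul, mul_zero]

/-- The covariant derivatives commute. -/
theorem kz1_nabla {a b c d e : A} (h : Flat5 a b c d e) (f : S2 A) :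
    th 0 (th 1 f - omV b d e * f + f * C b) - omU a c e * (th 1 f - omV b d e * f + f * C b) +
        (th 1 f - omV b d e * f + f * C b) * C a =
      th 1 (th 0 f - omU a c e * f + f * C a) - omV b d e * (th 0 f - omU a c e * f + f * C a) +
        (th 0 f - omU a c e * f + f * C a) * C b := by
  have h1 := om_comm h
  have h2 : (C a : S2 A) * C b = C b * C a := h.mapC.ab.eq
  have h3 : omU a c e * (omV b d e * f) = omV b d e * (omU a c e * f) := by
    rw [← mul_assoc, h1, mul_assoc]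
  simp only [th_add, th_sub, th_mul, th_C, th_comm, th_om a b c d e, mul_zero, add_zero, mul_add,
    mul_sub, add_mul, sub_mul, mul_assoc, h2, h3]
  abel

/-- All coefficients lie in `Fil j`. -/
def FC (G : Set A) (j : ℕ) (f : S2 A) : Prop := ∀ d, coeff d f ∈ Fil ℝ G j

theorem FC.add {G : Set A} {j : ℕ} {f g : S2 A} (hf : FC G j f) (hg : FC G j g) :
    FC G j (f + g) := fun d => by rw [map_add]; exact add_mem (hf d) (hg d)

theorem FC.sub {G : Set A} {j : ℕ} {f g : S2 A} (hf : FC G j f) (hg : FC G j g) :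
    FC G j (f - g) := fun d => by rw [map_sub]; exact sub_mem (hf d) (hg d)

theorem FC.mul {G : Set A} {i j : ℕ} {f g : S2 A} (hf : FC G i f) (hg : FC G j g) :
    FC G (i + j) (f * g) := fun d => by
  rw [coeff_mul]
  exact Submodule.sum_mem _ fun p _ => mul_mem_Fil (hf _) (hg _)

theorem FC.mul0 {G : Set A} {j : ℕ} {f g : S2 A} (hf : FC G 0 f) (hg : FC G j g) :
    FC G j (f * g) := by
  have := hf.mul hg
  rwa [zero_add] at this

theorem FC.anti {G : Set A} {i j : ℕ} {f : S2 A} (hf : FC G j f) (h : i ≤ j) : FC G i f :=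
  fun d => Fil_anti G h (hf d)

theorem FC.th {G : Set A} {j : ℕ} {f : S2 A} (hf : FC G j f) (i : Fin 2) : FC G j (th i f) :=
  fun d => by rw [coeff_th]; exact Submodule.smul_mem _ _ (hf d)

theorem fc_C {G : Set A} {a : A} (ha : a ∈ G) : FC G 1 (C a : S2 A) := fun d => by
  rw [coeff_C]
  split_ifs
  · exact Hom_le_Fil G le_rfl (mem_Hom_one ha)
  · exact zero_mem _

theorem fc_scal {G : Set A} {s : S2 A} (hs : ∀ d, coeff d s = 0 ∨ coeff d s = 1) : FC G 0 s :=
  fun d => by
    rcases hs d with h | h <;> rw [h]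
    · exact zero_mem _
    · exact Hom_le_Fil G le_rfl (one_mem_Hom G)

theorem fc_sU {G : Set A} : FC G 0 (sU A) := fc_scal fun d => by rw [coeff_sU]; split_ifs <;> simp

theorem fc_sV {G : Set A} : FC G 0 (sV A) := fc_scal fun d => by rw [coeff_sV]; split_ifs <;> simp

theorem fc_sZ {G : Set A} : FC G 0 (sZ A) := fc_scal fun d => by rw [coeff_sZ]; split_ifs <;> simp

theorem fc_one {G : Set A} : FC G 0 (1 : S2 A) :=
  fc_scal fun d => by rw [coeff_one]; split_ifs <;> simp

theorem fc_omU {G : Set A} {a c e : A} (ha : a ∈ G) (hc : c ∈ G) (he : e ∈ G) :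
    FC G 1 (omU a c e) := by
  unfold omU
  exact ((fc_C ha).sub (fc_sU.mul0 (fc_C hc))).sub (fc_sZ.mul0 (fc_C he))

theorem fc_omV {G : Set A} {b d e : A} (hb : b ∈ G) (hd : d ∈ G) (he : e ∈ G) :
    FC G 1 (omV b d e) := by
  unfold omV
  exact ((fc_C hb).sub (fc_sV.mul0 (fc_C hd))).sub (fc_sZ.mul0 (fc_C he))

theorem FC.eq_zero {G : Set A} {N : ℕ} (hN : Nil ℝ G N) {f : S2 A} (hf : FC G (N + 1) f) :
    f = 0 := by
  ext d
  have := hf d
  rwa [hN.Fil_eq_bot, Submodule.mem_bot] at this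

theorem pb2_omU (a c e : A) : PB2 (omU a c e) :=
  ((pb2_C a).sub (pb2_sU.mul (pb2_C c))).sub (pb2_sZ.mul (pb2_C e))

theorem pb2_omV (b d e : A) : PB2 (omV b d e) :=
  ((pb2_C b).sub (pb2_sV.mul (pb2_C d))).sub (pb2_sZ.mul (pb2_C e))

theorem kz1_coeff_zero_mul (f g : S2 A) : coeff 0 (f * g) = coeff 0 f * coeff 0 g := by
  simp only [coeff_zero_eq_constantCoeff_apply, map_mul]

theorem coeff_zero_omU (a c e : A) : coeff 0 (omU a c e) = a := by
  simp [omU, map_sub, coeff_sU, coeff_sZ, -coeff_zero_eq_constantCoeff,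
    coeff_zero_C]

theorem coeff_zero_omV (b d e : A) : coeff 0 (omV b d e) = b := by
  simp [omV, map_sub, coeff_sV, coeff_sZ, -coeff_zero_eq_constantCoeff,
    coeff_zero_C]

/-- The inverse of the total Euler operator. -/
def thInv (f : S2 A) : S2 A := fun d => ((d 0 : ℝ) + (d 1 : ℝ))⁻¹ • coeff d f

theorem coeff_thInv (f : S2 A) (d : Fin 2 →₀ ℕ) :
    coeff d (thInv f) = ((d 0 : ℝ) + (d 1 : ℝ))⁻¹ • coeff d f := rfl

theorem kz1_ne {d : Fin 2 →₀ ℕ} (hd : d ≠ 0) : (1 : ℝ) ≤ (d 0 : ℝ) + (d 1 : ℝ) := by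
  rw [Ne, kz1_eq_iff] at hd
  simp only [Finsupp.coe_zero, Pi.zero_apply] at hd
  have : 1 ≤ d 0 + d 1 := by omega
  exact_mod_cast this

theorem th_thInv {f : S2 A} (hf : coeff 0 f = 0) : th 0 (thInv f) + th 1 (thInv f) = f := by
  ext d
  rw [map_add, coeff_th, coeff_th, ← add_smul, coeff_thInv, smul_smul]
  by_cases hd : d = 0
  · rw [hd, hf, smul_zero]
  · rw [mul_inv_cancel₀ (by have := kz1_ne hd; linarith), one_smul]

theorem thInv_th {f : S2 A} (hf : coeff 0 f = 0) : thInv (th 0 f + th 1 f) = f := by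
  ext d
  rw [coeff_thInv, map_add, coeff_th, coeff_th, ← add_smul, smul_smul]
  by_cases hd : d = 0
  · rw [hd, hf, smul_zero]
  · rw [inv_mul_cancel₀ (by have := kz1_ne hd; linarith), one_smul]

theorem coeff_zero_thInv (f : S2 A) : coeff 0 (thInv f) = 0 := by
  rw [coeff_thInv]; simp

theorem FC.thInv {G : Set A} {j : ℕ} {f : S2 A} (hf : FC G j f) : FC G j (thInv f) :=
  fun d => by rw [coeff_thInv]; exact Submodule.smul_mem _ _ (hf d)

theorem PB2.thInv {f : S2 A} (hf : PB2 f) : PB2 (thInv f) := by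
  obtain ⟨C, k, h⟩ := hf
  refine ⟨C, k, fun d => le_trans ?_ (h d)⟩
  rw [coeff_thInv, norm_smul]
  refine mul_le_of_le_one_left (norm_nonneg _) ?_
  by_cases hd : d = 0
  · simp [hd]
  · have := kz1_ne hd
    rw [norm_inv, Real.norm_of_nonneg (by linarith)]
    exact inv_le_one_of_one_le₀ this

/-- The right-hand side of the total equation. -/
def kzRhs (a b c d e : A) (f : S2 A) : S2 A :=
  (omU a c e * f - f * C a) + (omV b d e * f - f * C b)

theorem kzRhs_add (a b c d e : A) (f g : S2 A) :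
    kzRhs a b c d e (f + g) = kzRhs a b c d e f + kzRhs a b c d e g := by
  simp only [kzRhs, mul_add, add_mul]; abel

theorem FC.kzRhs {a b c d e : A} {j : ℕ} {f : S2 A} (hf : FC {a, b, c, d, e} j f) :
    FC {a, b, c, d, e} (j + 1) (kzRhs a b c d e f) := by
  have h1 := (fc_omU (G := {a, b, c, d, e}) (a := a) (c := c) (e := e) (by simp) (by simp)
    (by simp)).mul hf
  have h2 := (fc_omV (G := {a, b, c, d, e}) (b := b) (d := d) (e := e) (by simp) (by simp)
    (by simp)).mul hf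
  rw [add_comm] at h1 h2
  exact (h1.sub (hf.mul (fc_C (by simp)))).add (h2.sub (hf.mul (fc_C (by simp))))

theorem PB2.kzRhs (a b c d e : A) {f : S2 A} (hf : PB2 f) : PB2 (kzRhs a b c d e f) :=
  (((pb2_omU a c e).mul hf).sub (hf.mul (pb2_C a))).add
    (((pb2_omV b d e).mul hf).sub (hf.mul (pb2_C b)))

theorem coeff_zero_kzRhs (a b c d e : A) {f : S2 A} (hf : coeff 0 f = 0 ∨ coeff 0 f = 1) :
    coeff 0 (kzRhs a b c d e f) = 0 := by
  rw [kzRhs, map_add, map_sub, map_sub, kz1_coeff_zero_mul, kz1_coeff_zero_mul,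
    kz1_coeff_zero_mul, kz1_coeff_zero_mul, coeff_zero_omU, coeff_zero_omV, coeff_zero_C,
    coeff_zero_C]
  rcases hf with h | h <;> simp [h]

/-- The Picard iterates. -/
def kzIt (a b c d e : A) : ℕ → S2 A
  | 0 => 1
  | k + 1 => 1 + thInv (kzRhs a b c d e (kzIt a b c d e k))

theorem coeff_zero_kzIt (a b c d e : A) (k : ℕ) : coeff 0 (kzIt a b c d e k) = 1 := by
  cases k with
  | zero => exact coeff_zero_one
  | succ k => rw [kzIt, map_add, coeff_zero_one, coeff_zero_thInv, add_zero]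

theorem pb2_one : PB2 (1 : S2 A) := by simpa using pb2_C (1 : A)

theorem pb2_kzIt (a b c d e : A) (k : ℕ) : PB2 (kzIt a b c d e k) := by
  induction k with
  | zero => exact pb2_one
  | succ k ih => exact pb2_one.add (ih.kzRhs a b c d e).thInv

theorem fc_kzIt (a b c d e : A) (k : ℕ) : FC {a, b, c, d, e} 0 (kzIt a b c d e k) := by
  induction k with
  | zero => exact fc_one
  | succ k ih => exact fc_one.add (ih.kzRhs.thInv.anti (Nat.zero_le _))

theorem thInv_sub (f g : S2 A) : thInv (f - g) = thInv f - thInv g := by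
  ext d; rw [map_sub, coeff_thInv, coeff_thInv, coeff_thInv, map_sub, smul_sub]

theorem fc_kzIt_sub (a b c d e : A) (k : ℕ) :
    FC {a, b, c, d, e} (k + 1) (kzIt a b c d e (k + 1) - kzIt a b c d e k) := by
  induction k with
  | zero =>
    have : kzIt a b c d e 1 - kzIt a b c d e 0 = thInv (kzRhs a b c d e 1) := by
      simp [kzIt]
    rw [this]
    exact (FC.kzRhs fc_one).thInv
  | succ k ih =>
    have h1 : kzRhs a b c d e (kzIt a b c d e (k + 1) - kzIt a b c d e k) =
        kzRhs a b c d e (kzIt a b c d e (k + 1)) - kzRhs a b c d e (kzIt a b c d e k) := by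
      rw [eq_sub_iff_add_eq, ← kzRhs_add, sub_add_cancel]
    have : kzIt a b c d e (k + 1 + 1) - kzIt a b c d e (k + 1) =
        thInv (kzRhs a b c d e (kzIt a b c d e (k + 1) - kzIt a b c d e k)) := by
      rw [h1, thInv_sub]
      conv_lhs => rw [kzIt, kzIt]
      rw [add_sub_add_left_eq_sub]
      rfl
    rw [this]
    exact ih.kzRhs.thInv

/-- EXISTENCE.  Put `Ω = omU + omV`, `rhs f = Ω f - f C(a+b)`, `θ⁻¹` = division of the coefficient
`d ≠ 0` by `d 0 + d 1` (and `0` at `d = 0`), `H₀ = 1`, `H_{k+1} = θ⁻¹ (rhs H_k)`.  All coefficients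
of `H_k` lie in `Fil k` (so `rhs H_N = 0`), `H_k` is `PB2`, `coeff 0 (rhs H_k) = 0`, so
`H = ∑_{k ≤ N} H_k` solves `(th 0 + th 1) H = rhs H`.  The scalar series `sU, sV, sZ` are central
(images of real series under `MvPowerSeries.map (algebraMap ℝ A)`), `th 0 sV = 0`, `th 1 sU = 0`,
`th 0 sZ = th 1 sZ`, `sU sV = sZ (sU + sV + 1)` (from `sU_eq` etc.; `1 - X i`, `1 - X 0 X 1` are
central non-zero-divisors, or compare coefficients).  With `∇₀ f = th 0 f - omU f + f C a`,
`∇₁ f = th 1 f - omV f + f C b`, `Flat5` gives `∇₀ ∇₁ = ∇₁ ∇₀`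
(`th 0 omV = th 1 omU`, `omU omV = omV omU`).  So `K = ∇₀ H` satisfies `(∇₀ + ∇₁) K = 0` and
`coeff 0 K = 0`; then all coefficients of `K` lie in `Fil j` for every `j` (induction on `j`:
`(d 0 + d 1) • coeff d K = coeff d (rhs K) ∈ Fil (j+1)`), hence `K = 0`. -/
theorem exists_H {a b c d e : A} (h : Flat5 a b c d e) {N : ℕ} (hN : Nil ℝ {a, b, c, d, e} N) :
    ∃ H, IsH a b c d e H := by
  set H := kzIt a b c d e N with hH
  have hfix : H = 1 + thInv (kzRhs a b c d e H) :=
    (sub_eq_zero.1 (FC.eq_zero hN (fc_kzIt_sub a b c d e N))).symm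
  have h0 : coeff 0 H = 1 := coeff_zero_kzIt a b c d e N
  have hfc : FC {a, b, c, d, e} 0 H := fc_kzIt a b c d e N
  have th1 : ∀ i, th i (1 : S2 A) = 0 := fun i => by simpa using th_C i (1 : A)
  have heq : th 0 H + th 1 H = kzRhs a b c d e H := by
    conv_lhs => rw [hfix]
    rw [th_add, th_add, th1, th1, zero_add, zero_add,
      th_thInv (coeff_zero_kzRhs a b c d e (Or.inr h0))]
  set K := th 0 H - omU a c e * H + H * C a with hK
  have hK1 : th 1 H - omV b d e * H + H * C b = -K := by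
    have : th 1 H = kzRhs a b c d e H - th 0 H := by rw [← heq]; abel
    rw [this, hK, kzRhs]; abel
  have hK0 : coeff 0 K = 0 := by
    rw [hK, map_add, map_sub, coeff_th, kz1_coeff_zero_mul, kz1_coeff_zero_mul, h0,
      coeff_zero_omU, coeff_zero_C]
    simp
  have hKeq : th 0 K + th 1 K = kzRhs a b c d e K := by
    have h1 := kz1_nabla h H
    rw [hK1, ← hK] at h1
    have h2 : th 0 (-K) = -th 0 K := by
      rw [← zero_sub, th_sub, th_zero, zero_sub]
    rw [h2] at h1
    have h3 : th 1 K = (-th 0 K - omU a c e * -K + -K * C a) + omV b d e * K - K * C b := by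
      rw [h1]; abel
    rw [h3, kzRhs, mul_neg, neg_mul]; abel
  have hKfix : K = thInv (kzRhs a b c d e K) := by rw [← hKeq, thInv_th hK0]
  have hKj : ∀ j, FC {a, b, c, d, e} j K := by
    intro j
    induction j with
    | zero =>
      exact ((hfc.th 0).sub (((fc_omU (by simp) (by simp) (by simp)).mul hfc).anti
        (Nat.zero_le _))).add ((hfc.mul (fc_C (by simp))).anti (Nat.zero_le _))
    | succ j ih => rw [hKfix]; exact ih.kzRhs.thInv
  have hKz : K = 0 := FC.eq_zero hN (hKj _)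
  refine ⟨H, h0, pb2_kzIt a b c d e N, fun m hm => ?_, ?_, ?_⟩
  · rw [hfix, map_add, coeff_one, if_neg hm, zero_add]
    exact hfc.kzRhs.thInv m
  · have : th 0 H = K + (omU a c e * H - H * C a) := by rw [hK]; abel
    rw [this, hKz, zero_add]
  · have : th 1 H = -K + (omV b d e * H - H * C b) := by rw [← hK1]; abel
    rw [this, hKz, neg_zero, zero_add]

theorem kz1_geom {s g : S2 A} {i : Fin 2} (hs : (1 - X i) * s = X i) (m : ℕ) :
    coeff (Finsupp.single i m) (s * g) =
      ∑ j ∈ Finset.range m, coeff (Finsupp.single i j) g := by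
  have h1 : s * g = X i * (g + s * g) := by
    have : s = X i + X i * s := by
      rw [← sub_eq_iff_eq_add]
      conv_rhs => rw [← hs]
      noncomm_ring
    conv_lhs => rw [this]
    noncomm_ring
  induction m with
  | zero => rw [h1, Finsupp.single_zero, coeff_zero_X_mul, Finset.sum_range_zero]
  | succ m ih =>
    rw [h1, add_comm m 1, Finsupp.single_add, X_def, coeff_add_monomial_mul, one_mul, map_add, ih,
      add_comm 1 m, Finset.sum_range_succ, add_comm]

theorem kz1_sZ_axis (g : S2 A) (i : Fin 2) (m : ℕ) :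
    coeff (Finsupp.single i m) (sZ A * g) = 0 := by
  have h1 : sZ A * g = X 0 * X 1 * (g + sZ A * g) := by
    have : sZ A = X 0 * X 1 + X 0 * X 1 * sZ A := by
      rw [← sub_eq_iff_eq_add]
      conv_rhs => rw [← sZ_eq]
      noncomm_ring
    conv_lhs => rw [this]
    noncomm_ring
  rw [h1, kz1_XX, coeff_monomial_mul, if_neg]
  rw [kz1_le_iff]
  fin_cases i <;> simp

/-- The coefficients of `eqU` on the axis `v = 0`. -/
theorem IsH.axis0 {a b c d e : A} {H : S2 A} (h : IsH a b c d e H) :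
    IsG a c fun m => coeff (Finsupp.single 0 m) H := by
  refine ⟨by simpa using h.one, fun m => ?_⟩
  have h1 := congrArg (coeff (Finsupp.single (0 : Fin 2) m)) h.eqU
  rw [coeff_th, Finsupp.single_eq_same, omU, sub_mul, sub_mul, mul_assoc, mul_assoc, map_sub,
    map_sub, map_sub, kz1_geom sU_eq, kz1_sZ_axis, coeff_C_mul, coeff_mul_C] at h1
  simp only [coeff_C_mul] at h1
  rw [h1, Finset.mul_sum]
  abel

/-- The coefficients of `eqV` on the axis `u = 0`. -/
theorem IsH.axis1 {a b c d e : A} {H : S2 A} (h : IsH a b c d e H) :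
    IsG b d fun m => coeff (Finsupp.single 1 m) H := by
  refine ⟨by simpa using h.one, fun m => ?_⟩
  have h1 := congrArg (coeff (Finsupp.single (1 : Fin 2) m)) h.eqV
  rw [coeff_th, Finsupp.single_eq_same, omV, sub_mul, sub_mul, mul_assoc, mul_assoc, map_sub,
    map_sub, map_sub, kz1_geom sV_eq, kz1_sZ_axis, coeff_C_mul, coeff_mul_C] at h1
  simp only [coeff_C_mul] at h1
  rw [h1, Finset.mul_sum]
  abel

end

end Crest.Agent.R10
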