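import Crest.Agent.R10.KZ1

/-!
# R10/KZ2: evaluation of polynomially bounded series on the bidisc
-/

set_option autoImplicit false
set_option linter.unusedVariables false
set_option linter.unusedSectionVars false

namespace Crest.Agent.R10

noncomputable section

open MvPowerSeries

variable {A : Type} [NormedRing A] [NormedAlgebra ℝ A] [CompleteSpace A]

theorem kz2_geom1 {r : ℝ} (h0 : 0 ≤ r) (h1 : r < 1) (k : ℕ) :
    Summable fun m : ℕ => (1 + (m : ℝ)) ^ k * r ^ m := by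
  have h : ∀ m : ℕ, (1 + (m : ℝ)) ^ k * r ^ m =
      ∑ j ∈ Finset.range (k + 1), (k.choose j : ℝ) * ((m : ℝ) ^ j * r ^ m) := by
    intro m
    rw [add_comm, add_pow, Finset.sum_mul]
    refine Finset.sum_congr rfl fun j _ => ?_
    ring
  simp only [h]
  have hr : ‖r‖ < 1 := by rwa [Real.norm_eq_abs, abs_of_nonneg h0]
  refine summable_sum fun j _ => ?_
  have h2 : Summable fun m : ℕ => (m : ℝ) ^ j * r ^ m :=
    summable_pow_mul_geometric_of_norm_lt_one j hr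
  exact h2.mul_left _

/-- `∑ r^(d 0 + d 1) (1 + d 0 + d 1)^k < ∞`: transfer to `ℕ × ℕ`, bound by
`(1+m)^k r^m (1+n)^k r^n`, `summable_pow_mul_geometric_of_norm_lt_one`. -/
theorem summable_geom2 {r : ℝ} (h0 : 0 ≤ r) (h1 : r < 1) (k : ℕ) :
    Summable fun d : Fin 2 →₀ ℕ => r ^ (d 0) * r ^ (d 1) * (1 + (d 0 : ℝ) + (d 1 : ℝ)) ^ k := by
  have hg := kz2_geom1 h0 h1 k
  have hnn : ∀ m : ℕ, 0 ≤ (1 + (m : ℝ)) ^ k * r ^ m := fun m => by positivity
  have h2 := hg.mul_of_nonneg hg hnn hnn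
  let e : (Fin 2 →₀ ℕ) ≃ ℕ × ℕ := Finsupp.equivFunOnFinite.trans (finTwoArrowEquiv ℕ)
  have h3 := e.summable_iff.2 h2
  refine Summable.of_nonneg_of_le (fun d => by positivity) (fun d => ?_) h3
  show _ ≤ (1 + (d 0 : ℝ)) ^ k * r ^ (d 0) * ((1 + (d 1 : ℝ)) ^ k * r ^ (d 1))
  have h4 : (1 + (d 0 : ℝ) + (d 1 : ℝ)) ^ k ≤ (1 + (d 0 : ℝ)) ^ k * (1 + (d 1 : ℝ)) ^ k := by
    rw [← mul_pow]
    refine pow_le_pow_left₀ (by positivity) ?_ k
    nlinarith [mul_nonneg (Nat.cast_nonneg (α := ℝ) (d 0)) (Nat.cast_nonneg (α := ℝ) (d 1))]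
  calc _ ≤ r ^ (d 0) * r ^ (d 1) * ((1 + (d 0 : ℝ)) ^ k * (1 + (d 1 : ℝ)) ^ k) :=
        mul_le_mul_of_nonneg_left h4 (by positivity)
    _ = _ := by ring

theorem PB2.summable_norm {f : S2 A} (hf : PB2 f) {p : ℝ × ℝ} (hp : p ∈ Disc) :
    Summable fun d : Fin 2 →₀ ℕ => ‖(p.1 ^ (d 0) * p.2 ^ (d 1)) • coeff d f‖ := by
  obtain ⟨C, k, hC⟩ := hf
  set r := max |p.1| |p.2| with hr
  have hr0 : 0 ≤ r := (abs_nonneg _).trans (le_max_left _ _)
  have hr1 : r < 1 := max_lt hp.1 hp.2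
  refine Summable.of_nonneg_of_le (fun d => norm_nonneg _) (fun d => ?_)
    ((summable_geom2 hr0 hr1 k).mul_left C)
  rw [norm_smul, Real.norm_eq_abs, abs_mul, abs_pow, abs_pow]
  calc _ ≤ r ^ (d 0) * r ^ (d 1) * (C * (1 + (d 0 : ℝ) + (d 1 : ℝ)) ^ k) := by
        refine mul_le_mul (mul_le_mul (pow_le_pow_left₀ (abs_nonneg _) (le_max_left _ _) _)
          (pow_le_pow_left₀ (abs_nonneg _) (le_max_right _ _) _) (by positivity) (by positivity))
          (hC d) (norm_nonneg _) (by positivity)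
    _ = _ := by ring

theorem ev2_add {f g : S2 A} (hf : PB2 f) (hg : PB2 g) {p : ℝ × ℝ} (hp : p ∈ Disc) :
    ev2 (f + g) p = ev2 f p + ev2 g p := by
  unfold ev2
  rw [← (hf.summable_norm hp).of_norm.tsum_add (hg.summable_norm hp).of_norm]
  simp only [map_add, smul_add]

theorem ev2_sub {f g : S2 A} (hf : PB2 f) (hg : PB2 g) {p : ℝ × ℝ} (hp : p ∈ Disc) :
    ev2 (f - g) p = ev2 f p - ev2 g p := by
  unfold ev2
  rw [← (hf.summable_norm hp).of_norm.tsum_sub (hg.summable_norm hp).of_norm]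
  simp only [map_sub, smul_sub]

/-- Cauchy product: `Summable.tsum_mul_tsum_eq_tsum_sum_antidiagonal` with
`summable_mul_of_summable_norm`. -/
theorem ev2_mul {f g : S2 A} (hf : PB2 f) (hg : PB2 g) {p : ℝ × ℝ} (hp : p ∈ Disc) :
    ev2 (f * g) p = ev2 f p * ev2 g p := by
  have h1 := hf.summable_norm hp
  have h2 := hg.summable_norm hp
  have h3 := summable_mul_of_summable_norm h1 h2
  have h4 := Summable.tsum_mul_tsum_eq_tsum_sum_antidiagonal h1.of_norm h2.of_norm h3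
  refine Eq.trans ?_ h4.symm
  refine tsum_congr fun d => ?_
  rw [coeff_mul, Finset.smul_sum]
  refine Finset.sum_congr (by congr) fun x hx => ?_
  rw [← Finset.HasAntidiagonal.mem_antidiagonal.1 hx, smul_mul_smul_comm]
  congr 1
  simp only [Finsupp.add_apply, pow_add]
  ring

omit [CompleteSpace A] in
theorem kz2_monomial (m : Fin 2 →₀ ℕ) (a : A) (p : ℝ × ℝ) :
    ev2 (monomial m a : S2 A) p = (p.1 ^ (m 0) * p.2 ^ (m 1)) • a := by
  unfold ev2
  rw [tsum_eq_single m fun d hd => by rw [coeff_monomial_ne hd, smul_zero], coeff_monomial_same]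

omit [CompleteSpace A] in
theorem kz2_X0 (p : ℝ × ℝ) : ev2 (X 0 : S2 A) p = p.1 • (1 : A) := by
  rw [X_def, kz2_monomial]; simp

omit [CompleteSpace A] in
theorem kz2_X1 (p : ℝ × ℝ) : ev2 (X 1 : S2 A) p = p.2 • (1 : A) := by
  rw [X_def, kz2_monomial]; simp

omit [CompleteSpace A] in
theorem kz2_one (p : ℝ × ℝ) : ev2 (1 : S2 A) p = 1 := by
  have := kz2_monomial 0 (1 : A) p
  simpa using this

omit [CompleteSpace A] in
theorem kz2_pb_one : PB2 (1 : S2 A) := by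
  have := pb2_C (1 : A)
  rwa [map_one] at this

theorem kz2_geo {f s : S2 A} (hf : PB2 f) (hs : PB2 s) (h : (1 - f) * s = f) {p : ℝ × ℝ}
    (hp : p ∈ Disc) {t : ℝ} (ht : t < 1) (hft : ev2 f p = t • (1 : A)) :
    ev2 s p = (t / (1 - t)) • (1 : A) := by
  have h1 := ev2_mul (kz2_pb_one.sub hf) hs hp
  rw [h, ev2_sub kz2_pb_one hf hp, kz2_one, hft] at h1
  have h2 : (1 - t • (1 : A)) * ev2 s p = (1 - t) • ev2 s p := by
    rw [sub_mul, smul_mul_assoc, one_mul, sub_smul, one_smul]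
  have h3 : (1 - t) ≠ 0 := by linarith
  rw [h2] at h1
  rw [div_eq_inv_mul, mul_smul, h1, smul_smul, inv_mul_cancel₀ h3, one_smul]

theorem ev2_C (a : A) (p : ℝ × ℝ) : ev2 (C a : S2 A) p = a := by
  have := kz2_monomial 0 a p
  simpa using this

theorem ev2_sU {p : ℝ × ℝ} (hp : p ∈ Disc) : ev2 (sU A) p = (p.1 / (1 - p.1)) • (1 : A) := by
  exact kz2_geo (pb2_X 0) pb2_sU sU_eq hp (lt_of_abs_lt hp.1) (kz2_X0 p)

theorem ev2_sV {p : ℝ × ℝ} (hp : p ∈ Disc) : ev2 (sV A) p = (p.2 / (1 - p.2)) • (1 : A) := by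
  exact kz2_geo (pb2_X 1) pb2_sV sV_eq hp (lt_of_abs_lt hp.2) (kz2_X1 p)

theorem ev2_sZ {p : ℝ × ℝ} (hp : p ∈ Disc) :
    ev2 (sZ A) p = (p.1 * p.2 / (1 - p.1 * p.2)) • (1 : A) := by
  refine kz2_geo ((pb2_X 0).mul (pb2_X 1)) pb2_sZ sZ_eq hp ?_ ?_
  · refine lt_of_abs_lt ?_
    rw [abs_mul]
    exact mul_lt_one_of_nonneg_of_lt_one_left (abs_nonneg _) hp.1 hp.2.le
  · rw [ev2_mul (pb2_X 0) (pb2_X 1) hp, kz2_X0, kz2_X1, smul_mul_smul_comm, one_mul]

/-- Termwise differentiation (`hasFDerivAt_tsum_of_isPreconnected` on `(-r, r)²`). -/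
theorem ev2_hasFDerivAt {f : S2 A} (hf : PB2 f) {p : ℝ × ℝ} (hp : p ∈ Disc) :
    ∃ D : ℝ × ℝ →L[ℝ] A, HasFDerivAt (ev2 f) D p ∧ p.1 • D (1, 0) = ev2 (th 0 f) p ∧
      p.2 • D (0, 1) = ev2 (th 1 f) p := by
  obtain ⟨C, k, hC⟩ := id hf
  have hC0 : 0 ≤ C := by simpa using (norm_nonneg _).trans (hC 0)
  obtain ⟨r, hr0, hr1⟩ := exists_between (max_lt hp.1 hp.2)
  have hrpos : 0 < r := lt_of_le_of_lt ((abs_nonneg _).trans (le_max_left _ _)) hr0
  have hpb : p ∈ Metric.ball (0 : ℝ × ℝ) r := by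
    rw [mem_ball_zero_iff, Prod.norm_def]; exact hr0
  let D : (Fin 2 →₀ ℕ) → ℝ × ℝ → ℝ × ℝ →L[ℝ] A := fun d q =>
    ((((d 0 : ℝ) * q.1 ^ (d 0 - 1) * q.2 ^ (d 1)) • ContinuousLinearMap.fst ℝ ℝ ℝ) +
      ((q.1 ^ (d 0) * ((d 1 : ℝ) * q.2 ^ (d 1 - 1))) • ContinuousLinearMap.snd ℝ ℝ ℝ)).smulRight
      (coeff d f)
  have hD : ∀ d q, HasFDerivAt (fun q : ℝ × ℝ => (q.1 ^ (d 0) * q.2 ^ (d 1)) • coeff d f)
      (D d q) q := by
    intro d q
    have h1 : HasFDerivAt (fun q : ℝ × ℝ => q.1 ^ (d 0))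
        (((d 0 : ℝ) * q.1 ^ (d 0 - 1)) • ContinuousLinearMap.fst ℝ ℝ ℝ) q :=
      (hasDerivAt_pow (d 0) q.1).comp_hasFDerivAt q hasFDerivAt_fst
    have h2 : HasFDerivAt (fun q : ℝ × ℝ => q.2 ^ (d 1))
        (((d 1 : ℝ) * q.2 ^ (d 1 - 1)) • ContinuousLinearMap.snd ℝ ℝ ℝ) q :=
      (hasDerivAt_pow (d 1) q.2).comp_hasFDerivAt q hasFDerivAt_snd
    refine ((h1.mul h2).smul_const (coeff d f)).congr_fderiv ?_
    refine ContinuousLinearMap.ext fun w => ?_
    simp only [D, ContinuousLinearMap.smulRight_apply, _root_.add_apply,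
      _root_.smul_apply, smul_eq_mul]
    congr 1
    ring
  have hpow : ∀ (m : ℕ) (x : ℝ), |x| ≤ r → |(m : ℝ) * x ^ (m - 1)| ≤ m * r ^ m / r := by
    intro m x hx
    rcases m with _ | m
    · simp
    · rw [abs_mul, abs_pow, Nat.abs_cast, Nat.add_sub_cancel, pow_succ, mul_div_assoc,
        mul_div_cancel_right₀ _ hrpos.ne']
      exact mul_le_mul_of_nonneg_left (pow_le_pow_left₀ (abs_nonneg _) hx m) (by positivity)
  have hbd : ∀ d q, q ∈ Metric.ball (0 : ℝ × ℝ) r → ‖D d q‖ ≤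
      C / r * (r ^ (d 0) * r ^ (d 1) * (1 + (d 0 : ℝ) + (d 1 : ℝ)) ^ (k + 1)) := by
    intro d q hq
    rw [mem_ball_zero_iff, Prod.norm_def, max_lt_iff] at hq
    have q1 : |q.1| ≤ r := hq.1.le
    have q2 : |q.2| ≤ r := hq.2.le
    have b1 : ‖((d 0 : ℝ) * q.1 ^ (d 0 - 1) * q.2 ^ (d 1)) • ContinuousLinearMap.fst ℝ ℝ ℝ‖ ≤
        d 0 * r ^ (d 0) / r * r ^ (d 1) := by
      rw [norm_smul, Real.norm_eq_abs, abs_mul, abs_pow]
      refine (mul_le_of_le_one_right (by positivity) (ContinuousLinearMap.norm_fst_le ..)).trans ?_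
      exact mul_le_mul (hpow _ _ q1) (pow_le_pow_left₀ (abs_nonneg _) q2 _) (by positivity)
        (by positivity)
    have b2 : ‖(q.1 ^ (d 0) * ((d 1 : ℝ) * q.2 ^ (d 1 - 1))) • ContinuousLinearMap.snd ℝ ℝ ℝ‖ ≤
        r ^ (d 0) * (d 1 * r ^ (d 1) / r) := by
      rw [norm_smul, Real.norm_eq_abs, abs_mul, abs_pow]
      refine (mul_le_of_le_one_right (by positivity) (ContinuousLinearMap.norm_snd_le ..)).trans ?_
      exact mul_le_mul (pow_le_pow_left₀ (abs_nonneg _) q1 _) (hpow _ _ q2) (by positivity)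
        (by positivity)
    simp only [D]
    rw [ContinuousLinearMap.norm_smulRight_apply]
    calc _ ≤ (d 0 * r ^ (d 0) / r * r ^ (d 1) + r ^ (d 0) * (d 1 * r ^ (d 1) / r)) *
          (C * (1 + (d 0 : ℝ) + (d 1 : ℝ)) ^ k) :=
          mul_le_mul ((norm_add_le _ _).trans (add_le_add b1 b2)) (hC d) (norm_nonneg _)
            (by positivity)
      _ = C / r * (r ^ (d 0) * r ^ (d 1) * ((1 + (d 0 : ℝ) + (d 1 : ℝ)) ^ k *
          ((d 0 : ℝ) + (d 1 : ℝ)))) := by ring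
      _ ≤ _ := by
          rw [pow_succ]
          gcongr
          linarith
  have hsum := (summable_geom2 hrpos.le hr1 (k + 1)).mul_left (C / r)
  have hmain := hasFDerivAt_tsum_of_isPreconnected hsum Metric.isOpen_ball
    (convex_ball _ _).isPreconnected (fun d q _ => hD d q) hbd hpb
    (hf.summable_norm hp).of_norm hpb
  have hsD : Summable fun d => D d p := Summable.of_norm_bounded hsum fun d => hbd d p hpb
  have happ : ∀ w : ℝ × ℝ, (∑' d, D d p) w = ∑' d, D d p w := fun w =>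
    (ContinuousLinearMap.apply ℝ A w).map_tsum hsD
  have hmul : ∀ (m : ℕ) (x : ℝ), x * ((m : ℝ) * x ^ (m - 1)) = x ^ m * m := by
    intro m x
    rcases m with _ | m
    · simp
    · rw [Nat.add_sub_cancel, pow_succ]; ring
  refine ⟨∑' d, D d p, hmain, ?_, ?_⟩
  · rw [happ, ← tsum_const_smul'']
    refine tsum_congr fun d => ?_
    have : coeff d (th 0 f) = (d 0 : ℝ) • coeff d f := rfl
    rw [this]
    simp only [D, ContinuousLinearMap.smulRight_apply, _root_.add_apply,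
      _root_.smul_apply, smul_eq_mul, ContinuousLinearMap.coe_fst',
      ContinuousLinearMap.coe_snd', smul_smul]
    congr 1
    linear_combination (p.2 ^ (d 1)) * hmul (d 0) p.1
  · rw [happ, ← tsum_const_smul'']
    refine tsum_congr fun d => ?_
    have : coeff d (th 1 f) = (d 1 : ℝ) • coeff d f := rfl
    rw [this]
    simp only [D, ContinuousLinearMap.smulRight_apply, _root_.add_apply,
      _root_.smul_apply, smul_eq_mul, ContinuousLinearMap.coe_fst',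
      ContinuousLinearMap.coe_snd', smul_smul]
    congr 1
    linear_combination (p.1 ^ (d 0)) * hmul (d 1) p.2

theorem ev2_axis0 (f : S2 A) (u : ℝ) :
    ev2 f (u, 0) = ∑' m : ℕ, u ^ m • coeff (Finsupp.single 0 m) f := by
  unfold ev2
  rw [← (Finsupp.single_injective (0 : Fin 2)).tsum_eq]
  · refine tsum_congr fun m => ?_
    simp
  · intro d hd
    by_cases h1 : d 1 = 0
    · refine ⟨d 0, ?_⟩
      ext i
      fin_cases i <;> simp [h1]
    · exact absurd (by simp [h1]) hd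

theorem ev2_axis1 (f : S2 A) (v : ℝ) :
    ev2 f (0, v) = ∑' m : ℕ, v ^ m • coeff (Finsupp.single 1 m) f := by
  unfold ev2
  rw [← (Finsupp.single_injective (1 : Fin 2)).tsum_eq]
  · refine tsum_congr fun m => ?_
    simp
  · intro d hd
    by_cases h1 : d 0 = 0
    · refine ⟨d 1, ?_⟩
      ext i
      fin_cases i <;> simp [h1]
    · exact absurd (by simp [h1]) hd

/-- `ev2 H p - 1` lies in the closed subspace `Fil 1` (finite dimension), so it is nilpotent. -/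
theorem IsH.isUnit [FiniteDimensional ℝ A] {a b c d e : A} {H : S2 A} (h : IsH a b c d e H)
    {N : ℕ} (hN : Nil ℝ {a, b, c, d, e} N) {p : ℝ × ℝ} (hp : p ∈ Disc) : IsUnit (ev2 H p) := by
  classical
  unfold ev2
  rw [(h.pb.summable_norm hp).of_norm.tsum_eq_add_tsum_ite 0, h.one]
  simp only [Finsupp.coe_zero, Pi.zero_apply, pow_zero, mul_one, one_smul]
  refine IsNilpotent.isUnit_one_add ⟨N + 1, hN.pow_eq_zero ?_⟩
  refine tsum_mem (Submodule.closed_of_finiteDimensional _) fun d => ?_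
  split_ifs with hd
  · exact zero_mem _
  · exact Submodule.smul_mem _ _ (h.fil d hd)

theorem kz2_exp_add {x y : A} (h : Commute x y) :
    NormedSpace.exp (x + y) = NormedSpace.exp x * NormedSpace.exp y :=
  NormedSpace.exp_add_of_commute_of_mem_ball (𝕂 := ℝ) h
    (by rw [NormedSpace.expSeries_radius_eq_top]; exact edist_lt_top _ _)
    (by rw [NormedSpace.expSeries_radius_eq_top]; exact edist_lt_top _ _)

theorem kz2_nexp_neg (a : A) (t : ℝ) : nexp a t * nexp a (-t) = 1 := by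
  unfold nexp
  rw [← kz2_exp_add (((Commute.refl a).smul_left t).smul_right (-t)), ← add_smul, add_neg_cancel,
    zero_smul, NormedSpace.exp_zero]

theorem nexp_isUnit (a : A) (t : ℝ) : IsUnit (nexp a t) := by
  exact ⟨⟨nexp a t, nexp a (-t), kz2_nexp_neg a t, by
    have := kz2_nexp_neg a (-t)
    rwa [neg_neg] at this⟩, rfl⟩

theorem nexp_mul_neg (a : A) (t : ℝ) : nexp a t * nexp a (-t) = 1 := by
  exact kz2_nexp_neg a t

theorem nexp_commute {z a : A} (h : Commute z a) (t : ℝ) : Commute z (nexp a t) := by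
  exact (h.smul_right t).exp_right

theorem nexp_add {a b : A} (h : Commute a b) (t : ℝ) : nexp (a + b) t = nexp a t * nexp b t := by
  unfold nexp
  rw [smul_add, kz2_exp_add ((h.smul_left t).smul_right t)]

theorem nexp_hasDerivAt (a : A) (t : ℝ) : HasDerivAt (nexp a) (a * nexp a t) t := by
  exact hasDerivAt_exp_smul_const' (𝕂 := ℝ) a t

theorem nexp_eq_sum {a : A} {k : ℕ} (h : a ^ k = 0) (t : ℝ) :
    nexp a t = ∑ i ∈ Finset.range k, (t ^ i / (i.factorial : ℝ)) • a ^ i := by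
  unfold nexp
  rw [NormedSpace.exp_eq_tsum ℝ]
  beta_reduce
  rw [tsum_eq_sum (s := Finset.range k) fun i hi => by
    rw [smul_pow, pow_eq_zero_of_le (by simpa using hi) h, smul_zero, smul_zero]]
  refine Finset.sum_congr rfl fun i _ => ?_
  rw [smul_pow, smul_smul, div_eq_inv_mul]

/-- The normalised solution solves the KZ equation (product rule; `ev2` of `eqU`, `eqV`). -/
theorem Ffun_hasFDerivAt {a b c d e : A} (hab : Commute a b) {H : S2 A} (h : IsH a b c d e H)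
    {p : ℝ × ℝ} (hp : p ∈ Cell) :
    ∃ D : ℝ × ℝ →L[ℝ] A, HasFDerivAt (Ffun a b H) D p ∧
      D (1, 0) = (p.1⁻¹ • a - (1 - p.1)⁻¹ • c - (p.2 / (1 - p.1 * p.2)) • e) * Ffun a b H p ∧
      D (0, 1) = (p.2⁻¹ • b - (1 - p.2)⁻¹ • d - (p.1 / (1 - p.1 * p.2)) • e) * Ffun a b H p := by
  obtain ⟨u0, u1, v0, v1⟩ := hp
  have hd : p ∈ Disc := ⟨by rw [abs_of_pos u0]; exact u1, by rw [abs_of_pos v0]; exact v1⟩
  obtain ⟨DH, hDH, e0, e1⟩ := ev2_hasFDerivAt h.pb hd
  have pU : PB2 (omU a c e) := ((pb2_C a).sub (pb2_sU.mul (pb2_C c))).sub (pb2_sZ.mul (pb2_C e))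
  have pV : PB2 (omV b d e) := ((pb2_C b).sub (pb2_sV.mul (pb2_C d))).sub (pb2_sZ.mul (pb2_C e))
  rw [h.eqU, ev2_sub (pU.mul h.pb) (h.pb.mul (pb2_C a)) hd, ev2_mul pU h.pb hd,
    ev2_mul h.pb (pb2_C a) hd, omU,
    ev2_sub ((pb2_C a).sub (pb2_sU.mul (pb2_C c))) (pb2_sZ.mul (pb2_C e)) hd,
    ev2_sub (pb2_C a) (pb2_sU.mul (pb2_C c)) hd, ev2_mul pb2_sU (pb2_C c) hd,
    ev2_mul pb2_sZ (pb2_C e) hd, ev2_sU hd, ev2_sZ hd] at e0
  rw [h.eqV, ev2_sub (pV.mul h.pb) (h.pb.mul (pb2_C b)) hd, ev2_mul pV h.pb hd,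
    ev2_mul h.pb (pb2_C b) hd, omV,
    ev2_sub ((pb2_C b).sub (pb2_sV.mul (pb2_C d))) (pb2_sZ.mul (pb2_C e)) hd,
    ev2_sub (pb2_C b) (pb2_sV.mul (pb2_C d)) hd, ev2_mul pb2_sV (pb2_C d) hd,
    ev2_mul pb2_sZ (pb2_C e) hd, ev2_sV hd, ev2_sZ hd] at e1
  simp only [ev2_C, smul_mul_assoc, one_mul] at e0 e1
  have f0 : DH (1, 0) = (p.1⁻¹ • a - (1 - p.1)⁻¹ • c - (p.2 / (1 - p.1 * p.2)) • e) * ev2 H p -
      p.1⁻¹ • (ev2 H p * a) := by
    rw [← inv_smul_smul₀ u0.ne' (DH (1, 0)), e0, smul_sub, ← smul_mul_assoc, smul_sub, smul_sub,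
      smul_smul, smul_smul]
    congr 4
    · field_simp
    · field_simp
  have f1 : DH (0, 1) = (p.2⁻¹ • b - (1 - p.2)⁻¹ • d - (p.1 / (1 - p.1 * p.2)) • e) * ev2 H p -
      p.2⁻¹ • (ev2 H p * b) := by
    rw [← inv_smul_smul₀ v0.ne' (DH (0, 1)), e1, smul_sub, ← smul_mul_assoc, smul_sub, smul_sub,
      smul_smul, smul_smul]
    congr 4
    · field_simp
    · field_simp
  have hX : HasFDerivAt (fun q : ℝ × ℝ => nexp a (Real.log q.1))
      ((ContinuousLinearMap.fst ℝ ℝ ℝ).smulRight (p.1⁻¹ • (a * nexp a (Real.log p.1)))) p := by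
    have h1 : HasDerivAt (fun x => nexp a (Real.log x)) (p.1⁻¹ • (a * nexp a (Real.log p.1))) p.1 :=
      (nexp_hasDerivAt a _).scomp p.1 (Real.hasDerivAt_log u0.ne')
    exact h1.hasFDerivAt.comp p hasFDerivAt_fst
  have hY : HasFDerivAt (fun q : ℝ × ℝ => nexp b (Real.log q.2))
      ((ContinuousLinearMap.snd ℝ ℝ ℝ).smulRight (p.2⁻¹ • (b * nexp b (Real.log p.2)))) p := by
    have h1 : HasDerivAt (fun x => nexp b (Real.log x)) (p.2⁻¹ • (b * nexp b (Real.log p.2))) p.2 :=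
      (nexp_hasDerivAt b _).scomp p.2 (Real.hasDerivAt_log v0.ne')
    exact h1.hasFDerivAt.comp p hasFDerivAt_snd
  have hc := (nexp_commute hab.symm (Real.log p.1)).eq
  refine ⟨_, (hDH.mul' hX).mul' hY, ?_, ?_⟩
  · simp only [_root_.add_apply, _root_.smul_apply,
      ContinuousLinearMap.smulRight_apply, ContinuousLinearMap.coe_fst',
      ContinuousLinearMap.coe_snd', smul_eq_mul, op_smul_eq_mul, zero_smul, one_smul, mul_zero,
      zero_add, f0, Ffun, Pi.mul_apply]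
    simp only [add_mul, sub_mul, mul_smul_comm, smul_mul_assoc, mul_assoc]
    abel
  · simp only [_root_.add_apply, _root_.smul_apply,
      ContinuousLinearMap.smulRight_apply, ContinuousLinearMap.coe_fst',
      ContinuousLinearMap.coe_snd', smul_eq_mul, op_smul_eq_mul, zero_smul, one_smul, mul_zero,
      zero_add, f1, Ffun, Pi.mul_apply]
    simp only [sub_mul, mul_smul_comm, smul_mul_assoc, mul_assoc]
    rw [← mul_assoc b (nexp a _), hc, mul_assoc]
    abel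

end

end Crest.Agent.R10
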