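import Crest.Agent.R10.KZ2

/-!
# R10/KZ3: the one-variable solution; naturality and group-likeness of `Phi`
-/

set_option autoImplicit false
set_option linter.unusedVariables false
set_option linter.unusedSectionVars false

namespace Crest.Agent.R10

noncomputable section

variable {A : Type} [NormedRing A] [NormedAlgebra ℝ A] [FiniteDimensional ℝ A]
  {B : Type} [NormedRing B] [NormedAlgebra ℝ B] [FiniteDimensional ℝ B]

omit [FiniteDimensional ℝ A] in
theorem kz3_eig {a : A} (ha : IsNilpotent a) {m : ℝ} (hm : m ≠ 0) {δ : A}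
    (h : m • δ = a * δ - δ * a) : δ = 0 := by
  have hL : IsNilpotent (LinearMap.mulLeft ℝ a) := by
    obtain ⟨k, hk⟩ := ha
    exact ⟨k, by rw [LinearMap.pow_mulLeft, hk, LinearMap.mulLeft_zero_eq_zero]⟩
  have hR : IsNilpotent (LinearMap.mulRight ℝ a) := by
    obtain ⟨k, hk⟩ := ha
    exact ⟨k, by rw [LinearMap.pow_mulRight, hk, LinearMap.mulRight_zero_eq_zero]⟩
  obtain ⟨k, hk⟩ := (LinearMap.commute_mulLeft_right (R := ℝ) a a).isNilpotent_sub hL hR
  have key : ∀ n : ℕ, ((LinearMap.mulLeft ℝ a - LinearMap.mulRight ℝ a) ^ n) δ = m ^ n • δ := by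
    intro n
    induction n with
    | zero => simp
    | succ n ih =>
      rw [pow_succ', Module.End.mul_apply, ih, map_smul, LinearMap.sub_apply,
        LinearMap.mulLeft_apply, LinearMap.mulRight_apply, ← h, smul_smul, pow_succ]
  have h2 := key k
  rw [hk, LinearMap.zero_apply] at h2
  exact (smul_eq_zero.1 h2.symm).resolve_left (pow_ne_zero _ hm)

omit [FiniteDimensional ℝ A] in
theorem kz3_Fil_le {G G' : Set A} (hG : ∀ g ∈ G', g ∈ Fil ℝ G 1) (n : ℕ) :
    Fil ℝ G' n ≤ Fil ℝ G n := by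
  refine iSup_le fun k => le_trans ?_ (Fil_anti G (Nat.le_add_right n k))
  exact gr_Hom_le (Fil ℝ G) (Hom_le_Fil G le_rfl (one_mem_Hom G))
    (fun n u g _ hu hg => mul_mem_Fil hu (hG g hg)) _

omit [FiniteDimensional ℝ A] in
theorem kz3_mem_Fil {G : Set A} {g : A} (hg : g ∈ G) : g ∈ Fil ℝ G 1 :=
  Hom_le_Fil G le_rfl (mem_Hom_one hg)

omit [FiniteDimensional ℝ A] in
theorem kz3_nil_sub {G G' : Set A} {N : ℕ} (h : Nil ℝ G N) (hG : G' ⊆ G) : Nil ℝ G' N :=
  h.of_Fil fun _ hg => kz3_mem_Fil (hG hg)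

omit [FiniteDimensional ℝ A] in
theorem kz3_nilp {G : Set A} {N : ℕ} (h : Nil ℝ G N) {g : A} (hg : g ∈ G) : IsNilpotent g :=
  ⟨N + 1, h.pow_eq_zero (kz3_mem_Fil hg)⟩

omit [FiniteDimensional ℝ A] in
theorem kz3_nil_swap {a c : A} {N : ℕ} (h : Nil ℝ {a, c} N) : Nil ℝ {c, a} N := by
  rwa [Set.pair_comm]

omit [FiniteDimensional ℝ A] in
theorem kz3_five {a c : A} : ∀ g ∈ ({a, 0, c, 0, 0} : Set A), g ∈ Fil ℝ {a, c} 1 := by
  intro g hg
  simp only [Set.mem_insert_iff, Set.mem_singleton_iff] at hg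
  rcases hg with rfl | rfl | rfl | rfl | rfl
  · exact kz3_mem_Fil (by simp)
  · exact zero_mem _
  · exact kz3_mem_Fil (by simp)
  · exact zero_mem _
  · exact zero_mem _

omit [FiniteDimensional ℝ A] in
theorem kz3_exists_H {a c : A} {N : ℕ} (hN : Nil ℝ {a, c} N) : ∃ H, IsH a 0 c 0 0 H := by
  refine exists_H (N := N) ⟨Commute.zero_right _, Commute.zero_right _, Commute.zero_right _,
    by simp, Commute.zero_right _, by simp [Ring.lie_def]⟩ (hN.of_Fil kz3_five)

omit [FiniteDimensional ℝ A] in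
theorem kz3_isG_gam {a c : A} {γ : ℕ → A} (h : IsG a c γ) : IsG a c (gam a c) := by
  have he : ∃ γ, IsG a c γ := ⟨γ, h⟩
  rw [gam, dif_pos he]
  exact he.choose_spec

/-- Strong induction: for `m ≠ 0` the operator `m - ad a` is injective because `ad a` is
nilpotent (`m • δ = ad a δ` gives `m^k • δ = (ad a)^k δ`). -/
theorem IsG.unique {a c : A} (ha : IsNilpotent a) {γ γ' : ℕ → A} (h : IsG a c γ)
    (h' : IsG a c γ') : γ = γ' := by
  funext m
  induction m using Nat.strong_induction_on with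
  | _ m ih =>
    rcases Nat.eq_zero_or_pos m with rfl | hm
    · rw [h.1, h'.1]
    have hs : ∑ j ∈ Finset.range m, γ j = ∑ j ∈ Finset.range m, γ' j :=
      Finset.sum_congr rfl fun j hj => ih j (Finset.mem_range.1 hj)
    refine sub_eq_zero.1 (kz3_eig ha (m := (m : ℝ)) (by exact_mod_cast hm.ne') ?_)
    rw [smul_sub, h.2, h'.2, hs]
    noncomm_ring

theorem kz3_gam_eq {a c : A} (ha : IsNilpotent a) {γ : ℕ → A} (h : IsG a c γ) : gam a c = γ :=
  (kz3_isG_gam h).unique ha h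

/-- From `exists_H a 0 c 0 0`, `IsH.axis0` and `IsG.unique`. -/
theorem gam_spec {a c : A} {N : ℕ} (hN : Nil ℝ {a, c} N) :
    IsG a c (gam a c) ∧ PB1 (gam a c) ∧ ∀ m, m ≠ 0 → gam a c m ∈ Fil ℝ {a, c} 1 := by
  obtain ⟨H, hH⟩ := kz3_exists_H hN
  have e := kz3_gam_eq (kz3_nilp hN (by simp)) hH.axis0
  refine ⟨kz3_isG_gam hH.axis0, ?_, fun m hm => ?_⟩
  · obtain ⟨C, k, hC⟩ := hH.pb
    refine ⟨C, k, fun m => ?_⟩
    have := hC (Finsupp.single 0 m)
    rw [e]
    simpa using this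
  · rw [e]
    exact kz3_Fil_le kz3_five 1 (hH.fil _ (by simpa using hm))

theorem PB1.summable_norm {γ : ℕ → A} (h : PB1 γ) {u : ℝ} (hu : |u| < 1) :
    Summable fun m : ℕ => ‖u ^ m • γ m‖ := by
  obtain ⟨C, k, hC⟩ := h
  have hu' : ‖|u|‖ < 1 := by simpa using hu
  have hs : Summable fun m : ℕ => C * ((1 + (m : ℝ)) ^ k * |u| ^ m) := by
    refine Summable.mul_left C ?_
    have : (fun m : ℕ => (1 + (m : ℝ)) ^ k * |u| ^ m) = fun m : ℕ =>
        ∑ j ∈ Finset.range (k + 1), (k.choose j : ℝ) * ((m : ℝ) ^ (k - j) * |u| ^ m) := by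
      funext m
      rw [add_pow, Finset.sum_mul]
      exact Finset.sum_congr rfl fun j _ => by ring
    rw [this]
    exact summable_sum fun j _ =>
      (summable_pow_mul_geometric_of_norm_lt_one (k - j) hu').mul_left _
  refine Summable.of_nonneg_of_le (fun m => norm_nonneg _) (fun m => ?_) hs
  rw [norm_smul, norm_pow, Real.norm_eq_abs]
  calc |u| ^ m * ‖γ m‖ ≤ |u| ^ m * (C * (1 + (m : ℝ)) ^ k) := by gcongr; exact hC m
    _ = _ := by ring

theorem IsH.ev2_axis0_eq {a b c d e : A} {H : S2 A} (h : IsH a b c d e H) {N : ℕ}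
    (hN : Nil ℝ {a, b, c, d, e} N) (u : ℝ) : ev2 H (u, 0) = gfun a c u := by
  have : CompleteSpace A := FiniteDimensional.complete ℝ A
  rw [ev2_axis0, gfun, kz3_gam_eq (kz3_nilp hN (by simp)) h.axis0]

theorem IsH.ev2_axis1_eq {a b c d e : A} {H : S2 A} (h : IsH a b c d e H) {N : ℕ}
    (hN : Nil ℝ {a, b, c, d, e} N) (v : ℝ) : ev2 H (0, v) = gfun b d v := by
  have : CompleteSpace A := FiniteDimensional.complete ℝ A
  rw [ev2_axis1, gfun, kz3_gam_eq (kz3_nilp hN (by simp)) h.axis1]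

theorem gfun_isUnit {a c : A} {N : ℕ} (hN : Nil ℝ {a, c} N) {u : ℝ} (hu : |u| < 1) :
    IsUnit (gfun a c u) := by
  have : CompleteSpace A := FiniteDimensional.complete ℝ A
  obtain ⟨H, hH⟩ := kz3_exists_H hN
  have hN' := hN.of_Fil (kz3_five (a := a) (c := c))
  rw [← hH.ev2_axis0_eq hN' u]
  exact hH.isUnit hN' ⟨hu, by simp⟩

omit [FiniteDimensional ℝ A] in
theorem kz3_commute_isG {a c z : A} (hn : IsNilpotent a) {γ : ℕ → A} (h : IsG a c γ)
    (ha : Commute z a) (hc : Commute z c) (m : ℕ) : Commute z (γ m) := by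
  induction m using Nat.strong_induction_on with
  | _ m ih =>
    rcases Nat.eq_zero_or_pos m with rfl | hm
    · rw [h.1]; exact Commute.one_right z
    have hs : Commute z (c * ∑ j ∈ Finset.range m, γ j) :=
      hc.mul_right (Commute.sum_right _ _ _ fun j hj => ih j (Finset.mem_range.1 hj))
    refine sub_eq_zero.1 (kz3_eig hn (m := (m : ℝ)) (by exact_mod_cast hm.ne') ?_)
    have e1 : z * (a * γ m) = a * (z * γ m) := ha.left_comm _
    have e2 : γ m * a * z = γ m * z * a := by rw [mul_assoc, ← ha.eq, mul_assoc]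
    rw [smul_sub, ← mul_smul_comm, ← smul_mul_assoc, h.2, mul_sub z, mul_sub z, hs.eq, e1,
      sub_mul _ _ z, sub_mul _ _ z, e2]
    noncomm_ring

theorem kz3_commute_gam {a c z : A} {N : ℕ} (hN : Nil ℝ {a, c} N) (ha : Commute z a)
    (hc : Commute z c) (m : ℕ) : Commute z (gam a c m) :=
  kz3_commute_isG (kz3_nilp hN (by simp)) (gam_spec hN).1 ha hc m

/-- `z` commutes with all `gam a c m` (the same argument as `IsG.unique` for `⁅z, γ m⁆`). -/
theorem commute_gfun {a c z : A} {N : ℕ} (hN : Nil ℝ {a, c} N) (ha : Commute z a)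
    (hc : Commute z c) {u : ℝ} (hu : |u| < 1) : Commute z (gfun a c u) :=
  Commute.tsum_right z fun m => (kz3_commute_gam hN ha hc m).smul_right _

/-- `gfun a c w = 1 + O(w)`. -/
theorem gfun_sub_one {a c : A} {N : ℕ} (hN : Nil ℝ {a, c} N) :
    ∃ C : ℝ, ∀ w : ℝ, |w| ≤ 1 / 2 → ‖gfun a c w - 1‖ ≤ C * |w| := by
  have : CompleteSpace A := FiniteDimensional.complete ℝ A
  obtain ⟨hG, hP, -⟩ := gam_spec hN
  have h2 := (summable_nat_add_iff 1).2 (hP.summable_norm (u := 1 / 2) (by norm_num [abs_of_pos]))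
  refine ⟨2 * ∑' m : ℕ, ‖(1 / 2 : ℝ) ^ (m + 1) • gam a c (m + 1)‖, fun w hw => ?_⟩
  have hw1 : |w| < 1 := by linarith
  have hs := hP.summable_norm hw1
  have e : gfun a c w - 1 = ∑' m : ℕ, w ^ (m + 1) • gam a c (m + 1) := by
    rw [gfun, hs.of_norm.tsum_eq_zero_add, hG.1]
    simp
  rw [e]
  have hb : HasSum (fun m : ℕ => 2 * ‖(1 / 2 : ℝ) ^ (m + 1) • gam a c (m + 1)‖ * |w|)
      (2 * (∑' m : ℕ, ‖(1 / 2 : ℝ) ^ (m + 1) • gam a c (m + 1)‖) * |w|) :=
    (h2.hasSum.mul_left 2).mul_right _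
  refine tsum_of_norm_bounded hb fun m => ?_
  rw [norm_smul, norm_smul, norm_pow, norm_pow, Real.norm_eq_abs, Real.norm_eq_abs,
    abs_of_pos (by norm_num : (0 : ℝ) < 1 / 2)]
  have h3 : |w| ^ m ≤ (1 / 2 : ℝ) ^ m := pow_le_pow_left₀ (abs_nonneg w) hw m
  calc |w| ^ (m + 1) * ‖gam a c (m + 1)‖ = |w| ^ m * (‖gam a c (m + 1)‖ * |w|) := by ring
    _ ≤ (1 / 2 : ℝ) ^ m * (‖gam a c (m + 1)‖ * |w|) := by gcongr
    _ = _ := by ring

theorem kz3_map_gfun (f : A →ₐ[ℝ] B) {a c : A} {N : ℕ} (hN : Nil ℝ {a, c} N) {u : ℝ}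
    (hu : |u| < 1) : f (gfun a c u) = gfun (f a) (f c) u := by
  have : CompleteSpace A := FiniteDimensional.complete ℝ A
  obtain ⟨hG, hP, -⟩ := gam_spec hN
  have hG' : IsG (f a) (f c) fun m => f (gam a c m) := by
    refine ⟨by simp only [hG.1, map_one], fun m => ?_⟩
    have := congrArg f (hG.2 m)
    simpa only [map_smul, map_sub, map_mul, map_sum] using this
  have e := kz3_gam_eq ((kz3_nilp hN (by simp : a ∈ ({a, c} : Set A))).map f) hG'
  have hf : Continuous f := f.toLinearMap.continuous_of_finiteDimensional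
  have := ((hP.summable_norm hu).of_norm.hasSum.map f hf).tsum_eq
  rw [gfun, gfun, e, ← this]
  simp only [Function.comp_apply, map_smul]

theorem kz3_map_nexp (f : A →ₐ[ℝ] B) {a : A} (ha : IsNilpotent a) (t : ℝ) :
    f (nexp a t) = nexp (f a) t := by
  have : CompleteSpace A := FiniteDimensional.complete ℝ A
  have : CompleteSpace B := FiniteDimensional.complete ℝ B
  obtain ⟨k, hk⟩ := ha
  have hk' : f a ^ k = 0 := by rw [← map_pow, hk, map_zero]
  rw [nexp_eq_sum hk, nexp_eq_sum hk']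
  simp only [map_sum, map_smul, map_pow]

omit [FiniteDimensional ℝ A] [FiniteDimensional ℝ B] in
theorem kz3_map_inverse (f : A →ₐ[ℝ] B) {x : A} (hx : IsUnit x) :
    f (Ring.inverse x) = Ring.inverse (f x) := by
  have h1 : f (Ring.inverse x) * f x = 1 := by
    rw [← map_mul, Ring.inverse_mul_cancel x hx, map_one]
  calc f (Ring.inverse x) = f (Ring.inverse x) * f x * Ring.inverse (f x) := by
        rw [Ring.mul_inverse_cancel_right _ _ (hx.map f)]
    _ = _ := by rw [h1, one_mul]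

theorem kz3_half : |(1 / 2 : ℝ)| < 1 := by norm_num [abs_of_pos]

theorem kz3_half' : |(1 - 1 / 2 : ℝ)| < 1 := by norm_num [abs_of_pos]

/-- Naturality: `f ∘ gam a c` solves the recursion for `(f a, f c)`; `f` is continuous. -/
theorem map_Phi (f : A →ₐ[ℝ] B) {a c : A} {N : ℕ} (hN : Nil ℝ {a, c} N) :
    f (Phi a c) = Phi (f a) (f c) := by
  have hN' := kz3_nil_swap hN
  rw [Phi, Phi, PhiAt, PhiAt, map_mul, map_mul, map_mul, kz3_map_nexp f (kz3_nilp hN (by simp)),
    kz3_map_nexp f (kz3_nilp hN (by simp)), kz3_map_inverse f (gfun_isUnit hN' kz3_half'),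
    kz3_map_gfun f hN kz3_half, kz3_map_gfun f hN' kz3_half']

theorem Phi_mul_swap {a c : A} {N : ℕ} (hN : Nil ℝ {a, c} N) : Phi a c * Phi c a = 1 := by
  have : CompleteSpace A := FiniteDimensional.complete ℝ A
  have hN' := kz3_nil_swap hN
  have h1 := gfun_isUnit hN kz3_half
  have h2 := gfun_isUnit hN' kz3_half
  have e : (1 - 1 / 2 : ℝ) = 1 / 2 := by norm_num
  have h3 := nexp_mul_neg c (-Real.log (1 / 2))
  rw [neg_neg] at h3
  rw [Phi, Phi, PhiAt, PhiAt, e]
  simp only [mul_assoc]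
  rw [← mul_assoc (nexp a _), nexp_mul_neg, one_mul, Ring.mul_inverse_cancel_left _ _ h1,
    Ring.inverse_mul_cancel_left _ _ h2, h3]

omit [NormedAlgebra ℝ A] [FiniteDimensional ℝ A] in
theorem kz3_conv_left (γ γ' : ℕ → A) (m : ℕ) :
    ∑ p ∈ Finset.HasAntidiagonal.antidiagonal m, (∑ j ∈ Finset.range p.1, γ j) * γ' p.2 =
      ∑ k ∈ Finset.range m, ∑ p ∈ Finset.HasAntidiagonal.antidiagonal k, γ p.1 * γ' p.2 := by
  induction m with
  | zero => simp
  | succ m ih =>
    rw [Finset.Nat.sum_antidiagonal_succ, Finset.sum_range_succ _ m, ← ih,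
      ← Finset.sum_add_distrib]
    simp only [Finset.range_zero, Finset.sum_empty, zero_mul, zero_add, Finset.sum_range_succ,
      add_mul]

omit [NormedAlgebra ℝ A] [FiniteDimensional ℝ A] in
theorem kz3_conv_right (γ γ' : ℕ → A) (m : ℕ) :
    ∑ p ∈ Finset.HasAntidiagonal.antidiagonal m, γ p.1 * (∑ j ∈ Finset.range p.2, γ' j) =
      ∑ k ∈ Finset.range m, ∑ p ∈ Finset.HasAntidiagonal.antidiagonal k, γ p.1 * γ' p.2 := by
  induction m with
  | zero => simp
  | succ m ih =>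
    rw [Finset.Nat.sum_antidiagonal_succ', Finset.sum_range_succ _ m, ← ih,
      ← Finset.sum_add_distrib]
    simp only [Finset.range_zero, Finset.sum_empty, mul_zero, zero_add, Finset.sum_range_succ,
      mul_add]

omit [FiniteDimensional ℝ A] in
theorem kz3_isG_conv {a c a' c' : A} {γ γ' : ℕ → A} (h : IsG a c γ) (h' : IsG a' c' γ')
    (h1 : ∀ m, Commute a (γ' m)) (h2 : ∀ m, Commute a' (γ m)) (h3 : ∀ m, Commute c' (γ m)) :
    IsG (a + a') (c + c') fun m => ∑ p ∈ Finset.HasAntidiagonal.antidiagonal m, γ p.1 * γ' p.2 := by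
  refine ⟨by simp [h.1, h'.1], fun m => ?_⟩
  have e : (c + c') * ∑ k ∈ Finset.range m, ∑ p ∈ Finset.HasAntidiagonal.antidiagonal k, γ p.1 * γ' p.2 =
      ∑ p ∈ Finset.HasAntidiagonal.antidiagonal m, (c * ((∑ j ∈ Finset.range p.1, γ j) * γ' p.2) +
        c' * (γ p.1 * (∑ j ∈ Finset.range p.2, γ' j))) := by
    rw [Finset.sum_add_distrib, ← Finset.mul_sum, ← Finset.mul_sum, kz3_conv_left, kz3_conv_right,
      add_mul]
  simp only []
  rw [e, Finset.smul_sum, Finset.mul_sum, Finset.sum_mul, ← Finset.sum_sub_distrib,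
    ← Finset.sum_sub_distrib]
  refine Finset.sum_congr rfl fun p hp => ?_
  rw [← Finset.HasAntidiagonal.mem_antidiagonal.1 hp, Nat.cast_add, add_smul, ← smul_mul_assoc, ← mul_smul_comm,
    h.2, h'.2]
  have e1 : γ p.1 * γ' p.2 * a = γ p.1 * a * γ' p.2 := by rw [mul_assoc, ← (h1 _).eq, mul_assoc]
  have e2 : a' * (γ p.1 * γ' p.2) = γ p.1 * (a' * γ' p.2) := by
    rw [← mul_assoc, (h2 _).eq, mul_assoc]
  have e3 : ∀ s, c' * (γ p.1 * s) = γ p.1 * (c' * s) := fun s => by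
    rw [← mul_assoc, (h3 _).eq, mul_assoc]
  rw [add_mul a a', mul_add _ a a', e1, e2, e3]
  noncomm_ring

/-- The Cauchy product of `gam a c` and `gam a' c'` solves the recursion for
`(a + a', c + c')` (work in `PowerSeries A`, or directly with antidiagonal sums), then
`tsum_mul_tsum_eq_tsum_sum_antidiagonal_of_summable_norm`. -/
theorem gfun_add {a c a' c' : A} (h : CPair a c a' c') {N : ℕ} (hN : Nil ℝ {a, c, a', c'} N)
    {u : ℝ} (hu : |u| < 1) : gfun (a + a') (c + c') u = gfun a c u * gfun a' c' u := by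
  have : CompleteSpace A := FiniteDimensional.complete ℝ A
  have hN1 : Nil ℝ {a, c} N := kz3_nil_sub hN (by intro x hx; simp at hx ⊢; tauto)
  have hN2 : Nil ℝ {a', c'} N := kz3_nil_sub hN (by intro x hx; simp at hx ⊢; tauto)
  obtain ⟨hG, hP, -⟩ := gam_spec hN1
  obtain ⟨hG', hP', -⟩ := gam_spec hN2
  have hn : IsNilpotent (a + a') :=
    h.aa.isNilpotent_add (kz3_nilp hN (by simp)) (kz3_nilp hN (by simp))
  have e := kz3_gam_eq hn (kz3_isG_conv hG hG' (kz3_commute_gam hN2 h.aa h.ab)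
    (kz3_commute_gam hN1 h.aa.symm h.ba.symm) (kz3_commute_gam hN1 h.ab.symm h.bb.symm))
  rw [gfun, gfun, gfun, e, tsum_mul_tsum_eq_tsum_sum_antidiagonal_of_summable_norm
    (hP.summable_norm hu) (hP'.summable_norm hu)]
  refine tsum_congr fun m => ?_
  rw [Finset.smul_sum]
  refine Finset.sum_congr rfl fun p hp => ?_
  rw [← Finset.HasAntidiagonal.mem_antidiagonal.1 hp, smul_mul_smul_comm, pow_add]

omit [NormedAlgebra ℝ A] [FiniteDimensional ℝ A] in
theorem kz3_commute_inverse {z x : A} (h : Commute z x) (hx : IsUnit x) :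
    Commute z (Ring.inverse x) := by
  obtain ⟨u, rfl⟩ := hx
  rw [Ring.inverse_unit]
  exact h.units_inv_right

theorem Phi_add {a c a' c' : A} (h : CPair a c a' c') {N : ℕ} (hN : Nil ℝ {a, c, a', c'} N) :
    Phi (a + a') (c + c') = Phi a c * Phi a' c' := by
  have : CompleteSpace A := FiniteDimensional.complete ℝ A
  have hN1 : Nil ℝ {a, c} N := kz3_nil_sub hN (by intro x hx; simp at hx ⊢; tauto)
  have hN2 : Nil ℝ {a', c'} N := kz3_nil_sub hN (by intro x hx; simp at hx ⊢; tauto)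
  have hN3 : Nil ℝ {c, a, c', a'} N := kz3_nil_sub hN (by intro x hx; simp at hx ⊢; tauto)
  have h' : CPair c a c' a' := ⟨h.bb, h.ba, h.ab, h.aa⟩
  have hN1' := kz3_nil_swap hN1
  have hN2' := kz3_nil_swap hN2
  have u1 := gfun_isUnit hN1' kz3_half'
  have u2 := gfun_isUnit hN2' kz3_half'
  -- anything commuting with `a', c'` commutes with the primed factors
  have P : ∀ z, Commute z a' → Commute z c' →
      Commute z (nexp c' (-Real.log (1 - 1 / 2))) ∧ Commute z (gfun c' a' (1 - 1 / 2)) ∧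
      Commute z (Ring.inverse (gfun c' a' (1 - 1 / 2))) ∧ Commute z (gfun a' c' (1 / 2)) :=
    fun z h1 h2 => ⟨nexp_commute h2 _, commute_gfun hN2' h2 h1 kz3_half',
      kz3_commute_inverse (commute_gfun hN2' h2 h1 kz3_half') u2, commute_gfun hN2 h1 h2 kz3_half⟩
  have g1 := commute_gfun hN1' h.ba.symm h.aa.symm kz3_half'
  have g2 := commute_gfun hN1' h.bb.symm h.ab.symm kz3_half'
  have Pg := P _ g1.symm g2.symm
  have Pi := P _ (kz3_commute_inverse g1 u1).symm (kz3_commute_inverse g2 u1).symm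
  have Ph := P _ (commute_gfun hN1 h.aa.symm h.ba.symm kz3_half).symm
    (commute_gfun hN1 h.ab.symm h.bb.symm kz3_half).symm
  have PF := P _ (nexp_commute h.aa.symm (Real.log (1 / 2))).symm
    (nexp_commute h.ab.symm (Real.log (1 / 2))).symm
  rw [Phi, Phi, Phi, PhiAt, PhiAt, PhiAt, gfun_add h hN kz3_half, gfun_add h' hN3 kz3_half',
    nexp_add h.aa, nexp_add h.bb, Ring.mul_inverse_rev' Pg.2.1]
  simp only [mul_assoc]
  congr 1
  rw [PF.1.left_comm, PF.2.2.1.left_comm, PF.2.2.2.left_comm, Ph.1.left_comm, Ph.2.2.1.left_comm,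
    Pi.1.left_comm, Pi.2.2.1.left_comm]

end

end Crest.Agent.R10
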