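import Crest.Agent.R10.KZ3

/-!
# R10/KZ4: the ratio of the normalised solutions at two adjacent vertices of the pentagon
-/

set_option autoImplicit false
set_option linter.unusedVariables false
set_option linter.unusedSectionVars false

namespace Crest.Agent.R10

noncomputable section

open Filter Topology

variable {A : Type} [NormedRing A] [NormedAlgebra ℝ A] [FiniteDimensional ℝ A]

theorem Del5.rot {d0 d1 d2 d3 d4 : A} (h : Del5 d0 d1 d2 d3 d4) : Del5 d1 d2 d3 d4 d0 := by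
  refine ⟨h.c12, h.c23, h.c34, h.c40, h.c01, ?_⟩
  rw [← h.rel]
  abel

theorem Del5.flat {d0 d1 d2 d3 d4 : A} (h : Del5 d0 d1 d2 d3 d4) :
    Flat5 d0 d1 d2 d4 (d3 - d2 - d4) := by
  refine ⟨h.c01, h.c40.symm, h.c12.symm, ?_, ?_, ?_⟩
  · rw [show d4 + (d3 - d2 - d4) = d3 - d2 by abel]
    exact h.c23.sub_right (Commute.refl _)
  · rw [show d2 + (d3 - d2 - d4) = d3 - d4 by abel]
    exact h.c34.sub_left (Commute.refl _)
  · have e0 := h.rel
    have e1 := h.c40.eq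
    have e2 := h.c12.eq
    simp only [Ring.lie_def] at e0 ⊢
    linear_combination (norm := noncomm_ring) e0 - e1 - e2

theorem kz4_den {p : ℝ × ℝ} (hp : p ∈ Cell) : 0 < 1 - p.1 * p.2 := by
  obtain ⟨h1, h2, h3, h4⟩ := hp
  nlinarith

theorem rot_mem {p : ℝ × ℝ} (hp : p ∈ Cell) : rot p ∈ Cell := by
  have h5 := kz4_den hp
  obtain ⟨h1, h2, h3, h4⟩ := hp
  refine ⟨h3, h4, div_pos (by linarith) h5, (div_lt_one h5).2 ?_⟩
  nlinarith

theorem rot_five {p : ℝ × ℝ} (hp : p ∈ Cell) : rot (rot (rot (rot (rot p)))) = p := by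
  have h5 := (kz4_den hp).ne'
  obtain ⟨u, v⟩ := p
  obtain ⟨h1, h2, h3, h4⟩ := hp
  dsimp only at h1 h2 h3 h4 h5
  have hu : u ≠ 0 := h1.ne'
  have hv : v ≠ 0 := h3.ne'
  have hu1 : 1 - u ≠ 0 := by linarith
  have hv1 : 1 - v ≠ 0 := by linarith
  have h6 : 1 - v * u ≠ 0 := by rwa [mul_comm]
  have e2 : rot (rot (u, v)) = ((1 - u) / (1 - u * v), 1 - u * v) := by
    have : 1 - v * ((1 - u) / (1 - u * v)) = (1 - v) / (1 - u * v) := by field_simp; ring
    simp only [rot, this]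
    congr 1
    field_simp
  have e3 : rot ((1 - u) / (1 - u * v), 1 - u * v) = (1 - u * v, (1 - v) / (1 - u * v)) := by
    have : 1 - (1 - u) / (1 - u * v) * (1 - u * v) = u := by field_simp; ring
    simp only [rot, this]
    congr 1
    field_simp
    ring
  have e4 : rot (1 - u * v, (1 - v) / (1 - u * v)) = ((1 - v) / (1 - u * v), u) := by
    have : 1 - (1 - u * v) * ((1 - v) / (1 - u * v)) = v := by field_simp; ring
    simp only [rot, this]
    congr 1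
    field_simp
    ring
  have e5 : rot ((1 - v) / (1 - u * v), u) = (u, v) := by
    have : 1 - (1 - v) / (1 - u * v) * u = (1 - u) / (1 - u * v) := by field_simp; ring
    simp only [rot, this]
    congr 1
    field_simp
    ring
  rw [e2, e3, e4, e5]

theorem kz4_disc {p : ℝ × ℝ} (hp : p ∈ Cell) : p ∈ Disc :=
  ⟨abs_lt.2 ⟨by linarith [hp.1], hp.2.1⟩, abs_lt.2 ⟨by linarith [hp.2.2.1], hp.2.2.2⟩⟩

theorem kz4_mem_Fil {G : Set A} {g : A} (hg : g ∈ G) : g ∈ Fil ℝ G 1 :=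
  Hom_le_Fil G le_rfl (mem_Hom_one hg)

theorem kz4_nil_sub {G G' : Set A} {N : ℕ} (h : Nil ℝ G N) (hG : G' ⊆ G) : Nil ℝ G' N :=
  h.of_Fil fun _ hg => kz4_mem_Fil (hG hg)

theorem kz4_nil_rot {d0 d1 d2 d3 d4 : A} {N : ℕ} (hN : Nil ℝ {d0, d1, d2, d3, d4} N) :
    Nil ℝ {d1, d2, d3, d4, d0} N :=
  kz4_nil_sub hN fun g hg => by
    simp only [Set.mem_insert_iff, Set.mem_singleton_iff] at hg ⊢
    tauto

theorem kz4_nil_flat {d0 d1 d2 d3 d4 : A} {N : ℕ} (hN : Nil ℝ {d0, d1, d2, d3, d4} N) :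
    Nil ℝ {d0, d1, d2, d4, d3 - d2 - d4} N := by
  refine hN.of_Fil fun g hg => ?_
  simp only [Set.mem_insert_iff, Set.mem_singleton_iff] at hg
  rcases hg with rfl | rfl | rfl | rfl | rfl
  · exact kz4_mem_Fil (by simp)
  · exact kz4_mem_Fil (by simp)
  · exact kz4_mem_Fil (by simp)
  · exact kz4_mem_Fil (by simp)
  · exact sub_mem (sub_mem (kz4_mem_Fil (by simp)) (kz4_mem_Fil (by simp))) (kz4_mem_Fil (by simp))

theorem kz4_unit {a b c d e : A} {H : S2 A} (h : IsH a b c d e H) {N : ℕ}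
    (hN : Nil ℝ {a, b, c, d, e} N) {p : ℝ × ℝ} (hp : p ∈ Cell) : IsUnit (Ffun a b H p) := by
  have : CompleteSpace A := FiniteDimensional.complete ℝ A
  exact ((h.isUnit hN (kz4_disc hp)).mul (nexp_isUnit _ _)).mul (nexp_isUnit _ _)

theorem kz4_rot_deriv {p : ℝ × ℝ} (hp : p ∈ Cell) : ∃ R : ℝ × ℝ →L[ℝ] ℝ × ℝ, HasFDerivAt rot R p ∧
    R (1, 0) = (-(1 - p.2) / (1 - p.1 * p.2) ^ 2) • ((0, 1) : ℝ × ℝ) ∧
    R (0, 1) = (1, 0) + (p.1 * (1 - p.1) / (1 - p.1 * p.2) ^ 2) • ((0, 1) : ℝ × ℝ) := by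
  have h5 := (kz4_den hp).ne'
  have f1 : HasFDerivAt (fun q : ℝ × ℝ => q.1) (ContinuousLinearMap.fst ℝ ℝ ℝ) p := hasFDerivAt_fst
  have f2 : HasFDerivAt (fun q : ℝ × ℝ => q.2) (ContinuousLinearMap.snd ℝ ℝ ℝ) p := hasFDerivAt_snd
  have h1 := f1.const_sub 1
  have h2 := (f1.mul f2).const_sub 1
  have h3 := HasDerivAt.comp_hasFDerivAt p (hasDerivAt_inv h5) h2
  have h4 := f2.prodMk (h1.mul h3)
  refine ⟨_, h4.congr_of_eventuallyEq (Eventually.of_forall fun q => ?_), ?_, ?_⟩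
  · simp [rot, div_eq_mul_inv]
  · ext
    · simp
    · simp
      field_simp
      ring
  · ext
    · simp
    · simp
      field_simp

theorem kz4_ratio_deriv {F G : ℝ × ℝ → A} {D D' : ℝ × ℝ →L[ℝ] A} {p : ℝ × ℝ}
    (hF : HasFDerivAt F D p) (hG : HasFDerivAt G D' p) (hu : IsUnit (G p)) {a b : A}
    (h1 : D (1, 0) = a * F p) (h1' : D' (1, 0) = a * G p) (h2 : D (0, 1) = b * F p)
    (h2' : D' (0, 1) = b * G p) :
    HasFDerivAt (fun q => Ring.inverse (G q) * F q) (0 : ℝ × ℝ →L[ℝ] A) p := by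
  have : CompleteSpace A := FiniteDimensional.complete ℝ A
  obtain ⟨x, hx⟩ := hu
  have h3 := hasFDerivAt_ringInverse (𝕜 := ℝ) x
  rw [hx] at h3
  have h4 := (h3.comp p hG).mul' hF
  refine h4.congr_fderiv ?_
  have key : ∀ z : ℝ × ℝ, ∀ c : A, D z = c * F p → D' z = c * G p →
      Ring.inverse (G p) * D z + -((x⁻¹ : Aˣ) * D' z * (x⁻¹ : Aˣ)) * F p = 0 := by
    intro z c e1 e2
    rw [e1, e2, ← hx, Ring.inverse_unit, mul_assoc (x⁻¹ : Aˣ).val, Units.mul_inv_cancel_right]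
    noncomm_ring
  refine ContinuousLinearMap.prod_ext ?_ ?_
  · ext
    simpa using key _ _ h1 h1'
  · ext
    simpa using key _ _ h2 h2'

/-- `F' ∘ rot` solves the same equation as `F` (chain rule with `Ffun_hasFDerivAt`; with
`w = (1-u)/(1-uv)`: `1 - w = u(1-v)/(1-uv)`, `1 - v w = (1-v)/(1-uv)`,
`∂w/∂u = -(1-v)/(1-uv)²`, `∂w/∂v = u(1-u)/(1-uv)²`), so the Fréchet derivative of the ratio
(`hasFDerivAt_ringInverse`) vanishes on the convex open set `Cell`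
(`Convex.is_const_of_fderivWithin_eq_zero` / `IsOpen.is_const_of_fderiv_eq_zero`). -/
theorem ratio_const {d0 d1 d2 d3 d4 : A} (h : Del5 d0 d1 d2 d3 d4) {N : ℕ}
    (hN : Nil ℝ {d0, d1, d2, d3, d4} N) {H H' : S2 A} (hH : IsH d0 d1 d2 d4 (d3 - d2 - d4) H)
    (hH' : IsH d1 d2 d3 d0 (d4 - d3 - d0) H') {p q : ℝ × ℝ} (hp : p ∈ Cell) (hq : q ∈ Cell) :
    Ring.inverse (Ffun d1 d2 H' (rot p)) * Ffun d0 d1 H p =
      Ring.inverse (Ffun d1 d2 H' (rot q)) * Ffun d0 d1 H q := by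
  have : CompleteSpace A := FiniteDimensional.complete ℝ A
  have hN' := kz4_nil_flat (kz4_nil_rot hN)
  have key : ∀ p ∈ Cell, HasFDerivAt
      (fun q => Ring.inverse (Ffun d1 d2 H' (rot q)) * Ffun d0 d1 H q) (0 : ℝ × ℝ →L[ℝ] A) p := by
    intro p hp
    obtain ⟨D, hD, hD1, hD2⟩ := Ffun_hasFDerivAt h.c01 hH hp
    obtain ⟨D', hD', hD1', hD2'⟩ := Ffun_hasFDerivAt h.c12 hH' (rot_mem hp)
    obtain ⟨R, hR, hR1, hR2⟩ := kz4_rot_deriv hp
    have h5 := (kz4_den hp).ne'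
    have hu := kz4_unit hH' hN' (rot_mem hp)
    obtain ⟨u, v⟩ := p
    obtain ⟨h1, h2, h3, h4⟩ := hp
    dsimp only at h1 h2 h3 h4 h5 hD1 hD2 hR1 hR2
    have hu0 : u ≠ 0 := h1.ne'
    have hv0 : v ≠ 0 := h3.ne'
    have hu1 : 1 - u ≠ 0 := by linarith
    have hv1 : 1 - v ≠ 0 := by linarith
    have h6 : 1 - v * u ≠ 0 := by rwa [mul_comm]
    have r1 : (rot (u, v)).1 = v := rfl
    have r2 : (rot (u, v)).2 = (1 - u) / (1 - u * v) := rfl
    have w1 : 1 - (1 - u) / (1 - u * v) = u * (1 - v) / (1 - u * v) := by field_simp; ring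
    have w2 : 1 - v * ((1 - u) / (1 - u * v)) = (1 - v) / (1 - u * v) := by field_simp; ring
    rw [r1, r2, w2] at hD1' hD2'
    rw [w1] at hD2'
    refine kz4_ratio_deriv hD (hD'.comp (u, v) hR) hu hD1 ?_ hD2 ?_
    · rw [ContinuousLinearMap.comp_apply, hR1, map_smul, hD2', ← smul_mul_assoc]
      congr 1
      match_scalars <;> field_simp <;> ring
    · rw [ContinuousLinearMap.comp_apply, hR2, map_add, map_smul, hD1', hD2', ← smul_mul_assoc,
        ← add_mul]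
      congr 1
      match_scalars <;> field_simp <;> ring
  have hC : Cell = Set.Ioo (0 : ℝ) 1 ×ˢ Set.Ioo (0 : ℝ) 1 := by
    ext p
    simp only [Cell, Set.mem_ofPred_eq, Set.mem_prod, Set.mem_Ioo, and_assoc]
  have hopen : IsOpen Cell := hC ▸ isOpen_Ioo.prod isOpen_Ioo
  have hconn : IsPreconnected Cell := hC ▸ isPreconnected_Ioo.prod isPreconnected_Ioo
  exact hopen.is_const_of_fderiv_eq_zero (𝕜 := ℝ) hconn
    (fun p hp => (key p hp).differentiableAt.differentiableWithinAt)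
    (fun p hp => (key p hp).fderiv) hp hq

theorem kz4_log_pow (n : ℕ) : Tendsto (fun v : ℝ => Real.log v ^ n * v) (𝓝[>] 0) (𝓝 0) := by
  have h := (isLittleO_abs_log_rpow_rpow_nhdsGT_zero (s := -1) n (by norm_num)).tendsto_div_nhds_zero
  rw [tendsto_zero_iff_abs_tendsto_zero]
  refine h.congr' (eventually_mem_nhdsWithin.mono fun v (hv : 0 < v) => ?_)
  simp only [Function.comp_apply]
  rw [Real.rpow_neg_one, div_inv_eq_mul, Real.rpow_natCast, abs_mul, abs_pow, abs_of_pos hv]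

/-- Conjugating an `O(v)` term by `v^b` (`nexp_eq_sum`; `v (log v)^j → 0`). -/
theorem tendsto_conj {b : A} {k : ℕ} (hb : b ^ k = 0) {K : ℝ → A} {K' : A}
    (hK : HasDerivAt K K' 0) (hc : Commute b (K 0)) :
    Tendsto (fun v => nexp b (-Real.log v) * K v * nexp b (Real.log v)) (𝓝[>] 0) (𝓝 (K 0)) := by
  have : CompleteSpace A := FiniteDimensional.complete ℝ A
  have hS := hK.tendsto_slope_zero_right
  simp only [zero_add] at hS
  have h1 : Tendsto (fun v => ∑ i ∈ Finset.range k, ∑ j ∈ Finset.range k,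
      ((-1) ^ i / ((i.factorial : ℝ) * j.factorial) * (Real.log v ^ (i + j) * v)) •
        (b ^ i * (v⁻¹ • (K v - K 0)) * b ^ j)) (𝓝[>] 0) (𝓝 0) := by
    have h2 := tendsto_finsetSum (Finset.range k) fun i _ =>
      tendsto_finsetSum (Finset.range k) fun j _ =>
        (((kz4_log_pow (i + j)).const_mul ((-1) ^ i / ((i.factorial : ℝ) * j.factorial))).smul
          ((hS.const_mul (b ^ i)).mul_const (b ^ j)))
    simpa only [mul_zero, zero_smul, Finset.sum_const_zero] using h2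
  have h3 := h1.const_add (K 0)
  rw [add_zero] at h3
  refine h3.congr' (eventually_mem_nhdsWithin.mono fun v (hv : 0 < v) => ?_)
  have e1 : nexp b (-Real.log v) * K 0 * nexp b (Real.log v) = K 0 := by
    have h4 := nexp_mul_neg b (-Real.log v)
    rw [neg_neg] at h4
    rw [← (nexp_commute hc.symm _).eq, mul_assoc, h4, mul_one]
  have e2 : nexp b (-Real.log v) * K v * nexp b (Real.log v) =
      K 0 + nexp b (-Real.log v) * (K v - K 0) * nexp b (Real.log v) := by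
    rw [mul_sub, sub_mul, e1, add_sub_cancel]
  dsimp only
  rw [e2, nexp_eq_sum hb, nexp_eq_sum hb, Finset.sum_mul, Finset.sum_mul_sum]
  congr 1
  refine Finset.sum_congr rfl fun i _ => Finset.sum_congr rfl fun j _ => ?_
  simp only [smul_mul_assoc, mul_smul_comm, smul_smul]
  congr 1
  rw [neg_pow (Real.log v), pow_add]
  field_simp

theorem kz4_inv_eq {y z : A} (hy : IsUnit y) (h : y * z = 1) : Ring.inverse y = z := by
  rw [← mul_one (Ring.inverse y), ← h, Ring.inverse_mul_cancel_left _ _ hy]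

/-- With `w(v) = (1-u)/(1-uv)` and `K v = (ev2 H' (v, w v))⁻¹ * ev2 H (u, v)` the ratio is
`nexp d2 (-log (w v)) * (v^(-d1) K v v^(d1)) * nexp d0 (log u)` (`d1` commutes with `d0`, `d2`);
`K` is differentiable at `0`, `K 0 = (gfun d2 d0 (1-u))⁻¹ * gfun d0 d2 u` commutes with `d1`. -/
theorem ratio_tendsto {d0 d1 d2 d3 d4 : A} (h : Del5 d0 d1 d2 d3 d4) {N : ℕ}
    (hN : Nil ℝ {d0, d1, d2, d3, d4} N) {H H' : S2 A} (hH : IsH d0 d1 d2 d4 (d3 - d2 - d4) H)
    (hH' : IsH d1 d2 d3 d0 (d4 - d3 - d0) H') {u : ℝ} (h0 : 0 < u) (h1 : u < 1) :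
    Tendsto (fun v => Ring.inverse (Ffun d1 d2 H' (rot (u, v))) * Ffun d0 d1 H (u, v))
      (𝓝[>] 0) (𝓝 (PhiAt d0 d2 u)) := by
  have : CompleteSpace A := FiniteDimensional.complete ℝ A
  have hN0 := kz4_nil_flat hN
  have hN1 := kz4_nil_flat (kz4_nil_rot hN)
  have hN02 : Nil ℝ {d0, d2} N := kz4_nil_sub hN fun g hg => by
    simp only [Set.mem_insert_iff, Set.mem_singleton_iff] at hg ⊢
    tauto
  have hN20 : Nil ℝ {d2, d0} N := by rwa [Set.pair_comm]
  have hu : |u| < 1 := abs_lt.2 ⟨by linarith, h1⟩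
  have hu' : |1 - u| < 1 := abs_lt.2 ⟨by linarith, by linarith⟩
  set w : ℝ → ℝ := fun v => (1 - u) / (1 - u * v) with hw
  have hw0 : w 0 = 1 - u := by simp [hw]
  have hwd : DifferentiableAt ℝ w 0 := by
    refine (differentiableAt_const _).div (by fun_prop) (by simp)
  have hD0 : ((u, 0) : ℝ × ℝ) ∈ Disc := ⟨hu, by simp⟩
  have hD1 : ((0, w 0) : ℝ × ℝ) ∈ Disc := ⟨by simp, hw0 ▸ hu'⟩
  set K : ℝ → A := fun v => Ring.inverse (ev2 H' (v, w v)) * ev2 H (u, v) with hK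
  have hKd : DifferentiableAt ℝ K 0 := by
    obtain ⟨D, hD, -⟩ := ev2_hasFDerivAt hH.pb hD0
    obtain ⟨D', hD', -⟩ := ev2_hasFDerivAt hH'.pb hD1
    have a1 : DifferentiableAt ℝ (fun v : ℝ => ev2 H (u, v)) 0 :=
      DifferentiableAt.comp (g := ev2 H) (f := fun v : ℝ => (u, v)) 0 hD.differentiableAt
        (by fun_prop)
    have a2 : DifferentiableAt ℝ (fun v : ℝ => ev2 H' (v, w v)) 0 :=
      DifferentiableAt.comp (g := ev2 H') (f := fun v : ℝ => (v, w v)) 0 hD'.differentiableAt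
        (differentiableAt_id.prodMk hwd)
    exact (a2.inverse (hH'.isUnit hN1 hD1)).mul a1
  have hK0 : K 0 = Ring.inverse (gfun d2 d0 (1 - u)) * gfun d0 d2 u := by
    simp only [hK]
    rw [hH'.ev2_axis1_eq hN1, hH.ev2_axis0_eq hN0, hw0]
  have hc : Commute d1 (K 0) := by
    rw [hK0]
    refine Commute.mul_right ?_ (commute_gfun hN02 h.c01.symm h.c12 hu)
    obtain ⟨x, hx⟩ := gfun_isUnit hN20 hu'
    have := commute_gfun hN20 h.c12 h.c01.symm hu'
    rw [← hx] at this ⊢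
    rw [Ring.inverse_unit]
    exact this.units_inv_right
  have t1 := tendsto_conj (hN.pow_eq_zero (kz4_mem_Fil (g := d1) (by simp))) hKd.hasDerivAt hc
  have t2 : Tendsto (fun v => nexp d2 (-Real.log (w v))) (𝓝[>] 0)
      (𝓝 (nexp d2 (-Real.log (1 - u)))) := by
    have c1 : ContinuousAt (fun v => -Real.log (w v)) 0 :=
      (hwd.continuousAt.log (by rw [hw0]; linarith)).neg
    have c2 := ((nexp_hasDerivAt d2 (-Real.log (w 0))).continuousAt.tendsto.comp c1.tendsto)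
    rw [hw0] at c2
    exact c2.mono_left nhdsWithin_le_nhds
  have t3 := (t2.mul t1).mul_const (nexp d0 (Real.log u))
  rw [hK0, ← mul_assoc] at t3
  refine t3.congr' (mem_of_superset (Ioo_mem_nhdsGT one_pos) fun v hv => ?_)
  have hp : ((u, v) : ℝ × ℝ) ∈ Cell := ⟨h0, h1, hv.1, hv.2⟩
  have hx := hH'.isUnit hN1 (kz4_disc (rot_mem hp))
  have e1 : Ring.inverse (Ffun d1 d2 H' (rot (u, v))) = nexp d2 (-Real.log (w v)) *
      (nexp d1 (-Real.log v) * Ring.inverse (ev2 H' (v, w v))) := by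
    refine kz4_inv_eq (kz4_unit hH' hN1 (rot_mem hp)) ?_
    change ev2 H' (v, w v) * nexp d1 (Real.log v) * nexp d2 (Real.log (w v)) * _ = 1
    rw [mul_assoc, ← mul_assoc (nexp d2 _), nexp_mul_neg, one_mul, mul_assoc,
      ← mul_assoc (nexp d1 _), nexp_mul_neg, one_mul]
    exact Ring.mul_inverse_cancel _ hx
  have e2 : Ffun d0 d1 H (u, v) = ev2 H (u, v) * (nexp d1 (Real.log v) * nexp d0 (Real.log u)) := by
    rw [← (nexp_commute (nexp_commute h.c01.symm _).symm _).eq, ← mul_assoc]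
    rfl
  simp only [Set.mem_ofPred_eq, e1, e2, hK, mul_assoc]

/-- From `ratio_const` and `ratio_tendsto`. -/
theorem ratio_eq {d0 d1 d2 d3 d4 : A} (h : Del5 d0 d1 d2 d3 d4) {N : ℕ}
    (hN : Nil ℝ {d0, d1, d2, d3, d4} N) {H H' : S2 A} (hH : IsH d0 d1 d2 d4 (d3 - d2 - d4) H)
    (hH' : IsH d1 d2 d3 d0 (d4 - d3 - d0) H') {p : ℝ × ℝ} (hp : p ∈ Cell) {u : ℝ} (h0 : 0 < u)
    (h1 : u < 1) : Ffun d0 d1 H p = Ffun d1 d2 H' (rot p) * PhiAt d0 d2 u := by
  have t1 := ratio_tendsto h hN hH hH' h0 h1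
  have t2 : Tendsto (fun v => Ring.inverse (Ffun d1 d2 H' (rot (u, v))) * Ffun d0 d1 H (u, v))
      (𝓝[>] 0) (𝓝 (Ring.inverse (Ffun d1 d2 H' (rot p)) * Ffun d0 d1 H p)) :=
    tendsto_const_nhds.congr' (mem_of_superset (Ioo_mem_nhdsGT one_pos) fun v hv =>
      ratio_const h hN hH hH' hp ⟨h0, h1, hv.1, hv.2⟩)
  rw [tendsto_nhds_unique t1 t2, Ring.mul_inverse_cancel_left _ _
    (kz4_unit hH' (kz4_nil_flat (kz4_nil_rot hN)) (rot_mem hp))]

theorem kz4_half : ((1 / 2, 1 / 2) : ℝ × ℝ) ∈ Cell := by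
  refine ⟨?_, ?_, ?_, ?_⟩ <;> norm_num

/-- `ratio_eq` for `Del5 a 0 c c 0`. -/
theorem PhiAt_eq {a c : A} {N : ℕ} (hN : Nil ℝ {a, c} N) {u : ℝ} (h0 : 0 < u) (h1 : u < 1) :
    PhiAt a c u = Phi a c := by
  have h : Del5 a 0 c c 0 := ⟨Commute.zero_right _, Commute.zero_left _, Commute.refl _,
    Commute.zero_right _, Commute.zero_left _, by simp [Ring.lie_def]⟩
  have hN' : Nil ℝ {a, 0, c, c, 0} N := by
    refine hN.of_Fil fun g hg => ?_
    simp only [Set.mem_insert_iff, Set.mem_singleton_iff] at hg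
    rcases hg with rfl | rfl | rfl | rfl | rfl
    · exact kz4_mem_Fil (by simp)
    · exact zero_mem _
    · exact kz4_mem_Fil (by simp)
    · exact kz4_mem_Fil (by simp)
    · exact zero_mem _
  have hN1 := kz4_nil_flat (kz4_nil_rot hN')
  obtain ⟨H, hH⟩ := exists_H h.flat (kz4_nil_flat hN')
  obtain ⟨H', hH'⟩ := exists_H h.rot.flat hN1
  have e1 := ratio_eq h hN' hH hH' kz4_half h0 h1
  have e2 := ratio_eq h hN' hH hH' kz4_half (u := 1 / 2) (by norm_num) (by norm_num)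
  exact (kz4_unit hH' hN1 (rot_mem kz4_half)).mul_left_cancel (e1.symm.trans e2)

/-- Go once around the pentagon (`exists_H` five times, `ratio_eq`, `rot_five`). -/
theorem Phi_pentagon {d0 d1 d2 d3 d4 : A} (h : Del5 d0 d1 d2 d3 d4) {N : ℕ}
    (hN : Nil ℝ {d0, d1, d2, d3, d4} N) :
    Phi d4 d1 * Phi d3 d0 * Phi d2 d4 * Phi d1 d3 * Phi d0 d2 = 1 := by
  have n1 := kz4_nil_rot hN
  have n2 := kz4_nil_rot n1
  have n3 := kz4_nil_rot n2
  have n4 := kz4_nil_rot n3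
  obtain ⟨H0, h0⟩ := exists_H h.flat (kz4_nil_flat hN)
  obtain ⟨H1, h1⟩ := exists_H h.rot.flat (kz4_nil_flat n1)
  obtain ⟨H2, h2⟩ := exists_H h.rot.rot.flat (kz4_nil_flat n2)
  obtain ⟨H3, h3⟩ := exists_H h.rot.rot.rot.flat (kz4_nil_flat n3)
  obtain ⟨H4, h4⟩ := exists_H h.rot.rot.rot.rot.flat (kz4_nil_flat n4)
  have a : (0 : ℝ) < 1 / 2 := by norm_num
  have b : (1 / 2 : ℝ) < 1 := by norm_num
  have p0 := kz4_half
  have e0 := ratio_eq h hN h0 h1 p0 a b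
  have e1 := ratio_eq h.rot n1 h1 h2 (rot_mem p0) a b
  have e2 := ratio_eq h.rot.rot n2 h2 h3 (rot_mem (rot_mem p0)) a b
  have e3 := ratio_eq h.rot.rot.rot n3 h3 h4 (rot_mem (rot_mem (rot_mem p0))) a b
  have e4 := ratio_eq h.rot.rot.rot.rot n4 h4 h0 (rot_mem (rot_mem (rot_mem (rot_mem p0)))) a b
  rw [rot_five p0] at e4
  rw [e1, e2, e3, e4] at e0
  refine (kz4_unit h0 (kz4_nil_flat hN) p0).mul_left_cancel ?_
  rw [mul_one]
  simp only [Phi, ← mul_assoc]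
  exact e0.symm

end

end Crest.Agent.R10
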