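import Crest.Agent.R10.Grade

/-!
# R10/KZDefs: definitions for the real KZ associator

`A` is a normed `ℝ`-algebra, later finite dimensional, and the letters are nilpotent.  On the open
square `(0,1)²` the KZ connection is
`ω = a dlog u + c dlog (1-u) + b dlog v + d dlog (1-v) + e dlog (1-uv)`,
and the normalised solution at `(0,0)` is `H(u,v) u^a v^b` with a power series `H`.
-/

set_option autoImplicit false

namespace Crest.Agent.R10

noncomputable section

open MvPowerSeries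

variable {A : Type} [NormedRing A] [NormedAlgebra ℝ A]

/-- Power series in two variables `u` (index 0), `v` (index 1). -/
abbrev S2 (A : Type) [Ring A] : Type := MvPowerSeries (Fin 2) A

/-- Polynomially bounded coefficients. -/
def PB2 (f : S2 A) : Prop :=
  ∃ (C : ℝ) (k : ℕ), ∀ d : Fin 2 →₀ ℕ, ‖coeff d f‖ ≤ C * (1 + (d 0 : ℝ) + (d 1 : ℝ)) ^ k

/-- Polynomially bounded sequences. -/
def PB1 (γ : ℕ → A) : Prop := ∃ (C : ℝ) (k : ℕ), ∀ m : ℕ, ‖γ m‖ ≤ C * (1 + (m : ℝ)) ^ k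

/-- The Euler operators `u ∂_u`, `v ∂_v`. -/
def th (i : Fin 2) (f : S2 A) : S2 A := fun d => (d i : ℝ) • coeff d f

/-- `u / (1 - u)`. -/
def sU (A : Type) [Ring A] : S2 A := fun d => if d 1 = 0 ∧ d 0 ≠ 0 then 1 else 0

/-- `v / (1 - v)`. -/
def sV (A : Type) [Ring A] : S2 A := fun d => if d 0 = 0 ∧ d 1 ≠ 0 then 1 else 0

/-- `u v / (1 - u v)`. -/
def sZ (A : Type) [Ring A] : S2 A := fun d => if d 0 = d 1 ∧ d 0 ≠ 0 then 1 else 0

/-- `u ω(∂_u)`. -/
def omU (a c e : A) : S2 A := C a - sU A * C c - sZ A * C e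

/-- `v ω(∂_v)`. -/
def omV (b d e : A) : S2 A := C b - sV A * C d - sZ A * C e

/-- Flatness of `ω`. -/
structure Flat5 {A : Type} [Ring A] (a b c d e : A) : Prop where
  ab : Commute a b
  ad : Commute a d
  cb : Commute c b
  cde : Commute c (d + e)
  ced : Commute (c + e) d
  rel : ⁅c, d⁆ = ⁅a - b, e⁆

/-- The holomorphic part of the normalised solution. -/
structure IsH (a b c d e : A) (H : S2 A) : Prop where
  one : coeff 0 H = 1
  pb : PB2 H
  fil : ∀ m : Fin 2 →₀ ℕ, m ≠ 0 → coeff m H ∈ Fil ℝ {a, b, c, d, e} 1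
  eqU : th 0 H = omU a c e * H - H * C a
  eqV : th 1 H = omV b d e * H - H * C b

/-- Evaluation of a power series. -/
def ev2 (f : S2 A) (p : ℝ × ℝ) : A :=
  ∑' d : Fin 2 →₀ ℕ, (p.1 ^ (d 0) * p.2 ^ (d 1)) • coeff d f

/-- The open bidisc. -/
def Disc : Set (ℝ × ℝ) := {p | |p.1| < 1 ∧ |p.2| < 1}

/-- The open cell. -/
def Cell : Set (ℝ × ℝ) := {p | 0 < p.1 ∧ p.1 < 1 ∧ 0 < p.2 ∧ p.2 < 1}

/-- The one-variable recursion `u g' = a g - g a - (u/(1-u)) c g`, `g(0) = 1`. -/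
def IsG (a c : A) (γ : ℕ → A) : Prop :=
  γ 0 = 1 ∧ ∀ m : ℕ, (m : ℝ) • γ m = a * γ m - γ m * a - c * ∑ j ∈ Finset.range m, γ j

open Classical in
/-- The solution of the one-variable recursion. -/
def gam (a c : A) : ℕ → A := if h : ∃ γ, IsG a c γ then h.choose else 0

/-- The holomorphic part of the one-variable solution. -/
def gfun (a c : A) (u : ℝ) : A := ∑' m : ℕ, u ^ m • gam a c m

/-- `exp (t a)`; `u ^ a = nexp a (log u)`. -/
def nexp (a : A) (t : ℝ) : A := NormedSpace.exp (t • a)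

/-- `G₁(u)⁻¹ G₀(u)`. -/
def PhiAt (a c : A) (u : ℝ) : A :=
  nexp c (-Real.log (1 - u)) * Ring.inverse (gfun c a (1 - u)) * gfun a c u * nexp a (Real.log u)

/-- The Drinfeld associator `Φ(a, c)`. -/
def Phi (a c : A) : A := PhiAt a c (1 / 2)

/-- Dihedral form of the relations. -/
structure Del5 {A : Type} [Ring A] (d0 d1 d2 d3 d4 : A) : Prop where
  c01 : Commute d0 d1
  c12 : Commute d1 d2
  c23 : Commute d2 d3
  c34 : Commute d3 d4
  c40 : Commute d4 d0
  rel : ⁅d0, d2⁆ + ⁅d1, d3⁆ + ⁅d2, d4⁆ + ⁅d3, d0⁆ + ⁅d4, d1⁆ = 0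

/-- The normalised solution `H(u,v) u^a v^b`. -/
def Ffun (a b : A) (H : S2 A) (p : ℝ × ℝ) : A :=
  ev2 H p * nexp a (Real.log p.1) * nexp b (Real.log p.2)

/-- The rotation of the pentagon in cubical coordinates (of order five on `Cell`). -/
def rot (p : ℝ × ℝ) : ℝ × ℝ := (p.2, (1 - p.1) / (1 - p.1 * p.2))

end

end Crest.Agent.R10
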