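import Crest.Agent.R10.Base

/-!
# R10/Lazard: Lazard elimination; saturation of the free Lie ring
-/

set_option autoImplicit false
set_option linter.unusedVariables false

namespace Crest.Agent.R10

noncomputable section

open FreeAlgebra

variable {R : Type} [CommRing R] {X : Type}

/-- The new alphabet `ad_{x₀}^k y`, `y ≠ x₀`. -/
abbrev LzY (x0 : X) : Type := {y : X // y ≠ x0} × ℕ

/-- The new weights. -/
def lzwt (wt : X → ℕ) (x0 : X) : LzY x0 → ℕ := fun p => wt p.1.1 + p.2 * wt x0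

/-- `(y, k) ↦ ad_{x₀}^k y`. -/
def lzθ (R : Type) [CommRing R] (x0 : X) : FreeAlgebra R (LzY x0) →ₐ[R] FreeAlgebra R X :=
  lift R fun p => (fun u : FreeAlgebra R X => ⁅(ι R x0 : FreeAlgebra R X), u⁆)^[p.2] (ι R p.1.1)

theorem lz_lift_ι (u : FreeAlgebra R X) : lift R (fun i => ι R i) u = u := by
  have : lift R (fun i : X => ι R i) = AlgHom.id R _ := by
    ext i
    simp
  rw [this, AlgHom.id_apply]

/-- The derivation `(y, k) ↦ (y, k + 1)`. -/
def lz_d (R : Type) [CommRing R] (x0 : X) : FreeAlgebra R (LzY x0) →ₗ[R] FreeAlgebra R (LzY x0) :=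
  der fun p => ι R (p.1, p.2 + 1)

theorem lz_θ_ι (x0 : X) (p : LzY x0) : lzθ R x0 (ι R p) =
    (fun u : FreeAlgebra R X => ⁅(ι R x0 : FreeAlgebra R X), u⁆)^[p.2] (ι R p.1.1) := by
  rw [lzθ, lift_ι_apply]

theorem lz_θ_d (x0 : X) (v : FreeAlgebra R (LzY x0)) :
    lzθ R x0 (lz_d R x0 v) = ⁅(ι R x0 : FreeAlgebra R X), lzθ R x0 v⁆ := by
  have h := IsDer.map_lift (R := R) (δ := (0 : FreeAlgebra R X →ₗ[R] FreeAlgebra R X))
    (fun u v => by simp)
    (a := fun p : LzY x0 =>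
      (fun u : FreeAlgebra R X => ⁅(ι R x0 : FreeAlgebra R X), u⁆)^[p.2] (ι R p.1.1))
    (d := fun p => ι R (p.1, p.2 + 1)) (h := ι R x0) (fun p => by
      rw [lift_ι_apply, Function.iterate_succ_apply']
      simp only [Ring.lie_def, LinearMap.zero_apply]
      abel) v
  rw [LinearMap.zero_apply] at h
  rw [lz_d, lzθ, eq_neg_of_add_eq_zero_left h.symm, Ring.lie_def, Ring.lie_def, neg_sub]

theorem lz_d_mem (wt : X → ℕ) (x0 : X) {n : ℕ} {v : FreeAlgebra R (LzY x0)}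
    (hv : v ∈ Lw R (lzwt wt x0) n) : lz_d R x0 v ∈ Lw R (lzwt wt x0) (n + wt x0) := by
  refine der_mem_Lw (fun p => ?_) hv
  have h := ι_mem_Lw (R := R) (lzwt wt x0) (p.1, p.2 + 1)
  rwa [show lzwt wt x0 (p.1, p.2 + 1) = lzwt wt x0 p + wt x0 by simp only [lzwt]; ring] at h

/-- Let `d = der ((y,k) ↦ (y,k+1))` and `ν : FreeAlgebra R X →ₐ End (FreeAlgebra R (LzY x0))`,
`x₀ ↦ d`, `y ↦ mulLeft (y,0)`.  Then `ν (ad^k y) = mulLeft (y,k)` (`IsDer.mul_mulLeft`), so
`ν (θ u) = mulLeft u` and `u ↦ ν u 1` is a left inverse. -/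
theorem lz_leftInv (x0 : X) : ∃ lam : FreeAlgebra R X →ₗ[R] FreeAlgebra R (LzY x0),
    ∀ u, lam (lzθ R x0 u) = u := by
  classical
  let g : X → Module.End R (FreeAlgebra R (LzY x0)) := fun i =>
    if h : i = x0 then lz_d R x0 else LinearMap.mulLeft R (ι R (⟨i, h⟩, 0))
  have key : ∀ (y : {y : X // y ≠ x0}) (k : ℕ),
      lift R g ((fun u : FreeAlgebra R X => ⁅(ι R x0 : FreeAlgebra R X), u⁆)^[k] (ι R y.1)) =
        LinearMap.mulLeft R (ι R (y, k)) := by
    intro y k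
    induction k with
    | zero => simp [g, y.2]
    | succ k ih =>
      rw [Function.iterate_succ_apply', map_lie', ih, lift_ι_apply, Ring.lie_def]
      simp only [g, dite_true]
      rw [lz_d, (isDer_der _).mul_mulLeft, der_ι, add_sub_cancel_right]
  refine ⟨LinearMap.applyₗ (1 : FreeAlgebra R (LzY x0)) ∘ₗ (lift R g).toLinearMap, fun u => ?_⟩
  have h := lift_apply_col (R := R) (LinearMap.id : FreeAlgebra R (LzY x0) →ₗ[R] _)
    (g := fun p : LzY x0 => LinearMap.mulLeft R (ι R p)) (γ := ι R) (fun i f => rfl) u 1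
  simp only [LinearMap.comp_apply, AlgHom.toLinearMap_apply, LinearMap.applyₗ_apply_apply]
  rw [lzθ, map_lift]
  simp only [key]
  simpa [lz_lift_ι] using h

theorem lz_mem (wt : X → ℕ) (x0 : X) {n : ℕ} {u : FreeAlgebra R (LzY x0)}
    (hu : u ∈ Lw R (lzwt wt x0) n) : lzθ R x0 u ∈ Lw R wt n := by
  refine lift_mem_Lw (fun p => ?_) hu
  obtain ⟨y, k⟩ := p
  induction k with
  | zero => simpa [lzwt] using ι_mem_Lw wt y.1
  | succ k ih =>
    have h := lie_mem_Lw (ι_mem_Lw (R := R) wt x0) ih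
    rw [show lzwt wt x0 (y, k + 1) = wt x0 + lzwt wt x0 (y, k) by simp only [lzwt]; ring]
    simpa only [Function.iterate_succ_apply'] using h

/-- `Lw_induction` with `P n u := ∃ v ∈ Lw (lzwt) n, ∃ c, u = θ v + c • ι x₀ ∧ (n ≠ wt x₀ → c = 0)`,
using `θ (d v) = ⁅x₀, θ v⁆` and `der_mem_Lw`. -/
theorem lz_surj (wt : X → ℕ) (x0 : X) {n : ℕ} (hn : n ≠ wt x0) {u : FreeAlgebra R X}
    (hu : u ∈ Lw R wt n) : ∃ v ∈ Lw R (lzwt wt x0) n, lzθ R x0 v = u := by
  have key := Lw_induction (R := R) (wt := wt) (fun n u => ∃ v ∈ Lw R (lzwt wt x0) n, ∃ c : R,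
    u = lzθ R x0 v + c • ι R x0 ∧ (n ≠ wt x0 → c = 0)) ?_ ?_ ?_ ?_ ?_ hu
  · obtain ⟨v, hv, c, e, hc⟩ := key
    exact ⟨v, hv, by rw [e, hc hn, zero_smul, add_zero]⟩
  · intro i
    by_cases h : i = x0
    · subst h
      exact ⟨0, Submodule.zero_mem _, 1, by simp, fun h => absurd rfl h⟩
    · refine ⟨ι R (⟨i, h⟩, 0), ?_, 0, by simp [lz_θ_ι], fun _ => rfl⟩
      simpa [lzwt] using ι_mem_Lw (R := R) (lzwt wt x0) (⟨i, h⟩, 0)
  · rintro m n _ _ - - ⟨v, hv, c, rfl, hc⟩ ⟨v', hv', c', rfl, hc'⟩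
    refine ⟨⁅v, v'⁆ - c' • lz_d R x0 v + c • lz_d R x0 v', ?_, 0, ?_, fun _ => rfl⟩
    · refine Submodule.add_mem _ (Submodule.sub_mem _ (lie_mem_Lw hv hv') ?_) ?_
      · by_cases h : n = wt x0
        · exact Submodule.smul_mem _ _ (h ▸ lz_d_mem wt x0 hv)
        · rw [hc' h, zero_smul]
          exact Submodule.zero_mem _
      · by_cases h : m = wt x0
        · rw [add_comm]
          exact Submodule.smul_mem _ _ (h ▸ lz_d_mem wt x0 hv')
        · rw [hc h, zero_smul]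
          exact Submodule.zero_mem _
    · simp only [map_add, map_sub, map_smul, map_mul, lz_θ_d, Ring.lie_def, mul_add, add_mul,
        smul_mul_assoc, mul_smul_comm]
      module
  · exact fun n => ⟨0, Submodule.zero_mem _, 0, by simp, fun _ => rfl⟩
  · rintro n _ _ - - ⟨v, hv, c, rfl, hc⟩ ⟨v', hv', c', rfl, hc'⟩
    refine ⟨v + v', Submodule.add_mem _ hv hv', c + c', ?_, fun h => by rw [hc h, hc' h, add_zero]⟩
    rw [map_add]
    module
  · rintro n r _ - ⟨v, hv, c, rfl, hc⟩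
    refine ⟨r • v, Submodule.smul_mem _ _ hv, r * c, ?_, fun h => by rw [hc h, mul_zero]⟩
    rw [map_smul]
    module

theorem lz_sat_base (wt : X → ℕ) {m n : ℕ} (hm : ∀ i, m ≤ wt i) (hn : n < 2 * m)
    {u : FreeAlgebra ℤ X} (hu : (2 : ℤ) • u ∈ Lw ℤ wt n) : u ∈ Lw ℤ wt n := by
  have e : ∀ i, ι ℤ i = basisFreeMonoid ℤ X (FreeMonoid.of i) := fun i => by
    rw [basis_eq_prod]
    simp
  set S : Set (FreeMonoid X) := {w | ∃ i, wt i = n ∧ w = FreeMonoid.of i} with hS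
  have h1 : (2 : ℤ) • u ∈ Submodule.span ℤ (basisFreeMonoid ℤ X '' S) := by
    refine (sup_le (Submodule.span_mono ?_) (Submodule.span_le.2 ?_) :
      _ ≤ Submodule.span ℤ (basisFreeMonoid ℤ X '' S)) (Lw_decomp hu)
    · rintro _ ⟨i, hi, rfl⟩
      exact ⟨_, ⟨i, hi, rfl⟩, (e i).symm⟩
    · rintro _ ⟨p, q, a, b, hpq, ha, hb, rfl⟩
      by_cases hp : p < m
      · rw [Lw_eq_bot fun i => lt_of_lt_of_le hp (hm i), Submodule.mem_bot] at ha
        rw [ha, bs_zero_lie]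
        exact Submodule.zero_mem _
      · rw [Lw_eq_bot fun i => lt_of_lt_of_le (show q < m by omega) (hm i), Submodule.mem_bot] at hb
        rw [hb, bs_lie_zero]
        exact Submodule.zero_mem _
  have h2 := (Module.Basis.mem_span_image (basisFreeMonoid ℤ X)).1 h1
  have h3 : (basisFreeMonoid ℤ X).repr ((2 : ℤ) • u) = (2 : ℤ) • (basisFreeMonoid ℤ X).repr u :=
    map_zsmul _ _ _
  rw [h3, Finsupp.support_smul_eq two_ne_zero] at h2
  refine Submodule.span_le.2 ?_ ((Module.Basis.mem_span_image (basisFreeMonoid ℤ X)).2 h2)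
  rintro _ ⟨_, ⟨i, rfl, rfl⟩, rfl⟩
  rw [← e]
  exact ι_mem_Lw wt i

theorem lz_fin (wt : X → ℕ) (x0 : X) (h0 : 1 ≤ wt x0) (hfin : ∀ j, {i | wt i = j}.Finite) (j : ℕ) :
    {p | lzwt wt x0 p = j}.Finite := by
  have h1 : {i | wt i ≤ j}.Finite := by
    refine ((Set.finite_le_nat j).biUnion fun k _ => hfin k).subset fun i hi => ?_
    exact Set.mem_biUnion hi rfl
  refine Set.Finite.of_finite_image (f := fun p : LzY x0 => (p.1.1, p.2))
    ((h1.prod (Set.finite_le_nat j)).subset ?_) ?_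
  · rintro _ ⟨p, hp, rfl⟩
    have h2 : wt p.1.1 + p.2 * wt x0 = j := hp
    have h3 : p.2 ≤ p.2 * wt x0 := Nat.le_mul_of_pos_right _ h0
    exact ⟨show wt p.1.1 ≤ j by omega, show p.2 ≤ j by omega⟩
  · intro p _ q _ h
    exact Prod.ext (Subtype.ext (Prod.ext_iff.1 h).1) (Prod.ext_iff.1 h).2

theorem lz_ncard (wt : X → ℕ) (x0 : X) {m : ℕ} (h1 : 1 ≤ m) (h0 : wt x0 = m) (hm : ∀ i, m ≤ wt i)
    (hfin : {i | wt i = m}.Finite) :
    {p | lzwt wt x0 p = m}.ncard + 1 ≤ {i | wt i = m}.ncard := by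
  have key : ∀ p : LzY x0, lzwt wt x0 p = m → wt p.1.1 = m ∧ p.2 = 0 := by
    intro p hp
    have h2 : wt p.1.1 + p.2 * wt x0 = m := hp
    have h3 : p.2 ≤ p.2 * wt x0 := Nat.le_mul_of_pos_right _ (by omega)
    have h4 := hm p.1.1
    omega
  rw [← Set.ncard_sdiff_singleton_add_one (show x0 ∈ {i | wt i = m} from h0) hfin]
  refine Nat.add_le_add_right (Set.ncard_le_ncard_of_injOn (fun p : LzY x0 => p.1.1)
    (fun p hp => Set.mem_sdiff_singleton.2 ⟨(key p hp).1, p.1.2⟩) (fun p hp q hq h => ?_) (hfin.subset Set.sdiff_subset)) 1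
  exact Prod.ext (Subtype.ext h) ((key p hp).2.trans (key q hq).2.symm)

theorem lz_sat (n k : ℕ) : ∀ m, 1 ≤ m → n < 2 * (m + k) → ∀ (c : ℕ) (X : Type) (wt : X → ℕ),
    (∀ i, m ≤ wt i) → (∀ j, {i | wt i = j}.Finite) → {i | wt i = m}.ncard ≤ c →
    ∀ u : FreeAlgebra ℤ X, (2 : ℤ) • u ∈ Lw ℤ wt n → u ∈ Lw ℤ wt n := by
  induction k with
  | zero => exact fun m _ hn c X wt hm _ _ u hu => lz_sat_base wt hm hn hu
  | succ k ih =>
    intro m h1 hn c
    by_cases hb : n < 2 * m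
    · exact fun X wt hm _ _ u hu => lz_sat_base wt hm hb hu
    induction c with
    | zero =>
      intro X wt hm hfin hc u hu
      rw [Nat.le_zero, Set.ncard_eq_zero (hfin m)] at hc
      refine ih (m + 1) (by omega) (by omega) _ X wt (fun i => ?_) hfin le_rfl u hu
      have h2 : i ∉ {i | wt i = m} := by rw [hc]; exact Set.notMem_empty i
      exact lt_of_le_of_ne (hm i) fun h => h2 h.symm
    | succ c ihc =>
      intro X wt hm hfin hc u hu
      by_cases hc' : {i | wt i = m}.ncard ≤ c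
      · exact ihc X wt hm hfin hc' u hu
      obtain ⟨x0, h0⟩ : {i | wt i = m}.Nonempty := Set.nonempty_of_ncard_ne_zero (by omega)
      have h0' : wt x0 = m := h0
      obtain ⟨lam, hlam⟩ := lz_leftInv (R := ℤ) x0
      obtain ⟨v, hv, e⟩ := lz_surj wt x0 (by omega) hu
      have e1 : (2 : ℤ) • lam u = v := by rw [← map_smul, ← e, hlam]
      have h2 := lz_ncard wt x0 h1 h0' hm (hfin m)
      have h3 := ihc (LzY x0) (lzwt wt x0) (fun p => (hm p.1.1).trans (Nat.le_add_right _ _))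
        (lz_fin wt x0 (by omega) hfin) (by omega) (lam u) (by rwa [e1])
      have e2 : u = lzθ ℤ x0 (lam u) := two_smul_inj (by rw [← map_smul, e1, e])
      rw [e2]
      exact lz_mem wt x0 h3

/-- SATURATION.  Fix `n`.  Prove by downward induction on `m ≥ 1` (start: `n < 2 m`) and inner
induction on `c` the statement: for every `X : Type` and `wt` with `∀ i, m ≤ wt i`, all
`{i | wt i = j}` finite and `{i | wt i = m}.ncard = c`, `Lw ℤ wt n` is 2-saturated.
Start: `Lw_decomp` + `Lw_eq_bot` show that `Lw wt n` is the span of the letters of weight `n`,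
i.e. of part of the basis (`coef`).  `c = 0`: all weights are `≥ m + 1`.  Step: eliminate a letter
`x₀` of weight `m` (`m ≠ n` as `2 m ≤ n`): `2 u = θ v` (`lz_surj`), `2 (lam u) = v`, so
`lam u ∈ Lw (lzwt) n`, `u = θ (lam u)` (`two_smul_inj`), `lz_mem`. -/
theorem sat_Lw (wt : X → ℕ) (hpos : ∀ i, 1 ≤ wt i) (hfin : ∀ j, {i | wt i = j}.Finite) {n : ℕ}
    {u : FreeAlgebra ℤ X} (hu : (2 : ℤ) • u ∈ Lw ℤ wt n) : u ∈ Lw ℤ wt n := by
  exact lz_sat n n 1 le_rfl (by omega) _ X wt hpos hfin le_rfl u hu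

/-- `e_k ↦ ad_A^k B`. -/
def thetaN (R : Type) [CommRing R] : FreeAlgebra R ℕ →ₐ[R] T R := lift R (adAB R)

theorem lz_thetaN (v : FreeAlgebra R (LzY (0 : Fin 2))) :
    thetaN R (lift R (fun p : LzY (0 : Fin 2) => ι R p.2) v) = lzθ R 0 v := by
  rw [map_lift, lzθ]
  congr 2
  funext p
  obtain ⟨⟨y, hy⟩, k⟩ := p
  obtain rfl : y = 1 := by omega
  rw [thetaN, lift_ι_apply]
  rfl

/-- As `lz_leftInv` (or from it through `LzY (0 : Fin 2) ≃ ℕ`). -/
theorem thetaN_injective : Function.Injective (thetaN R) := by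
  obtain ⟨lam, hlam⟩ := lz_leftInv (R := R) (0 : Fin 2)
  have key : ∀ u, lift R (fun p : LzY (0 : Fin 2) => ι R p.2)
      (lift R (fun k : ℕ => ι R ((⟨1, by decide⟩, k) : LzY (0 : Fin 2))) u) = u := by
    intro u
    rw [map_lift]
    simp [lz_lift_ι]
  intro u v h
  rw [← key u, ← key v, lz_thetaN, lz_thetaN] at h
  have h2 := congrArg lam h
  rw [hlam, hlam] at h2
  rw [← key u, h2, key]

theorem adAB_mem (k : ℕ) : adAB R k ∈ Lw R wt23 (2 * k + 3) := by
  induction k with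
  | zero => exact ι_mem_Lw wt23 1
  | succ k ih =>
    have h := lie_mem_Lw (ι_mem_Lw (R := R) wt23 0) ih
    rw [show 2 * (k + 1) + 3 = wt23 0 + (2 * k + 3) by simp only [wt23, Matrix.cons_val_zero]; ring,
      adAB, Function.iterate_succ_apply']
    exact h

theorem thetaN_surj {n : ℕ} (hn : n ≠ 2) {u : T R} (hu : u ∈ Lw R wt23 n) :
    ∃ v ∈ Lw R wtN n, thetaN R v = u := by
  obtain ⟨v, hv, e⟩ := lz_surj wt23 0 hn hu
  refine ⟨_, lift_mem_Lw (fun p => ?_) hv, (lz_thetaN v).trans e⟩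
  obtain ⟨⟨y, hy⟩, k⟩ := p
  obtain rfl : y = 1 := by omega
  have h := ι_mem_Lw (R := R) wtN k
  rwa [show wtN k = lzwt wt23 0 (⟨1, hy⟩, k) by simp [wtN, lzwt, wt23]; ring] at h

end

end Crest.Agent.R10
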