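import Crest.Agent.R10.Pform
import Crest.Agent.R10.Fiber

/-!
# R10/PartI: a solution mod 2 that vanishes modulo `y²` vanishes
-/

set_option autoImplicit false
set_option linter.unusedVariables false

namespace Crest.Agent.R10

noncomputable section

open FreeAlgebra

/-- In a system with `t01² = t03² = t13² = 0` four terms of the pentagon vanish.
`ψ(a,b) = 0` if `a² = 0` (`asym_ev`) and if `(a+b)² = 0` (`hex_ev` with `c = a + b`).
`ψ(t01, ·) = 0` (twice).  `ψ(t12, t23) = ψ(t12, t23 + z)` with `z = t12 + t13 + t23` (`ev_shift`),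
and `t12 + (t23 + z) = t13`.  `ψ(t01+t02, t13+t23) = ψ(t01 + t02 + (c + t12), t13 + t23)` with the
central `c = ∑ t` (`IsSys.central`; `t12` commutes with both arguments), and the sum of the two
arguments is `t03`.  The surviving term is shifted by `c + t01`. -/
theorem partI_sys {n : ℕ} (hn : n ≠ 1) {ψ : T F2} (hψ : ψ ∈ Sol F2 n)
    (h : ∀ (A : Type) [Ring A] [Algebra F2 A] (a b : A), b * b = 0 → ev a b ψ = 0)
    {A : Type} [Ring A] [Algebra F2 A] {t : Fin 4 → Fin 4 → A} (ht : IsSys t)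
    (h01 : t 0 1 * t 0 1 = 0) (h03 : t 0 3 * t 0 3 = 0) (h13 : t 1 3 * t 1 3 = 0) :
    ev (t 0 3 + t 1 3 + t 2 3) (t 2 3) ψ = 0 := by
  have hL : ψ ∈ L F2 n := hψ.1.1.1
  have z1 : ∀ a b : A, a * a = 0 → ev a b ψ = 0 := fun a b ha => by
    rw [asym_ev hψ.1.1.2, h A b a ha, neg_zero]
  have z2 : ∀ a b : A, (a + b) * (a + b) = 0 → ev a b ψ = 0 := fun a b hab => by
    have := hex_ev (a := a) (b := b) (c := a + b) hn hL hψ.1.2
      (by rw [F2_add_self]; exact Commute.zero_left _) (by rw [F2_add_self]; exact Commute.zero_left _)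
    rwa [h A b _ hab, z1 _ a hab, add_zero, add_zero] at this
  have two : ∀ {x y : A} (w : A), x = y + (w + w) → x = y := fun w e => by
    rw [e, F2_add_self, add_zero]
  have f123 := ht.four 1 2 3 (by decide) (by decide) (by decide)
  have f120 := ht.four 1 2 0 (by decide) (by decide) (by decide)
  have f231 := ht.four 2 3 1 (by decide) (by decide) (by decide)
  have f012 := ht.four 0 1 2 (by decide) (by decide) (by decide)
  have l := ht.loc 0 1 2 3 (by decide) (by decide) (by decide) (by decide) (by decide) (by decide)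
  rw [ht.symm 1 0, ht.symm 2 0] at f120
  rw [ht.symm 2 1, ht.symm 3 1] at f231
  have hc := ht.central
  have e3 : ev (t 1 2) (t 2 3) ψ = 0 := by
    rw [← ev_shift (z := 0) (w := t 1 2 + t 1 3 + t 2 3) (Commute.zero_left _) (Commute.zero_left _)
      (add_assoc (t 1 2) _ _ ▸ (Commute.refl _).add_left f123.symm)
      (f231.symm.add_left (Commute.refl _)) (Commute.zero_left _) hn hL]
    refine z2 _ _ ?_
    rwa [two (y := t 1 3) (x := t 1 2 + 0 + _) (t 1 2 + t 2 3) (by abel)]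
  have e4 : ev (t 0 1 + t 0 2) (t 1 3 + t 2 3) ψ = 0 := by
    rw [← ev_shift (w := 0) (((hc 0 1).add_right (hc 0 2)).add_left f120)
      (((hc 1 3).add_right (hc 2 3)).add_left f123) (Commute.zero_left _) (Commute.zero_left _)
      (Commute.zero_right _) hn hL]
    refine z2 _ _ ?_
    rwa [two (y := t 0 3) (x := t 0 1 + t 0 2 + _ + _) (t 0 1 + t 0 2 + t 1 2 + t 1 3 + t 2 3)
      (by abel)]
  have e5 := ev_shift (w := 0) (((hc 0 2).add_right (hc 1 2)).add_left f012) ((hc 2 3).add_left l)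
    (Commute.zero_left _) (Commute.zero_left _) (Commute.zero_right _) hn hL
  rw [add_zero, two (y := t 0 3 + t 1 3 + t 2 3) (x := t 0 2 + t 1 2 + _) (t 0 1 + t 0 2 + t 1 2)
    (by abel)] at e5
  have hp := Sol.lPent hn hψ A t ht
  simpa [pdef, e3, e4, z1 _ _ h01, ← e5] using hp

/-- (I).  `exists_model {0, 1}`, `FiberData.isSys`, `sq01`, `partI_sys`; apply to `1 : B`
(`map_ev` along `Algebra.lmul`) to get `ev (a 0 + a 1 + a 2) (a 2) ψ = 0` in `B`.  Map `B` to
`End (T × T)`: `a 0 ↦ ((u,v) ↦ (z v, 0))`, `a 1 ↦ ((u,v) ↦ (0, z u))`, `a 2 ↦ ((u,v) ↦ (y u, y v))`,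
`z = x + y`; on the diagonal `j f = (f, f)`, `a 0 + a 1 + a 2` acts as `x`, `a 2` as `y`
(`lift_apply_col`, `ev_self`). -/
theorem partI {n : ℕ} (hn : n ≠ 1) {ψ : T F2} (hψ : ψ ∈ Sol F2 n)
    (h : ∀ (A : Type) [Ring A] [Algebra F2 A] (a b : A), b * b = 0 → ev a b ψ = 0) : ψ = 0 := by
  obtain ⟨B, _, _, a, D01, D02, D12, hF, hsq, hU⟩ := exists_model {0, 1}
  have h0 := hsq 0 (by simp)
  have h1 := hsq 1 (by simp)
  have hm : ∀ b : B, b * b = 0 → LinearMap.mulLeft F2 b * LinearMap.mulLeft F2 b = 0 := fun b hb => by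
    ext v
    simp [← mul_assoc, hb]
  have k1 := partI_sys hn hψ h hF.isSys (hF.sq01 h0 h1) (hm _ h0) (hm _ h1)
  have k2 : ev (a 0 + a 1 + a 2) (a 2) ψ = 0 := by
    have e := map_ev (Algebra.lmul F2 B) (a 0 + a 1 + a 2) (a 2) ψ
    rw [map_add, map_add] at e
    simpa using DFunLike.congr_fun (e.trans k1) 1
  let Z := LinearMap.mulLeft F2 (xx F2 + yy F2)
  let Y := LinearMap.mulLeft F2 (yy F2)
  let c : Fin 3 → Module.End F2 (T F2 × T F2) :=
    ![(Z ∘ₗ LinearMap.snd F2 _ _).prod 0, LinearMap.prod 0 (Z ∘ₗ LinearMap.fst F2 _ _), Y.prodMap Y]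
  obtain ⟨f, hf⟩ := hU _ c (by
    rintro i (rfl | rfl) <;> exact LinearMap.ext fun ⟨u, v⟩ => by simp [c, Prod.ext_iff])
  have k3 := congrArg f k2
  rw [map_ev, map_add, map_add, hf, hf, hf, map_zero] at k3
  have k4 := lift_apply_col (R := F2) (LinearMap.prod LinearMap.id LinearMap.id)
    (g := ![c 0 + c 1 + c 2, c 2]) (γ := ![xx F2, yy F2]) (by
      rw [Fin.forall_fin_two]
      refine ⟨fun v => ?_, fun v => rfl⟩
      simp [c, Z, Y, add_mul, add_assoc, F2_add_self]) ψ 1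
  change ev (c 0 + c 1 + c 2) (c 2) ψ _ =
    (ev (xx F2) (yy F2) ψ * 1, ev (xx F2) (yy F2) ψ * 1) at k4
  rw [k3, ev_self, mul_one] at k4
  exact (congrArg Prod.fst k4).symm

end

end Crest.Agent.R10
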