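import Crest.Agent.R10.Pform
import Crest.Agent.R10.Fiber

/-!
# R10/PartII: a solution mod 2 is, modulo `y²`, a Lie polynomial in `⁅x,y⁆`, `⁅x,⁅x,y⁆⁆`
-/

set_option autoImplicit false
set_option linter.unusedVariables false

namespace Crest.Agent.R10

noncomputable section

open FreeAlgebra

theorem p2_eq {A : Type} [Ring A] [Algebra F2 A] {a b : A} (h : (1 : F2) • a = b) : a = b := by
  rwa [one_smul] at h

/-- identities in a noncommutative ring of characteristic two -/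
macro "p2_ring" : tactic => `(tactic|
  ((try simp only [Ring.lie_def, mul_add, add_mul, mul_sub, sub_mul, mul_assoc, mul_zero, zero_mul,
      mul_one, one_mul]) <;>
   (refine p2_eq ?_
    match_scalars <;> decide)))

theorem p2_vanish {n : ℕ} (hn : 3 ≤ n) {P : V F2} (hP : P ∈ Lw F2 wt223 n) {A : Type} [Ring A]
    [Algebra F2 A] {p q : A} (hpq : Commute p q) : lift F2 ![p, q, 0] P = 0 := by
  refine lift_vanish (fun i j => ?_) (fun i hi => ?_) hP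
  · fin_cases i <;> fin_cases j <;> simp [hpq, hpq.symm]
  · fin_cases i
    · exact absurd hi (by simp [wt223]; omega)
    · exact absurd hi (by simp [wt223]; omega)
    · rfl

theorem p2_shift {n : ℕ} (hn : 3 ≤ n) {P : V F2} (hP : P ∈ Lw F2 wt223 n) {A : Type} [Ring A]
    [Algebra F2 A] {p q r z : A} (hp : Commute z p) (hq : Commute z q) (hr : Commute z r) :
    lift F2 ![p, q + z, r] P = lift F2 ![p, q, r] P := by
  have := lift_shift (a := ![p, q, r]) (z := ![0, z, 0]) (fun i j => ?_) (fun i j => ?_)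
    (fun i hi => ?_) hP
  · rw [← this]
    congr 2
    funext i
    fin_cases i <;> simp
  · fin_cases i <;> fin_cases j <;> simp [hp, hq, hr]
  · fin_cases i <;> fin_cases j <;> simp
  · fin_cases i
    · rfl
    · exact absurd hi (by simp [wt223]; omega)
    · rfl

theorem p2_lie {A : Type} [Ring A] {z a b : A} (ha : Commute z a) (hb : Commute z b) :
    Commute z ⁅a, b⁆ := by
  rw [Ring.lie_def]
  exact (ha.mul_right hb).sub_right (hb.mul_right ha)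

theorem p2_core {n : ℕ} (hn : 3 ≤ n) {ψ : T F2} (hL : ψ ∈ L F2 n) (ha : asym F2 ψ = 0)
    (hh : hex F2 ψ = 0) {P : V F2} (hP : P ∈ Lw F2 wt223 n)
    (h : ∀ (A : Type) [Ring A] [Algebra F2 A] (a b : A), b * b = 0 → ev a b ψ = evP a b P)
    {A : Type} [Ring A] [Algebra F2 A] {u v w a0 a1 a2 c s : A}
    (pent : ev u (w + a1) ψ + ev (v + w) a2 ψ - ev w a2 ψ - ev (u + v) (a1 + a2) ψ - ev u w ψ = 0)
    (l1 : Commute u a2) (l2 : Commute v a1) (l3 : Commute w a0) (f1 : Commute u (v + w))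
    (f2 : Commute w (u + v)) (f3 : Commute u (a0 + a1)) (f4 : Commute a1 (u + a0))
    (f5 : Commute v (a0 + a2)) (f6 : Commute w (a1 + a2)) (f7 : Commute a2 (w + a1))
    (qu : u * u = 0) (qv : v * v = 0) (qw : w * w = 0) (q0 : a0 * a0 = 0) (q1 : a1 * a1 = 0)
    (q2 : a2 * a2 = 0) (hc : c = u + v + a0 + w + a1 + a2) (cu : Commute c u) (cv : Commute c v)
    (cw : Commute c w) (c0 : Commute c a0) (c1 : Commute c a1) (c2 : Commute c a2)
    (hs : s = a0 + a1 + a2) :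
    lift F2 ![⁅a1, a2⁆, ⁅s, a2⁆, ⁅s, ⁅s, a2⁆⁆] P + evP s a2 P +
      lift F2 ![⁅a1, a2⁆, ⁅s, a0⁆, ⁅s, ⁅s, a0⁆⁆] P + evP s a0 P = 0 := by
  have hn1 : n ≠ 1 := by omega
  have sym : ∀ a b : A, ev b a ψ = ev a b ψ := fun a b => by rw [asym_ev ha, F2_neg]
  have van : ∀ a b : A, a * a = 0 → b * b = 0 → ev a b ψ = 0 := fun a b h1 h2 => by
    rw [h A a b h2, evP, F2_lie_lie, h1, bs_zero_lie]
    exact p2_vanish hn hP (Commute.zero_left _)
  have cs : Commute c s := hs ▸ (c0.add_right c1).add_right c2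
  have ws : Commute w s := by rw [hs, add_assoc]; exact l3.add_right f6
  obtain ⟨τ, hτ⟩ : ∃ τ, τ = w + a1 + a2 := ⟨_, rfl⟩
  have wτ : Commute w τ := by rw [hτ, add_assoc]; exact (Commute.refl w).add_right f6
  have e1 : τ * τ = ⁅a1, a2⁆ := by
    rw [hτ]
    linear_combination (norm := p2_ring) qw + q1 + q2 + f6.eq
  have e2 : ⁅τ, u⁆ = ⁅s, a2⁆ + c * c := by
    rw [hτ, hc, hs]
    linear_combination (norm := p2_ring) qu + qv + qw + q0 + q1 + q2 + f2.eq + f1.eq + f3.eq +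
      f5.eq + l2.eq + l3.eq + f6.eq + f4.eq
  have e3 : ⁅τ, ⁅τ, u⁆⁆ = ⁅s, ⁅s, a2⁆⁆ := by
    have cτ : Commute (c * c) τ :=
      hτ ▸ ((cw.add_right c1).add_right c2).mul_left ((cw.add_right c1).add_right c2)
    have j1 : ⁅τ, ⁅s, a2⁆⁆ = ⁅s, ⁅τ, a2⁆⁆ + ⁅⁅τ, s⁆, a2⁆ := by p2_ring
    have j2 : ⁅τ, a2⁆ = 0 := by
      rw [hτ]
      linear_combination (norm := p2_ring) f7.eq
    have j3 : ⁅τ, s⁆ = ⁅a1 + a2, a0⁆ := by
      rw [hτ, add_assoc, bs_add_lie, bs_lie_of_commute ws, hs]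
      p2_ring
    rw [e2, bs_lie_add, bs_lie_of_commute cτ.symm, add_zero, j1, j2, j3, bs_lie_zero, zero_add,
      F2_lie_lie, hs]
    linear_combination (norm := p2_ring) q0 * a2 + a2 * q0 + q1 * a2 + a2 * q1 + a1 * q2 + q2 * a1
  have e4 : ⁅τ, a0⁆ = ⁅s, a0⁆ := by
    rw [hτ, hs]
    linear_combination (norm := p2_ring) l3.eq
  have e5 : ⁅τ, ⁅τ, a0⁆⁆ = ⁅s, ⁅s, a0⁆⁆ := by
    rw [F2_lie_lie, F2_lie_lie, e1, hs]
    linear_combination (norm := p2_ring) q1 * a0 + a0 * q1 + q2 * a0 + a0 * q2 + a1 * q0 +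
      q0 * a1 + a2 * q0 + q0 * a2
  have t1 : ev u (w + a1) ψ = lift F2 ![⁅a1, a2⁆, ⁅s, a2⁆, ⁅s, ⁅s, a2⁆⁆] P := by
    have := ev_shift f7 l1.symm (Commute.zero_left _) (Commute.zero_left _) (Commute.zero_right _)
      hn1 hL
    rw [sym, ← this, ← hτ, add_zero, h A τ u qu, evP, e1, e3, e2]
    exact p2_shift hn hP ((p2_lie c1 c2).mul_left (p2_lie c1 c2))
      ((p2_lie cs c2).mul_left (p2_lie cs c2))
      ((p2_lie cs (p2_lie cs c2)).mul_left (p2_lie cs (p2_lie cs c2)))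
  have t2 : ev (v + w) a2 ψ = evP s a2 P := by
    have := ev_shift ((cv.add_right cw).add_left f1) (c2.add_left l1) (Commute.zero_left _)
      (Commute.zero_left _) (Commute.zero_right _) hn1 hL
    have e : v + w + (c + u) = s := by
      rw [hc, hs]
      refine p2_eq ?_
      match_scalars <;> decide
    rw [← this, e, add_zero, h A s a2 q2]
  have t3 : ev (u + v) (a1 + a2) ψ = ev s τ ψ := by
    have := ev_shift ((cu.add_right cv).add_left f2) ((c1.add_right c2).add_left f6) f2 f6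
      (cw.add_left (Commute.refl w)) hn1 hL
    have e : u + v + (c + w) = s := by
      rw [hc, hs]
      refine p2_eq ?_
      match_scalars <;> decide
    rw [← this, e, hτ, add_comm (a1 + a2), add_assoc]
  have t4 : ev s τ ψ + ev τ a0 ψ + ev a0 s ψ = 0 := by
    have e : s + τ + a0 = w := by
      rw [hτ, hs]
      refine p2_eq ?_
      match_scalars <;> decide
    exact hex_ev hn1 hL hh (e ▸ ws) (e ▸ wτ)
  rw [sym s a0, h A s a0 q0, h A τ a0 q0, evP, e1, e5, e4] at t4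
  rw [t1, t2, t3, van w a2 qw q2, van u w qu qw] at pent
  linear_combination (norm := abel) pent + t4

/-- The pentagon in a system all of whose chords have square zero.  Notation: `a i = t i 3`,
`s = a0 + a1 + a2`, `u = t01`, `v = t02`, `w = t12`, `τ = w + a1 + a2`, `c = ∑ t` central.
* `ψ(w, a2) = P(0, ⁅w,a2⁆, 0) = 0` and `ψ(u, w) = 0` (`F2_lie_lie`, `lift_vanish`, `n ≥ 3`).
* `ψ(u, w + a1) = ψ(τ, u)` (`asym_ev`, shift by `a2`); `τ² = ⁅a1,a2⁆`;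
  `⁅u,v⁆ = ⁅u,w⁆ = c² + s²` (expand `0 = w² = (c+u+v+s)²`; `s` commutes with `u, v, w`), so
  `⁅τ,u⁆ = ⁅s,a2⁆ + c²` and `⁅τ,⁅τ,u⁆⁆ = ⁅s,⁅s,a2⁆⁆`; remove `c²` with `lift_shift`.
* `ψ(v + w, a2) = ψ(s, a2)` (shift by `c + u`).
* `ψ(u + v, a1 + a2) = ψ(s, τ)` (shift by `c + w` and `w`) `= ψ(τ, a0) + ψ(s, a0)` (`hex_ev` for
  `s, τ, a0`, whose sum `w` commutes with them; `asym_ev`); `⁅τ,a0⁆ = ⁅s,a0⁆`,
  `⁅τ,⁅τ,a0⁆⁆ = ⁅τ², a0⁆ = ⁅s², a0⁆ = ⁅s,⁅s,a0⁆⁆`. -/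
theorem partII_sys {n : ℕ} (hn : 3 ≤ n) {ψ : T F2} (hψ : ψ ∈ Sol F2 n) {P : V F2}
    (hP : P ∈ Lw F2 wt223 n)
    (h : ∀ (A : Type) [Ring A] [Algebra F2 A] (a b : A), b * b = 0 → ev a b ψ = evP a b P)
    {A : Type} [Ring A] [Algebra F2 A] {t : Fin 4 → Fin 4 → A} (ht : IsSys t)
    (hsq : ∀ i j, t i j * t i j = 0) {s : A} (hs : s = t 0 3 + t 1 3 + t 2 3) :
    lift F2 ![⁅t 1 3, t 2 3⁆, ⁅s, t 2 3⁆, ⁅s, ⁅s, t 2 3⁆⁆] P + evP s (t 2 3) P +
      lift F2 ![⁅t 1 3, t 2 3⁆, ⁅s, t 0 3⁆, ⁅s, ⁅s, t 0 3⁆⁆] P + evP s (t 0 3) P = 0 := by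
  have hn1 : n ≠ 1 := by omega
  obtain ⟨⟨⟨hL, ha⟩, hh⟩, -⟩ := id hψ
  have pent := Sol.lPent hn1 hψ A t ht
  simp only [pdef, LinearMap.add_apply, LinearMap.sub_apply, AlgHom.toLinearMap_apply] at pent
  have cen := ht.central
  have l1 : Commute (t 0 1) (t 2 3) :=
    ht.loc 0 1 2 3 (by decide) (by decide) (by decide) (by decide) (by decide) (by decide)
  have l2 : Commute (t 0 2) (t 1 3) :=
    ht.loc 0 2 1 3 (by decide) (by decide) (by decide) (by decide) (by decide) (by decide)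
  have l3 : Commute (t 1 2) (t 0 3) :=
    ht.loc 1 2 0 3 (by decide) (by decide) (by decide) (by decide) (by decide) (by decide)
  have f1 := ht.four 0 1 2 (by decide) (by decide) (by decide)
  have f2 := ht.four 1 2 0 (by decide) (by decide) (by decide)
  have f3 := ht.four 0 1 3 (by decide) (by decide) (by decide)
  have f4 := ht.four 1 3 0 (by decide) (by decide) (by decide)
  have f5 := ht.four 0 2 3 (by decide) (by decide) (by decide)
  have f6 := ht.four 1 2 3 (by decide) (by decide) (by decide)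
  have f7 := ht.four 2 3 1 (by decide) (by decide) (by decide)
  rw [ht.symm 1 0, ht.symm 2 0] at f2
  rw [ht.symm 1 0, ht.symm 3 0] at f4
  rw [ht.symm 2 1, ht.symm 3 1] at f7
  exact p2_core hn hL ha hh hP h pent l1 l2 l3 f1 f2 f3 f4 f5 f6 f7 (hsq 0 1) (hsq 0 2) (hsq 1 2)
    (hsq 0 3) (hsq 1 3) (hsq 2 3) rfl (cen 0 1) (cen 0 2) (cen 1 2) (cen 0 3) (cen 1 3) (cen 2 3) hs

/-- coefficients at `1, a0, a1, a2, a0a1, a0a2, a1a2, a0a1a2` -/
abbrev P2M (R : Type) : Type := R × R × R × R × R × R × R × R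

section rep

variable {R : Type} [Ring R] [Algebra F2 R]

def p2_c0 (R : Type) [Ring R] [Algebra F2 R] : Module.End F2 (P2M R) where
  toFun x := (0, x.1, 0, 0, x.2.2.1, x.2.2.2.1, 0, x.2.2.2.2.2.2.1)
  map_add' x y := by simp
  map_smul' c x := by simp

def p2_c1 (p e : R) : Module.End F2 (P2M R) where
  toFun x := (p * x.2.1 + e * x.2.2.2.2.2.1, 0, x.1 + p * x.2.2.2.2.1 + e * x.2.2.2.2.2.2.2,
    p * x.2.2.2.2.2.1, x.2.1, 0, x.2.2.2.1 + p * x.2.2.2.2.2.2.2, x.2.2.2.2.2.1)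
  map_add' x y := by
    simp only [Prod.fst_add, Prod.snd_add, mul_add, Prod.mk_add_mk, add_zero, Prod.mk.injEq,
      true_and, and_true]
    refine ⟨?_, ?_, ?_⟩ <;> abel
  map_smul' c x := by simp

def p2_c2 (p q e r : R) : Module.End F2 (P2M R) where
  toFun x := (q * x.2.1 + p * x.2.2.1 + e * x.2.2.2.2.1 + r * x.2.2.2.2.2.2.2, p * x.2.2.2.2.1,
    q * x.2.2.2.2.1, x.1 + q * x.2.2.2.2.2.1 + p * x.2.2.2.2.2.2.1 + e * x.2.2.2.2.2.2.2, 0,
    x.2.1 + p * x.2.2.2.2.2.2.2, x.2.2.1 + q * x.2.2.2.2.2.2.2, x.2.2.2.2.1)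
  map_add' x y := by
    simp only [Prod.fst_add, Prod.snd_add, mul_add, Prod.mk_add_mk, add_zero, Prod.mk.injEq,
      true_and, and_true]
    refine ⟨?_, ?_, ?_, ?_⟩ <;> abel
  map_smul' c x := by simp

theorem p2_c0_apply (x0 x1 x2 x3 x4 x5 x6 x7 : R) :
    p2_c0 R (x0, x1, x2, x3, x4, x5, x6, x7) = (0, x0, 0, 0, x2, x3, 0, x6) := rfl

theorem p2_c1_apply (p e x0 x1 x2 x3 x4 x5 x6 x7 : R) :
    p2_c1 p e (x0, x1, x2, x3, x4, x5, x6, x7) =
      (p * x1 + e * x5, 0, x0 + p * x4 + e * x7, p * x5, x1, 0, x3 + p * x7, x5) := rfl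

theorem p2_c2_apply (p q e r x0 x1 x2 x3 x4 x5 x6 x7 : R) :
    p2_c2 p q e r (x0, x1, x2, x3, x4, x5, x6, x7) =
      (q * x1 + p * x2 + e * x4 + r * x7, p * x4, q * x4, x0 + q * x5 + p * x6 + e * x7, 0,
        x1 + p * x7, x2 + q * x7, x4) := rfl

omit [Algebra F2 R] in
theorem p2_zero : (0 : R × R × R × R × R × R × R) = (0, 0, 0, 0, 0, 0, 0) := rfl

theorem p2_sq0 (R : Type) [Ring R] [Algebra F2 R] : p2_c0 R * p2_c0 R = 0 :=
  LinearMap.ext fun _ => rfl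

theorem p2_sq1 (p e : R) : p2_c1 p e * p2_c1 p e = 0 := by
  refine LinearMap.ext fun ⟨x0, x1, x2, x3, x4, x5, x6, x7⟩ => ?_
  simp only [Module.End.mul_apply, p2_c1_apply, LinearMap.zero_apply, Prod.mk_eq_zero, true_and,
    and_true]
  refine ⟨?_, ?_, ?_, ?_⟩ <;> p2_ring

theorem p2_sq2 (p q e : R) : p2_c2 p q e ⁅p, q⁆ * p2_c2 p q e ⁅p, q⁆ = 0 := by
  refine LinearMap.ext fun ⟨x0, x1, x2, x3, x4, x5, x6, x7⟩ => ?_
  simp only [Module.End.mul_apply, p2_c2_apply, LinearMap.zero_apply, Prod.mk_eq_zero, true_and,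
    and_true]
  refine ⟨?_, ?_, ?_, ?_, ?_, ?_⟩ <;> p2_ring

end rep

/-- A module on which `k⟨a0,a1,a2⟩/(a_i²)` acts.  `M = Fin 8 → V F2` (or an 8-fold product) with
basis `1, a0, a1, a2, a0a1, a0a2, a1a2, a0a1a2` as a *right* `V F2`-module, and with
`p0 = X, p1 = X + C₁, p2 = C₁, e0 = 0, e1 = e2 = C₂` (`X, C₁, C₂ = va 0, va 1, va 2`):
* `a0`: `1 ↦ a0`, `a1 ↦ a0a1`, `a2 ↦ a0a2`, `a1a2 ↦ a0a1a2`, others `↦ 0`;
* `a1`: `1 ↦ a1`, `a0 ↦ a0a1 + 1·p2`, `a2 ↦ a1a2`, `a0a1 ↦ a1·p2`,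
  `a0a2 ↦ a0a1a2 + a2·p2 + 1·e2`, `a0a1a2 ↦ a1a2·p2 + a1·e2`, others `↦ 0`;
* `a2`: `1 ↦ a2`, `a0 ↦ a0a2 + 1·p1`, `a1 ↦ a1a2 + 1·p0`, `a0a1 ↦ a0a1a2 + a0·p0 + a1·p1 + 1·e1`,
  `a0a2 ↦ a2·p1`, `a1a2 ↦ a2·p0`, `a0a1a2 ↦ a0a2·p0 + a1a2·p1 + a2·e1 + 1·⁅p0,p1⁆`, `a2 ↦ 0`.
(`λ·p` applied to a coefficient `f` means the coefficient `p * f` at the basis vector `λ`; as
matrices over `V F2` acting on columns these are the entries `(λ, source)`.)  `j f = 1·f`. -/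
theorem exists_rep8 : ∃ (M : Type) (_ : AddCommGroup M) (_ : Module F2 M)
    (c : Fin 3 → Module.End F2 M) (j : V F2 →ₗ[F2] M) (s : Module.End F2 M),
      Function.Injective j ∧ (∀ i, c i * c i = 0) ∧ s = c 0 + c 1 + c 2 ∧
      (∀ f, (⁅c 1, c 2⁆ : Module.End F2 M) (j f) = j (va F2 0 * f)) ∧
      (∀ f, (s * s) (j f) = 0) ∧
      (∀ f, (⁅s, c 2⁆ : Module.End F2 M) (j f) = j (va F2 1 * f)) ∧
      (∀ f, (⁅s, (⁅s, c 2⁆ : Module.End F2 M)⁆ : Module.End F2 M) (j f) = j (va F2 2 * f)) ∧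
      (∀ f, (⁅s, c 0⁆ : Module.End F2 M) (j f) = j (va F2 0 * f)) ∧
      (∀ f, (⁅s, (⁅s, c 0⁆ : Module.End F2 M)⁆ : Module.End F2 M) (j f) = 0) := by
  refine ⟨P2M (V F2), inferInstance, inferInstance,
    ![p2_c0 (V F2), p2_c1 (va F2 1) (va F2 2),
      p2_c2 (va F2 0) (va F2 0 + va F2 1) (va F2 2) ⁅va F2 0, va F2 0 + va F2 1⁆],
    LinearMap.inl F2 _ _, _, LinearMap.inl_injective, fun i => ?_, rfl, ?_, ?_, ?_, ?_, ?_, ?_⟩
  · fin_cases i
    · exact p2_sq0 _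
    · exact p2_sq1 _ _
    · exact p2_sq2 _ _ _
  all_goals
    intro f
    simp only [Ring.lie_def, Matrix.cons_val, LinearMap.sub_apply, Module.End.mul_apply,
      LinearMap.add_apply, LinearMap.inl_apply, map_sub, map_add, p2_zero, p2_c0_apply, p2_c1_apply,
      p2_c2_apply, Prod.mk_add_mk, Prod.mk_sub_mk, mul_zero, add_zero, zero_add, sub_zero, zero_sub,
      Prod.mk.injEq, Prod.mk_eq_zero, sub_self, true_and, and_true]
    repeat' apply And.intro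
    all_goals p2_ring

theorem p2_map3 {A B : Type} [Ring A] [Algebra F2 A] [Ring B] [Algebra F2 B] (f : A →ₐ[F2] B)
    (p q r : A) (P : V F2) : f (lift F2 ![p, q, r] P) = lift F2 ![f p, f q, f r] P := by
  rw [map_lift]
  congr 2
  funext i
  fin_cases i <;> rfl

/-- The expression of `partII_sys`. -/
def p2_E (P : V F2) {A : Type} [Ring A] [Algebra F2 A] (a0 a1 a2 : A) : A :=
  lift F2 ![⁅a1, a2⁆, ⁅a0 + a1 + a2, a2⁆, ⁅a0 + a1 + a2, ⁅a0 + a1 + a2, a2⁆⁆] P +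
    evP (a0 + a1 + a2) a2 P +
    lift F2 ![⁅a1, a2⁆, ⁅a0 + a1 + a2, a0⁆, ⁅a0 + a1 + a2, ⁅a0 + a1 + a2, a0⁆⁆] P +
    evP (a0 + a1 + a2) a0 P

theorem p2_map_E (P : V F2) {A B : Type} [Ring A] [Algebra F2 A] [Ring B] [Algebra F2 B]
    (f : A →ₐ[F2] B) (a0 a1 a2 : A) : f (p2_E P a0 a1 a2) = p2_E P (f a0) (f a1) (f a2) := by
  simp only [p2_E, evP, map_add, p2_map3, map_lie', map_mul]

/-- (II).  `exists_Pform`; `exists_model univ`, `partII_sys` in `End B` applied to `1`, mapped to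
`End M` of `exists_rep8` and applied to `j 1` (`lift_apply_col`):
`P + P(0,C₁,C₂) + P(X,X,0) + P(0,X,0) = 0`, the last two vanish (`lift_vanish`).  Take
`P₀ = lift ![0, x, y] P` (`lift_mem_Lw`). -/
theorem partII {n : ℕ} (hn : 3 ≤ n) {ψ : T F2} (hψ : ψ ∈ Sol F2 n) :
    ∃ P0 ∈ Lw F2 wt23 n, ∀ (A : Type) [Ring A] [Algebra F2 A] (a b : A), b * b = 0 →
      ev a b ψ = ev ⁅a, b⁆ ⁅a, ⁅a, b⁆⁆ P0 := by
  have hn1 : n ≠ 1 := by omega
  obtain ⟨P, hP, h⟩ := exists_Pform hn1 hψ.1.1.1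
  obtain ⟨B, _, _, a, D01, D02, D12, hF, hsq, univ⟩ := exists_model Set.univ
  have q : ∀ i, a i * a i = 0 := fun i => hsq i trivial
  have ql : ∀ i, (LinearMap.mulLeft F2 (a i) * LinearMap.mulLeft F2 (a i) : Module.End F2 B) = 0 :=
    fun i => LinearMap.ext fun x => by simp [← mul_assoc, q i]
  have k1 : p2_E P (Algebra.lmul F2 B (a 0)) (Algebra.lmul F2 B (a 1)) (Algebra.lmul F2 B (a 2)) =
      0 := by
    refine partII_sys hn hψ hP h hF.isSys (fun i j => ?_) rfl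
    have s1 := hF.sq01 (q 0) (q 1)
    have s2 := hF.sq02 (q 0) (q 2)
    have s3 := hF.sq12 (q 1) (q 2)
    fin_cases i <;> fin_cases j
    exacts [mul_zero _, s1, s2, ql 0, s1, mul_zero _, s3, ql 1, s2, s3, mul_zero _, ql 2, ql 0, ql 1,
      ql 2, mul_zero _]
  rw [← p2_map_E, ← map_zero (Algebra.lmul F2 B)] at k1
  have k2 := Algebra.lmul_injective k1
  obtain ⟨M, _, _, c, j, s, hj, hc, hs, r1, r2, r3, r4, r5, r6⟩ := exists_rep8
  obtain ⟨f, hf⟩ := univ (Module.End F2 M) c fun i _ => hc i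
  have k3 := congrArg f k2
  rw [p2_map_E, hf, hf, hf, map_zero, p2_E, ← hs] at k3
  have k4 := congrArg (fun g : Module.End F2 M => g (j 1)) k3
  have col : ∀ (g0 g1 g2 : Module.End F2 M) (y0 y1 y2 : V F2), (∀ f, g0 (j f) = j (y0 * f)) →
      (∀ f, g1 (j f) = j (y1 * f)) → (∀ f, g2 (j f) = j (y2 * f)) →
      lift F2 ![g0, g1, g2] P (j 1) = j (lift F2 ![y0, y1, y2] P) := by
    intro g0 g1 g2 y0 y1 y2 h0 h1 h2
    have := lift_apply_col j (g := ![g0, g1, g2]) (γ := ![y0, y1, y2])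
      (fun i => by fin_cases i; exacts [h0, h1, h2]) P 1
    rwa [mul_one] at this
  have r2' : ∀ f, (s * s) (j f) = j (0 * f) := fun f => by rw [r2, zero_mul, map_zero]
  have r6' : ∀ f, (⁅s, (⁅s, c 0⁆ : Module.End F2 M)⁆ : Module.End F2 M) (j f) = j (0 * f) :=
    fun f => by rw [r6, zero_mul, map_zero]
  simp only [LinearMap.add_apply, LinearMap.zero_apply, evP] at k4
  rw [col _ _ _ _ _ _ r1 r3 r4, col _ _ _ _ _ _ r2' r3 r4, col _ _ _ _ _ _ r1 r5 r6',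
    col _ _ _ _ _ _ r2' r5 r6', p2_vanish hn hP (Commute.refl _),
    p2_vanish hn hP (Commute.zero_left _), map_zero, add_zero, add_zero, ← map_add,
    ← map_zero j] at k4
  have k5 := hj k4
  refine ⟨lift F2 ![0, xx F2, yy F2] P, lift_mem_Lw (fun i => ?_) hP, fun A _ _ a b hb => ?_⟩
  · fin_cases i
    exacts [zero_mem _, ι_mem_Lw wt23 0, ι_mem_Lw wt23 1]
  · have k6 := congrArg (evP a b) k5
    rw [map_add, map_zero, p2_map3, p2_map3] at k6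
    rw [h A a b hb, p2_map3]
    simp only [evP, va, lift_ι_apply, Matrix.cons_val, map_zero, ev_xx, ev_yy] at k6 ⊢
    linear_combination (norm := (refine p2_eq ?_; match_scalars <;> decide)) k6

end

end Crest.Agent.R10
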