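import Crest.Agent.R10.Grade

/-!
# R10/Pform: characteristic two, Lie polynomials modulo `y²`; quotient fibre models
-/

set_option autoImplicit false
set_option linter.unusedVariables false

namespace Crest.Agent.R10

noncomputable section

open FreeAlgebra

theorem F2_add_self {A : Type} [Ring A] [Algebra F2 A] (a : A) : a + a = 0 := by
  have h : ((1 : F2) + 1) = 0 := by decide
  rw [← one_smul F2 a, ← add_smul, h, zero_smul]

theorem F2_neg {A : Type} [Ring A] [Algebra F2 A] (a : A) : -a = a := by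
  exact neg_eq_of_add_eq_zero_left (F2_add_self a)

/-- In characteristic two `⁅a, ⁅a, b⁆⁆ = ⁅a * a, b⁆`. -/
theorem F2_lie_lie {A : Type} [Ring A] [Algebra F2 A] (a b : A) : ⁅a, ⁅a, b⁆⁆ = ⁅a * a, b⁆ := by
  simp only [Ring.lie_def]
  have h := F2_add_self (a * b * a)
  have h2 := F2_add_self (b * (a * a))
  linear_combination (norm := noncomm_ring) h2 - h

/-- In characteristic two the square of a derivation is a derivation. -/
theorem IsDer.sq {A : Type} [Ring A] [Algebra F2 A] {D : A →ₗ[F2] A} (h : IsDer D) :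
    IsDer (D * D : Module.End F2 A) := by
  intro u v
  simp only [Module.End.mul_apply, h u v, map_add, h (D u) v, h u (D v)]
  have := F2_add_self (D u * D v)
  linear_combination (norm := noncomm_ring) this

/-- If `b * b = 0`, `b` commutes with `⁅a,b⁆` and `⁅a,⁅a,b⁆⁆`. -/
theorem F2_commute_of_sq {A : Type} [Ring A] [Algebra F2 A] {a b : A} (hb : b * b = 0) :
    Commute b ⁅a, b⁆ ∧ Commute b ⁅a, ⁅a, b⁆⁆ := by
  have h1 : Commute b ⁅a, b⁆ := by
    have := F2_lie_lie b a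
    rw [hb] at this
    simp only [Ring.lie_def] at this ⊢
    show _ = _
    linear_combination (norm := noncomm_ring) -this
  refine ⟨h1, ?_⟩
  have h2 := h1.eq
  have e : b * a = a * b - ⁅a, b⁆ := by simp [Ring.lie_def]
  generalize ⁅a, b⁆ = c at h1 h2 e ⊢
  show _ = _
  simp only [Ring.lie_def]
  linear_combination (norm := noncomm_ring) e * c - c * e + a * h2 - h2 * a

/-- The substitution `X ↦ a²`, `C₁ ↦ ⁅a,b⁆`, `C₂ ↦ ⁅a,⁅a,b⁆⁆`. -/
def evP {A : Type} [Ring A] [Algebra F2 A] (a b : A) : V F2 →ₐ[F2] A :=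
  lift F2 ![a * a, ⁅a, b⁆, ⁅a, ⁅a, b⁆⁆]

/-- Modulo `y²` a Lie polynomial of degree `≥ 2` is a Lie polynomial in `X, C₁, C₂`.
Let `dx = der ![0, C₂, ⁅X, C₁⁆]`, `dy = der ![C₂, 0, 0]` on `V F2`; they raise `Lw wt223` by one
(`der_mem_Lw`) and `evP a b (dx P) = ⁅a, evP a b P⁆`, `evP a b (dy P) = ⁅b, evP a b P⁆` if
`b * b = 0` (induction on `P`).  `Lw_induction` with
`Q n u := (n = 1 → ∃ α β, u = α • x + β • y) ∧ (n ≠ 1 → ∃ P ∈ Lw wt223 n, …)`
(or use `mem_L_one` in the bracket case). -/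
theorem exists_Pform {n : ℕ} (hn : n ≠ 1) {ψ : T F2} (hψ : ψ ∈ L F2 n) :
    ∃ P ∈ Lw F2 wt223 n, ∀ (A : Type) [Ring A] [Algebra F2 A] (a b : A), b * b = 0 →
      ev a b ψ = evP a b P := by
  let dx : V F2 →ₗ[F2] V F2 := der ![0, va F2 2, ⁅va F2 0, va F2 1⁆]
  let dy : V F2 →ₗ[F2] V F2 := der ![va F2 2, 0, 0]
  have hv : ∀ i, va F2 i ∈ Lw F2 wt223 (wt223 i) := fun i => ι_mem_Lw _ i
  have hdx : ∀ m, ∀ P ∈ Lw F2 wt223 m, dx P ∈ Lw F2 wt223 (m + 1) := fun m P hP =>
    der_mem_Lw (fun i => by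
      fin_cases i
      · exact zero_mem _
      · exact hv 2
      · exact (lie_mem_Lw (hv 0) (hv 1) :)) hP
  have hdy : ∀ m, ∀ P ∈ Lw F2 wt223 m, dy P ∈ Lw F2 wt223 (m + 1) := fun m P hP =>
    der_mem_Lw (fun i => by
      fin_cases i
      · exact hv 2
      · exact zero_mem _
      · exact zero_mem _) hP
  have had : ∀ (A : Type) [Ring A] [Algebra F2 A] (z : A),
      IsDer (LinearMap.mulLeft F2 z - LinearMap.mulRight F2 z) := by
    intro A _ _ z u v
    simp only [LinearMap.sub_apply, LinearMap.mulLeft_apply, LinearMap.mulRight_apply]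
    noncomm_ring
  have ex : ∀ (A : Type) [Ring A] [Algebra F2 A] (a b : A), b * b = 0 → ∀ P,
      evP a b (dx P) = ⁅a, evP a b P⁆ := by
    intro A _ _ a b hb P
    have := (had A a).map_lift (a := ![a * a, ⁅a, b⁆, ⁅a, ⁅a, b⁆⁆])
      (d := ![0, va F2 2, ⁅va F2 0, va F2 1⁆]) (h := 0) (fun i => by
        fin_cases i
        · simp [mul_assoc, Ring.lie_def]
        · simp [va, Ring.lie_def]
        · have := F2_lie_lie a ⁅a, b⁆
          simp only [Fin.reduceFinMk, Matrix.cons_val, map_lie', va, lift_ι_apply, ← this]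
          simp [Ring.lie_def]) P
    simp only [Ring.lie_def, mul_zero, zero_mul, sub_zero, add_zero] at this ⊢
    exact this.symm
  have ey : ∀ (A : Type) [Ring A] [Algebra F2 A] (a b : A), b * b = 0 → ∀ P,
      evP a b (dy P) = ⁅b, evP a b P⁆ := by
    intro A _ _ a b hb P
    obtain ⟨c1, c2⟩ := F2_commute_of_sq (a := a) hb
    have := (had A b).map_lift (a := ![a * a, ⁅a, b⁆, ⁅a, ⁅a, b⁆⁆])
      (d := ![va F2 2, 0, 0]) (h := 0) (fun i => by
        fin_cases i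
        · have := F2_lie_lie a b
          simp only [Matrix.cons_val, va, lift_ι_apply, this, Fin.zero_eta]
          simp only [Ring.lie_def, LinearMap.sub_apply, LinearMap.mulLeft_apply,
            LinearMap.mulRight_apply, mul_zero, zero_mul, sub_zero, add_zero]
          rw [← F2_neg (a * a * b - b * (a * a)), neg_sub]
        · simp [c1.eq, Ring.lie_def (R := A) _ 0]
        · simp [c2.eq, Ring.lie_def (R := A) _ 0]) P
    simp only [Ring.lie_def, mul_zero, zero_mul, sub_zero, add_zero] at this ⊢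
    exact this.symm
  have one : ∀ m, m ≠ 1 → ∀ (u v : T F2), u ∈ L F2 1 →
      (∃ P ∈ Lw F2 wt223 m, ∀ (A : Type) [Ring A] [Algebra F2 A] (a b : A), b * b = 0 →
        ev a b v = evP a b P) →
      ∃ P ∈ Lw F2 wt223 (m + 1), ∀ (A : Type) [Ring A] [Algebra F2 A] (a b : A), b * b = 0 →
        ev a b ⁅u, v⁆ = evP a b P := by
    rintro m hm u v hu ⟨P, hP, e⟩
    obtain ⟨α, β, rfl⟩ := mem_L_one hu
    refine ⟨α • dx P + β • dy P, add_mem (Submodule.smul_mem _ _ (hdx m P hP))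
      (Submodule.smul_mem _ _ (hdy m P hP)), fun A _ _ a b hb => ?_⟩
    rw [map_lie', e A a b hb, map_add, map_add, map_smul, map_smul, map_smul, map_smul,
      ex A a b hb, ey A a b hb, ev_xx, ev_yy]
    simp only [Ring.lie_def, add_mul, mul_add, smul_mul_assoc, mul_smul_comm, smul_sub]
    abel
  refine Lw_induction (fun n u => n ≠ 1 → ∃ P ∈ Lw F2 wt223 n,
    ∀ (A : Type) [Ring A] [Algebra F2 A] (a b : A), b * b = 0 → ev a b u = evP a b P)
    (fun i h => absurd rfl h) ?_ (fun n _ => ⟨0, zero_mem _, fun A _ _ a b _ => by simp⟩) ?_ ?_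
    hψ hn
  · intro m n u v hu hv' ihu ihv _
    by_cases hm : m = 1
    · subst hm
      by_cases hn : n = 1
      · subst hn
        have h2 : ⁅u, v⁆ ∈ L F2 2 := (lie_mem_Lw hu hv' :)
        obtain ⟨c, e⟩ := mem_L_two h2
        refine ⟨c • va F2 1, Submodule.smul_mem _ _ (hv 1), fun A _ _ a b hb => ?_⟩
        rw [e, map_smul, map_smul, map_lie', ev_xx, ev_yy]
        simp [evP, va]
      · rw [add_comm]
        exact one n hn u v hu (ihv hn)
    · by_cases hn : n = 1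
      · subst hn
        obtain ⟨P, hP, e⟩ := one m hm v u hv' (ihu hm)
        refine ⟨P, hP, fun A _ _ a b hb => ?_⟩
        rw [← e A a b hb, map_lie', map_lie', ← F2_neg ⁅ev a b u, ev a b v⁆]
        simp [Ring.lie_def]
      · obtain ⟨P, hP, e⟩ := ihu hm
        obtain ⟨Q, hQ, e'⟩ := ihv hn
        exact ⟨⁅P, Q⁆, lie_mem_Lw hP hQ, fun A _ _ a b hb => by
          rw [map_lie', map_lie', e A a b hb, e' A a b hb]⟩
  · intro n u v _ _ ihu ihv hn
    obtain ⟨P, hP, e⟩ := ihu hn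
    obtain ⟨Q, hQ, e'⟩ := ihv hn
    exact ⟨P + Q, add_mem hP hQ, fun A _ _ a b hb => by
      rw [map_add, map_add, e A a b hb, e' A a b hb]⟩
  · intro n c u _ ihu hn
    obtain ⟨P, hP, e⟩ := ihu hn
    exact ⟨c • P, Submodule.smul_mem _ _ hP, fun A _ _ a b hb => by
      rw [map_smul, map_smul, e A a b hb]⟩

theorem model_der {S : Set (Fin 3)} {B : Type} [Ring B] [Algebra F2 B] {a : Fin 3 → B}
    (hsq : ∀ i ∈ S, a i * a i = 0) (hgen : Algebra.adjoin F2 (Set.range a) = ⊤)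
    (huniv : ∀ (C : Type) [Ring C] [Algebra F2 C] (c : Fin 3 → C), (∀ i ∈ S, c i * c i = 0) →
      ∃ f : B →ₐ[F2] C, ∀ i, f (a i) = c i) :
    ∀ d : Fin 3 → B, (∀ i, ∃ z, d i = ⁅a i, z⁆) →
      ∃ D : B →ₗ[F2] B, IsDer D ∧ ∀ i, D (a i) = d i := by
  intro d hd
  obtain ⟨f, hf⟩ := huniv (TrivSqZeroExt B B)
    (fun i => TrivSqZeroExt.inl (a i) + TrivSqZeroExt.inr (d i)) (fun i hi => by
      obtain ⟨z, hz⟩ := hd i
      have h1 := F2_lie_lie (a i) z
      rw [hsq i hi, ← hz] at h1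
      have h2 := F2_add_self (d i * a i)
      ext
      · simp [hsq i hi]
      · simp only [Ring.lie_def, zero_mul, mul_zero, sub_zero] at h1
        simp only [TrivSqZeroExt.snd_mul, TrivSqZeroExt.fst_add, TrivSqZeroExt.fst_inl,
          TrivSqZeroExt.fst_inr, add_zero, TrivSqZeroExt.snd_add, TrivSqZeroExt.snd_inl,
          TrivSqZeroExt.snd_inr, zero_add, smul_eq_mul, MulOpposite.smul_eq_mul_unop,
          MulOpposite.unop_op, TrivSqZeroExt.snd_zero]
        linear_combination (norm := noncomm_ring) h1 + h2)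
  have hfst : ∀ u, (f u).fst = u := by
    have : (TrivSqZeroExt.fstHom F2 B B).comp f = AlgHom.id F2 B := by
      apply AlgHom.ext_of_adjoin_eq_top hgen
      rintro _ ⟨i, rfl⟩
      simp [hf]
    exact fun u => DFunLike.congr_fun this u
  refine ⟨((TrivSqZeroExt.sndHom B B).restrictScalars F2) ∘ₗ f.toLinearMap, fun u v => ?_,
    fun i => by simp [hf]⟩
  simp [hfst, add_comm]

/-- The fibre modulo the squares `a i * a i`, `i ∈ S`: `B = RingQuot` of `V F2`; the derivations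
descend (lift `va i ↦ inl (a i) + inr (D a i)` to the dual numbers of `B`; the square of this element
is `inr ⁅a i, D a i⁆₊ = inr ⁅a i * a i, a j⁆ = 0`). -/
theorem exists_model (S : Set (Fin 3)) :
    ∃ (B : Type) (_ : Ring B) (_ : Algebra F2 B) (a : Fin 3 → B) (D01 D02 D12 : B →ₗ[F2] B),
      FiberData a D01 D02 D12 ∧ (∀ i ∈ S, a i * a i = 0) ∧
      ∀ (C : Type) [Ring C] [Algebra F2 C] (c : Fin 3 → C), (∀ i ∈ S, c i * c i = 0) →
        ∃ f : B →ₐ[F2] C, ∀ i, f (a i) = c i := by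
  let r : V F2 → V F2 → Prop := fun u v => (∃ i ∈ S, u = va F2 i * va F2 i) ∧ v = 0
  let B := RingQuot r
  let mk : V F2 →ₐ[F2] B := RingQuot.mkAlgHom F2 r
  let a : Fin 3 → B := fun i => mk (va F2 i)
  have hsq : ∀ i ∈ S, a i * a i = 0 := fun i hi => by
    have := RingQuot.mkAlgHom_rel F2 (s := r) (x := va F2 i * va F2 i) (y := 0) ⟨⟨i, hi, rfl⟩, rfl⟩
    simpa using this
  have huniv : ∀ (C : Type) [Ring C] [Algebra F2 C] (c : Fin 3 → C), (∀ i ∈ S, c i * c i = 0) →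
      ∃ f : B →ₐ[F2] C, ∀ i, f (a i) = c i := by
    intro C _ _ c hc
    refine ⟨RingQuot.liftAlgHom F2 ⟨lift F2 c, ?_⟩, fun i => ?_⟩
    · rintro _ _ ⟨⟨i, hi, rfl⟩, rfl⟩
      simp [va, hc i hi]
    · exact (RingQuot.liftAlgHom_mkAlgHom_apply F2 _ _ _).trans (by simp [va])
  have hgen : Algebra.adjoin F2 (Set.range a) = ⊤ := by
    have : Set.range a = mk '' Set.range (ι F2) := by
      rw [← Set.range_comp]; rfl
    rw [this, ← AlgHom.map_adjoin, adjoin_range_ι, Algebra.map_top, AlgHom.range_eq_top]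
    exact RingQuot.mkAlgHom_surjective F2 r
  have hder := model_der hsq hgen huniv
  obtain ⟨D01, h01, e01⟩ := hder ![⁅a 0, a 1⁆, ⁅a 1, a 0⁆, 0] (fun i => by
    fin_cases i
    exacts [⟨_, rfl⟩, ⟨_, rfl⟩, ⟨0, by simp [Ring.lie_def]⟩])
  obtain ⟨D02, h02, e02⟩ := hder ![⁅a 0, a 2⁆, 0, ⁅a 2, a 0⁆] (fun i => by
    fin_cases i
    exacts [⟨_, rfl⟩, ⟨0, by simp [Ring.lie_def]⟩, ⟨_, rfl⟩])
  obtain ⟨D12, h12, e12⟩ := hder ![0, ⁅a 1, a 2⁆, ⁅a 2, a 1⁆] (fun i => by
    fin_cases i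
    exacts [⟨0, by simp [Ring.lie_def]⟩, ⟨_, rfl⟩, ⟨_, rfl⟩])
  exact ⟨B, inferInstance, inferInstance, a, D01, D02, D12,
    ⟨hgen, h01, h02, h12, e01 0, e01 1, e01 2, e02 0, e02 1, e02 2, e12 0, e12 1, e12 2⟩, hsq, huniv⟩

theorem sq_aux {B : Type} [Ring B] [Algebra F2 B] {D : B →ₗ[F2] B} (hD : IsDer D) {p q : B}
    (hp : p * p = 0) (hq : q * q = 0) (e1 : D p = ⁅p, q⁆) (e2 : D q = ⁅q, p⁆) : D (D p) = 0 := by
  rw [e1, hD.map_lie, e1, e2]
  have h1 := F2_lie_lie p q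
  have h2 := F2_lie_lie q p
  rw [hp] at h1
  rw [hq] at h2
  simp only [Ring.lie_def] at h1 h2 ⊢
  linear_combination (norm := noncomm_ring) h2 - h1

/-- `D01 * D01` is a derivation killing the generators
(`D01 (D01 (a 0)) = ⁅a 0, a 1 * a 1⁆ + ⁅a 0 * a 0, a 1⁆`). -/
theorem FiberData.sq01 {B : Type} [Ring B] [Algebra F2 B] {a : Fin 3 → B}
    {D01 D02 D12 : B →ₗ[F2] B} (h : FiberData a D01 D02 D12) (h0 : a 0 * a 0 = 0)
    (h1 : a 1 * a 1 = 0) : (D01 * D01 : Module.End F2 B) = 0 := by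
  refine h.der01.sq.ext (D' := 0) (fun u v => by simp) h.gen ?_
  rintro _ ⟨i, rfl⟩
  have key := sq_aux h.der01 h0 h1 h.d01_0 h.d01_1
  have key' := sq_aux h.der01 h1 h0 h.d01_1 h.d01_0
  have key'' : D01 (D01 (a 2)) = 0 := by rw [h.d01_2, map_zero]
  fin_cases i
  all_goals first | exact key | exact key' | exact key''

theorem FiberData.sq02 {B : Type} [Ring B] [Algebra F2 B] {a : Fin 3 → B}
    {D01 D02 D12 : B →ₗ[F2] B} (h : FiberData a D01 D02 D12) (h0 : a 0 * a 0 = 0)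
    (h2 : a 2 * a 2 = 0) : (D02 * D02 : Module.End F2 B) = 0 := by
  refine h.der02.sq.ext (D' := 0) (fun u v => by simp) h.gen ?_
  rintro _ ⟨i, rfl⟩
  have key := sq_aux h.der02 h0 h2 h.d02_0 h.d02_2
  have key' := sq_aux h.der02 h2 h0 h.d02_2 h.d02_0
  have key'' : D02 (D02 (a 1)) = 0 := by rw [h.d02_1, map_zero]
  fin_cases i
  all_goals first | exact key | exact key' | exact key''

theorem FiberData.sq12 {B : Type} [Ring B] [Algebra F2 B] {a : Fin 3 → B}
    {D01 D02 D12 : B →ₗ[F2] B} (h : FiberData a D01 D02 D12) (h1 : a 1 * a 1 = 0)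
    (h2 : a 2 * a 2 = 0) : (D12 * D12 : Module.End F2 B) = 0 := by
  refine h.der12.sq.ext (D' := 0) (fun u v => by simp) h.gen ?_
  rintro _ ⟨i, rfl⟩
  have key := sq_aux h.der12 h1 h2 h.d12_1 h.d12_2
  have key' := sq_aux h.der12 h2 h1 h.d12_2 h.d12_1
  have key'' : D12 (D12 (a 0)) = 0 := by rw [h.d12_0, map_zero]
  fin_cases i
  all_goals first | exact key | exact key' | exact key''

end

end Crest.Agent.R10
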