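import Mathlib

/-!
# R10/Pot: combinatorics of the edge cochain on `M_{0,5}`

`E i j k` is the value on the edge from the tree `{ij, lm}` to the tree `{jk, lm}`.
-/

set_option autoImplicit false
set_option linter.unusedVariables false

namespace Crest.Agent.R10

/-- Three distinct indices. -/
abbrev D3 (i j k : Fin 5) : Prop := i ≠ j ∧ i ≠ k ∧ j ≠ k

/-- Five distinct indices. -/
abbrev D5 (i j k l m : Fin 5) : Prop := [i, j, k, l, m].Nodup

variable {M : Type} [AddCommGroup M]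

theorem tri_rel (E : Fin 5 → Fin 5 → Fin 5 → M) (hanti : ∀ i j k, D3 i j k → E k j i = -E i j k)
    (hpent : ∀ i j k l m, D5 i j k l m →
      E i j k + E j k l + E k l m + E l m i + E m i j = 0) :
    (2 : ℤ) • ((E 0 3 1 + E 3 1 0 + E 1 0 3) + (E 0 3 2 + E 3 2 0 + E 2 0 3) +
      (E 0 3 4 + E 3 4 0 + E 4 0 3)) = 0 := by
  have p01234 := hpent 0 1 2 3 4 (by decide)
  have p01243 := hpent 0 1 2 4 3 (by decide)
  have p01324 := hpent 0 1 3 2 4 (by decide)
  have p01342 := hpent 0 1 3 4 2 (by decide)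
  have p01423 := hpent 0 1 4 2 3 (by decide)
  have p01432 := hpent 0 1 4 3 2 (by decide)
  have p02134 := hpent 0 2 1 3 4 (by decide)
  have p02143 := hpent 0 2 1 4 3 (by decide)
  have p02314 := hpent 0 2 3 1 4 (by decide)
  have p02413 := hpent 0 2 4 1 3 (by decide)
  have p03124 := hpent 0 3 1 2 4 (by decide)
  have p03214 := hpent 0 3 2 1 4 (by decide)
  have a013 := hanti 0 1 3 (by decide)
  have a023 := hanti 0 2 3 (by decide)
  have a024 := hanti 0 2 4 (by decide)
  have a031 := hanti 0 3 1 (by decide)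
  have a032 := hanti 0 3 2 (by decide)
  have a034 := hanti 0 3 4 (by decide)
  have a103 := hanti 1 0 3 (by decide)
  have a123 := hanti 1 2 3 (by decide)
  have a132 := hanti 1 3 2 (by decide)
  have a142 := hanti 1 4 2 (by decide)
  have a203 := hanti 2 0 3 (by decide)
  have a213 := hanti 2 1 3 (by decide)
  have a234 := hanti 2 3 4 (by decide)
  have a243 := hanti 2 4 3 (by decide)
  have a314 := hanti 3 1 4 (by decide)
  have a324 := hanti 3 2 4 (by decide)
  linear_combination (norm := module) p01234 - p01243 - p01324 - p01342 - p01423 + p01432 + p02134 - p02143 - p02314 - p02413 + p03124 + p03214 + (2 : ℤ) • a013 + a023 + a024 + a031 + a032 + (2 : ℤ) • a034 + (2 : ℤ) • a103 - a123 + a132 + a142 + (2 : ℤ) • a203 - a213 - a234 + a243 + a314 + a324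

/-- The number of the tree `{ij, lm}`. -/
def potVtx : Fin 5 → Fin 5 → Fin 5 → Fin 16 :=
  ![![![15, 15, 15, 15, 15], ![15, 15, 0, 1, 2], ![15, 3, 15, 4, 5], ![15, 6, 7, 15, 8], ![15, 9, 10, 11, 15]],
    ![![15, 15, 0, 1, 2], ![15, 15, 15, 15, 15], ![12, 15, 15, 11, 8], ![13, 15, 10, 15, 5], ![14, 15, 7, 4, 15]],
    ![![15, 3, 15, 4, 5], ![12, 15, 15, 11, 8], ![15, 15, 15, 15, 15], ![14, 9, 15, 15, 2], ![13, 6, 15, 1, 15]],
    ![![15, 6, 7, 15, 8], ![13, 15, 10, 15, 5], ![14, 9, 15, 15, 2], ![15, 15, 15, 15, 15], ![12, 3, 0, 15, 15]],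
    ![![15, 9, 10, 11, 15], ![14, 15, 7, 4, 15], ![13, 6, 15, 1, 15], ![12, 3, 0, 15, 15], ![15, 15, 15, 15, 15]]]

/-- The potential along a spanning tree. -/
def potVal (E : Fin 5 → Fin 5 → Fin 5 → M) : Fin 16 → M :=
  ![0,
    E 3 4 2,
    E 4 3 2,
    E 1 0 2,
    E 1 0 2 + E 3 4 1,
    E 1 0 2 + E 4 3 1,
    E 3 4 2 + E 1 0 3,
    E 1 0 2 + E 3 4 1 + E 2 0 3,
    E 0 1 2 + E 4 3 0,
    E 4 3 2 + E 1 0 4,
    E 1 0 2 + E 4 3 1 + E 2 0 4,
    E 0 1 2 + E 3 4 0,
    E 0 1 2,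
    E 3 4 2 + E 0 1 3,
    E 4 3 2 + E 0 1 4,
    0]

theorem potVtx_symm : ∀ i j k, D3 i j k → potVtx i j k = potVtx j i k := by decide +kernel

theorem potVtx_compl : ∀ i j k l m, D5 i j k l m → potVtx i j k = potVtx l m k := by
  decide +kernel

theorem pot_edge (E : Fin 5 → Fin 5 → Fin 5 → M) (hanti : ∀ i j k, D3 i j k → E k j i = -E i j k)
    (htri : ∀ i j k, D3 i j k → E i j k + E j k i + E k i j = 0)
    (hpent : ∀ i j k l m, D5 i j k l m →
      E i j k + E j k l + E k l m + E l m i + E m i j = 0) (i j k : Fin 5) (hd : D3 i j k) :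
    potVal E (potVtx j k i) - potVal E (potVtx i j k) = E i j k := by
  have a021 := hanti 0 2 1 (by decide)
  have a102 := hanti 1 0 2 (by decide)
  have t012 := htri 0 1 2 (by decide)
  have a023 := hanti 0 2 3 (by decide)
  have a143 := hanti 1 4 3 (by decide)
  have p01432 := hpent 0 1 4 3 2 (by decide)
  have a024 := hanti 0 2 4 (by decide)
  have a134 := hanti 1 3 4 (by decide)
  have p01342 := hpent 0 1 3 4 2 (by decide)
  have a031 := hanti 0 3 1 (by decide)
  have a103 := hanti 1 0 3 (by decide)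
  have t013 := htri 0 1 3 (by decide)
  have a032 := hanti 0 3 2 (by decide)
  have a203 := hanti 2 0 3 (by decide)
  have t023 := htri 0 2 3 (by decide)
  have a034 := hanti 0 3 4 (by decide)
  have a041 := hanti 0 4 1 (by decide)
  have a104 := hanti 1 0 4 (by decide)
  have t014 := htri 0 1 4 (by decide)
  have a042 := hanti 0 4 2 (by decide)
  have a204 := hanti 2 0 4 (by decide)
  have t024 := htri 0 2 4 (by decide)
  have a043 := hanti 0 4 3 (by decide)
  have a234 := hanti 2 3 4 (by decide)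
  have p01234 := hpent 0 1 2 3 4 (by decide)
  have a243 := hanti 2 4 3 (by decide)
  have p01243 := hpent 0 1 2 4 3 (by decide)
  have a324 := hanti 3 2 4 (by decide)
  have t234 := htri 2 3 4 (by decide)
  have p01324 := hpent 0 1 3 2 4 (by decide)
  have p01423 := hpent 0 1 4 2 3 (by decide)
  have a012 := hanti 0 1 2 (by decide)
  have a132 := hanti 1 3 2 (by decide)
  have a213 := hanti 2 1 3 (by decide)
  have t123 := htri 1 2 3 (by decide)
  have a142 := hanti 1 4 2 (by decide)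
  have a214 := hanti 2 1 4 (by decide)
  have t124 := htri 1 2 4 (by decide)
  have a304 := hanti 3 0 4 (by decide)
  have t034 := htri 0 3 4 (by decide)
  have a013 := hanti 0 1 3 (by decide)
  have a314 := hanti 3 1 4 (by decide)
  have t134 := htri 1 3 4 (by decide)
  have a123 := hanti 1 2 3 (by decide)
  have a014 := hanti 0 1 4 (by decide)
  have a124 := hanti 1 2 4 (by decide)
  have e012 : (E 0 1 2) - (0) = E 0 1 2 := by
    module
  have e013 : (E 3 4 2 + E 0 1 3) - (E 3 4 2) = E 0 1 3 := by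
    module
  have e014 : (E 4 3 2 + E 0 1 4) - (E 4 3 2) = E 0 1 4 := by
    module
  have e021 : (E 0 1 2) - (E 1 0 2) = E 0 2 1 := by
    linear_combination (norm := module) - a021 - a102 + t012
  have e023 : (E 4 3 2 + E 0 1 4) - (E 1 0 2 + E 3 4 1) = E 0 2 3 := by
    linear_combination (norm := module) - a023 - a102 - a143 + p01432
  have e024 : (E 3 4 2 + E 0 1 3) - (E 1 0 2 + E 4 3 1) = E 0 2 4 := by
    linear_combination (norm := module) - a024 - a102 - a134 + p01342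
  have e031 : (E 3 4 2 + E 0 1 3) - (E 3 4 2 + E 1 0 3) = E 0 3 1 := by
    linear_combination (norm := module) - a031 - a103 + t013
  have e032 : (E 4 3 2 + E 0 1 4) - (E 1 0 2 + E 3 4 1 + E 2 0 3) = E 0 3 2 := by
    linear_combination (norm := module) - a023 - a032 - a102 - a143 - a203 + t023 + p01432
  have e034 : (E 0 1 2) - (E 0 1 2 + E 4 3 0) = E 0 3 4 := by
    linear_combination (norm := module) - a034
  have e041 : (E 4 3 2 + E 0 1 4) - (E 4 3 2 + E 1 0 4) = E 0 4 1 := by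
    linear_combination (norm := module) - a041 - a104 + t014
  have e042 : (E 3 4 2 + E 0 1 3) - (E 1 0 2 + E 4 3 1 + E 2 0 4) = E 0 4 2 := by
    linear_combination (norm := module) - a024 - a042 - a102 - a134 - a204 + t024 + p01342
  have e043 : (E 0 1 2) - (E 0 1 2 + E 3 4 0) = E 0 4 3 := by
    linear_combination (norm := module) - a043
  have e102 : (E 1 0 2) - (0) = E 1 0 2 := by
    module
  have e103 : (E 3 4 2 + E 1 0 3) - (E 3 4 2) = E 1 0 3 := by
    module
  have e104 : (E 4 3 2 + E 1 0 4) - (E 4 3 2) = E 1 0 4 := by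
    module
  have e120 : (E 1 0 2) - (E 0 1 2) = E 1 2 0 := by
    linear_combination (norm := module) a102 - t012
  have e123 : (E 4 3 2 + E 1 0 4) - (E 0 1 2 + E 3 4 0) = E 1 2 3 := by
    linear_combination (norm := module) a104 + a234 - p01234
  have e124 : (E 3 4 2 + E 1 0 3) - (E 0 1 2 + E 4 3 0) = E 1 2 4 := by
    linear_combination (norm := module) a103 + a243 - p01243
  have e130 : (E 3 4 2 + E 1 0 3) - (E 3 4 2 + E 0 1 3) = E 1 3 0 := by
    linear_combination (norm := module) a103 - t013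
  have e132 : (E 4 3 2 + E 1 0 4) - (E 1 0 2 + E 4 3 1 + E 2 0 4) = E 1 3 2 := by
    linear_combination (norm := module) - a024 - a102 + a104 - a134 - a204 + a234 + a324 + t024 - t234 - p01324 + p01342
  have e134 : (E 1 0 2) - (E 1 0 2 + E 4 3 1) = E 1 3 4 := by
    linear_combination (norm := module) - a134
  have e140 : (E 4 3 2 + E 1 0 4) - (E 4 3 2 + E 0 1 4) = E 1 4 0 := by
    linear_combination (norm := module) a104 - t014
  have e142 : (E 3 4 2 + E 1 0 3) - (E 1 0 2 + E 3 4 1 + E 2 0 3) = E 1 4 2 := by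
    linear_combination (norm := module) - a023 - a102 + a103 - a143 - a203 - a234 + t023 + t234 - p01423 + p01432
  have e143 : (E 1 0 2) - (E 1 0 2 + E 3 4 1) = E 1 4 3 := by
    linear_combination (norm := module) - a143
  have e201 : (0) - (E 1 0 2) = E 2 0 1 := by
    linear_combination (norm := module) - a102
  have e203 : (E 1 0 2 + E 3 4 1 + E 2 0 3) - (E 1 0 2 + E 3 4 1) = E 2 0 3 := by
    module
  have e204 : (E 1 0 2 + E 4 3 1 + E 2 0 4) - (E 1 0 2 + E 4 3 1) = E 2 0 4 := by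
    module
  have e210 : (0) - (E 0 1 2) = E 2 1 0 := by
    linear_combination (norm := module) - a012
  have e213 : (E 1 0 2 + E 4 3 1 + E 2 0 4) - (E 0 1 2 + E 3 4 0) = E 2 1 3 := by
    linear_combination (norm := module) a024 + a102 - a132 + a134 + a204 - a213 - a324 - t024 + t123 + t234 - p01234 + p01324 - p01342
  have e214 : (E 1 0 2 + E 3 4 1 + E 2 0 3) - (E 0 1 2 + E 4 3 0) = E 2 1 4 := by
    linear_combination (norm := module) a023 + a102 - a142 + a143 + a203 - a214 + a234 + a243 - t023 + t124 - t234 - p01243 + p01423 - p01432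
  have e230 : (E 1 0 2 + E 3 4 1 + E 2 0 3) - (E 4 3 2 + E 0 1 4) = E 2 3 0 := by
    linear_combination (norm := module) a023 + a102 + a143 + a203 - t023 - p01432
  have e231 : (E 1 0 2 + E 4 3 1 + E 2 0 4) - (E 4 3 2 + E 1 0 4) = E 2 3 1 := by
    linear_combination (norm := module) a024 + a102 - a104 - a132 + a134 + a204 - a234 - a324 - t024 + t234 + p01324 - p01342
  have e234 : (0) - (E 4 3 2) = E 2 3 4 := by
    linear_combination (norm := module) - a234
  have e240 : (E 1 0 2 + E 4 3 1 + E 2 0 4) - (E 3 4 2 + E 0 1 3) = E 2 4 0 := by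
    linear_combination (norm := module) a024 + a102 + a134 + a204 - t024 - p01342
  have e241 : (E 1 0 2 + E 3 4 1 + E 2 0 3) - (E 3 4 2 + E 1 0 3) = E 2 4 1 := by
    linear_combination (norm := module) a023 + a102 - a103 - a142 + a143 + a203 + a234 - t023 - t234 + p01423 - p01432
  have e243 : (0) - (E 3 4 2) = E 2 4 3 := by
    linear_combination (norm := module) - a243
  have e301 : (E 3 4 2) - (E 3 4 2 + E 1 0 3) = E 3 0 1 := by
    linear_combination (norm := module) - a103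
  have e302 : (E 1 0 2 + E 3 4 1) - (E 1 0 2 + E 3 4 1 + E 2 0 3) = E 3 0 2 := by
    linear_combination (norm := module) - a203
  have e304 : (E 0 1 2 + E 3 4 0) - (E 0 1 2 + E 4 3 0) = E 3 0 4 := by
    linear_combination (norm := module) - a034 - a304 + t034
  have e310 : (E 3 4 2) - (E 3 4 2 + E 0 1 3) = E 3 1 0 := by
    linear_combination (norm := module) - a013
  have e312 : (E 0 1 2 + E 3 4 0) - (E 1 0 2 + E 4 3 1 + E 2 0 4) = E 3 1 2 := by
    linear_combination (norm := module) - a024 - a102 + a132 - a134 - a204 + a324 + t024 - t123 - t234 + p01234 - p01324 + p01342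
  have e314 : (E 1 0 2 + E 3 4 1) - (E 1 0 2 + E 4 3 1) = E 3 1 4 := by
    linear_combination (norm := module) - a134 - a314 + t134
  have e320 : (E 1 0 2 + E 3 4 1) - (E 4 3 2 + E 0 1 4) = E 3 2 0 := by
    linear_combination (norm := module) a102 + a143 - p01432
  have e321 : (E 0 1 2 + E 3 4 0) - (E 4 3 2 + E 1 0 4) = E 3 2 1 := by
    linear_combination (norm := module) - a104 - a123 - a234 + p01234
  have e324 : (E 3 4 2) - (E 4 3 2) = E 3 2 4 := by
    linear_combination (norm := module) - a234 - a324 + t234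
  have e340 : (E 0 1 2 + E 3 4 0) - (E 0 1 2) = E 3 4 0 := by
    module
  have e341 : (E 1 0 2 + E 3 4 1) - (E 1 0 2) = E 3 4 1 := by
    module
  have e342 : (E 3 4 2) - (0) = E 3 4 2 := by
    module
  have e401 : (E 4 3 2) - (E 4 3 2 + E 1 0 4) = E 4 0 1 := by
    linear_combination (norm := module) - a104
  have e402 : (E 1 0 2 + E 4 3 1) - (E 1 0 2 + E 4 3 1 + E 2 0 4) = E 4 0 2 := by
    linear_combination (norm := module) - a204
  have e403 : (E 0 1 2 + E 4 3 0) - (E 0 1 2 + E 3 4 0) = E 4 0 3 := by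
    linear_combination (norm := module) a034 - t034
  have e410 : (E 4 3 2) - (E 4 3 2 + E 0 1 4) = E 4 1 0 := by
    linear_combination (norm := module) - a014
  have e412 : (E 0 1 2 + E 4 3 0) - (E 1 0 2 + E 3 4 1 + E 2 0 3) = E 4 1 2 := by
    linear_combination (norm := module) - a023 - a102 + a142 - a143 - a203 - a234 - a243 + t023 - t124 + t234 + p01243 - p01423 + p01432
  have e413 : (E 1 0 2 + E 4 3 1) - (E 1 0 2 + E 3 4 1) = E 4 1 3 := by
    linear_combination (norm := module) a134 - t134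
  have e420 : (E 1 0 2 + E 4 3 1) - (E 3 4 2 + E 0 1 3) = E 4 2 0 := by
    linear_combination (norm := module) a102 + a134 - p01342
  have e421 : (E 0 1 2 + E 4 3 0) - (E 3 4 2 + E 1 0 3) = E 4 2 1 := by
    linear_combination (norm := module) - a103 - a124 - a243 + p01243
  have e423 : (E 4 3 2) - (E 3 4 2) = E 4 2 3 := by
    linear_combination (norm := module) a234 - t234
  have e430 : (E 0 1 2 + E 4 3 0) - (E 0 1 2) = E 4 3 0 := by
    module
  have e431 : (E 1 0 2 + E 4 3 1) - (E 1 0 2) = E 4 3 1 := by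
    module
  have e432 : (E 4 3 2) - (0) = E 4 3 2 := by
    module
  have key : ∀ p ∈ [((0 : Fin 5), (1 : Fin 5), (2 : Fin 5)), ((0 : Fin 5), (1 : Fin 5), (3 : Fin 5)), ((0 : Fin 5), (1 : Fin 5), (4 : Fin 5)), ((0 : Fin 5), (2 : Fin 5), (1 : Fin 5)), ((0 : Fin 5), (2 : Fin 5), (3 : Fin 5)), ((0 : Fin 5), (2 : Fin 5), (4 : Fin 5)), ((0 : Fin 5), (3 : Fin 5), (1 : Fin 5)), ((0 : Fin 5), (3 : Fin 5), (2 : Fin 5)), ((0 : Fin 5), (3 : Fin 5), (4 : Fin 5)), ((0 : Fin 5), (4 : Fin 5), (1 : Fin 5)), ((0 : Fin 5), (4 : Fin 5), (2 : Fin 5)), ((0 : Fin 5), (4 : Fin 5), (3 : Fin 5)), ((1 : Fin 5), (0 : Fin 5), (2 : Fin 5)), ((1 : Fin 5), (0 : Fin 5), (3 : Fin 5)), ((1 : Fin 5), (0 : Fin 5), (4 : Fin 5)), ((1 : Fin 5), (2 : Fin 5), (0 : Fin 5)), ((1 : Fin 5), (2 : Fin 5), (3 : Fin 5)), ((1 : Fin 5), (2 : Fin 5), (4 : Fin 5)), ((1 : Fin 5), (3 : Fin 5), (0 : Fin 5)), ((1 : Fin 5), (3 : Fin 5), (2 : Fin 5)), ((1 : Fin 5), (3 : Fin 5), (4 : Fin 5)), ((1 : Fin 5),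 (4 : Fin 5), (0 : Fin 5)), ((1 : Fin 5), (4 : Fin 5), (2 : Fin 5)), ((1 : Fin 5), (4 : Fin 5), (3 : Fin 5)), ((2 : Fin 5), (0 : Fin 5), (1 : Fin 5)), ((2 : Fin 5), (0 : Fin 5), (3 : Fin 5)), ((2 : Fin 5), (0 : Fin 5), (4 : Fin 5)), ((2 : Fin 5), (1 : Fin 5), (0 : Fin 5)), ((2 : Fin 5), (1 : Fin 5), (3 : Fin 5)), ((2 : Fin 5), (1 : Fin 5), (4 : Fin 5)), ((2 : Fin 5), (3 : Fin 5), (0 : Fin 5)), ((2 : Fin 5), (3 : Fin 5), (1 : Fin 5)), ((2 : Fin 5), (3 : Fin 5), (4 : Fin 5)), ((2 : Fin 5), (4 : Fin 5), (0 : Fin 5)), ((2 : Fin 5), (4 : Fin 5), (1 : Fin 5)), ((2 : Fin 5), (4 : Fin 5), (3 : Fin 5)), ((3 : Fin 5), (0 : Fin 5), (1 : Fin 5)), ((3 : Fin 5), (0 : Fin 5), (2 : Fin 5)), ((3 : Fin 5), (0 : Fin 5), (4 : Fin 5)), ((3 : Fin 5), (1 : Fin 5), (0 : Fin 5)), ((3 : Fin 5), (1 : Fin 5), (2 : Fin 5)), ((3 : Fin 5), (1 : Fin 5), (4 : Fin 5)), ((3 : Fin 5), (2 : Fin 5), (0 : Fin 5)), ((3 : Fin 5), (2 : Fin 5), (1 : Fin 5)), ((3 : Fin 5), (2 : Fin 5), (4 :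 Fin 5)), ((3 : Fin 5), (4 : Fin 5), (0 : Fin 5)), ((3 : Fin 5), (4 : Fin 5), (1 : Fin 5)), ((3 : Fin 5), (4 : Fin 5), (2 : Fin 5)), ((4 : Fin 5), (0 : Fin 5), (1 : Fin 5)), ((4 : Fin 5), (0 : Fin 5), (2 : Fin 5)), ((4 : Fin 5), (0 : Fin 5), (3 : Fin 5)), ((4 : Fin 5), (1 : Fin 5), (0 : Fin 5)), ((4 : Fin 5), (1 : Fin 5), (2 : Fin 5)), ((4 : Fin 5), (1 : Fin 5), (3 : Fin 5)), ((4 : Fin 5), (2 : Fin 5), (0 : Fin 5)), ((4 : Fin 5), (2 : Fin 5), (1 : Fin 5)), ((4 : Fin 5), (2 : Fin 5), (3 : Fin 5)), ((4 : Fin 5), (3 : Fin 5), (0 : Fin 5)), ((4 : Fin 5), (3 : Fin 5), (1 : Fin 5)), ((4 : Fin 5), (3 : Fin 5), (2 : Fin 5))],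
      potVal E (potVtx p.2.1 p.2.2 p.1) - potVal E (potVtx p.1 p.2.1 p.2.2) =
        E p.1 p.2.1 p.2.2 := by
    simp only [List.forall_mem_cons, List.not_mem_nil, IsEmpty.forall_iff, implies_true, and_true]
    exact ⟨e012, e013, e014, e021, e023, e024, e031, e032, e034, e041, e042, e043, e102, e103, e104, e120, e123, e124, e130, e132, e134, e140, e142, e143, e201, e203, e204, e210, e213, e214, e230, e231, e234, e240, e241, e243, e301, e302, e304, e310, e312, e314, e320, e321, e324, e340, e341, e342, e401, e402, e403, e410, e412, e413, e420, e421, e423, e430, e431, e432⟩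
  refine key (i, j, k) ?_
  revert i j k
  decide +kernel

theorem exists_pot (E : Fin 5 → Fin 5 → Fin 5 → M) (hanti : ∀ i j k, D3 i j k → E k j i = -E i j k)
    (htri : ∀ i j k, D3 i j k → E i j k + E j k i + E k i j = 0)
    (hpent : ∀ i j k l m, D5 i j k l m →
      E i j k + E j k l + E k l m + E l m i + E m i j = 0) :
    ∃ h : Fin 5 → Fin 5 → Fin 5 → M, (∀ i j k, D3 i j k → h i j k = h j i k) ∧
      (∀ i j k l m, D5 i j k l m → h i j k = h l m k) ∧
      (∀ i j k, D3 i j k → h j k i - h i j k = E i j k) ∧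
      ∀ S : AddSubgroup M, (∀ i j k, D3 i j k → E i j k ∈ S) → ∀ i j k, h i j k ∈ S := by
  refine ⟨fun i j k => potVal E (potVtx i j k), fun i j k h => congrArg _ (potVtx_symm i j k h),
    fun i j k l m h => congrArg _ (potVtx_compl i j k l m h), pot_edge E hanti htri hpent,
    fun S hS i j k => ?_⟩
  have : ∀ a, potVal E a ∈ S := by
    intro a
    fin_cases a <;> simp only [potVal] <;>
      (repeat' first | exact S.zero_mem | exact hS _ _ _ (by decide) | apply S.add_mem)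
  exact this _

end Crest.Agent.R10
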