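import Crest.Agent.R10.PartI
import Crest.Agent.R10.PartII
import Crest.Agent.R10.Ihara
import Crest.Agent.R10.Lazard

/-!
# R10/Rho: reduction modulo `y²` turns the Ihara action into multiplication
-/

set_option autoImplicit false
set_option linter.unusedVariables false

namespace Crest.Agent.R10

noncomputable section

open FreeAlgebra

/-- `M = Fin 4 → T F2` (basis `1, x, y, xy` as a right module over `T F2 = k⟨A, B⟩`, `A = xx`,
`B = yy`): `mx : 1 ↦ x, x ↦ 0, y ↦ xy, xy ↦ 1·B`; `my : 1 ↦ y, x ↦ xy + 1·A, y ↦ 0, xy ↦ y·A`;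
`j f = 1·f`, `pr` = first coordinate. -/
theorem exists_rep4 : ∃ (M : Type) (_ : AddCommGroup M) (_ : Module F2 M)
    (mx my : Module.End F2 M) (j : T F2 →ₗ[F2] M) (pr : M →ₗ[F2] T F2),
      my * my = 0 ∧ (∀ f, pr (j f) = f) ∧
      (∀ f, (⁅mx, my⁆ : Module.End F2 M) (j f) = j (xx F2 * f)) ∧
      (∀ f, (⁅mx, (⁅mx, my⁆ : Module.End F2 M)⁆ : Module.End F2 M) (j f) = j (yy F2 * f)) := by
  let L : T F2 → T F2 →ₗ[F2] T F2 := LinearMap.mulLeft F2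
  let pa : T F2 × T F2 × T F2 × T F2 →ₗ[F2] T F2 := LinearMap.fst _ _ _
  let pb : T F2 × T F2 × T F2 × T F2 →ₗ[F2] T F2 := LinearMap.fst _ _ _ ∘ₗ LinearMap.snd _ _ _
  let pc : T F2 × T F2 × T F2 × T F2 →ₗ[F2] T F2 :=
    LinearMap.fst _ _ _ ∘ₗ LinearMap.snd _ _ _ ∘ₗ LinearMap.snd _ _ _
  let pd : T F2 × T F2 × T F2 × T F2 →ₗ[F2] T F2 :=
    LinearMap.snd _ _ _ ∘ₗ LinearMap.snd _ _ _ ∘ₗ LinearMap.snd _ _ _
  refine ⟨T F2 × T F2 × T F2 × T F2, inferInstance, inferInstance,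
    (L (yy F2) ∘ₗ pd).prod (pa.prod ((0 : _ →ₗ[F2] T F2).prod pc)),
    (L (xx F2) ∘ₗ pb).prod ((0 : _ →ₗ[F2] T F2).prod ((pa + L (xx F2) ∘ₗ pd).prod pb)),
    LinearMap.inl _ _ _, pa, ?_, fun f => rfl, fun f => ?_, fun f => ?_⟩
  · refine LinearMap.ext fun m => ?_
    simp [L, pa, pb, pd, F2_add_self]
  · simp [Ring.lie_def, L, pa, pb, pc, pd, F2_neg]
  · simp [Ring.lie_def, L, pa, pb, pc, pd, F2_neg, F2_add_self]

/-- The reduction map and its properties. -/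
structure IsRho (ρ : T F2 →ₗ[F2] T F2) (Good : Submodule F2 (T F2)) : Prop where
  one : ρ 1 = 1
  one_mem : (1 : T F2) ∈ Good
  mem : ∀ n ψ, 3 ≤ n → ψ ∈ Sol F2 n → ρ ψ ∈ Lw F2 wt23 n
  inj : ∀ n ψ, 3 ≤ n → ψ ∈ Sol F2 n → ρ ψ = 0 → ψ = 0
  act_mem : ∀ n ψ u, 3 ≤ n → ψ ∈ Sol F2 n → u ∈ Good → act ψ u ∈ Good
  act_eq : ∀ n ψ u, 3 ≤ n → ψ ∈ Sol F2 n → u ∈ Good → ρ (act ψ u) = ρ ψ * ρ u

/-- `ρ u = pr (ev mx my u (j 1))`, `Good = {u | ∀ f, ev mx my u (j f) = j (ρ u * f)}`.  For a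
solution `ψ` with `P₀` from `partII`: `ev mx my ψ (j f) = j (P₀ * f)` (`lift_apply_col`, `ev_self`),
so `ρ ψ = P₀`; `inj` by `partI`; `my` commutes with `ev mx my ψ` (`F2_commute_of_sq`,
`commute_ev`), so `ev_act_of_commute` applies. -/
theorem exists_rho : ∃ ρ Good, IsRho ρ Good := by
  obtain ⟨M, _, _, mx, my, j, pr, h2, hpr, hA, hB⟩ := exists_rep4
  let ρ : T F2 →ₗ[F2] T F2 := pr ∘ₗ LinearMap.applyₗ (j 1) ∘ₗ (ev mx my).toLinearMap
  have hρ : ∀ u, ρ u = pr (ev mx my u (j 1)) := fun u => rfl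
  let Good : Submodule F2 (T F2) :=
    { carrier := {u | ∀ f, ev mx my u (j f) = j (ρ u * f)}
      add_mem' := fun {a b} ha hb f => by
        rw [map_add, LinearMap.add_apply, ha f, hb f, map_add, add_mul, map_add]
      zero_mem' := fun f => by simp
      smul_mem' := fun c a ha f => by
        rw [map_smul, LinearMap.smul_apply, ha f, map_smul, smul_mul_assoc, map_smul] }
  have key : ∀ n ψ, 3 ≤ n → ψ ∈ Sol F2 n → ρ ψ ∈ Lw F2 wt23 n ∧ (∀ f, ev mx my ψ (j f) = j (ρ ψ * f)) ∧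
      Commute my (ev mx my ψ) ∧ (ρ ψ = 0 → ψ = 0) := by
    intro n ψ hn hψ
    obtain ⟨P, hP, h⟩ := partII hn hψ
    have h1 : ∀ f, ev mx my ψ (j f) = j (P * f) := fun f => by
      rw [h _ mx my h2]
      have := lift_apply_col (R := F2) j (g := ![⁅mx, my⁆, ⁅mx, (⁅mx, my⁆ : Module.End F2 M)⁆])
        (γ := ![xx F2, yy F2]) (fun i f => by
          fin_cases i
          · exact hA f
          · exact hB f) P f
      rw [show lift F2 ![xx F2, yy F2] P = P from ev_self P] at this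
      exact this
    have h3 : ρ ψ = P := by rw [hρ, h1, hpr, mul_one]
    refine ⟨h3 ▸ hP, h3 ▸ h1, ?_, fun h0 => partI (by omega) hψ fun A _ _ a b hb => ?_⟩
    · rw [h _ mx my h2]
      exact commute_ev (F2_commute_of_sq h2).1 (F2_commute_of_sq h2).2 P
    · rw [h A a b hb, ← h3, h0, map_zero]
  have hact : ∀ n ψ u, 3 ≤ n → ψ ∈ Sol F2 n → u ∈ Good →
      ∀ f, ev mx my (act ψ u) (j f) = j (ρ ψ * ρ u * f) := fun n ψ u hn hψ hu f => by
    rw [ev_act_of_commute (key n ψ hn hψ).2.2.1, Module.End.mul_apply, hu f, (key n ψ hn hψ).2.1, mul_assoc]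
  have heq : ∀ n ψ u, 3 ≤ n → ψ ∈ Sol F2 n → u ∈ Good → ρ (act ψ u) = ρ ψ * ρ u :=
    fun n ψ u hn hψ hu => by rw [hρ, hact n ψ u hn hψ hu, hpr, mul_one]
  have h1 : ρ 1 = 1 := by rw [hρ, map_one, Module.End.one_apply, hpr]
  refine ⟨ρ, Good, h1, fun f => ?_, fun n ψ hn hψ => (key n ψ hn hψ).1,
    fun n ψ hn hψ => (key n ψ hn hψ).2.2.2, fun n ψ u hn hψ hu f => ?_, heq⟩
  · rw [h1, map_one, Module.End.one_apply, one_mul]
  · rw [hact n ψ u hn hψ hu, heq n ψ u hn hψ hu]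

theorem IsRho.ih_eq {ρ : T F2 →ₗ[F2] T F2} {Good : Submodule F2 (T F2)} (h : IsRho ρ Good)
    {m n : ℕ} (hm : 3 ≤ m) (hn : 3 ≤ n) {ψ φ : T F2} (hψ : ψ ∈ Sol F2 m) (hφ : φ ∈ Sol F2 n) :
    ρ (ih ψ φ) = ⁅ρ ψ, ρ φ⁆ := by
  have h1 : ψ ∈ Good := act_one ψ ▸ h.act_mem m ψ 1 hm hψ h.one_mem
  have h2 : φ ∈ Good := act_one φ ▸ h.act_mem n φ 1 hn hφ h.one_mem
  rw [← act_one (ih ψ φ), ← act_lie, LinearMap.sub_apply, Module.End.mul_apply, Module.End.mul_apply,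
    act_one, act_one, map_sub, h.act_eq m ψ φ hm hψ h2, h.act_eq n φ ψ hn hφ h1, Ring.lie_def]

/-- The algebra map `e_k ↦ act (σ k)`. -/
def Eop {R : Type} [CommRing R] (σ : ℕ → T R) : FreeAlgebra R ℕ →ₐ[R] Module.End R (T R) :=
  lift R fun k => act (σ k)

/-- Induction on `v` with the statement
`∀ u ∈ Good, Eop σ v u ∈ Good ∧ ρ (Eop σ v u) = thetaN v * ρ u`. -/
theorem IsRho.Eop_eq {ρ : T F2 →ₗ[F2] T F2} {Good : Submodule F2 (T F2)} (h : IsRho ρ Good)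
    {σ : ℕ → T F2} (hσ : ∀ k, σ k ∈ Sol F2 (2 * k + 3)) (hρ : ∀ k, ρ (σ k) = adAB F2 k)
    (v : FreeAlgebra F2 ℕ) : ρ (Eop σ v 1) = thetaN F2 v := by
  have key : ∀ u ∈ Good, Eop σ v u ∈ Good ∧ ρ (Eop σ v u) = thetaN F2 v * ρ u := by
    induction v using FreeAlgebra.induction with
    | grade0 r =>
      intro u hu
      rw [AlgHom.commutes, AlgHom.commutes, Module.algebraMap_end_apply, map_smul, Algebra.smul_def r (ρ u)]
      exact ⟨Good.smul_mem r hu, rfl⟩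
    | grade1 k =>
      intro u hu
      rw [Eop, thetaN, lift_ι_apply, lift_ι_apply, ← hρ]
      exact ⟨h.act_mem _ _ u (by omega) (hσ k) hu, h.act_eq _ _ u (by omega) (hσ k) hu⟩
    | mul a b ha hb =>
      intro u hu
      rw [map_mul, map_mul, Module.End.mul_apply, mul_assoc, ← (hb u hu).2]
      exact ha _ (hb u hu).1
    | add a b ha hb =>
      intro u hu
      rw [map_add, map_add, LinearMap.add_apply, map_add, add_mul, (ha u hu).2, (hb u hu).2]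
      exact ⟨Good.add_mem (ha u hu).1 (hb u hu).1, rfl⟩
  rw [(key 1 h.one_mem).2, h.one, mul_one]

/-- On Lie polynomials `Eop σ v = act (Eop σ v 1)` (`Lw_induction`, `act_lie`, `act_one`), and the
values are solutions. -/
theorem Eop_lie {R : Type} [CommRing R]
    (hcl : ∀ m n (ψ φ : T R), ψ ∈ Sol R m → φ ∈ Sol R n → ih ψ φ ∈ Sol R (m + n))
    {σ : ℕ → T R} (hσ : ∀ k, σ k ∈ Sol R (2 * k + 3)) {n : ℕ} {v : FreeAlgebra R ℕ}
    (hv : v ∈ Lw R wtN n) : Eop σ v = act (Eop σ v 1) ∧ Eop σ v 1 ∈ Sol R n := by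
  refine Lw_induction (fun n v => Eop σ v = act (Eop σ v 1) ∧ Eop σ v 1 ∈ Sol R n) (fun k => ?_)
    (fun m n u v _ _ h1 h2 => ?_) (fun n => ?_) (fun n u v _ _ h1 h2 => ?_) (fun n c u _ h1 => ?_) hv
  · rw [Eop, lift_ι_apply, act_one]
    exact ⟨rfl, hσ k⟩
  · have e : Eop σ ⁅u, v⁆ = act (ih (Eop σ u 1) (Eop σ v 1)) := by
      rw [map_lie', Ring.lie_def, ← act_lie, ← h1.1, ← h2.1]
    rw [e, act_one]
    exact ⟨rfl, hcl _ _ _ _ h1.2 h2.2⟩
  · rw [map_zero, LinearMap.zero_apply, act_zero]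
    exact ⟨rfl, zero_mem _⟩
  · rw [map_add, LinearMap.add_apply, act_add, ← h1.1, ← h2.1]
    exact ⟨rfl, add_mem h1.2 h2.2⟩
  · rw [map_smul, LinearMap.smul_apply, act_smul, ← h1.1]
    exact ⟨rfl, Submodule.smul_mem _ c h1.2⟩

theorem bc_Eop {R S : Type} [CommRing R] [CommRing S] [Algebra R S] (σ : ℕ → T R)
    (v : FreeAlgebra R ℕ) :
    bc R S _ (Eop σ v 1) = Eop (fun k => bc R S _ (σ k)) (bc R S _ v) 1 := by
  have h := bc_intertwine (R := R) (S := S) (g := fun k => act (σ k))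
    (g' := fun k => act (bc R S _ (σ k))) (fun k u => bc_act (σ k) u) v 1
  rw [map_one (bc R S (Fin 2))] at h
  exact h

end

end Crest.Agent.R10
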