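import Crest.Agent.R10.Sys5

/-!
# R10/Special: potentials and Drinfeld's special relation
-/

set_option autoImplicit false
set_option linter.unusedVariables false

namespace Crest.Agent.R10

noncomputable section

open FreeAlgebra

variable {K : Type} [Field K] [CharZero K] {A : Type} [Ring A] [Algebra K A]

theorem sp_fifth0 : ∀ i j k l : Fin 5, ∃ m, i ≠ m ∧ j ≠ m ∧ k ≠ m ∧ l ≠ m := by
  decide

theorem sp_fifth (i j k l : Fin 5) (hk : D3 i j k) (hl : D3 i j l) (hkl : k ≠ l) :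
    ∃ m, D5 i j k l m ∧ D5 i j l k m ∧ D3 l m k ∧ D3 k m l ∧ i ≠ m ∧ j ≠ m ∧ l ≠ m ∧ m ≠ k := by
  obtain ⟨m, a1, a2, a3, a4⟩ := sp_fifth0 i j k l
  obtain ⟨b1, b2, b3⟩ := hk
  obtain ⟨-, c2, c3⟩ := hl
  refine ⟨m, ?_, ?_, ⟨a4, hkl.symm, a3.symm⟩, ⟨a3, hkl, a4.symm⟩, a1, a2, a4, a3.symm⟩
  · simp [D5, *]
  · simp [D5, hkl.symm, *]

/-- Potentials: `h i j k` is attached to the tree `{ij, lm}`.  From `exists_pot` with
`E i j k = ψ(x i j, x j k)` (`asym_ev`, `hex_ev` with `tri`, `cyc_pent`). -/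
theorem exists_pot_sol {n : ℕ} (hn : n ≠ 1) {ψ : T K} (hψ : ψ ∈ Sol K n)
    {x : Fin 5 → Fin 5 → A} (hx : IsSys5 x) :
    ∃ h : Fin 5 → Fin 5 → Fin 5 → A, (∀ i j k, D3 i j k → h i j k = h j i k) ∧
      (∀ i j k l m, D5 i j k l m → h i j k = h l m k) ∧
      (∀ i j k, D3 i j k → h j k i - h i j k = ev (x i j) (x j k) ψ) ∧
      (∀ i j k l, D3 i j k → D3 i j l → ⁅x i j, h i j k⁆ = ⁅x i j, h i j l⁆) ∧
      ∀ S : AddSubgroup A, (∀ i j k, D3 i j k → ev (x i j) (x j k) ψ ∈ S) →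
        ∀ i j k, h i j k ∈ S := by
  obtain ⟨⟨⟨hL, ha⟩, hh⟩, -⟩ := id hψ
  obtain ⟨h, h1, h2, h3, h4⟩ := exists_pot (fun i j k => ev (x i j) (x j k) ψ)
    (fun i j k _ => by
      beta_reduce
      rw [hx.symm k j, hx.symm j i, asym_ev ha])
    (fun i j k hd => by
      refine hex_ev hn hL hh ?_ ?_
      · have := hx.four hd
        rw [hx.symm k i, add_assoc, add_comm (x j k)]
        exact (Commute.refl _).add_left this.symm
      · have := hx.four (i := j) (j := k) (k := i) ⟨hd.2.2, hd.1.symm, hd.2.1.symm⟩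
        rw [hx.symm i j, add_right_comm]
        exact this.symm.add_left (Commute.refl _))
    (fun i j k l m hd => cyc_pent hn hL (Sol.lPent hn hψ) hx hd)
  refine ⟨h, h1, h2, h3, fun i j k l hk hl => ?_, h4⟩
  by_cases hkl : k = l
  · rw [hkl]
  obtain ⟨m, d1, d2, d3, d4, e1, e2, e3, e4⟩ := sp_fifth i j k l hk hl hkl
  have e : h i j l = h i j k + ev (x l m) (x m k) ψ := by
    rw [h2 i j l k m d2, h2 i j k l m d1, h1 k m l d4, ← h3 l m k d3]
    abel
  rw [e, bs_lie_add, bs_lie_of_commute (commute_ev (hx.loc i j l m hk.1 hl.2.1 e1 hl.2.2 e2 e3)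
    (hx.loc i j m k hk.1 e1 hk.2.1 e2 hk.2.2 e4) ψ), add_zero]

theorem sp_pow {ε : A} (h : ε * ε = 0) (N : ℕ) : (1 + ε) ^ N = 1 + N • ε := by
  induction N with
  | zero => simp
  | succ N ih =>
    rw [pow_succ, ih, add_mul, mul_add, mul_add, smul_mul_assoc, smul_mul_assoc, h, succ_nsmul]
    simp only [mul_one, one_mul, smul_zero, add_zero]
    abel

theorem sp_ev_mul {n : ℕ} {ψ : T K} (hψ : ψ ∈ L K n) {J a b : A} (ha : Commute J a)
    (hb : Commute J b) : ev (a * J) (b * J) ψ = ev a b ψ * J ^ n := by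
  have h := lift_mul_right (g := ![a, b]) (J := J) (fun i => by fin_cases i <;> simpa)
    (Lw_le_HomF n hψ)
  have e : (fun i => ![a, b] i * J) = ![a * J, b * J] := by
    funext i; fin_cases i <;> rfl
  rw [e] at h
  exact h

theorem sp_dual {N : ℕ} (hN : 2 ≤ N) {s : T K} (hs : s ∈ L K N)
    (hsym : ev (yy K) (xx K) s = s)
    (hcoc : ev (va K 0) (va K 1) s - ev (va K 0) (va K 1 + va K 2) s +
      ev (va K 0 + va K 1) (va K 2) s - ev (va K 1) (va K 2) s = 0)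
    {a b ε : A} (ha : Commute ε a) (hb : Commute ε b) (hε : ε * ε = 0) :
    N • (ev a b s * ε) = 0 := by
  have hN1 : N ≠ 1 := by omega
  have C : ∀ u v w : A, ev u v s - ev u (v + w) s + ev (u + v) w s - ev v w s = 0 := by
    intro u v w
    have := congrArg (lift K ![u, v, w]) hcoc
    simpa [map_ev, va] using this
  have S : ∀ u v : A, ev v u s = ev u v s := by
    intro u v
    have := congrArg (ev u v) hsym
    rwa [map_ev, ev_xx, ev_yy] at this
  have c0 : ∀ {u : A}, Commute ε u → Commute u (u * ε) := fun h =>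
    (Commute.refl _).mul_right h.symm
  have c1 : Commute (a * ε) (b * ε) := by
    have z : ∀ {u v : A}, Commute ε v → u * ε * (v * ε) = 0 := fun {u v} h => by
      rw [mul_assoc, ← mul_assoc ε, h.eq, mul_assoc, hε, mul_zero, mul_zero]
    exact (z hb).trans (z ha).symm
  have h1 := C (a + a * ε) b (b * ε)
  have h2 := C (a * ε) a b
  have h3 := C (a + b) (a * ε) (b * ε)
  rw [ev_comm (c0 hb) hN1 hs] at h1
  rw [ev_comm (c0 ha).symm hN1 hs, add_comm (a * ε) a] at h2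
  rw [ev_comm c1 hN1 hs, ← add_mul, ev_comm (c0 (ha.add_right hb)) hN1 hs, S (a * ε) (a + b),
    add_right_comm a b] at h3
  have h4 : ev (a + a * ε) (b + b * ε) s = ev a b s := by
    linear_combination (norm := abel) -h1 + h2 + h3
  rw [← mul_one_add, ← mul_one_add, sp_ev_mul hs ((Commute.one_left a).add_left ha)
    ((Commute.one_left b).add_left hb), sp_pow hε, mul_add, mul_one, mul_smul_comm] at h4
  exact add_eq_left.1 h4

/-- A symmetric Lie 2-cocycle vanishes.  In the dual numbers over `T K` (`ε = inr 1` central,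
`a = inl x`, `b = inl y`, `f u v = ev u v s`) the cocycle identity for the triples
`(a + εa, b, εb)`, `(εa, a, b)`, `(a + b, εa, εb)`, symmetry and `ev_comm` give
`f (a + εa) (b + εb) = f a b`; the left side is `f a b * (1 + ε)^N = f a b * (1 + N ε)`
(`lift_mul_right`), so `N • s = 0`. -/
theorem cocycle_vanish {N : ℕ} (hN : 2 ≤ N) {s : T K} (hs : s ∈ L K N)
    (hsym : ev (yy K) (xx K) s = s)
    (hcoc : ev (va K 0) (va K 1) s - ev (va K 0) (va K 1 + va K 2) s +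
      ev (va K 0 + va K 1) (va K 2) s - ev (va K 1) (va K 2) s = 0) : s = 0 := by
  let a : TrivSqZeroExt (T K) (T K) := TrivSqZeroExt.inl (xx K)
  let b : TrivSqZeroExt (T K) (T K) := TrivSqZeroExt.inl (yy K)
  let ε : TrivSqZeroExt (T K) (T K) := TrivSqZeroExt.inr 1
  have hc : ∀ u : T K, Commute ε (TrivSqZeroExt.inl u) := fun u => by
    unfold Commute SemiconjBy
    simp only [ε, TrivSqZeroExt.inr_mul_inl, TrivSqZeroExt.inl_mul_inr]
    simp
  have key := sp_dual hN hs hsym hcoc (a := a) (b := b) (ε := ε) (hc _) (hc _)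
    (TrivSqZeroExt.inr_mul_inr _ _ _)
  have e : ev a b s = TrivSqZeroExt.inl s := by
    have := map_ev (TrivSqZeroExt.inlAlgHom K (T K) (T K)) (xx K) (yy K) s
    rw [ev_self] at this
    exact this.symm
  rw [e] at key
  have k2 := congrArg TrivSqZeroExt.snd key
  simp only [ε, TrivSqZeroExt.inl_mul_inr, TrivSqZeroExt.snd_smul, TrivSqZeroExt.snd_inr,
    smul_eq_mul, mul_one, TrivSqZeroExt.snd_zero] at k2
  rw [← Nat.cast_smul_eq_nsmul K] at k2
  exact (smul_eq_zero.1 k2).resolve_left (Nat.cast_ne_zero.2 (by omega))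

/-- `s(B, C) = ⁅B, ψ(A, B)⁆ + ⁅C, ψ(A, C)⁆` with `A = -B - C`. -/
def spec (ψ : T K) : T K :=
  ⁅xx K, ev (-xx K - yy K) (xx K) ψ⁆ + ⁅yy K, ev (-xx K - yy K) (yy K) ψ⁆

theorem sp_ev (ψ : T K) (b c : A) :
    ev b c (spec ψ) = ⁅b, ev (-b - c) b ψ⁆ + ⁅c, ev (-b - c) c ψ⁆ := by
  simp only [spec, map_add, map_lie', map_ev, map_sub, map_neg, ev_xx, ev_yy]

theorem sp_symm (ψ : T K) (b c : A) : ev c b (spec ψ) = ev b c (spec ψ) := by
  rw [sp_ev, sp_ev, add_comm, show -c - b = -b - c by abel]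

theorem sp_rot {n : ℕ} (hn : n ≠ 1) {ψ : T K} (hL : ψ ∈ L K n) (ha : asym K ψ = 0)
    (hh : hex K ψ = 0) (b c : A) : ev b (-b - c) (spec ψ) = ev b c (spec ψ) := by
  have e : -b - (-b - c) = c := by abel
  have z : -b - c + b + c = 0 := by abel
  have h1 := hex_ev hn hL hh (a := -b - c) (b := b) (c := c) (by rw [z]; exact Commute.zero_left _)
    (by rw [z]; exact Commute.zero_left _)
  rw [sp_ev, sp_ev, e, asym_ev ha b c, asym_ev ha c (-b - c)]
  have h2 : ev b c ψ = -ev (-b - c) b ψ - ev c (-b - c) ψ := by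
    linear_combination (norm := abel) h1
  rw [h2]
  simp only [Ring.lie_def]
  noncomm_ring

theorem sp_mem {n : ℕ} {ψ : T K} (hL : ψ ∈ L K n) : spec ψ ∈ L K (1 + n) := by
  have h0 : -xx K - yy K ∈ L K 1 := sub_mem (neg_mem xx_mem) yy_mem
  refine add_mem (lie_mem_Lw xx_mem ?_) (lie_mem_Lw yy_mem ?_)
  · exact lift_mem_Lw (fun i => by fin_cases i; exacts [h0, xx_mem]) hL
  · exact lift_mem_Lw (fun i => by fin_cases i; exacts [h0, yy_mem]) hL

theorem sp_shift {n : ℕ} (hn : n ≠ 1) {ψ : T K} (hL : ψ ∈ L K n) {a b c : A}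
    (hb : Commute (a + b + c) b) (hc : Commute (a + b + c) c) :
    ev b c (spec ψ) = ⁅b, ev a b ψ⁆ + ⁅c, ev a c ψ⁆ := by
  have e : -b - c + (a + b + c) = a := by abel
  have h0 : Commute (a + b + c) (-b - c) := hb.neg_right.sub_right hc
  have h1 := ev_shift h0 hb (Commute.zero_left _) (Commute.zero_left _) (Commute.zero_right _) hn hL
  have h2 := ev_shift h0 hc (Commute.zero_left _) (Commute.zero_left _) (Commute.zero_right _) hn hL
  rw [e, add_zero] at h1 h2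
  rw [sp_ev, h1, h2]

theorem sp_d5 : ∀ i j k l m : Fin 5, D5 i j k l m → D3 i j k ∧ D3 j i k ∧ l ≠ m ∧ l ≠ j ∧ l ≠ k ∧
    m ≠ j ∧ m ≠ k ∧ l ≠ i ∧ m ≠ i := by
  intro i j k l m h
  simp only [D5, List.nodup_cons, List.mem_cons, List.not_mem_nil, or_false, not_or] at h
  obtain ⟨⟨a1, a2, a3, a4⟩, ⟨b1, b2, b3⟩, ⟨c1, c2⟩, d1, -⟩ := h
  exact ⟨⟨a1, a2, b1⟩, ⟨Ne.symm a1, b1, a2⟩, d1, Ne.symm b2, Ne.symm c1, Ne.symm b3, Ne.symm c2,
    Ne.symm a3, Ne.symm a4⟩

theorem sp_five {n : ℕ} (hn : n ≠ 1) {ψ : T K} (hψ : ψ ∈ Sol K n)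
    {x : Fin 5 → Fin 5 → A} (hx : IsSys5 x) :
    ev (x 1 3) (x 0 3) (spec ψ) + ev (x 4 3) (x 2 3) (spec ψ) =
      ev (x 4 3) (x 0 3) (spec ψ) + ev (x 2 3) (x 1 3) (spec ψ) := by
  obtain ⟨h, h1, h2, h3, h4, -⟩ := exists_pot_sol hn hψ hx
  have key : ∀ i j k l m, D5 i j k l m → ev (x j k) (x i k) (spec ψ) =
      ⁅x i j, h i j k⁆ + ⁅x j k, h j k i⁆ + ⁅x i k, h i k j⁆ - ⁅x l m, h l m k⁆ := by
    intro i j k l m hd
    obtain ⟨d1, d2, a1, a2, a3, a4, a5, a6, a7⟩ := sp_d5 i j k l m hd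
    have t := hx.tri K hd
    have e1 : h j k i = h i j k + ev (x i j) (x j k) ψ := by rw [← h3 i j k d1]; abel
    have e2 : h i k j = h i j k + ev (x i j) (x i k) ψ := by
      rw [hx.symm i j, ← h3 j i k d2, h1 i j k d1]; abel
    rw [sp_shift hn hψ.1.1.1 (a := x i j) (t ▸ hx.loc l m j k a1 a2 a3 a4 a5 d1.2.2)
      (t ▸ hx.loc l m i k a1 a6 a3 a7 a5 d1.2.1), e1, e2, ← h2 i j k l m hd, ← t]
    simp only [Ring.lie_def]
    noncomm_ring
  rw [key 0 1 3 2 4 (by decide), key 2 4 3 0 1 (by decide), key 0 4 3 1 2 (by decide),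
    key 1 2 3 0 4 (by decide), h4 1 3 0 2 (by decide) (by decide),
    h4 0 3 1 4 (by decide) (by decide), h4 4 3 2 0 (by decide) (by decide),
    h4 2 3 4 1 (by decide) (by decide)]
  abel

/-- DRINFELD's relation (5.19).  `spec ψ ∈ L (n+1)` is symmetric, and `S₃`-symmetric:
`ev a (-a-b) (spec ψ) = ev a b (spec ψ)` (from `asym_ev`, `hex_ev`).  In a five-point system put
`d i j = ⁅x i j, h i j k⁆` (independent of `k`, symmetric in `i, j`).  For `D5 i j k l m`: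
`d i j + d j k + d i k - d l m = ev (x j k) (x i k) (spec ψ)` (write `h j k i = h i j k + ψ(..)`,
`h i k j = h i j k + ψ(x i j, x i k)`, `h l m k = h i j k`, use `tri` and `ev_shift` by `x l m`).
The combination `s₀₁₃ + s₂₃₄ - s₀₃₄ - s₁₂₃` of these cancels.  For `x = sys5 (piSys K)` applied to
`1 : V K` this is the cocycle identity; `cocycle_vanish`. -/
theorem spec_eq_zero {n : ℕ} (hn : n ≠ 1) {ψ : T K} (hψ : ψ ∈ Sol K n) : spec ψ = 0 := by
  by_cases h3 : n < 3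
  · rw [Sol_eq_bot h3, Submodule.mem_bot] at hψ
    simp [hψ, spec, Ring.lie_def]
  obtain ⟨⟨⟨hL, ha⟩, hh⟩, -⟩ := id hψ
  refine cocycle_vanish (N := 1 + n) (by omega) (sp_mem hL)
    ((sp_symm ψ _ _).trans (ev_self _)) ?_
  have hx := (isSys_pi (R := K)).isSys5
  have key := sp_five hn hψ hx
  have e0 : sys5 (piSys K) 0 3 = Algebra.lmul K (V K) (va K 0) := rfl
  have e1 : sys5 (piSys K) 1 3 = Algebra.lmul K (V K) (va K 1) := rfl
  have e2 : sys5 (piSys K) 2 3 = Algebra.lmul K (V K) (va K 2) := rfl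
  have e4 : sys5 (piSys K) 4 3 = Algebra.lmul K (V K) (-(va K 0 + va K 1 + va K 2)) := by
    rw [map_neg, map_add, map_add]
    rfl
  rw [e0, e1, e2, e4, ← map_ev, ← map_ev, ← map_ev, ← map_ev, ← map_add, ← map_add] at key
  have k2 := Algebra.lmul_injective key
  have r1 : -(va K 0 + va K 1 + va K 2) = -va K 2 - (va K 0 + va K 1) := by abel
  have r2 : -(va K 0 + va K 1 + va K 2) = -va K 0 - (va K 1 + va K 2) := by abel
  have s1 : ev (-(va K 0 + va K 1 + va K 2)) (va K 2) (spec ψ) =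
      ev (va K 0 + va K 1) (va K 2) (spec ψ) := by
    rw [r1, sp_symm ψ (va K 2), sp_rot hn hL ha hh, sp_symm]
  have s2 : ev (-(va K 0 + va K 1 + va K 2)) (va K 0) (spec ψ) =
      ev (va K 0) (va K 1 + va K 2) (spec ψ) := by
    rw [r2, sp_symm ψ (va K 0), sp_rot hn hL ha hh]
  rw [s1, s2, sp_symm ψ (va K 0) (va K 1), sp_symm ψ (va K 1) (va K 2)] at k2
  linear_combination (norm := abel) k2

/-- `spec_eq_zero` and `ev_shift` by `a + b + c`. -/
theorem special {n : ℕ} (hn : n ≠ 1) {ψ : T K} (hψ : ψ ∈ Sol K n) {a b c : A}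
    (hb : Commute (a + b + c) b) (hc : Commute (a + b + c) c) :
    ⁅b, ev a b ψ⁆ + ⁅c, ev a c ψ⁆ = 0 := by
  rw [← sp_shift hn hψ.1.1.1 hb hc, spec_eq_zero hn hψ, map_zero]

end

end Crest.Agent.R10
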