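import Crest.Agent.R10.Fiber
import Crest.Agent.R10.Pot

/-!
# R10/Sys5: five-point systems; the pentagon implies antisymmetry and the three-term relation
-/

set_option autoImplicit false
set_option linter.unusedVariables false
set_option linter.unusedSectionVars false

namespace Crest.Agent.R10

noncomputable section

open FreeAlgebra

variable {K : Type} [Field K] [CharZero K] {A : Type} [Ring A] [Algebra K A]

/-- The total sum of the chords. -/
def csum {A : Type} [Ring A] (t : Fin 4 → Fin 4 → A) : A :=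
  t 0 1 + t 0 2 + t 0 3 + t 1 2 + t 1 3 + t 2 3

/-- The five-point system of a four-strand system (`t 0 1` is shifted by the centre). -/
def sys5 {A : Type} [Ring A] (t : Fin 4 → Fin 4 → A) : Fin 5 → Fin 5 → A :=
  ![![0, t 0 1 - csum t, t 0 2, t 0 3, t 1 2 + t 1 3 + t 2 3],
    ![t 0 1 - csum t, 0, t 1 2, t 1 3, t 0 2 + t 0 3 + t 2 3],
    ![t 0 2, t 1 2, 0, t 2 3, -(t 0 2 + t 1 2 + t 2 3)],
    ![t 0 3, t 1 3, t 2 3, 0, -(t 0 3 + t 1 3 + t 2 3)],
    ![t 1 2 + t 1 3 + t 2 3, t 0 2 + t 0 3 + t 2 3, -(t 0 2 + t 1 2 + t 2 3),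
      -(t 0 3 + t 1 3 + t 2 3), 0]]

theorem sys5_of {A : Type} [Ring A] {a01 a02 a03 a04 a12 a13 a14 a23 a24 a34 : A}
    (s0 : a01 + a02 + a03 + a04 = 0) (s1 : a01 + a12 + a13 + a14 = 0)
    (s2 : a02 + a12 + a23 + a24 = 0) (s3 : a03 + a13 + a23 + a34 = 0)
    (s4 : a04 + a14 + a24 + a34 = 0)
    (l1 : Commute a01 a23) (l2 : Commute a01 a24) (l3 : Commute a01 a34) (l4 : Commute a02 a13)
    (l5 : Commute a02 a14) (l6 : Commute a02 a34) (l7 : Commute a03 a12) (l8 : Commute a03 a14)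
    (l9 : Commute a03 a24) (l10 : Commute a04 a12) (l11 : Commute a04 a13) (l12 : Commute a04 a23)
    (l13 : Commute a12 a34) (l14 : Commute a13 a24) (l15 : Commute a14 a23) :
    IsSys5 (![![0, a01, a02, a03, a04], ![a01, 0, a12, a13, a14], ![a02, a12, 0, a23, a24],
      ![a03, a13, a23, 0, a34], ![a04, a14, a24, a34, 0]] : Fin 5 → Fin 5 → A) := by
  have l1' := l1.symm
  have l2' := l2.symm
  have l3' := l3.symm
  have l4' := l4.symm
  have l5' := l5.symm
  have l6' := l6.symm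
  have l7' := l7.symm
  have l8' := l8.symm
  have l9' := l9.symm
  have l10' := l10.symm
  have l11' := l11.symm
  have l12' := l12.symm
  have l13' := l13.symm
  have l14' := l14.symm
  have l15' := l15.symm
  refine ⟨fun i => ?_, fun i j => ?_, fun i => ?_, fun i j k l h1 h2 h3 h4 h5 h6 => ?_⟩
  · fin_cases i <;> rfl
  · fin_cases i <;> fin_cases j <;> rfl
  · rw [Fin.sum_univ_five]
    fin_cases i
    · exact (by rw [zero_add]; exact s0 : 0 + a01 + a02 + a03 + a04 = 0)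
    · exact (by rw [add_zero]; exact s1 : a01 + 0 + a12 + a13 + a14 = 0)
    · exact (by rw [add_zero]; exact s2 : a02 + a12 + 0 + a23 + a24 = 0)
    · exact (by rw [add_zero]; exact s3 : a03 + a13 + a23 + 0 + a34 = 0)
    · exact (by rw [add_zero]; exact s4 : a04 + a14 + a24 + a34 + 0 = 0)
  · fin_cases i <;> fin_cases j <;> first | exact absurd rfl h1 | skip
    all_goals fin_cases k <;> first | exact absurd rfl h2 | exact absurd rfl h4 | skip
    all_goals fin_cases l <;>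
      first | exact absurd rfl h3 | exact absurd rfl h5 | exact absurd rfl h6 | assumption

/-- Use `IsSys.central`, `loc`, `four`, `symm`. -/
theorem IsSys.isSys5 {A : Type} [Ring A] {t : Fin 4 → Fin 4 → A} (h : IsSys t) :
    IsSys5 (sys5 t) := by
  have hc : ∀ i j, Commute (csum t) (t i j) := h.central
  have l1 : Commute (t 0 1) (t 2 3) :=
    h.loc 0 1 2 3 (by decide) (by decide) (by decide) (by decide) (by decide) (by decide)
  have l2 : Commute (t 0 2) (t 1 3) :=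
    h.loc 0 2 1 3 (by decide) (by decide) (by decide) (by decide) (by decide) (by decide)
  have l3 : Commute (t 0 3) (t 1 2) :=
    h.loc 0 3 1 2 (by decide) (by decide) (by decide) (by decide) (by decide) (by decide)
  have f1 : Commute (t 0 1) (t 0 2 + t 1 2) := h.four 0 1 2 (by decide) (by decide) (by decide)
  have g1 : Commute (t 0 1) (t 0 3 + t 1 3) := h.four 0 1 3 (by decide) (by decide) (by decide)
  have h1 : Commute (t 0 2) (t 0 3 + t 2 3) := h.four 0 2 3 (by decide) (by decide) (by decide)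
  have h2 : Commute (t 0 3) (t 0 2 + t 2 3) :=
    h.symm 3 2 ▸ h.four 0 3 2 (by decide) (by decide) (by decide)
  have h3 : Commute (t 2 3) (t 0 2 + t 0 3) :=
    h.symm 3 0 ▸ h.symm 2 0 ▸ h.four 2 3 0 (by decide) (by decide) (by decide)
  have k1 : Commute (t 1 2) (t 1 3 + t 2 3) := h.four 1 2 3 (by decide) (by decide) (by decide)
  have k2 : Commute (t 1 3) (t 1 2 + t 2 3) :=
    h.symm 3 2 ▸ h.four 1 3 2 (by decide) (by decide) (by decide)
  have k3 : Commute (t 2 3) (t 1 2 + t 1 3) :=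
    h.symm 3 1 ▸ h.symm 2 1 ▸ h.four 2 3 1 (by decide) (by decide) (by decide)
  have e : ∀ {a b c : A}, Commute a b → b = c → Commute a c := fun h e => e ▸ h
  refine sys5_of (by unfold csum; abel) (by unfold csum; abel) (by abel) (by abel) (by abel)
    (l1.sub_left (hc _ _))
    (((f1.add_right l1).sub_left (((hc _ _).add_right (hc _ _)).add_right (hc _ _))).neg_right)
    (((g1.add_right l1).sub_left (((hc _ _).add_right (hc _ _)).add_right (hc _ _))).neg_right)
    l2 (e ((Commute.refl _).add_right h1) (by abel)) (e (h1.add_right l2) (by abel)).neg_right l3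
    (e ((Commute.refl _).add_right h2) (by abel)) (e (h2.add_right l3) (by abel)).neg_right
    (e ((Commute.refl _).add_right k1) (by abel)).symm
    (e ((Commute.refl _).add_right k2) (by abel)).symm
    (e ((Commute.refl _).add_right k3) (by abel)).symm
    (e (l3.symm.add_right k1) (by abel)).neg_right (e (l2.symm.add_right k2) (by abel)).neg_right
    (e ((Commute.refl _).add_right h3) (by abel)).symm

theorem sys5_mem (K : Type) [CommRing K] {A : Type} [Ring A] [Algebra K A]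
    (t : Fin 4 → Fin 4 → A) (i j : Fin 5) : sys5 t i j ∈ Hom K (chords t) 1 := by
  have m : ∀ i j, t i j ∈ Hom K (chords t) 1 := fun i j => mem_Hom_one ⟨i, j, rfl⟩
  have m0 : (0 : A) ∈ Hom K (chords t) 1 := zero_mem _
  have m3 : ∀ i j k l p q, t i j + t k l + t p q ∈ Hom K (chords t) 1 := fun _ _ _ _ _ _ =>
    add_mem (add_mem (m _ _) (m _ _)) (m _ _)
  have mc : t 0 1 - csum t ∈ Hom K (chords t) 1 :=
    sub_mem (m _ _) (add_mem (add_mem (add_mem (m3 _ _ _ _ _ _) (m _ _)) (m _ _)) (m _ _))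
  fin_cases i <;> fin_cases j <;>
    first | exact m0 | exact mc | exact m _ _ | exact m3 _ _ _ _ _ _ | exact neg_mem (m3 _ _ _ _ _ _)

theorem sys5_sum {M : Type} [AddCommMonoid M] {i j k l m : Fin 5} (hd : D5 i j k l m)
    (f : Fin 5 → M) : ∑ a, f a = f i + f j + f k + f l + f m := by
  have h1 : [i, j, k, l, m].toFinset = Finset.univ :=
    Finset.eq_univ_of_card _ (by rw [List.toFinset_card_of_nodup hd]; rfl)
  rw [← h1, List.sum_toFinset _ hd]
  simp [add_assoc]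

theorem sys5_ex {i j k : Fin 5} (hd : D3 i j k) : ∃ l m, D5 i j k l m := by
  revert i j k
  decide

theorem sys5_ne {i j k l m : Fin 5} (hd : D5 i j k l m) :
    (i ≠ j ∧ i ≠ k ∧ i ≠ l ∧ i ≠ m) ∧ (j ≠ k ∧ j ≠ l ∧ j ≠ m) ∧ (k ≠ l ∧ k ≠ m) ∧ l ≠ m := by
  simpa [D5] using hd

theorem sys5_D5 {i j k l m : Fin 5}
    (h : (i ≠ j ∧ i ≠ k ∧ i ≠ l ∧ i ≠ m) ∧ (j ≠ k ∧ j ≠ l ∧ j ≠ m) ∧ (k ≠ l ∧ k ≠ m) ∧ l ≠ m) :
    D5 i j k l m := by
  simpa [D5] using h

/-- `x i k + x j k = -(x k l + x k m)` by `sum`. -/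
theorem IsSys5.four {A : Type} [Ring A] {x : Fin 5 → Fin 5 → A} (h : IsSys5 x) {i j k : Fin 5}
    (hd : D3 i j k) : Commute (x i j) (x i k + x j k) := by
  obtain ⟨l, m, h5⟩ := sys5_ex hd
  obtain ⟨⟨h1, h2, h3, h4⟩, ⟨h6, h7, h8⟩, ⟨h9, h10⟩, h11⟩ := sys5_ne h5
  have hs := h.sum k
  rw [sys5_sum h5, h.diag k, h.symm k i, h.symm k j] at hs
  have e : x i k + x j k = -(x k l + x k m) := by
    rw [← sub_eq_zero, ← hs]; abel
  rw [e]
  exact ((h.loc i j k l h1 h2 h3 h6 h7 h9).add_right (h.loc i j k m h1 h2 h4 h6 h8 h10)).neg_right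

theorem IsSys5.toSys {A : Type} [Ring A] {x : Fin 5 → Fin 5 → A} (h : IsSys5 x)
    (σ : Fin 4 → Fin 5) (hσ : Function.Injective σ) : IsSys fun i j => x (σ i) (σ j) :=
  ⟨fun _ => h.diag _, fun _ _ => h.symm _ _, fun _ _ _ _ h1 h2 h3 h4 h5 h6 =>
    h.loc _ _ _ _ (hσ.ne h1) (hσ.ne h2) (hσ.ne h3) (hσ.ne h4) (hσ.ne h5) (hσ.ne h6),
    fun _ _ _ h1 h2 h3 => h.four ⟨hσ.ne h1, hσ.ne h2, hσ.ne h3⟩⟩

theorem sys5_half (K : Type) [Field K] [CharZero K] {A : Type} [AddCommGroup A] [Module K A] {y : A}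
    (h : y + y = 0) : y = 0 := by
  have h2 : (2 : K) • y = 0 := by rw [two_smul, h]
  exact (smul_eq_zero.1 h2).resolve_left two_ne_zero

/-- `2 (x i j + x j k + x i k - x l m) = sum i + sum j + sum k - sum l - sum m`. -/
theorem IsSys5.tri (K : Type) [Field K] [CharZero K] {A : Type} [Ring A] [Algebra K A]
    {x : Fin 5 → Fin 5 → A} (h : IsSys5 x) {i j k l m : Fin 5} (hd : D5 i j k l m) :
    x i j + x j k + x i k = x l m := by
  have s1 := h.sum i
  have s2 := h.sum j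
  have s3 := h.sum k
  have s4 := h.sum l
  have s5 := h.sum m
  rw [sys5_sum hd, h.diag] at s1 s2 s3 s4 s5
  rw [h.symm j i] at s2
  rw [h.symm k i, h.symm k j] at s3
  rw [h.symm l i, h.symm l j, h.symm l k] at s4
  rw [h.symm m i, h.symm m j, h.symm m k, h.symm m l] at s5
  rw [← sub_eq_zero]
  refine sys5_half K ?_
  have : x i j + x j k + x i k - x l m + (x i j + x j k + x i k - x l m) =
      (0 + x i j + x i k + x i l + x i m) + (x i j + 0 + x j k + x j l + x j m) +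
      (x i k + x j k + 0 + x k l + x k m) - (x i l + x j l + x k l + 0 + x l m) -
      (x i m + x j m + x k m + x l m + 0) := by abel
  rw [this, s1, s2, s3, s4, s5]
  simp

/-- The system `t01 = t23 = x`, `t12 = t03 = y`, `t02 = t13 = -x - y` in `T K`; three terms vanish by
`ev_comm`. -/
theorem asym_of_lPent {R : Type} [CommRing R] {n : ℕ} (hn : n ≠ 1) {ψ : T R} (hψ : ψ ∈ L R n)
    (h : LPent ψ) : asym R ψ = 0 := by
  have c : ∀ {a b : T R}, b = a ∨ b = -a → Commute a b := by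
    rintro a b (rfl | rfl)
    · exact Commute.refl _
    · exact (Commute.refl _).neg_right
  have hs := fib_isSys_of (p := xx R) (q := -xx R - yy R) (r := yy R) (u := yy R)
    (v := -xx R - yy R) (w := xx R) (c (.inl rfl)) (c (.inl rfl)) (c (.inl rfl))
    (c (.inr (by abel))) (c (.inr (by abel))) (c (.inr (by abel))) (c (.inr (by abel)))
    (c (.inr (by abel))) (c (.inr (by abel))) (c (.inr (by abel))) (c (.inr (by abel)))
    (c (.inr (by abel))) (c (.inr (by abel))) (c (.inr (by abel))) (c (.inr (by abel)))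
  have h1 : ev (xx R) (yy R + (-xx R - yy R)) ψ + ev (-xx R - yy R + yy R) (xx R) ψ -
      ev (yy R) (xx R) ψ - ev (xx R + (-xx R - yy R)) (-xx R - yy R + xx R) ψ -
      ev (xx R) (yy R) ψ = 0 := h _ _ hs
  rw [ev_comm (c (.inr (by abel))) hn hψ, ev_comm (c (.inr (by abel))).symm hn hψ,
    ev_comm (a := xx R + (-xx R - yy R)) (c (.inl (by abel))) hn hψ, ev_self] at h1
  change ψ + ev (yy R) (xx R) ψ = 0
  rw [← neg_eq_zero, ← h1]
  abel

/-- Cyclic form of the pentagon.  Apply `LPent` to `toSys ![i,j,k,l]`; by `tri` and `ev_shift`: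
`ψ(x i j, x j k + x j l) = ψ(x i j, x i m)` (shift by `x k l`),
`ψ(x i k + x j k, x k l) = ψ(x l m, x k l)` (shift by `x i j`),
`ψ(x i j + x i k, x j l + x k l) = ψ(x l m, x i m)` (shift both by `x j k`); then `asym_ev`. -/
theorem cyc_pent {n : ℕ} (hn : n ≠ 1) {ψ : T K} (hψ : ψ ∈ L K n) (h : LPent ψ)
    {x : Fin 5 → Fin 5 → A} (hx : IsSys5 x) {i j k l m : Fin 5} (hd : D5 i j k l m) :
    ev (x i j) (x j k) ψ + ev (x j k) (x k l) ψ + ev (x k l) (x l m) ψ + ev (x l m) (x m i) ψ +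
      ev (x m i) (x i j) ψ = 0 := by
  obtain ⟨⟨h1, h2, h3, h4⟩, ⟨h6, h7, h8⟩, ⟨h9, h10⟩, h11⟩ := sys5_ne hd
  have ha := asym_of_lPent hn hψ h
  have hσ : Function.Injective ![i, j, k, l] := by
    intro a b hab
    fin_cases a <;> fin_cases b <;> simp_all [eq_comm]
  have h0 : ev (x i j) (x j k + x j l) ψ + ev (x i k + x j k) (x k l) ψ - ev (x j k) (x k l) ψ -
      ev (x i j + x i k) (x j l + x k l) ψ - ev (x i j) (x j k) ψ = 0 := h _ _ (hx.toSys _ hσ)
  have t1 := hx.tri K hd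
  have t2 := hx.tri K (sys5_D5 (i := j) (j := k) (k := l) (l := i) (m := m)
    ⟨⟨h6, h7, h1.symm, h8⟩, ⟨h9, h2.symm, h10⟩, ⟨h3.symm, h11⟩, h4⟩)
  have c1 : Commute (x k l) (x i j) := hx.loc _ _ _ _ h9 h2.symm h6.symm h3.symm h7.symm h1
  have c2 : Commute (x k l) (x i m) := hx.loc _ _ _ _ h9 h2.symm h10 h3.symm h11 h4
  have c3 : Commute (x i j) (x l m) := hx.loc _ _ _ _ h1 h3 h4 h7 h8 h11
  have c4 : Commute (x j k) (x l m) := hx.loc _ _ _ _ h6 h7 h8 h9 h10 h11
  have c5 : Commute (x j k) (x i m) := hx.loc _ _ _ _ h6 h1.symm h8 h2.symm h10 h4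
  have e1 : ev (x i j) (x j k + x j l) ψ = ev (x i j) (x i m) ψ := by
    rw [← ev_shift (a := x i j) (b := x i m) (z := 0) (w := -x k l) (Commute.zero_left _)
      (Commute.zero_left _) c1.neg_left c2.neg_left (Commute.zero_left _) hn hψ, add_zero, ← t2]
    congr 2
    abel
  have e2 : ev (x i k + x j k) (x k l) ψ = ev (x l m) (x k l) ψ := by
    rw [← ev_shift (a := x l m) (b := x k l) (z := -x i j) (w := 0) c3.neg_left c1.symm.neg_left
      (Commute.zero_left _) (Commute.zero_left _) (Commute.zero_right _) hn hψ, add_zero, ← t1]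
    congr 2
    abel
  have e3 : ev (x i j + x i k) (x j l + x k l) ψ = ev (x l m) (x i m) ψ := by
    rw [← ev_shift (a := x l m) (b := x i m) (z := -x j k) (w := -x j k) c4.neg_left c5.neg_left
      c4.neg_left c5.neg_left (Commute.refl _) hn hψ, ← t1, ← t2]
    congr 2 <;> abel
  rw [e1, e2, e3, asym_ev ha (x i m) (x i j), asym_ev ha (x k l) (x l m)] at h0
  rw [hx.symm m i, ← neg_eq_zero, ← h0]
  abel

omit [CharZero K] in
theorem sys5_ev_hex (a b : A) (ψ : T K) :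
    ev a b (hex K ψ) = ev a b ψ + ev b (-a - b) ψ + ev (-a - b) a ψ := by
  simp only [hex, LinearMap.add_apply, LinearMap.id_apply, AlgHom.toLinearMap_apply, map_add,
    map_ev, map_sub, map_neg, ev_xx, ev_yy]

theorem sys5_ev_hex' {n : ℕ} (hn : n ≠ 1) {ψ : T K} (hψ : ψ ∈ L K n) {a b c z : A}
    (hz : a + b + c = z) (ha : Commute z a) (hb : Commute z b) :
    ev a b ψ + ev b c ψ + ev c a ψ = ev a b (hex K ψ) := by
  have hc : c = -a - b + z := by rw [← hz]; abel
  have hab : Commute z (-a - b) := ha.neg_right.sub_right hb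
  rw [sys5_ev_hex, hc,
    ← ev_shift (a := b) (b := -a - b) (z := 0) (w := z) (Commute.zero_left _) (Commute.zero_left _)
      hb hab (Commute.zero_left _) hn hψ,
    ← ev_shift (a := -a - b) (b := a) (z := z) (w := 0) hab ha (Commute.zero_left _)
      (Commute.zero_left _) (Commute.zero_right _) hn hψ, add_zero, add_zero]

theorem sys5_hex_swap {ψ : T K} (h : asym K ψ = 0) (a b : A) :
    ev b a (hex K ψ) = -ev a b (hex K ψ) := by
  rw [sys5_ev_hex, sys5_ev_hex, asym_ev h a b, show -b - a = -a - b by abel, asym_ev h (-a - b) a,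
    asym_ev h b (-a - b)]
  abel

theorem sys5_hex_neg {ψ : T K} (h : asym K ψ = 0) (a b : A) :
    ev a (-a - b) (hex K ψ) = -ev a b (hex K ψ) := by
  rw [sys5_ev_hex, sys5_ev_hex, show -a - (-a - b) = b by abel, asym_ev h a b,
    asym_ev h (-a - b) a, asym_ev h b (-a - b)]
  abel

theorem sys5_hex_add {n : ℕ} (hn : n ≠ 1) {ψ : T K} (hψ : ψ ∈ L K n) (h : LPent ψ) (a b c : A) :
    ev a (b + c) (hex K ψ) = ev a b (hex K ψ) + ev a c (hex K ψ) := by
  have ha := asym_of_lPent hn hψ h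
  have hx := (isSys_pi (R := K)).isSys5
  set x := sys5 (piSys K) with hxdef
  have h1 := tri_rel (fun i j k => ev (x i j) (x j k) ψ)
    (fun i j k _ => by rw [asym_ev ha, hx.symm k j, hx.symm j i])
    (fun i j k l m hd => cyc_pent hn hψ h hx hd)
  have tri : ∀ j l m, D5 0 3 j l m → ev (x 0 3) (x 3 j) ψ + ev (x 3 j) (x j 0) ψ +
      ev (x j 0) (x 0 3) ψ = ev (x 0 3) (x 3 j) (hex K ψ) := by
    intro j l m hd
    obtain ⟨⟨h1, h2, h3, h4⟩, ⟨h6, h7, h8⟩, ⟨h9, h10⟩, h11⟩ := sys5_ne hd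
    refine sys5_ev_hex' hn hψ (z := x l m) (by rw [hx.symm j 0]; exact hx.tri K hd) ?_ ?_
    · exact (hx.loc _ _ _ _ h1 h3 h4 h7 h8 h11).symm
    · exact (hx.loc _ _ _ _ h6 h7 h8 h9 h10 h11).symm
  rw [tri 1 2 4 (by decide), tri 2 1 4 (by decide), tri 4 1 2 (by decide), two_zsmul] at h1
  have h2 := sys5_half K h1
  have e0 : x 0 3 = Algebra.lmul K (V K) (va K 0) := rfl
  have e1 : x 3 1 = Algebra.lmul K (V K) (va K 1) := rfl
  have e2 : x 3 2 = Algebra.lmul K (V K) (va K 2) := rfl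
  have e4 : x 3 4 = Algebra.lmul K (V K) (-va K 0 - (va K 1 + va K 2)) := by
    rw [map_sub, map_neg, map_add]
    change -(Algebra.lmul K (V K) (va K 0) + Algebra.lmul K (V K) (va K 1) +
      Algebra.lmul K (V K) (va K 2)) = _
    abel
  rw [e0, e1, e2, e4, ← map_ev, ← map_ev, ← map_ev, ← map_add, ← map_add,
    sys5_hex_neg ha] at h2
  have h3 := Algebra.lmul_injective (h2.trans (map_zero _).symm)
  have h4 := congrArg (lift K ![a, b, c]) h3
  simp only [map_add, map_neg, map_ev, map_zero, va, lift_ι_apply] at h4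
  exact (add_neg_eq_zero.1 h4).symm

/-- FURUSHO's lemma.  Let `ρ = hex K ψ`; `ev a b ρ = ψ(a,b) + ψ(b,c) + ψ(c,a)` whenever
`a + b + c` commutes with `a, b` (`ev_shift`), and `ev a (-a-b) ρ = - ev a b ρ`,
`ev b a ρ = - ev a b ρ` (`asym_ev`).  `tri_rel` for `E i j k = ψ(x i j, x j k)`,
`x = sys5 (piSys K)` (where `x i 3 = mulLeft (va i)`, `x 3 4 = -mulLeft (va 0 + va 1 + va 2)`),
applied to `1 : V K` (`map_ev` along `Algebra.lmul`), gives
`ρ(a0,a1) + ρ(a0,a2) = ρ(a0,a1+a2)` in `V K`.  Substituting `a0 ↦ x`, `a1, a2 ↦ y`: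
`ρ(x, 2y) = 2 ρ`; by antisymmetry `ρ(2x, y) = 2 ρ`; so `2^n ρ = ρ(2x,2y) = 4 ρ` (`lift_smul`,
`hex_mem_HomF`), and `ρ = 0` as `n ≥ 3`. -/
theorem hex_of_lPent {n : ℕ} (hn : 3 ≤ n) {ψ : T K} (hψ : ψ ∈ L K n) (h : LPent ψ) :
    hex K ψ = 0 := by
  have hn1 : n ≠ 1 := by omega
  have ha := asym_of_lPent hn1 hψ h
  have h1 := lift_smul (g := ![xx K, yy K]) (2 : K) (hex_mem_HomF (Lw_le_HomF n hψ))
  have h2 : (fun i => (2 : K) • ![xx K, yy K] i) = ![xx K + xx K, yy K + yy K] := by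
    funext i
    fin_cases i <;> simp [two_smul]
  rw [h2] at h1
  change ev (xx K + xx K) (yy K + yy K) (hex K ψ) = _ • ev (xx K) (yy K) (hex K ψ) at h1
  rw [sys5_hex_add hn1 hψ h, sys5_hex_swap ha, sys5_hex_add hn1 hψ h, sys5_hex_swap ha (xx K) (yy K),
    ev_self] at h1
  have h3 : ((2 : K) ^ n - 4) • hex K ψ = 0 := by
    rw [sub_smul, ← h1, show (4 : K) = 1 + 1 + 1 + 1 by norm_num, add_smul, add_smul, add_smul,
      one_smul]
    abel
  refine (smul_eq_zero.1 h3).resolve_left fun h4 => ?_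
  have h5 : ((2 ^ n : ℕ) : K) = ((4 : ℕ) : K) := by
    push_cast
    exact sub_eq_zero.1 h4
  have h6 : 2 ^ 3 ≤ 2 ^ n := Nat.pow_le_pow_right (by norm_num) hn
  have := Nat.cast_injective h5
  omega

theorem mem_Sol_of_lPent {n : ℕ} (hn : 3 ≤ n) {ψ : T K} (hψ : ψ ∈ L K n) (h : LPent ψ) :
    ψ ∈ Sol K n :=
  ⟨⟨⟨hψ, asym_of_lPent (by omega) hψ h⟩, hex_of_lPent hn hψ h⟩, h.pentV_eq⟩

end

end Crest.Agent.R10
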